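import Vale.Agent.P232.Core

/-!
# P232 / Basic

Elementary facts on `μ1`, `ramp`, `top`, `bot`.
`lim_ends`: pick `t0 n → 0+` and `t1 n → 1-` inside the full-measure set `Z` (every interval
`(0, 1/(n+2))` meets `Z`); antitonicity gives `h (t0 n) → top h`, `h (t1 n) → bot h`.
-/

open MeasureTheory Set

namespace Vale.Agent.P232

theorem ae_μ1_mem : ∀ᵐ t ∂μ1, t ∈ Ioo (0 : ℝ) 1 := by
  exact ae_restrict_mem measurableSet_Ioo

theorem integral_μ1 (g : ℝ → ℝ) : ∫ t, g t ∂μ1 = ∫ t in (0 : ℝ)..1, g t := by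
  rw [intervalIntegral.integral_of_le zero_le_one, integral_Ioc_eq_integral_Ioo, μ1]

theorem integrable_of_bdd {α : Type} [MeasurableSpace α] (ν : Measure α) [IsFiniteMeasure ν]
    {g : α → ℝ} (hg : Measurable g) (C : ℝ) (hC : ∀ x, |g x| ≤ C) : Integrable g ν := by
  exact Integrable.of_bound hg.aestronglyMeasurable C (Filter.Eventually.of_forall hC)

theorem measurable_ind {α : Type} [MeasurableSpace α] {E : Set α} (hE : MeasurableSet E) :
    Measurable (ind E) := by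
  exact measurable_const.indicator hE

theorem ind_mem {α : Type} (E : Set α) (x : α) : 0 ≤ ind E x ∧ ind E x ≤ 1 := by
  by_cases h : x ∈ E <;> simp [ind, h]

theorem integral_ind {α : Type} [MeasurableSpace α] (ν : Measure α) {E : Set α}
    (hE : MeasurableSet E) : ∫ x, ind E x ∂ν = ν.real E := by
  simp [ind, integral_indicator hE]

theorem μ1_real_Iio (m : ℝ) (h0 : 0 ≤ m) (h1 : m ≤ 1) : μ1.real {t | t < m} = m := by
  have e : {t | t < m} ∩ Ioo (0 : ℝ) 1 = Ioo 0 m := by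
    ext t
    exact ⟨fun h => ⟨h.2.1, h.1⟩, fun h => ⟨h.2, h.1, h.2.trans_le h1⟩⟩
  rw [μ1, measureReal_restrict_apply' measurableSet_Ioo, e, Real.volume_real_Ioo_of_le h0, sub_zero]

theorem Adm1.ftc {u u1 : ℝ → ℝ} (h : Adm1 u u1) (a b : ℝ) :
    ∫ t in a..b, u1 t = u b - u a := by
  obtain ⟨-, hm, ⟨C, hC⟩, hd⟩ := h
  refine intervalIntegral.integral_eq_sub_of_hasDerivAt (fun x _ => hd x) ?_
  exact (intervalIntegrable_const (c := C)).mono_fun' hm.aestronglyMeasurable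
    (Filter.Eventually.of_forall fun x => (hC x).2)

theorem ramp'_cont : Continuous ramp' := by
  unfold ramp'
  fun_prop

theorem ramp'_mem (s : ℝ) : 0 ≤ ramp' s ∧ ramp' s ≤ 3 / 2 := by
  exact ⟨le_max_left _ _, max_le (by norm_num) (by nlinarith [sq_nonneg (s - 1 / 2)])⟩

theorem ramp'_zero {s : ℝ} (h : s ≤ 0 ∨ 1 ≤ s) : ramp' s = 0 := by
  refine max_eq_left ?_
  rcases h with h | h <;> nlinarith

theorem hasDerivAt_ramp (s : ℝ) : HasDerivAt ramp (ramp' s) s := by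
  exact (ramp'_cont.integral_hasStrictDerivAt 0 s).hasDerivAt

theorem ramp_cont : Continuous ramp := by
  exact continuous_iff_continuousAt.2 fun s => (hasDerivAt_ramp s).continuousAt

theorem ramp_mono : Monotone ramp := by
  exact monotone_of_hasDerivAt_nonneg hasDerivAt_ramp fun s => (ramp'_mem s).1

theorem ramp_of_nonpos {s : ℝ} (h : s ≤ 0) : ramp s = 0 := by
  rw [ramp, intervalIntegral.integral_congr (g := fun _ => 0) fun r hr => ramp'_zero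
    (.inl (hr.2.trans (max_le le_rfl h))), intervalIntegral.integral_zero]

theorem ramp_of_one_le {s : ℝ} (h : 1 ≤ s) : ramp s = 1 := by
  have h1 : ∫ r in (0 : ℝ)..1, ramp' r = 1 := by
    rw [intervalIntegral.integral_eq_sub_of_hasDerivAt (f := fun r => 3 * r ^ 2 - 2 * r ^ 3)
      (fun r hr => ?_) (ramp'_cont.intervalIntegrable _ _)]
    · norm_num
    · rw [uIcc_of_le zero_le_one] at hr
      rw [ramp', max_eq_right (by nlinarith [hr.1, hr.2])]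
      refine (((hasDerivAt_pow 2 r).const_mul 3).fun_sub
        ((hasDerivAt_pow 3 r).const_mul 2)).congr_deriv ?_
      push_cast
      ring
  rw [ramp, ← intervalIntegral.integral_add_adjacent_intervals (b := 1)
    (ramp'_cont.intervalIntegrable _ _) (ramp'_cont.intervalIntegrable _ _), h1,
    intervalIntegral.integral_congr (g := fun _ => 0) fun r hr => ramp'_zero
    (.inr ((le_min le_rfl h).trans hr.1)), intervalIntegral.integral_zero, add_zero]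

theorem ramp_mem (s : ℝ) : 0 ≤ ramp s ∧ ramp s ≤ 1 := by
  exact ⟨(ramp_of_nonpos (min_le_left 0 s)).ge.trans (ramp_mono (min_le_right 0 s)),
    (ramp_mono (le_max_right 1 s)).trans (ramp_of_one_le (le_max_left 1 s)).le⟩

theorem le_top_of_bdd {h : ℝ → ℝ} (hb : ∀ t, 0 ≤ h t ∧ h t ≤ 1) {t : ℝ}
    (ht : t ∈ Ioo (0 : ℝ) 1) : bot h ≤ h t ∧ h t ≤ top h := by
  exact ⟨csInf_le ⟨0, by rintro _ ⟨s, -, rfl⟩; exact (hb s).1⟩ ⟨t, ht, rfl⟩,
    le_csSup ⟨1, by rintro _ ⟨s, -, rfl⟩; exact (hb s).2⟩ ⟨t, ht, rfl⟩⟩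

theorem bot_top_mem {h : ℝ → ℝ} (hb : ∀ t, 0 ≤ h t ∧ h t ≤ 1) :
    0 ≤ bot h ∧ bot h ≤ top h ∧ top h ≤ 1 := by
  have h1 : (1 / 2 : ℝ) ∈ Ioo (0 : ℝ) 1 := by norm_num
  exact ⟨le_csInf ⟨_, _, h1, rfl⟩ (by rintro _ ⟨s, -, rfl⟩; exact (hb s).1),
    (le_top_of_bdd hb h1).1.trans (le_top_of_bdd hb h1).2,
    csSup_le ⟨_, _, h1, rfl⟩ (by rintro _ ⟨s, -, rfl⟩; exact (hb s).2)⟩

theorem Lev.integrable {h : ℝ → ℝ} (hh : Lev h) : Integrable h μ1 := by
  exact integrable_of_bdd μ1 hh.1 1 fun t => abs_le.2 ⟨by linarith [(hh.2.2 t).1], (hh.2.2 t).2⟩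

theorem Lev.integral_mem {h : ℝ → ℝ} (hh : Lev h) :
    bot h ≤ ∫ t, h t ∂μ1 ∧ ∫ t, h t ∂μ1 ≤ top h := by
  constructor
  · simpa using integral_mono_ae (integrable_const (bot h)) hh.integrable
      (ae_μ1_mem.mono fun t ht => (le_top_of_bdd hh.2.2 ht).1)
  · simpa using integral_mono_ae hh.integrable (integrable_const (top h))
      (ae_μ1_mem.mono fun t ht => (le_top_of_bdd hh.2.2 ht).2)

theorem lim_ends {h : ℝ → ℝ} (hh : Lev h) {Z : Set ℝ} (hZ : ∀ᵐ t ∂μ1, t ∈ Z)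
    {G : ℝ × ℝ → ℝ} (hG : Continuous G) {c : ℝ}
    (hc : ∀ t0 ∈ Z, ∀ t1 ∈ Z, 0 < t0 → t0 ≤ t1 → t1 < 1 → G (h t0, h t1) ≤ c) :
    G (top h, bot h) ≤ c := by
  have hm : ∀ a b : ℝ, 0 ≤ a → a < b → b ≤ 1 → ∃ t, t ∈ Ioo a b ∧ t ∈ Z := fun a b h0 hab h1 =>
    Measure.exists_mem_of_measure_ne_zero_of_ae (μ := volume) (by simpa using hab)
      (ae_restrict_of_ae_restrict_of_subset (Ioo_subset_Ioo h0 h1) hZ)
  have hn : (h '' Ioo (0 : ℝ) 1).Nonempty := ⟨_, 1 / 2, by norm_num, rfl⟩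
  refine (isClosed_le hG continuous_const).closure_subset_iff.2 Subset.rfl
    (Metric.mem_closure_iff.2 fun ε hε => ?_)
  obtain ⟨_, ⟨a, ha, rfl⟩, a1⟩ := exists_lt_of_lt_csSup hn (sub_lt_self (top h) hε)
  obtain ⟨_, ⟨b, hb, rfl⟩, b1⟩ := exists_lt_of_csInf_lt hn (lt_add_of_pos_right (bot h) hε)
  obtain ⟨t0, ⟨p1, p2⟩, p3⟩ := hm 0 (min a b) le_rfl (lt_min ha.1 hb.1)
    ((min_le_left _ _).trans ha.2.le)
  obtain ⟨t1, ⟨q1, q2⟩, q3⟩ := hm (max a b) 1 (ha.1.le.trans (le_max_left _ _))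
    (max_lt ha.2 hb.2) le_rfl
  have r1 := (lt_min_iff.1 p2).1
  have r2 := max_lt_iff.1 q1
  have m0 : t0 ∈ Ioo (0 : ℝ) 1 := ⟨p1, r1.trans ha.2⟩
  have m1 : t1 ∈ Ioo (0 : ℝ) 1 := ⟨ha.1.trans r2.1, q2⟩
  refine ⟨(h t0, h t1), hc t0 p3 t1 q3 p1 (r1.trans r2.1).le q2, ?_⟩
  rw [Prod.dist_eq, max_lt_iff, Real.dist_eq, Real.dist_eq, abs_lt, abs_lt]
  have := hh.2.1 m0 ha r1.le
  have := hh.2.1 hb m1 r2.2.le
  have := (le_top_of_bdd hh.2.2 m0).2
  have := (le_top_of_bdd hh.2.2 m1).1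
  exact ⟨⟨by linarith, by linarith⟩, by linarith, by linarith⟩

end Vale.Agent.P232
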