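import Vale.Agent.P232.Core2
import Vale.Agent.P232.Basic

/-!
# P232 / AbsRig

First-order optimality of a level calibration determines the distribution of the levels.
`rig_phi`: for small `ε` (either sign) `β = β0 + ε φ` has values in `[0,1]` (on `[s1,s2]` the function
`β0` is in `[δ, 1-δ]` by compactness, elsewhere `φ = 0`), and on `[s1,s2]`
`√(1-β²) ≥ √(1-β0²) - ε φ β0/√(1-β0²) - C ε²`. Compare with the equality hypothesis, divide by `|ε|`.
`rig_meas`: apply `rig_phi` to `φ = ψ n / γ` (extended by zero), `ψ n s = cl (n (s - s1)) - cl (n (s - s2))`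
with `cl x = max 0 (min 1 x)`, which tends pointwise to the indicator of `(s1, s2]`; dominated
convergence on both sides.
`dist_det`: `μ1 {s < h} = G s + τ` with `τ = μ1 {a ≤ h}` (let `s2 → a`), layer cake
(`Integrable.integral_eq_integral_meas_lt`) gives `τ a = 0`.
`lev_of_dist`: if `s < h t` then `(0,t] ⊆ {s < h}` so `t ≤ G s`; if `h t ≤ s` then `{s < h} ∩ (0,1) ⊆ (0,t)`.
-/

open MeasureTheory Set

namespace Vale.Agent.P232

theorem zero_AbsRig {x C δ : ℝ} (hδ : 0 < δ) (h : ∀ ε, |ε| ≤ δ → ε * x ≤ ε ^ 2 * C) : x = 0 := by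
  have m : IsLocalMin (fun ε : ℝ => ε ^ 2 * C - ε * x) 0 := by
    filter_upwards [Icc_mem_nhds (neg_lt_zero.2 hδ) hδ] with ε hε
    simpa using h ε (abs_le.2 hε)
  simpa using m.hasDerivAt_eq_zero
    (((hasDerivAt_pow 2 (0 : ℝ)).mul_const C).sub ((hasDerivAt_id (0 : ℝ)).mul_const x))

theorem pt_AbsRig {b x : ℝ} (hb : 0 < b ∧ b < 1) (hx : 0 ≤ b + x ∧ b + x ≤ 1) :
    -(x * b / √(1 - b ^ 2)) - 3 * x ^ 2 / √(1 - b ^ 2) ^ 3 ≤
      √(1 - (b + x) ^ 2) - √(1 - b ^ 2) := by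
  have h1 : 0 < 1 - b ^ 2 := by nlinarith [hb.1, hb.2]
  have h2 := Real.sq_sqrt h1.le
  have h3 := Real.sq_sqrt (show 0 ≤ 1 - (b + x) ^ 2 by nlinarith [hx.1, hx.2])
  have h4 := Real.sqrt_pos.2 h1
  have h5 := Real.sqrt_nonneg (1 - (b + x) ^ 2)
  generalize √(1 - b ^ 2) = r at *
  generalize √(1 - (b + x) ^ 2) = w at *
  have a1 : ((w - r) * (w + r)) ^ 2 = x ^ 2 * (2 * b + x) ^ 2 := by
    rw [← mul_pow, show (w - r) * (w + r) = -(x * (2 * b + x)) by linarith, neg_sq]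
  have a2 : (w - r) ^ 2 * r ^ 2 ≤ x ^ 2 * 2 ^ 2 := by
    refine (mul_le_mul_of_nonneg_left (pow_le_pow_left₀ h4.le (by linarith : r ≤ w + r) 2)
      (sq_nonneg _)).trans ?_
    rw [← mul_pow, a1]
    exact mul_le_mul_of_nonneg_left (pow_le_pow_left₀ (by linarith [hb.1, hx.1])
      (by linarith [hb.2, hx.2]) 2) (sq_nonneg _)
  have a3 : x ^ 2 * r ^ 2 ≤ x ^ 2 := mul_le_of_le_one_right (sq_nonneg _) (by nlinarith)
  have a4 : r ^ 2 * (w ^ 2 - r ^ 2) = r ^ 2 * (-(2 * b * x) - x ^ 2) := by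
    rw [h3]
    nth_rewrite 2 [h2]
    ring
  refine le_of_mul_le_mul_right ?_ (pow_pos h4 3)
  have a5 : (-(x * b / r) - 3 * x ^ 2 / r ^ 3) * r ^ 3 = -(x * b * r ^ 2) - 3 * x ^ 2 := by
    field_simp
  rw [a5]
  nlinarith [sq_nonneg x]

theorem int_AbsRig {P : ℝ} {h p g : ℝ → ℝ} (hd : DirData 1 1 P h p) (hg : Continuous g) :
    Integrable (fun t => g (h t) * p t) μ1 := by
  obtain ⟨C, hC⟩ := (isCompact_Icc (a := (0 : ℝ)) (b := 1)).exists_bound_of_continuousOn
    hg.continuousOn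
  exact hd.2.1.bdd_mul (hg.measurable.comp hd.1.1).aestronglyMeasurable
    (ae_of_all _ fun t => hC _ (hd.1.2.2 t))

noncomputable def ψ_AbsRig (a b c : ℝ) (n : ℕ) (s : ℝ) : ℝ :=
  max 0 (min 1 ((n + 1) * ((s - a) / c))) - max 0 (min 1 ((n + 1) * ((s - b) / c)))

theorem ψ0_AbsRig {a b c s : ℝ} (hab : a ≤ b) (hc : 0 < c) (n : ℕ) (hs : s ∉ Icc a (b + c)) :
    ψ_AbsRig a b c n s = 0 := by
  have hn : (0 : ℝ) ≤ n := n.cast_nonneg
  unfold ψ_AbsRig
  rcases lt_or_ge s a with h | h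
  · have : ∀ y, y ≤ 0 → max 0 (min 1 ((n + 1) * (y / c))) = 0 := fun y hy =>
      max_eq_left ((min_le_right _ _).trans
        (mul_nonpos_of_nonneg_of_nonpos (by linarith) (div_nonpos_of_nonpos_of_nonneg hy hc.le)))
    rw [this _ (by linarith), this _ (by linarith), sub_zero]
  · have h' : b + c < s := not_le.1 fun x => hs ⟨h, x⟩
    have : ∀ y, c ≤ y → min 1 ((n + 1) * (y / c)) = 1 := fun y hy =>
      min_eq_left (one_le_mul_of_one_le_of_one_le (by linarith) ((one_le_div hc).2 hy))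
    rw [this _ (by linarith), this _ (by linarith), sub_self]

theorem cl_AbsRig (y : ℝ) : Filter.Tendsto (fun n : ℕ => max 0 (min 1 (((n : ℝ) + 1) * y)))
    Filter.atTop (nhds (if 0 < y then 1 else 0)) := by
  split_ifs with hy
  · refine tendsto_const_nhds.congr' ?_
    filter_upwards [((Filter.tendsto_atTop_add_const_right _ 1
      tendsto_natCast_atTop_atTop).atTop_mul_const hy).eventually_ge_atTop 1] with n hn
    rw [min_eq_left hn, max_eq_right zero_le_one]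
  · refine tendsto_const_nhds.congr fun n => (max_eq_left ((min_le_right _ _).trans
      (mul_nonpos_of_nonneg_of_nonpos (by positivity) (not_lt.1 hy)))).symm

theorem dct_AbsRig {α : Type} [MeasurableSpace α] (a b : ℝ) {c : ℝ} (hab : a ≤ b) (hc : 0 < c)
    (ν : Measure α) {k g : α → ℝ} (hk : Measurable k) (hg : Integrable g ν) :
    Filter.Tendsto (fun n => ∫ x, ψ_AbsRig a b c n (k x) * g x ∂ν) Filter.atTop
      (nhds (∫ x, (k ⁻¹' Ioc a b).indicator g x ∂ν)) := by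
  refine tendsto_integral_of_dominated_convergence (fun x => ‖g x‖) (fun n =>
    (Measurable.aestronglyMeasurable (by unfold ψ_AbsRig; fun_prop)).mul hg.1) hg.norm
    (fun n => ae_of_all _ fun x => ?_) (ae_of_all _ fun x => ?_)
  · rw [norm_mul]
    refine mul_le_of_le_one_left (norm_nonneg _) (abs_sub_le_of_nonneg_of_le (le_max_left _ _) ?_
      (le_max_left _ _) ?_) <;> exact max_le zero_le_one (min_le_left _ _)
  · refine (((cl_AbsRig _).sub (cl_AbsRig _)).mul_const _).trans_eq (congrArg _ ?_)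
    simp only [div_pos_iff_of_pos_right hc, sub_pos, indicator, mem_preimage, mem_Ioc]
    by_cases h1 : a < k x <;> by_cases h2 : b < k x
    · simp [h1, h2]
    · simp [h1, h2, not_lt.1 h2]
    · exact (h1 (hab.trans_lt h2)).elim
    · simp [h1, h2]

theorem rig_phi {P : ℝ} {h p β0 : ℝ → ℝ} (hd : DirData 1 1 P h p) (hc : Continuous β0)
    (hb : ∀ s, 0 ≤ β0 s ∧ β0 s ≤ 1) (hin : ∀ s ∈ Ioo (bot h) (top h), 0 < β0 s ∧ β0 s < 1)
    (heq : P ≤ ∫ t, β0 (h t) * p t ∂μ1 + ∫ s in bot h..top h, Real.sqrt (1 - β0 s ^ 2))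
    {s1 s2 : ℝ} (h1 : bot h < s1) (h12 : s1 ≤ s2) (h2 : s2 < top h) {φ : ℝ → ℝ}
    (hφ : Continuous φ) (hφ0 : ∀ s, s ∉ Icc s1 s2 → φ s = 0) :
    ∫ t, φ (h t) * p t ∂μ1 = ∫ s in s1..s2, φ s * β0 s / Real.sqrt (1 - β0 s ^ 2) := by
  have hI : ∀ s ∈ Icc s1 s2, 0 < β0 s ∧ β0 s < 1 := fun s hs =>
    hin s ⟨h1.trans_le hs.1, hs.2.trans_lt h2⟩
  have hr : ∀ s ∈ Icc s1 s2, 0 < √(1 - β0 s ^ 2) := fun s hs =>
    Real.sqrt_pos.2 (by nlinarith [hI s hs])
  obtain ⟨δ, hδ, hδ'⟩ := (isCompact_Icc (a := s1) (b := s2)).exists_forall_le'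
    (f := fun s => min (β0 s) (1 - β0 s) / (|φ s| + 1)) (a := 0)
    (Continuous.continuousOn (Continuous.div (by fun_prop) (by fun_prop) fun s => by positivity))
    fun s hs => div_pos (lt_min (hI s hs).1 (sub_pos.2 (hI s hs).2)) (by positivity)
  have ii : ∀ {g : ℝ → ℝ} (k : ℕ), Continuous g →
      IntervalIntegrable (fun s => g s / √(1 - β0 s ^ 2) ^ k) volume s1 s2 := fun k hg =>
    ContinuousOn.intervalIntegrable_of_Icc h12 (hg.continuousOn.div (by fun_prop)
      fun s hs => (pow_pos (hr s hs) k).ne')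
  refine sub_eq_zero.1 (zero_AbsRig (C := ∫ s in s1..s2, 3 * φ s ^ 2 / √(1 - β0 s ^ 2) ^ 3) hδ
    fun ε hε => ?_)
  have hβ : ∀ s, 0 ≤ β0 s + ε * φ s ∧ β0 s + ε * φ s ≤ 1 := fun s => by
    by_cases hs : s ∈ Icc s1 s2
    · have a := (le_div_iff₀ (by positivity)).1 (hδ' s hs)
      have b : |ε * φ s| ≤ δ * (|φ s| + 1) := by
        rw [abs_mul]
        exact mul_le_mul hε (by linarith) (abs_nonneg _) hδ.le
      have c := abs_le.1 (b.trans a)
      constructor <;> linarith [min_le_left (β0 s) (1 - β0 s), min_le_right (β0 s) (1 - β0 s)]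
    · rw [hφ0 s hs, mul_zero, add_zero]
      exact hb s
  have key := hd.2.2.2 (fun s => √(1 - (β0 s + ε * φ s) ^ 2)) (fun s => β0 s + ε * φ s)
    ⟨by fun_prop, by fun_prop, fun s => (hβ s).1, fun s => by
      rw [Real.sq_sqrt (by nlinarith [hβ s])]
      linarith⟩
  simp only [one_mul, add_mul, mul_assoc] at key
  rw [integral_add (int_AbsRig hd hc) ((int_AbsRig hd hφ).const_mul ε), integral_const_mul] at key
  have e1 : (∫ s in bot h..top h, √(1 - (β0 s + ε * φ s) ^ 2)) -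
      ∫ s in bot h..top h, √(1 - β0 s ^ 2) =
      ∫ s in s1..s2, (√(1 - (β0 s + ε * φ s) ^ 2) - √(1 - β0 s ^ 2)) := by
    rw [← intervalIntegral.integral_sub (Continuous.intervalIntegrable (by fun_prop) _ _)
      (Continuous.intervalIntegrable (by fun_prop) _ _),
      intervalIntegral.integral_of_le (by linarith), intervalIntegral.integral_of_le h12,
      ← integral_Icc_eq_integral_Ioc (x := s1)]
    refine setIntegral_eq_of_subset_of_forall_sdiff_eq_zero measurableSet_Ioc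
      (fun s hs => ⟨h1.trans_le hs.1, hs.2.trans h2.le⟩) fun s hs => ?_
    rw [hφ0 s hs.2, mul_zero, add_zero, sub_self]
  have i1 := ii 1 (g := fun s => φ s * β0 s) (hφ.mul hc)
  have i3 := ii 3 (g := fun s => 3 * φ s ^ 2) (by fun_prop)
  simp only [pow_one] at i1
  have e2 := intervalIntegral.integral_mono_on h12
    (((i1.const_mul ε).neg).sub (i3.const_mul (ε ^ 2)))
    (Continuous.intervalIntegrable
      (u := fun s => √(1 - (β0 s + ε * φ s) ^ 2) - √(1 - β0 s ^ 2)) (by fun_prop) _ _)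
    fun s hs => (pt_AbsRig (hI s hs) (hβ s)).trans_eq' (by simp only [Pi.neg_apply]; ring)
  rw [intervalIntegral.integral_sub (i1.const_mul ε).neg (i3.const_mul _)] at e2
  simp only [Pi.neg_apply, intervalIntegral.integral_neg, intervalIntegral.integral_const_mul] at e2
  rw [mul_sub]
  linarith

theorem rig_meas {P : ℝ} {h p β0 γ : ℝ → ℝ} (hd : DirData 1 1 P h p) (hc : Continuous β0)
    (hb : ∀ s, 0 ≤ β0 s ∧ β0 s ≤ 1) (hin : ∀ s ∈ Ioo (bot h) (top h), 0 < β0 s ∧ β0 s < 1)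
    (heq : P ≤ ∫ t, β0 (h t) * p t ∂μ1 + ∫ s in bot h..top h, Real.sqrt (1 - β0 s ^ 2))
    (hγ : Continuous γ) (hγ0 : ∀ s ∈ Ioo (bot h) (top h), 0 < γ s)
    (hp : ∀ᵐ t ∂μ1, h t ∈ Ioo (bot h) (top h) → p t = γ (h t))
    {s1 s2 : ℝ} (h1 : bot h < s1) (h12 : s1 ≤ s2) (h2 : s2 < top h) :
    μ1.real {t | s1 < h t ∧ h t ≤ s2} =
      ∫ s in s1..s2, β0 s / (γ s * Real.sqrt (1 - β0 s ^ 2)) := by
  obtain ⟨s3, h3, h4⟩ := exists_between h2
  have h13 : s1 ≤ s3 := h12.trans h3.le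
  have hI : Icc s1 s3 ⊆ Ioo (bot h) (top h) := fun s hs => ⟨h1.trans_le hs.1, hs.2.trans_lt h4⟩
  have hc3 := sub_pos.2 h3
  have hg : ∀ s, 0 < γ (projIcc s1 s3 h13 s) := fun s => hγ0 _ (hI (projIcc s1 s3 h13 s).2)
  have hz : ∀ n s, s ∉ Icc s1 s3 → ψ_AbsRig s1 s2 (s3 - s2) n s = 0 := fun n s hs =>
    ψ0_AbsRig h12 hc3 n (by rwa [add_sub_cancel])
  have t1 := dct_AbsRig s1 s2 h12 hc3 μ1 hd.1.1 (integrable_const (1 : ℝ))
  have t2 := dct_AbsRig s1 s2 h12 hc3 (volume.restrict (Ioc s1 s3)) measurable_id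
    (g := fun s => β0 s / (γ s * √(1 - β0 s ^ 2))) (ContinuousOn.intervalIntegrable_of_Icc h13
      (hc.continuousOn.div (by fun_prop) fun s hs => (mul_pos (hγ0 s (hI hs))
        (Real.sqrt_pos.2 (by nlinarith [hin s (hI hs)]))).ne')).1
  have e := tendsto_nhds_unique (t1.congr fun n => ?_) t2
  · have m : MeasurableSet (h ⁻¹' Ioc s1 s2) := hd.1.1 measurableSet_Ioc
    rw [integral_indicator m, integral_indicator (measurable_id measurableSet_Ioc),
      Measure.restrict_restrict (measurable_id measurableSet_Ioc), preimage_id,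
      inter_eq_left.2 (Ioc_subset_Ioc_right h3.le), ← intervalIntegral.integral_of_le h12,
      setIntegral_const, smul_eq_mul, mul_one] at e
    exact e
  have := rig_phi hd hc hb hin heq h1 h13 h4
    (φ := fun s => ψ_AbsRig s1 s2 (s3 - s2) n s / γ (projIcc s1 s3 h13 s))
    (Continuous.div (by unfold ψ_AbsRig; fun_prop) (hγ.comp (continuous_subtype_val.comp
      continuous_projIcc)) fun s => (hg s).ne') fun s hs => by rw [hz n s hs, zero_div]
  rw [intervalIntegral.integral_of_le h13] at this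
  refine ((integral_congr_ae ?_).trans this).trans (setIntegral_congr_fun measurableSet_Ioc
    fun s hs => ?_)
  · filter_upwards [hp] with t ht
    by_cases hs : h t ∈ Icc s1 s3
    · rw [ht (hI hs), projIcc_of_mem h13 hs, mul_one, div_mul_cancel₀ _ (hγ0 _ (hI hs)).ne']
    · simp only [hz n _ hs, zero_div, zero_mul]
  · simp only [projIcc_of_mem h13 (Ioc_subset_Icc_self hs), id]
    rw [div_mul_eq_mul_div, div_div, mul_div_assoc]

theorem dist_det {h G : ℝ → ℝ} (hh : Lev h) (ha : 0 < top h) (hG : Continuous G)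
    (hGa : G (top h) = 0)
    (hm : ∀ s1 s2, 0 < s1 → s1 ≤ s2 → s2 < top h →
      μ1.real {t | s1 < h t ∧ h t ≤ s2} = G s1 - G s2)
    (hv : ∫ t, h t ∂μ1 = ∫ s in (0 : ℝ)..top h, G s) :
    ∀ s ∈ Ioo 0 (top h), μ1.real {t | s < h t} = G s := by
  have d : ∀ s1 s2, 0 < s1 → s1 ≤ s2 → s2 < top h →
      μ1.real {t | s1 < h t} - G s1 = μ1.real {t | s2 < h t} - G s2 := fun s1 s2 a b c => by
    have : {t | s1 < h t} = {t | s1 < h t ∧ h t ≤ s2} ∪ {t | s2 < h t} := by
      ext t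
      exact ⟨fun x => (le_or_gt (h t) s2).imp (fun y => ⟨x, y⟩) id,
        fun x => x.elim (·.1) b.trans_lt⟩
    rw [this, measureReal_union (disjoint_left.2 fun t x y => x.2.not_gt y)
      (measurableSet_lt measurable_const hh.1), hm s1 s2 a b c]
    ring
  intro s hs
  have e : ∀ x ∈ Ioo 0 (top h), μ1.real {t | x < h t} = G x + (μ1.real {t | s < h t} - G s) :=
    fun x hx => by
      rcases le_total x s with a | a
      · linarith [d x s hx.1 a hs.2]
      · linarith [d s x hs.1 a hx.2]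
  rw [hh.integrable.integral_eq_integral_meas_lt (ae_of_all _ fun t => (hh.2.2 t).1),
    setIntegral_eq_of_subset_of_forall_sdiff_eq_zero measurableSet_Ioi Ioo_subset_Ioi_self
      (s := Ioo 0 (top h)), setIntegral_congr_fun measurableSet_Ioo e, ← integral_Ioc_eq_integral_Ioo,
    ← intervalIntegral.integral_of_le ha.le, intervalIntegral.integral_add
      (hG.intervalIntegrable _ _) (by simp), intervalIntegral.integral_const, add_eq_left, sub_zero,
    smul_eq_mul, mul_eq_zero_iff_left ha.ne'] at hv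
  · exact sub_eq_zero.1 hv
  · intro x hx
    refine (measureReal_eq_zero_iff (measure_ne_top _ _)).2 (measure_eq_zero_iff_ae_notMem.2 ?_)
    filter_upwards [ae_μ1_mem] with t ht hx'
    exact hx.2 ⟨hx.1, hx'.trans_le (le_top_of_bdd hh.2.2 ht).2⟩

theorem lev_of_dist {h : ℝ → ℝ} (hh : Lev h) {t s : ℝ} (ht : t ∈ Ioo (0 : ℝ) 1) :
    (s < h t → t ≤ μ1.real {x | s < h x}) ∧ (h t ≤ s → μ1.real {x | s < h x} ≤ t) := by
  have e := μ1_real_Iio t ht.1.le ht.2.le
  refine ⟨fun a => e.symm.trans_le (ENNReal.toReal_mono (measure_ne_top _ _) (measure_mono_ae ?_)),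
    fun a => le_of_le_of_eq (ENNReal.toReal_mono (measure_ne_top _ _) (measure_mono_ae ?_)) e⟩
  · filter_upwards [ae_μ1_mem] with x hx (b : x < t)
    exact a.trans_le (hh.2.1 hx ht b.le)
  · filter_upwards [ae_μ1_mem] with x hx (b : s < h x)
    exact not_le.1 fun c => b.not_ge ((hh.2.1 ht hx c).trans a)

end Vale.Agent.P232
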