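import Vale.Agent.P232.Core2
import Vale.Agent.P232.Basic

/-!
# P232 / Analytic

The quarter-disc regime. Write `a = top h`, `f = bot h`, `ρ = √a`, `r = √f`, `σ = ρ + r`,
`d = ρ - r`, `v = ∫ h`. Chord `ℓ s = √π (s + ρ r)/σ`, `β s = (x² + ρ r)/(σ x)` at `x = √(clamp s)`
(clamp to `[f,a]`; if `f = 0` use `β = x/ρ`), so `β s √(π s) = ℓ s` and `β ≤ 1` on `[f,a]`.
`chord_int`: substitute `s = x²` (`intervalIntegral.integral_comp_mul_deriv`), then
`σ²x² - (x²+ρ r)² = (x-r)(ρ-x)(x+r)(x+ρ)`; with `x = r + d u`, `y = 2r`: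
`√((y+du)(y+d(1+u))) ≥ y + d √(u(1+u))`, `√(u(1-u)) ≥ 2u(1-u)`, `∫₀¹ 2u(1-u) = ∫₀¹ u √(1-u²) = 1/3`.
So `P ≥ B := √π v/σ + √π σ/4 + d² (2/3 - √π/(4σ))`. If `σ ≥ 3√π/8` then `B ≥ √π (v/σ + σ/4) ≥ √(π v)`;
otherwise `d ≤ σ` gives `B ≥ √π v/σ + 2σ²/3 ≥ (9π/2)^(1/3) v^(2/3)` (`ball_le`).
Equality: `0 < f < a` is impossible (strict if `σ ≠ 3√π/8`; if `σ = 3√π/8` both AM-GM steps would be
equalities: `σ = 2√v` and `3√π v = 4σ³`, which is contradictory). `β > 0` at positive levels, so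
equality forces `p = √(π h)` a.e. where `h > 0`.
-/

open MeasureTheory Set

namespace Vale.Agent.P232

theorem cube_Analytic {v ρ : ℝ} (hv : 0 ≤ v) (hρ : 0 < ρ) :
    (Real.sqrt Real.pi * v / ρ + 2 * ρ ^ 2 / 3) ^ 3 -
      ((9 * Real.pi / 2) ^ ((1 : ℝ) / 3) * v ^ ((2 : ℝ) / 3)) ^ 3 =
      (Real.sqrt Real.pi * v / ρ - 4 * ρ ^ 2 / 3) ^ 2 *
        (Real.sqrt Real.pi * v / ρ + ρ ^ 2 / 6) := by
  have hpi := Real.pi_pos
  have e1 : ((9 * Real.pi / 2) ^ ((1 : ℝ) / 3)) ^ 3 = 9 * Real.pi / 2 := by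
    rw [← Real.rpow_natCast, ← Real.rpow_mul (by positivity)]
    norm_num
  have e2 : (v ^ ((2 : ℝ) / 3)) ^ 3 = v ^ 2 := by
    rw [← Real.rpow_natCast, ← Real.rpow_mul hv]
    norm_num
  rw [mul_pow, e1, e2]
  have e3 : Real.pi = Real.sqrt Real.pi ^ 2 := (Real.sq_sqrt hpi.le).symm
  generalize Real.sqrt Real.pi = q at e3
  rw [e3]
  field_simp
  ring

theorem ball_le {v ρ : ℝ} (hv : 0 ≤ v) (hρ : 0 < ρ) :
    (9 * Real.pi / 2) ^ ((1 : ℝ) / 3) * v ^ ((2 : ℝ) / 3) ≤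
      Real.sqrt Real.pi * v / ρ + 2 * ρ ^ 2 / 3 := by
  have h := cube_Analytic hv hρ
  refine le_of_pow_le_pow_left₀ (n := 3) (by norm_num) (by positivity) ?_
  have h2 : 0 ≤ (Real.sqrt Real.pi * v / ρ - 4 * ρ ^ 2 / 3) ^ 2 *
      (Real.sqrt Real.pi * v / ρ + ρ ^ 2 / 6) := by positivity
  linarith

theorem ball_eq {v ρ : ℝ} (hv : 0 ≤ v) (hρ : 0 < ρ)
    (h : Real.sqrt Real.pi * v / ρ + 2 * ρ ^ 2 / 3 ≤
      (9 * Real.pi / 2) ^ ((1 : ℝ) / 3) * v ^ ((2 : ℝ) / 3)) :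
    3 * Real.sqrt Real.pi * v = 4 * ρ ^ 3 := by
  have h1 := cube_Analytic hv hρ
  have h2 := pow_le_pow_left₀ (by positivity) h 3
  have h3 : 0 < Real.sqrt Real.pi * v / ρ + ρ ^ 2 / 6 := by positivity
  have h4 : (Real.sqrt Real.pi * v / ρ - 4 * ρ ^ 2 / 3) ^ 2 ≤ 0 := by
    by_contra hc
    have := mul_pos (not_le.1 hc) h3
    linarith
  have h5 : Real.sqrt Real.pi * v / ρ - 4 * ρ ^ 2 / 3 = 0 :=
    (pow_eq_zero_iff two_ne_zero).1 (le_antisymm h4 (sq_nonneg _))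
  have h6 : Real.sqrt Real.pi * v = 4 * ρ ^ 2 / 3 * ρ := by
    rw [← div_eq_iff hρ.ne']
    linarith
  linarith

theorem tube_Analytic {v σ : ℝ} (hv : 0 ≤ v) (hσ : 0 < σ) :
    Real.sqrt Real.pi * v / σ + Real.sqrt Real.pi * σ / 4 - Real.sqrt (Real.pi * v) =
      Real.sqrt Real.pi * (σ - 2 * Real.sqrt v) ^ 2 / (4 * σ) := by
  rw [Real.sqrt_mul Real.pi_pos.le]
  have e3 : v = Real.sqrt v ^ 2 := (Real.sq_sqrt hv).symm
  generalize Real.sqrt v = q at e3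
  rw [e3]
  field_simp
  ring

theorem tube_le {v σ : ℝ} (hv : 0 ≤ v) (hσ : 0 < σ) :
    Real.sqrt (Real.pi * v) ≤ Real.sqrt Real.pi * v / σ + Real.sqrt Real.pi * σ / 4 := by
  have h := tube_Analytic hv hσ
  have h2 : 0 ≤ Real.sqrt Real.pi * (σ - 2 * Real.sqrt v) ^ 2 / (4 * σ) := by positivity
  linarith

theorem pt_Analytic {r d w S q : ℝ} (hr : 0 ≤ r) (hw : 0 < w) (hwd : w < d) (hS : 0 ≤ S)
    (hS2 : S ^ 2 = d ^ 2 - w ^ 2) (hq : q * d = w * (d - w)) :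
    (4 * r * q + w * S) ^ 2 ≤ ((2 * r + d) * (r + w)) ^ 2 - ((r + w) ^ 2 + (r + d) * r) ^ 2 := by
  have hd : 0 < d := hw.trans hwd
  have h0 : 0 < w * (d - w) := mul_pos hw (sub_pos.2 hwd)
  have hq0 : 0 < q := by
    by_contra hc
    nlinarith [not_lt.1 hc]
  have h1 : 4 * q ≤ d := by
    by_contra hc
    nlinarith [not_le.1 hc, sq_nonneg (d - 2 * w)]
  have h2 : 4 * w * S ≤ d * (2 * w + d) := by
    rcases le_total (2 * w) d with h | h
    · have h3 : S ≤ d := by nlinarith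
      nlinarith
    · nlinarith [sq_nonneg (w - S)]
  have e : ((2 * r + d) * (r + w)) ^ 2 - ((r + w) ^ 2 + (r + d) * r) ^ 2 =
      4 * r ^ 2 * (w * (d - w)) + 2 * r * (w * (d - w)) * (2 * w + d) +
        w ^ 2 * (d ^ 2 - w ^ 2) := by ring
  rw [e, ← hq, ← hS2]
  have a1 : 4 * r ^ 2 * q * (4 * q) ≤ 4 * r ^ 2 * q * d :=
    mul_le_mul_of_nonneg_left h1 (by positivity)
  have a2 : 2 * r * q * (4 * w * S) ≤ 2 * r * q * (d * (2 * w + d)) :=
    mul_le_mul_of_nonneg_left h2 (by positivity)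
  nlinarith

theorem chord_int {r ρ : ℝ} (hr : 0 ≤ r) (hrρ : r ≤ ρ) (hρ : 0 < ρ) {β : ℝ → ℝ}
    (hβ : Continuous β)
    (hβx : ∀ x, r ≤ x → x ≤ ρ → 0 < x → β (x ^ 2) = (x ^ 2 + ρ * r) / ((ρ + r) * x)) :
    2 / 3 * (ρ - r) ^ 2 ≤ ∫ s in r ^ 2..ρ ^ 2, Real.sqrt (1 - β s ^ 2) := by
  rcases hrρ.eq_or_lt with rfl | hlt
  · simp
  obtain ⟨d, rfl⟩ : ∃ d, ρ = r + d := ⟨ρ - r, by ring⟩
  have hd : 0 < d := by linarith
  have hg : Continuous fun s => Real.sqrt (1 - β s ^ 2) := by fun_prop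
  have h1 := intervalIntegral.integral_comp_mul_deriv (a := r) (b := r + d)
    (f := fun x => x ^ 2) (f' := fun x => 2 * x) (g := fun s => Real.sqrt (1 - β s ^ 2))
    (fun x _ => by simpa using hasDerivAt_pow 2 x) (by fun_prop) hg
  rw [← h1]
  have hσ : 0 < 2 * r + d := by linarith
  have h2 := intervalIntegral.sub_le_integral_of_hasDeriv_right_of_le (a := r) (b := r + d)
    (g := fun x => 2 / (2 * r + d) * (4 * r / d * (d * (x - r) ^ 2 / 2 - (x - r) ^ 3 / 3) -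
      (d ^ 2 - (x - r) ^ 2) * Real.sqrt (d ^ 2 - (x - r) ^ 2) / 3))
    (g' := fun x => 2 / (2 * r + d) * (4 * r * ((x - r) * (d - (x - r)) / d) +
      (x - r) * Real.sqrt (d ^ 2 - (x - r) ^ 2)))
    (φ := fun x => ((fun s => Real.sqrt (1 - β s ^ 2)) ∘ fun x => x ^ 2) x * (2 * x)) hlt.le
    (by fun_prop) ?_ ?_ ?_
  · refine le_trans (le_of_eq ?_) h2
    simp only [add_sub_cancel_left, sub_self]
    rw [show d ^ 2 - (0 : ℝ) ^ 2 = d ^ 2 by ring, Real.sqrt_sq hd.le]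
    field_simp
    ring
  · intro x hx
    have hw : 0 < x - r := sub_pos.2 hx.1
    have hwd : x - r < d := by linarith [hx.2]
    have hp : 0 < d ^ 2 - (x - r) ^ 2 := by nlinarith
    have a0 : HasDerivAt (fun x => x - r) 1 x := (hasDerivAt_id x).sub_const r
    have a1 : HasDerivAt (fun x => d ^ 2 - (x - r) ^ 2) (-(2 * (x - r))) x := by
      simpa using (a0.fun_pow 2).const_sub (d ^ 2)
    have a2 := a1.sqrt hp.ne'
    have a3 := (((((a0.fun_pow 2).const_mul d).div_const 2).fun_sub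
      ((a0.fun_pow 3).div_const 3)).const_mul (4 * r / d)).fun_sub ((a1.fun_mul a2).div_const 3)
    refine ((a3.const_mul (2 / (2 * r + d))).congr_deriv ?_).hasDerivWithinAt
    have hS := Real.sqrt_pos.2 hp
    have hS2 := Real.sq_sqrt hp.le
    generalize Real.sqrt (d ^ 2 - (x - r) ^ 2) = S at hS hS2
    rw [← hS2]
    field_simp
    ring
  · exact Continuous.integrableOn_Icc (by fun_prop)
  · intro x hx
    have hw : 0 < x - r := sub_pos.2 hx.1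
    have hwd : x - r < d := by linarith [hx.2]
    have hp : 0 < d ^ 2 - (x - r) ^ 2 := by nlinarith
    have hx0 : 0 < x := by linarith
    have h3 := pt_Analytic (q := (x - r) * (d - (x - r)) / d) hr hw hwd (Real.sqrt_nonneg _)
      (Real.sq_sqrt hp.le) (by field_simp)
    simp only [Function.comp]
    rw [hβx x hx.1.le hx.2.le hx0]
    generalize 4 * r * ((x - r) * (d - (x - r)) / d) +
      (x - r) * Real.sqrt (d ^ 2 - (x - r) ^ 2) = T at h3 ⊢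
    rw [show r + (x - r) = x by ring] at h3
    have h4 : T / ((2 * r + d) * x) ≤
        Real.sqrt (1 - ((x ^ 2 + (r + d) * r) / ((r + d + r) * x)) ^ 2) := by
      refine Real.le_sqrt_of_sq_le ?_
      rw [show r + d + r = 2 * r + d by ring, div_pow, div_pow, le_sub_iff_add_le, ← add_div,
        div_le_one (by positivity)]
      linarith
    calc 2 / (2 * r + d) * T = T / ((2 * r + d) * x) * (2 * x) := by field_simp
      _ ≤ _ := mul_le_mul_of_nonneg_right h4 (by positivity)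

theorem beta_Analytic {r ρ : ℝ} (hr : 0 ≤ r) (hrρ : r ≤ ρ) (hρ : 0 < ρ) :
    ∃ β : ℝ → ℝ, Continuous β ∧ (∀ s, 0 ≤ β s ∧ β s ≤ 1) ∧
      ∀ x, r ≤ x → x ≤ ρ → 0 < x → β (x ^ 2) = (x ^ 2 + ρ * r) / ((ρ + r) * x) := by
  have hσ : 0 < ρ + r := by linarith
  have hc : ∀ s, r ≤ max r (min (Real.sqrt s) ρ) ∧ max r (min (Real.sqrt s) ρ) ≤ ρ := fun s =>
    ⟨le_max_left _ _, max_le hrρ (min_le_right _ _)⟩
  refine ⟨fun s => (max r (min (Real.sqrt s) ρ) + ρ * r / max r (min (Real.sqrt s) ρ)) / (ρ + r),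
    ?_, fun s => ?_, fun x h1 h2 h3 => ?_⟩
  · rcases hr.eq_or_lt with rfl | hr'
    · simp only [mul_zero, zero_div, add_zero]
      fun_prop
    · refine Continuous.div_const (Continuous.add (by fun_prop) ?_) _
      exact Continuous.div (by fun_prop) (by fun_prop) fun s => (hr'.trans_le (hc s).1).ne'
  · obtain ⟨h1, h2⟩ := hc s
    beta_reduce
    generalize max r (min (Real.sqrt s) ρ) = x at h1 h2
    have hx := hr.trans h1
    refine ⟨by positivity, ?_⟩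
    rw [div_le_one hσ]
    rcases hx.eq_or_lt with rfl | hx
    · simpa using hσ.le
    · have h3 : ρ * r / x ≤ ρ + r - x := by
        rw [div_le_iff₀ hx]
        nlinarith [mul_nonneg (sub_nonneg.2 h1) (sub_nonneg.2 h2)]
      linarith
  · beta_reduce
    rw [Real.sqrt_sq h3.le, min_eq_left h2, max_eq_right h1]
    field_simp

theorem main_Analytic {P : ℝ} {h p : ℝ → ℝ} (hd : DirData 1 1 P h p)
    (hp : ∀ᵐ t ∂μ1, Real.sqrt (Real.pi * h t) ≤ p t) {r ρ : ℝ} (hr : 0 ≤ r) (hρ : 0 < ρ)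
    (ha : top h = ρ ^ 2) (hf : bot h = r ^ 2) :
    r ≤ ρ ∧ ∃ I : ℝ, 0 ≤ I ∧
      I + Real.sqrt Real.pi * ((∫ t, h t ∂μ1) + ρ * r) / (ρ + r) + 2 / 3 * (ρ - r) ^ 2 ≤ P ∧
      (I ≤ 0 → ∀ᵐ t ∂μ1, 0 < h t → p t ≤ Real.sqrt (Real.pi * h t)) := by
  obtain ⟨hL, hpi, -, hcal⟩ := hd
  have hb := hL.2.2
  have hrρ : r ≤ ρ := by
    have h1 := (bot_top_mem hb).2.1
    rw [ha, hf] at h1
    exact le_of_pow_le_pow_left₀ two_ne_zero hρ.le h1
  refine ⟨hrρ, ?_⟩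
  obtain ⟨β, c1, c2, c3⟩ := beta_Analytic hr hrρ hρ
  have hσ : 0 < ρ + r := by linarith
  have k1 := chord_int hr hrρ hρ c1 c3
  have k2 := hcal (fun s => Real.sqrt (1 - β s ^ 2)) β ⟨by fun_prop, c1, fun s => (c2 s).1, fun s => by
    rw [Real.sq_sqrt (by nlinarith [c2 s])]
    linarith⟩
  rw [ha, hf, one_mul, one_mul] at k2
  have m1 : Measurable fun t => β (h t) := c1.measurable.comp hL.1
  have hx : ∀ᵐ t ∂μ1, r ≤ Real.sqrt (h t) ∧ Real.sqrt (h t) ≤ ρ := by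
    filter_upwards [ae_μ1_mem] with t ht
    obtain ⟨a1, a2⟩ := le_top_of_bdd hb ht
    rw [hf] at a1
    rw [ha] at a2
    exact ⟨Real.le_sqrt_of_sq_le a1, Real.sqrt_le_iff.2 ⟨hρ.le, a2⟩⟩
  have e1 : ∀ᵐ t ∂μ1, β (h t) * Real.sqrt (Real.pi * h t) =
      Real.sqrt Real.pi * (h t + ρ * r) / (ρ + r) := by
    filter_upwards [hx] with t ht
    rw [Real.sqrt_mul Real.pi_pos.le]
    have e3 : h t = Real.sqrt (h t) ^ 2 := (Real.sq_sqrt (hb t).1).symm
    have x0 := Real.sqrt_nonneg (h t)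
    generalize Real.sqrt (h t) = x at e3 ht x0
    rw [e3]
    rcases x0.eq_or_lt with rfl | x0
    · have : r = 0 := le_antisymm ht.1 hr
      simp [this]
    · rw [c3 x ht.1 ht.2 x0]
      field_simp
  have i1 : Integrable (fun t => β (h t) * p t) μ1 :=
    hpi.bdd_mul (c := 1) m1.aestronglyMeasurable (ae_of_all _ fun t => by
      rw [Real.norm_of_nonneg (c2 _).1]
      exact (c2 _).2)
  have i2 : Integrable (fun t => Real.sqrt Real.pi * (h t + ρ * r) / (ρ + r)) μ1 :=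
    ((hL.integrable.add (integrable_const _)).const_mul _).div_const _
  have n1 : 0 ≤ᵐ[μ1] fun t => β (h t) * p t - Real.sqrt Real.pi * (h t + ρ * r) / (ρ + r) := by
    filter_upwards [e1, hp] with t a1 a2
    have := mul_le_mul_of_nonneg_left a2 (c2 (h t)).1
    simp only [Pi.zero_apply]
    linarith
  refine ⟨∫ t, (β (h t) * p t - Real.sqrt Real.pi * (h t + ρ * r) / (ρ + r)) ∂μ1,
    integral_nonneg_of_ae n1, ?_, fun hI => ?_⟩
  · rw [integral_sub i1 i2, integral_div, integral_const_mul,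
      integral_add hL.integrable (integrable_const _)]
    simp only [integral_const, probReal_univ, smul_eq_mul, one_mul]
    linarith
  · have z := (integral_eq_zero_iff_of_nonneg_ae n1 (i1.sub i2)).1
      (le_antisymm hI (integral_nonneg_of_ae n1))
    filter_upwards [z, e1, hx] with t a1 a2 a3 a4
    simp only [Pi.zero_apply] at a1
    have x0 := Real.sqrt_pos.2 a4
    have b1 := c3 _ a3.1 a3.2 x0
    rw [Real.sq_sqrt a4.le] at b1
    have b2 : 0 < β (h t) := by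
      rw [b1]
      positivity
    refine le_of_mul_le_mul_left (le_of_eq ?_) b2
    linarith

theorem split_Analytic (q v : ℝ) {r ρ : ℝ} (hσ : 0 < ρ + r) :
    q * (v + ρ * r) / (ρ + r) + 2 / 3 * (ρ - r) ^ 2 = q * v / (ρ + r) + q * (ρ + r) / 4 +
      (ρ - r) ^ 2 * (8 * (ρ + r) - 3 * q) / (12 * (ρ + r)) ∧
    q * (v + ρ * r) / (ρ + r) + 2 / 3 * (ρ - r) ^ 2 = q * v / (ρ + r) + 2 * (ρ + r) ^ 2 / 3 +
      ρ * r * (3 * q - 8 * (ρ + r)) / (3 * (ρ + r)) := by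
  constructor <;> field_simp <;> ring

theorem an_ge {P : ℝ} {h p : ℝ → ℝ} (hd : DirData 1 1 P h p)
    (hp : ∀ᵐ t ∂μ1, Real.sqrt (Real.pi * h t) ≤ p t) : jf (∫ t, h t ∂μ1) ≤ P := by
  obtain ⟨b1, b2, -⟩ := bot_top_mem hd.1.2.2
  obtain ⟨v1, v2⟩ := hd.1.integral_mem
  have j1 : jf (∫ t, h t ∂μ1) ≤ _ := min_le_left _ _
  have j2 : jf (∫ t, h t ∂μ1) ≤ Real.sqrt _ := (min_le_right _ _).trans (min_le_left _ _)
  rcases (b1.trans b2).eq_or_lt with h0 | h0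
  · have h1 := hd.2.2.2 (fun _ => 0) (fun _ => 0)
      ⟨continuous_const, continuous_const, fun _ => le_rfl, fun _ => by norm_num⟩
    have h2 : ∫ t, h t ∂μ1 = 0 := by linarith
    rw [h2] at j2 ⊢
    simp at h1 j2
    linarith
  have hρ := Real.sqrt_pos.2 h0
  have hr := Real.sqrt_nonneg (bot h)
  obtain ⟨-, I, i0, i1, -⟩ := main_Analytic hd hp hr hρ (Real.sq_sqrt h0.le).symm
    (Real.sq_sqrt b1).symm
  generalize Real.sqrt (top h) = ρ at *
  generalize Real.sqrt (bot h) = r at *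
  have hσ : 0 < ρ + r := by linarith
  obtain ⟨s1, s2⟩ := split_Analytic (Real.sqrt Real.pi) (∫ t, h t ∂μ1) hσ
  rcases le_total (3 * Real.sqrt Real.pi) (8 * (ρ + r)) with c | c
  · have a1 := tube_le (b1.trans v1) hσ
    have a2 : 0 ≤ (ρ - r) ^ 2 * (8 * (ρ + r) - 3 * Real.sqrt Real.pi) / (12 * (ρ + r)) :=
      div_nonneg (mul_nonneg (sq_nonneg _) (sub_nonneg.2 c)) (by positivity)
    linarith
  · have a1 := ball_le (b1.trans v1) hσ
    have a2 : 0 ≤ ρ * r * (3 * Real.sqrt Real.pi - 8 * (ρ + r)) / (3 * (ρ + r)) :=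
      div_nonneg (mul_nonneg (by positivity) (sub_nonneg.2 c)) (by positivity)
    linarith

theorem an_eq {P : ℝ} {h p : ℝ → ℝ} (hd : DirData 1 1 P h p)
    (hp : ∀ᵐ t ∂μ1, Real.sqrt (Real.pi * h t) ≤ p t) (hv : 0 < ∫ t, h t ∂μ1)
    (hP : P ≤ jf (∫ t, h t ∂μ1)) :
    (∀ᵐ t ∂μ1, 0 < h t → p t ≤ Real.sqrt (Real.pi * h t)) ∧
      ((top h = bot h ∧ P = Real.sqrt (Real.pi * ∫ t, h t ∂μ1)) ∨
        (bot h = 0 ∧ P = 2 * top h ∧
          3 * Real.sqrt Real.pi * ∫ t, h t ∂μ1 = 4 * Real.sqrt (top h) ^ 3)) := by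
  obtain ⟨b1, b2, -⟩ := bot_top_mem hd.1.2.2
  obtain ⟨v1, v2⟩ := hd.1.integral_mem
  have j1 : jf (∫ t, h t ∂μ1) ≤ _ := min_le_left _ _
  have j2 : jf (∫ t, h t ∂μ1) ≤ Real.sqrt _ := (min_le_right _ _).trans (min_le_left _ _)
  have h0 : 0 < top h := hv.trans_le v2
  have hρ := Real.sqrt_pos.2 h0
  have hr := Real.sqrt_nonneg (bot h)
  have ea := (Real.sq_sqrt h0.le).symm
  have ef := (Real.sq_sqrt b1).symm
  obtain ⟨-, I, i0, i1, i2⟩ := main_Analytic hd hp hr hρ ea ef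
  generalize Real.sqrt (top h) = ρ at *
  generalize Real.sqrt (bot h) = r at *
  generalize ∫ t, h t ∂μ1 = v at *
  have hσ : 0 < ρ + r := by linarith
  have hq := Real.sqrt_pos.2 Real.pi_pos
  obtain ⟨s1, s2⟩ := split_Analytic (Real.sqrt Real.pi) v hσ
  have a1 := tube_le hv.le hσ
  have a2 := ball_le hv.le hσ
  rcases lt_trichotomy (3 * Real.sqrt Real.pi) (8 * (ρ + r)) with c | c | c
  · have c1 := sub_pos.2 c
    have a3 : 0 ≤ (ρ - r) ^ 2 * (8 * (ρ + r) - 3 * Real.sqrt Real.pi) / (12 * (ρ + r)) := by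
      positivity
    refine ⟨i2 (by linarith), Or.inl ⟨?_, by linarith⟩⟩
    by_contra hne
    have a4 : ρ - r ≠ 0 := fun e => hne (by rw [ea, ef, sub_eq_zero.1 e])
    have a5 : 0 < (ρ - r) ^ 2 * (8 * (ρ + r) - 3 * Real.sqrt Real.pi) / (12 * (ρ + r)) := by
      positivity
    linarith
  · exfalso
    rw [← c, sub_self, mul_zero, zero_div, add_zero] at s1 s2
    have a3 := ball_eq hv.le hσ (by linarith)
    have a4 := tube_Analytic hv.le hσ
    have a5 : ρ + r - 2 * Real.sqrt v = 0 := by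
      by_contra hne
      have : 0 < Real.sqrt Real.pi * (ρ + r - 2 * Real.sqrt v) ^ 2 / (4 * (ρ + r)) := by
        positivity
      linarith
    have a6 : (ρ + r) ^ 2 = 4 * v := by
      rw [sub_eq_zero.1 a5, mul_pow, Real.sq_sqrt hv.le]
      norm_num
    rw [c] at a3
    have a7 : 0 < (ρ + r) * v := mul_pos hσ hv
    have a8 : (ρ + r) ^ 3 = (ρ + r) * (4 * v) := by rw [← a6]; ring
    linarith
  · have c1 := sub_pos.2 c
    have a3 : 0 ≤ ρ * r * (3 * Real.sqrt Real.pi - 8 * (ρ + r)) / (3 * (ρ + r)) := by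
      positivity
    have a4 : r = 0 := by
      by_contra hne
      have a6 : 0 < r := lt_of_le_of_ne hr (Ne.symm hne)
      have a5 : 0 < ρ * r * (3 * Real.sqrt Real.pi - 8 * (ρ + r)) / (3 * (ρ + r)) := by
        positivity
      linarith
    refine ⟨i2 (by linarith), Or.inr ?_⟩
    have a5 := ball_eq hv.le hσ (by linarith)
    subst a4
    simp only [add_zero, mul_zero, zero_mul, zero_div, sub_zero] at *
    have a6 : Real.sqrt Real.pi * v / ρ = 4 * ρ ^ 2 / 3 := by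
      rw [div_eq_iff hρ.ne']
      linarith
    exact ⟨by rw [ef]; ring, by linarith, a5⟩

end Vale.Agent.P232
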