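import Vale.Agent.P232.Core2
import Vale.Agent.P232.Basic

/-!
# P232 / ArcB

Facts on arcs. `ind (arc c r)` is `1`-periodic, so integrals over `(0,1)` may be taken over
`(c - 1/2, c + 1/2)` (`Function.Periodic.intervalIntegral_add_eq`), where the arc is `(c - r, c + r)`
(`UnitAddCircle.norm_eq`, or `AddCircle.norm_coe_eq_abs_iff`).
`arc_close`: `‖t - c‖ < r` and `‖t - c'‖ < r'` differ only when `|‖t-c‖ - r| ≤ |c - c'| + |r - r'|`.
`arc_closed`: centres may be taken in `[0,1]` (`arc_add_int`), extract a convergent subsequence.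
-/

open MeasureTheory Set

namespace Vale.Agent.P232

theorem measurableSet_arc (c r : ℝ) : MeasurableSet (arc c r) := by
  refine (isOpen_lt ?_ continuous_const).measurableSet
  exact ((AddCircle.continuous_mk' 1).comp (continuous_sub_right c)).norm

theorem arc_add_int (c r : ℝ) (n : ℤ) : arc (c + n) r = arc c r := by
  ext t
  simp only [arc, mem_ofPred_eq, UnitAddCircle.norm_eq, ← sub_sub, round_sub_intCast, Int.cast_sub]
  rw [show t - c - n - (round (t - c) - n) = t - c - round (t - c) by ring]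

theorem mem_arc_add_one (c r t : ℝ) : t + 1 ∈ arc c r ↔ t ∈ arc c r := by
  simp only [arc, mem_ofPred_eq, add_sub_right_comm t, AddCircle.coe_add_period]

theorem mem_arc_iff {c r t : ℝ} (ht : |t - c| ≤ 1 / 2) : t ∈ arc c r ↔ |t - c| < r := by
  rw [arc, mem_ofPred_eq, (AddCircle.norm_coe_eq_abs_iff 1 one_ne_zero).2 (by rwa [abs_one])]

theorem key_ArcB (c : ℝ) {r : ℝ} (h0 : 0 ≤ r) (h1 : r ≤ 1 / 2) {g : ℝ → ℝ}
    (hg : ∀ t, g (t + 1) = g t) :
    ∫ t, ind (arc c r) t * g t ∂μ1 = ∫ t in (c - r)..(c + r), g t := by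
  have hp : Function.Periodic (fun t => ind (arc c r) t * g t) 1 := fun t => by
    by_cases h : t ∈ arc c r <;> simp [ind, mem_arc_add_one, hg, h]
  have h2 := hp.intervalIntegral_add_eq 0 (c - 1 / 2)
  rw [zero_add] at h2
  rw [integral_μ1, h2, intervalIntegral.integral_of_le (by linarith),
    intervalIntegral.integral_of_le (by linarith), integral_Ioc_eq_integral_Ioo (x := c - r),
    ← inter_eq_right.2 (show Ioo (c - r) (c + r) ⊆ Ioc (c - 1 / 2) (c - 1 / 2 + 1) from
      fun t ht => ⟨by linarith [ht.1], by linarith [ht.2]⟩),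
    ← setIntegral_indicator measurableSet_Ioo]
  refine setIntegral_congr_fun measurableSet_Ioc fun t ht => ?_
  have h3 : t ∈ arc c r ↔ t ∈ Ioo (c - r) (c + r) := by
    rw [mem_arc_iff (abs_le.2 ⟨by linarith [ht.1], by linarith [ht.2]⟩), ← Real.ball_eq_Ioo]
    rfl
  by_cases h : t ∈ arc c r
  · simp [ind, h, h3.1 h]
  · simp [ind, h, mt h3.2 h]

theorem real_arc (c : ℝ) {r : ℝ} (h0 : 0 ≤ r) (h1 : r ≤ 1 / 2) : μ1.real (arc c r) = 2 * r := by
  have h := key_ArcB c h0 h1 (g := fun _ => 1) fun _ => rfl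
  simp only [mul_one, integral_ind μ1 (measurableSet_arc c r), intervalIntegral.integral_const,
    smul_eq_mul] at h
  linarith

theorem integral_arc_cos (c φ : ℝ) {r : ℝ} (h0 : 0 ≤ r) (h1 : r ≤ 1 / 2) :
    ∫ t, ind (arc c r) t * Real.cos (2 * Real.pi * t - φ) ∂μ1 =
      Real.cos (2 * Real.pi * c - φ) * Real.sin (2 * Real.pi * r) / Real.pi := by
  rw [key_ArcB c h0 h1 fun t => by
      rw [mul_add, mul_one, add_sub_right_comm, Real.cos_add_two_pi],
    intervalIntegral.integral_comp_mul_sub _ (by positivity), integral_cos, mul_add, mul_sub,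
    add_sub_right_comm, sub_right_comm, Real.sin_add, Real.sin_sub (_ - φ), smul_eq_mul]
  field_simp
  ring

theorem all_ArcB (c r : ℝ) : μ1.real (arc c r) = max 0 (min 1 (2 * r)) := by
  rcases le_total r 0 with h | h
  · rw [max_eq_left (min_le_of_right_le (by linarith)), show arc c r = ∅ from
      eq_empty_of_forall_notMem fun t ht => (h.trans (norm_nonneg _)).not_gt ht, measureReal_empty]
  rcases le_total r (1 / 2) with h' | h'
  · rw [real_arc c h h', min_eq_right (by linarith), max_eq_right (by linarith)]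
  rw [min_eq_left (by linarith), max_eq_right zero_le_one]
  refine le_antisymm measureReal_le_one (le_trans ?_
    (measureReal_mono (s₁ := arc c (1 / 2)) fun t ht => lt_of_lt_of_le ht h'))
  rw [real_arc c (by norm_num) le_rfl]
  norm_num

theorem int_ArcB {G : Set ℝ} (hG : MeasurableSet G) : Integrable (ind G) μ1 :=
  integrable_of_bdd μ1 (measurable_ind hG) 1 fun x =>
    abs_le.2 ⟨by linarith [(ind_mem G x).1], (ind_mem G x).2⟩

theorem arc_close (c c' r r' : ℝ) :
    ∫ t, |ind (arc c r) t - ind (arc c' r') t| ∂μ1 ≤ 4 * (|c - c'| + |r - r'|) := by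
  have m := measurableSet_arc
  have p1 := abs_nonneg (c - c')
  have p2 := abs_le.1 (le_refl |r - r'|)
  refine (integral_mono ((int_ArcB (m c r)).sub (int_ArcB (m c' r'))).abs
    ((int_ArcB (m c (r + (|c - c'| + |r - r'|)))).sub (int_ArcB (m c (r - (|c - c'| + |r - r'|)))))
    fun t => ?_).trans ?_
  · have h := abs_norm_sub_norm_le ((t - c' : ℝ) : UnitAddCircle) ((t - c : ℝ) : UnitAddCircle)
    rw [← AddCircle.coe_sub, sub_sub_sub_cancel_left] at h
    have h' := abs_le.1 (h.trans QuotientAddGroup.norm_mk_le_norm)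
    rw [Real.norm_eq_abs] at h'
    simp only [Pi.sub_apply, ind, indicator, arc, mem_ofPred_eq]
    split_ifs <;> first | (norm_num; done) | (exfalso; linarith)
  · simp only [Pi.sub_apply]
    rw [integral_sub (int_ArcB (m _ _)) (int_ArcB (m _ _)), integral_ind _ (m _ _),
      integral_ind _ (m _ _), all_ArcB, all_ArcB]
    simp only [max_def, min_def]
    split_ifs <;> linarith

theorem arc_closed {G : Set ℝ} (hG : MeasurableSet G) {r : ℝ}
    (h : ∀ η > (0 : ℝ), ∃ c, ∫ t, |ind G t - ind (arc c r) t| ∂μ1 ≤ η) :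
    ∃ c, G =ᵐ[μ1] arc c r := by
  have i := fun c => ((int_ArcB hG).sub (int_ArcB (measurableSet_arc c r))).abs
  have hc : Continuous fun c => ∫ t, |ind G t - ind (arc c r) t| ∂μ1 := by
    refine (LipschitzWith.of_le_add_mul 4 fun c c' => ?_).continuous
    have j := ((int_ArcB (measurableSet_arc c' r)).sub (int_ArcB (measurableSet_arc c r))).abs
    refine (integral_mono (i c) ((i c').add j) fun t => abs_sub_le _ _ _).trans
      ((integral_add (i c') j).trans_le (add_le_add le_rfl ((arc_close c' c r r).trans_eq ?_)))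
    simp [Real.dist_eq, abs_sub_comm]
  obtain ⟨c, -, h1⟩ := isCompact_Icc.exists_isMinOn (nonempty_Icc.2 zero_le_one) hc.continuousOn
  have h2 : ∫ t, |ind G t - ind (arc c r) t| ∂μ1 = 0 := by
    refine le_antisymm (le_of_forall_pos_le_add fun η hη => ?_)
      (integral_nonneg fun _ => abs_nonneg _)
    obtain ⟨c', h'⟩ := h η hη
    rw [← Int.fract_add_floor c', arc_add_int] at h'
    exact (le_trans (h1 ⟨Int.fract_nonneg c', (Int.fract_lt_one c').le⟩) h').trans_eq
      (zero_add η).symm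
  refine ⟨c, Filter.eventuallyEq_set.2 ?_⟩
  filter_upwards [(integral_eq_zero_iff_of_nonneg (fun _ => abs_nonneg _) (i c)).1 h2] with t ht
  by_cases h3 : t ∈ G <;> by_cases h4 : t ∈ arc c r <;> simp_all [ind]

theorem arc_eq_of_cos {c c' : ℝ} (r : ℝ)
    (h0 : Real.cos (2 * Real.pi * c - 0) = Real.cos (2 * Real.pi * c' - 0))
    (h1 : Real.cos (2 * Real.pi * c - Real.pi / 2) = Real.cos (2 * Real.pi * c' - Real.pi / 2)) :
    arc c r = arc c' r := by
  rw [sub_zero, sub_zero] at h0
  rw [Real.cos_sub_pi_div_two, Real.cos_sub_pi_div_two] at h1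
  obtain ⟨n, hn⟩ := (Real.cos_eq_one_iff (2 * Real.pi * c - 2 * Real.pi * c')).1 (by
    rw [Real.cos_sub, h0, h1, ← sq, ← sq, Real.cos_sq_add_sin_sq])
  rw [show c = c' + n from mul_left_cancel₀ Real.two_pi_pos.ne' (by linarith), arc_add_int]

end Vale.Agent.P232
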