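import Vale.Agent.P232.Basic

/-!
# P232 / OneD

One-dimensional variation bounds. With `e = ∫ |u - 1_G|`, `m = |G|`: some
`t1 ∈ G ∩ (0,1)` has `u t1 ≥ 1 - e/m` (otherwise `∫_G (1-u) > e`; `exists_le_setAverage` or a direct
contradiction), some `t0 ∈ (0,1) \ G` has `u t0 ≤ e/(1-m)`. Then `|u t1 - u t0| ≤ ∫_{t0}^{t1} |u1|`;
in the periodic case the two complementary pieces `[0,·]`, `[·,1]` give the same amount again.
-/

open MeasureTheory Set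

namespace Vale.Agent.P232

theorem avg_OneD {f : ℝ → ℝ} (hf : Integrable f μ1) (hp : ∀ x, 0 ≤ f x) {S : Set ℝ}
    (h0 : 0 < μ1.real S) : ∃ t ∈ S ∩ Ioo (0 : ℝ) 1, f t ≤ (∫ x, f x ∂μ1) / μ1.real S := by
  have e : μ1.real (S ∩ Ioo 0 1) = μ1.real S :=
    measureReal_congr (inter_ae_eq_left_of_ae_eq_univ (ae_eq_univ.2 (ae_iff.1 ae_μ1_mem)))
  obtain ⟨t, ht, h⟩ := exists_le_setAverage (μ := μ1) (s := S ∩ Ioo 0 1)
    (fun h => by rw [← e, measureReal_def, h] at h0; simp at h0) (measure_ne_top _ _)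
    hf.integrableOn
  refine ⟨t, ht, h.trans ?_⟩
  rw [setAverage_eq, e, smul_eq_mul, inv_mul_eq_div]
  exact div_le_div_of_nonneg_right (setIntegral_le_integral hf (ae_of_all _ hp)) h0.le

theorem var_OneD {u u1 : ℝ → ℝ} (h : Adm1 u u1) {a b : ℝ} (ha : a ∈ Ioo (0 : ℝ) 1)
    (hb : b ∈ Ioo (0 : ℝ) 1) (hab : a ≤ b) :
    |u a - u 0| + |u b - u a| + |u 1 - u b| ≤ ∫ x, |u1 x| ∂μ1 := by
  obtain ⟨C, hC⟩ := h.2.2.1
  have hi : ∀ x y, IntervalIntegrable (fun t => |u1 t|) volume x y := fun x y =>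
    intervalIntegrable_iff.2 (Measure.integrableOn_of_bounded (M := C) measure_Ioc_lt_top.ne
      h.2.1.abs.aestronglyMeasurable (ae_of_all _ fun t => by simpa using (hC t).2))
  have hv : ∀ x y, x ≤ y → |u y - u x| ≤ ∫ t in x..y, |u1 t| := fun x y hxy =>
    h.ftc x y ▸ intervalIntegral.abs_integral_le_integral_abs hxy
  rw [integral_μ1, ← intervalIntegral.integral_add_adjacent_intervals (hi 0 b) (hi b 1),
    ← intervalIntegral.integral_add_adjacent_intervals (hi 0 a) (hi a b)]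
  exact add_le_add (add_le_add (hv _ _ ha.1.le) (hv _ _ hab)) (hv _ _ hb.2.le)

theorem var2_OneD {u u1 : ℝ → ℝ} (h : Adm1 u u1) {a b : ℝ} (ha : a ∈ Ioo (0 : ℝ) 1)
    (hb : b ∈ Ioo (0 : ℝ) 1) :
    2 * (u b - u a) ≤ (∫ x, |u1 x| ∂μ1) + |u 1 - u 0| ∧ u b - u a ≤ ∫ x, |u1 x| ∂μ1 := by
  rcases le_total a b with hab | hab
  · have := var_OneD h ha hb hab
    constructor <;> linarith [le_abs_self (u b - u a), neg_abs_le (u a - u 0),
      neg_abs_le (u 1 - u b), le_abs_self (u 1 - u 0), abs_nonneg (u a - u 0), abs_nonneg (u 1 - u b)]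
  · have := var_OneD h hb ha hab
    constructor <;> linarith [neg_abs_le (u a - u b), le_abs_self (u b - u 0),
      le_abs_self (u 1 - u a), neg_abs_le (u 1 - u 0), abs_nonneg (u b - u 0),
      abs_nonneg (u 1 - u a)]

theorem exists_hi_lo {u u1 : ℝ → ℝ} (h : Adm1 u u1) {G : Set ℝ} (hG : MeasurableSet G)
    (h0 : 0 < μ1.real G) (h1 : μ1.real G < 1) :
    (∃ t1 ∈ Ioo (0 : ℝ) 1, 1 - (∫ x, |u x - ind G x| ∂μ1) / μ1.real G ≤ u t1) ∧
    (∃ t0 ∈ Ioo (0 : ℝ) 1, u t0 ≤ (∫ x, |u x - ind G x| ∂μ1) / (1 - μ1.real G)) := by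
  obtain ⟨C, hC⟩ := h.2.2.1
  have hf : Integrable (fun x => |u x - ind G x|) μ1 :=
    ((integrable_of_bdd μ1 h.1 C fun x => (hC x).1).sub (integrable_of_bdd μ1 (measurable_ind hG) 1
      fun x => abs_le.2 ⟨by linarith [(ind_mem G x).1], (ind_mem G x).2⟩)).abs
  have e : μ1.real Gᶜ = 1 - μ1.real G := probReal_compl_eq_one_sub hG
  obtain ⟨t1, a1, b1⟩ := avg_OneD hf (fun _ => abs_nonneg _) h0
  obtain ⟨t0, a0, b0⟩ := avg_OneD hf (fun _ => abs_nonneg _) (S := Gᶜ) (by linarith)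
  rw [show ind G t1 = 1 from indicator_of_mem a1.1 _] at b1
  rw [show ind G t0 = 0 from indicator_of_notMem a0.1 _, e] at b0
  exact ⟨⟨t1, a1.2, by linarith [neg_abs_le (u t1 - 1)]⟩,
    t0, a0.2, by linarith [le_abs_self (u t0 - 0)]⟩

theorem tv_free {u u1 : ℝ → ℝ} (h : Adm1 u u1) {G : Set ℝ} (hG : MeasurableSet G)
    (h0 : 0 < μ1.real G) (h1 : μ1.real G < 1) :
    1 - (∫ x, |u x - ind G x| ∂μ1) / μ1.real G -
      (∫ x, |u x - ind G x| ∂μ1) / (1 - μ1.real G) ≤ ∫ x, |u1 x| ∂μ1 := by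
  obtain ⟨⟨t1, a1, b1⟩, t0, a0, b0⟩ := exists_hi_lo h hG h0 h1
  linarith [(var2_OneD h a0 a1).2]

theorem tv_per {u u1 : ℝ → ℝ} (h : Adm1 u u1) (hp : u 1 = u 0) {G : Set ℝ}
    (hG : MeasurableSet G) (h0 : 0 < μ1.real G) (h1 : μ1.real G < 1) :
    2 - 2 * (∫ x, |u x - ind G x| ∂μ1) / μ1.real G -
      2 * (∫ x, |u x - ind G x| ∂μ1) / (1 - μ1.real G) ≤ ∫ x, |u1 x| ∂μ1 := by
  obtain ⟨⟨t1, a1, b1⟩, t0, a0, b0⟩ := exists_hi_lo h hG h0 h1
  have := (var2_OneD h a0 a1).1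
  rw [hp, sub_self, abs_zero] at this
  rw [mul_div_assoc, mul_div_assoc]
  linarith

theorem Appr1.one_le {G : Set ℝ} {q : ℝ} (hG : MeasurableSet G) (h : Appr1 G q)
    (h0 : 0 < μ1.real G) (h1 : μ1.real G < 1) : 1 ≤ q := by
  have h2 : 0 < 1 - μ1.real G := by linarith
  have hK : 0 < 1 + (μ1.real G)⁻¹ + (1 - μ1.real G)⁻¹ := by positivity
  refine le_of_forall_pos_le_add fun δ hδ => ?_
  obtain ⟨u, u1, ha, hb, hc⟩ := h _ (div_pos hδ hK)
  have h3 := tv_free ha hG h0 h1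
  have h4 := div_le_div_of_nonneg_right hb h0.le
  have h5 := div_le_div_of_nonneg_right hb h2.le
  have h6 := div_mul_cancel₀ δ hK.ne'
  rw [div_eq_mul_inv (_ / _)] at h4 h5
  linarith

end Vale.Agent.P232
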