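import Vale.Agent.P232.ArcA
import Vale.Agent.P232.ArcB
import Vale.Agent.P232.OneD

/-!
# P232 / Arc

Stability on the circle. `e = ∫|u - 1_G|`, `τ = ∫|u1|`, `m = |G|`, `ε = 2e/δ + max (τ-2) 0`.
If `ε > 1/100` the claim is trivial for large `C` (the first quantity is `≤ 1`, the second
`≤ τ + 2 ≤ 4 + max (τ-2) 0`). Otherwise `exists_hi_lo` gives `u t0 ≤ e/δ`, `u t1 ≥ 1 - e/δ`; replace `t1`
by `t1 + 1` if needed so that `t0 < t1 < t0 + 1`. `u1` is periodic (uniqueness of derivatives), so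
integrals over `(0,1)` equal integrals over `(t0, t0+1)`; use `χ t = ind G (Int.fract t)`. Each of the two
pieces has variation `≥ 1 - 2e/δ`, hence `≤ 1 + ε`. `step_lemma` for `u` on `[t0,t1]` and for `1 - u`
(with `1 - χ`) on `[t1,t0+1]` give `s < s'`; `c = (s+s')/2`; on `(t0,t0+1)` the arc
`arc c ((s'-s)/2)` is `(s,s')` up to end points; `|m - (s'-s)| ≤ 4e`, `arc_close`;
`cos(2πs-φ) + cos(2πs'-φ) = 2 cos(2πc-φ) cos(π(s'-s))`.
-/

open MeasureTheory Set

namespace Vale.Agent.P232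

theorem ii_Arc {g : ℝ → ℝ} (hg : Measurable g) (C : ℝ) (hC : ∀ x, |g x| ≤ C) (a b : ℝ) :
    IntervalIntegrable g volume a b :=
  ⟨integrable_of_bdd _ hg C hC, integrable_of_bdd _ hg C hC⟩

theorem per_Arc {f : ℝ → ℝ} (hf : ∀ t, f (t + 1) = f t) (a : ℝ) :
    ∫ t, f t ∂μ1 = ∫ t in a..a + 1, f t := by
  rw [integral_μ1, ← Function.Periodic.intervalIntegral_add_eq hf 0 a, zero_add]

theorem congr_Arc {f g : ℝ → ℝ} {a b : ℝ} (hab : a ≤ b) (h : ∀ x ∈ Ioo a b, f x = g x) :
    ∫ t in a..b, f t = ∫ t in a..b, g t := by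
  rw [intervalIntegral.integral_of_le hab, intervalIntegral.integral_of_le hab,
    integral_Ioc_eq_integral_Ioo, integral_Ioc_eq_integral_Ioo]
  exact setIntegral_congr_fun measurableSet_Ioo h

theorem absind_Arc {α : Type} (E : Set α) (x : α) : |ind E x| ≤ 1 := by
  rw [abs_of_nonneg (ind_mem E x).1]
  exact (ind_mem E x).2

theorem sub_Arc {a b A B : ℝ} (ha : |a| ≤ A) (hb : |b| ≤ B) : |(|a - b|)| ≤ A + B := by
  rw [abs_abs]
  exact (abs_sub a b).trans (add_le_add ha hb)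

theorem mem_Arc {a s s' t : ℝ} (h1 : a ≤ s) (h2 : s ≤ s') (h3 : s' ≤ a + 1) (h4 : a ≤ t)
    (h5 : t ≤ a + 1) : t ∈ arc ((s + s') / 2) ((s' - s) / 2) ↔ s < t ∧ t < s' := by
  rcases lt_or_ge (t - (s + s') / 2) (-(1 / 2)) with h | h
  · rw [← mem_arc_add_one, mem_arc_iff (abs_le.2 ⟨by linarith, by linarith⟩), abs_lt]
    constructor <;> intro h <;> linarith [h.1, h.2]
  rcases lt_or_ge (1 / 2) (t - (s + s') / 2) with h' | h'
  · rw [← sub_add_cancel t 1, mem_arc_add_one, mem_arc_iff (abs_le.2 ⟨by linarith, by linarith⟩),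
      abs_lt]
    constructor <;> intro h <;> linarith [h.1, h.2]
  · rw [mem_arc_iff (abs_le.2 ⟨h, h'⟩), abs_lt]
    constructor <;> intro h <;> constructor <;> linarith [h.1, h.2]

theorem core_Arc {u u1 : ℝ → ℝ} (h : Adm1 u u1) {a b ε : ℝ} (hab : a < b) (hb1 : b < a + 1)
    (hε0 : 0 ≤ ε) (hε : ε ≤ 1 / 100) (ha : u a ≤ ε) (ha' : u (a + 1) ≤ ε) (hb : 1 - ε ≤ u b)
    (h1 : ∫ t in a..b, |u1 t| ≤ 1 + ε) (h2 : ∫ t in b..a + 1, |u1 t| ≤ 1 + ε)
    {χ : ℝ → ℝ} (hχ : Measurable χ) (hχ01 : ∀ t, χ t = 0 ∨ χ t = 1) :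
    ∃ c r : ℝ, 0 ≤ r ∧ r ≤ 1 / 2 ∧
      ∫ t in a..a + 1, |u t - ind (arc c r) t| ≤ 3 * ∫ t in a..a + 1, |u t - χ t| ∧
      ∀ φ : ℝ, |(∫ t in a..a + 1, |u1 t| * Real.cos (2 * Real.pi * t - φ)) -
        2 * Real.cos (2 * Real.pi * r) * Real.cos (2 * Real.pi * c - φ)| ≤
        20 * ε + 3 * (2 * Real.pi) * ∫ t in a..a + 1, |u t - χ t| := by
  obtain ⟨s, hs, p1, q1⟩ := step_lemma h hab hε0 hε ha hb h1 hχ hχ01
  obtain ⟨mu, mu1, ⟨B, hB⟩, hd⟩ := h
  have h' : Adm1 (fun t => 1 - u t) fun t => -u1 t :=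
    ⟨mu.const_sub 1, mu1.neg, ⟨1 + B, fun x => ⟨(abs_sub _ _).trans (by simp [(hB x).1]),
      by rw [abs_neg]; linarith [(hB x).2]⟩⟩, fun x => (hd x).const_sub 1⟩
  obtain ⟨s', hs', p2, q2⟩ := step_lemma h' hb1 hε0 hε (by linarith) (by linarith)
    (by simpa using h2) (hχ.const_sub 1) fun t => by rcases hχ01 t with e | e <;> simp [e]
  have e1 : ∀ t, |1 - u t - (1 - χ t)| = |u t - χ t| := fun t => by
    rw [abs_sub_comm]
    congr 1
    ring
  have e2 : ∀ t, |1 - u t - 1| = |u t| := fun t => by rw [sub_sub_cancel_left, abs_neg]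
  simp only [e1, e2, abs_neg] at p2 q2
  have i1 := ii_Arc (g := fun t => |u t - χ t|) (by fun_prop) (B + 1) fun t =>
    sub_Arc (hB t).1 (by rcases hχ01 t with e | e <;> simp [e])
  have e3 := intervalIntegral.integral_add_adjacent_intervals (i1 a b) (i1 b (a + 1))
  refine ⟨(s + s') / 2, (s' - s) / 2, by linarith [hs.2, hs'.1], by linarith [hs.1, hs'.2], ?_,
    fun φ => ?_⟩
  · have mi := measurable_ind (measurableSet_arc ((s + s') / 2) ((s' - s) / 2))
    have i2 := ii_Arc (g := fun t => |u t - ind (arc ((s + s') / 2) ((s' - s) / 2)) t|)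
      (by fun_prop) (B + 1) fun t => sub_Arc (hB t).1 (absind_Arc _ _)
    have m := fun t => mem_Arc (t := t) hs.1.le (hs.2.trans hs'.1).le hs'.2.le
    rw [← intervalIntegral.integral_add_adjacent_intervals (i2 a b) (i2 b (a + 1)),
      ← intervalIntegral.integral_add_adjacent_intervals (i2 a s) (i2 s b),
      ← intervalIntegral.integral_add_adjacent_intervals (i2 b s') (i2 s' (a + 1)),
      congr_Arc (g := fun t => |u t|) hs.1.le, congr_Arc (g := fun t => |u t - 1|) hs.2.le,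
      congr_Arc (g := fun t => |1 - u t|) hs'.1.le, congr_Arc (g := fun t => |u t|) hs'.2.le]
    · linarith
    · intro x hx
      rw [ind, indicator_of_notMem, sub_zero]
      rw [m x (by linarith [hx.1, hs'.1]) hx.2.le]
      exact fun h => h.2.not_gt hx.1
    · intro x hx
      rw [ind, indicator_of_mem, abs_sub_comm]
      exact (m x (by linarith [hx.1]) (by linarith [hx.2, hs'.2])).2 ⟨hs.2.trans hx.1, hx.2⟩
    · intro x hx
      rw [ind, indicator_of_mem]
      exact (m x (by linarith [hx.1, hs.1]) (by linarith [hx.2])).2 ⟨hx.1, hx.2.trans hs'.1⟩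
    · intro x hx
      rw [ind, indicator_of_notMem, sub_zero]
      rw [m x hx.1.le (by linarith [hx.2, hs.2])]
      exact fun h => h.1.not_gt hx.2
  · have hψ : ∀ t, HasDerivAt (fun t => Real.cos (2 * Real.pi * t - φ))
        (-Real.sin (2 * Real.pi * t - φ) * (2 * Real.pi)) t := fun t => by
      simpa using (((hasDerivAt_id t).const_mul (2 * Real.pi)).sub_const φ).cos
    have hL : ∀ t, |-Real.sin (2 * Real.pi * t - φ) * (2 * Real.pi)| ≤ 2 * Real.pi := fun t => by
      rw [abs_mul, abs_neg, abs_of_pos Real.two_pi_pos]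
      exact mul_le_of_le_one_left Real.two_pi_pos.le (Real.abs_sin_le_one _)
    have r1 := q1 _ _ _ hψ (by fun_prop) (fun t => Real.abs_cos_le_one _) hL
    have r2 := q2 _ _ _ hψ (by fun_prop) (fun t => Real.abs_cos_le_one _) hL
    have i2 := ii_Arc (g := fun t => |u1 t| * Real.cos (2 * Real.pi * t - φ)) (by fun_prop) B
      fun t => by
        rw [abs_mul, abs_abs]
        exact (mul_le_of_le_one_right (abs_nonneg _) (Real.abs_cos_le_one _)).trans (hB t).2
    have e4 : Real.cos (2 * Real.pi * s - φ) + Real.cos (2 * Real.pi * s' - φ) =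
        2 * Real.cos (2 * Real.pi * ((s' - s) / 2)) *
          Real.cos (2 * Real.pi * ((s + s') / 2) - φ) := by
      rw [show 2 * Real.pi * s - φ = 2 * Real.pi * ((s + s') / 2) - φ -
          2 * Real.pi * ((s' - s) / 2) by ring, show 2 * Real.pi * s' - φ =
          2 * Real.pi * ((s + s') / 2) - φ + 2 * Real.pi * ((s' - s) / 2) by ring,
        Real.cos_add, Real.cos_sub (_ - φ)]
      ring
    rw [← intervalIntegral.integral_add_adjacent_intervals (i2 a b) (i2 b (a + 1)), ← e3, ← e4]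
    rw [abs_le] at r1 r2 ⊢
    constructor <;> linarith [r1.1, r1.2, r2.1, r2.2]

theorem tri_Arc {f g k : ℝ → ℝ} (hf : Integrable f μ1) (hg : Integrable g μ1)
    (hk : Integrable k μ1) :
    ∫ t, |f t - k t| ∂μ1 ≤ ∫ t, |f t - g t| ∂μ1 + ∫ t, |g t - k t| ∂μ1 := by
  exact (integral_mono (hf.sub hk).abs ((hf.sub hg).abs.add (hg.sub hk).abs)
    fun t => abs_sub_le _ _ _).trans_eq (integral_add (hf.sub hg).abs (hg.sub hk).abs)

theorem arc_stab {δ : ℝ} (hδ : 0 < δ) : ∃ C : ℝ, 0 ≤ C ∧ ∀ (u u1 : ℝ → ℝ) (G : Set ℝ),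
    Adm1 u u1 → (∀ t, u (t + 1) = u t) → MeasurableSet G → δ ≤ μ1.real G →
    μ1.real G ≤ 1 - δ → ∃ c : ℝ,
      ∫ t, |ind G t - ind (arc c (μ1.real G / 2)) t| ∂μ1 ≤
        C * ((∫ t, |u t - ind G t| ∂μ1) + max (∫ t, |u1 t| ∂μ1 - 2) 0) ∧
      ∀ φ : ℝ, |(∫ t, |u1 t| * Real.cos (2 * Real.pi * t - φ) ∂μ1) -
          2 * Real.cos (Real.pi * μ1.real G) * Real.cos (2 * Real.pi * c - φ)| ≤
        C * ((∫ t, |u t - ind G t| ∂μ1) + max (∫ t, |u1 t| ∂μ1 - 2) 0) := by
  refine ⟨400 * (2 / δ + 1) + 60, by positivity, fun u u1 G h hp hG hm1 hm2 => ?_⟩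
  obtain ⟨⟨t1, ht1, hu1⟩, t0, ht0, hu0⟩ := exists_hi_lo h hG (by linarith) (by linarith)
  have ⟨mu, mu1, ⟨B, hB⟩, hd⟩ := h
  have iG := integrable_of_bdd μ1 (measurable_ind hG) 1 (absind_Arc G)
  have iA := fun c r => integrable_of_bdd μ1 (measurable_ind (measurableSet_arc c r)) 1
    (absind_Arc _)
  have iu := integrable_of_bdd μ1 mu B fun x => (hB x).1
  have i1 := ii_Arc (g := fun t => |u1 t|) (by fun_prop) B fun t => by
    rw [abs_abs]
    exact (hB t).2
  have hp1 : ∀ t, u1 (t + 1) = u1 t := fun t => by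
    have := (hd (t + 1)).comp_add_const t 1
    simp only [hp] at this
    exact this.unique (hd t)
  have he0 : 0 ≤ ∫ t, |u t - ind G t| ∂μ1 := integral_nonneg fun _ => abs_nonneg _
  have eτ := per_Arc (f := fun t => |u1 t|) (fun t => by rw [hp1]) t0
  have eχ : ∫ t in t0..t0 + 1, |u t - ind G (Int.fract t)| = ∫ t, |u t - ind G t| ∂μ1 := by
    rw [← per_Arc (fun t => by rw [hp, Int.fract_add_one]), integral_μ1, integral_μ1]
    exact congr_Arc zero_le_one fun x hx => by rw [Int.fract_eq_self.2 ⟨hx.1.le, hx.2⟩]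
  set e := ∫ t, |u t - ind G t| ∂μ1 with he
  set m := μ1.real G with hm
  have hτ := le_max_left (∫ t, |u1 t| ∂μ1 - 2) 0
  have hq := le_max_right (∫ t, |u1 t| ∂μ1 - 2) 0
  set q := max (∫ t, |u1 t| ∂μ1 - 2) 0
  have hη : 0 ≤ e / δ := by positivity
  have hK : 2 * (e / δ) + q ≤ (2 / δ + 1) * (e + q) := by
    have : 0 ≤ 2 / δ * q := by positivity
    have e1 : 2 * (e / δ) = 2 / δ * e := by ring
    nlinarith
  have eC : (400 * (2 / δ + 1) + 60) * (e + q) = 400 * ((2 / δ + 1) * (e + q)) + 60 * (e + q) := by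
    ring
  rw [eC]
  rcases lt_or_ge (1 / 100) (2 * (e / δ) + q) with hε | hε
  · refine ⟨0, ?_, fun φ => ?_⟩
    · have : ∫ t, |ind G t - ind (arc 0 (m / 2)) t| ∂μ1 ≤ ∫ _, (2 : ℝ) ∂μ1 :=
        integral_mono (iG.sub (iA _ _)).abs (integrable_const _) fun t =>
          (abs_sub _ _).trans (by linarith [absind_Arc G t, absind_Arc (arc 0 (m / 2)) t])
      rw [integral_const, probReal_univ, one_smul] at this
      linarith
    · have a1 : |∫ t, |u1 t| * Real.cos (2 * Real.pi * t - φ) ∂μ1| ≤ ∫ t, |u1 t| ∂μ1 := by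
        rw [← Real.norm_eq_abs]
        refine norm_integral_le_of_norm_le
          (integrable_of_bdd μ1 mu1 B fun x => (hB x).2).abs (ae_of_all _ fun t => ?_)
        rw [Real.norm_eq_abs, abs_mul, abs_abs]
        exact mul_le_of_le_one_right (abs_nonneg _) (Real.abs_cos_le_one _)
      have a2 : |2 * Real.cos (Real.pi * m) * Real.cos (2 * Real.pi * 0 - φ)| ≤ 2 := by
        rw [abs_mul, abs_mul, abs_two, mul_assoc]
        exact mul_le_of_le_one_right zero_le_two
          (mul_le_one₀ (Real.abs_cos_le_one _) (abs_nonneg _) (Real.abs_cos_le_one _))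
      refine (abs_sub _ _).trans ?_
      linarith
  have b0 : u t0 ≤ e / δ := hu0.trans (div_le_div_of_nonneg_left he0 hδ (by linarith))
  have b1 : 1 - e / δ ≤ u t1 :=
    le_trans (by linarith [div_le_div_of_nonneg_left he0 hδ hm1]) hu1
  obtain ⟨b, c1, c2, c3⟩ : ∃ b, t0 < b ∧ b < t0 + 1 ∧ u b = u t1 := by
    rcases lt_trichotomy t0 t1 with h' | h' | h'
    · exact ⟨t1, h', by linarith [ht0.1, ht1.2], rfl⟩
    · rw [h'] at b0
      linarith
    · exact ⟨t1 + 1, by linarith [ht0.2, ht1.1], by linarith, hp t1⟩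
  have v1 := intervalIntegral.abs_integral_le_integral_abs (f := u1) (μ := volume) c1.le
  have v2 := intervalIntegral.abs_integral_le_integral_abs (f := u1) (μ := volume) c2.le
  rw [h.ftc] at v1 v2
  rw [hp] at v2
  have v3 := intervalIntegral.integral_add_adjacent_intervals (i1 t0 b) (i1 b (t0 + 1))
  obtain ⟨c, r, r0, r1, r2, r3⟩ := core_Arc h c1 c2 (by linarith) hε (by linarith)
    (by rw [hp]; linarith) (by linarith) (by linarith [(abs_le.1 v2).1])
    (by linarith [(abs_le.1 v1).2]) (χ := fun t => ind G (Int.fract t))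
    ((measurable_ind hG).comp measurable_fract) fun t => by
      by_cases ht : Int.fract t ∈ G <;> simp [ind, ht]
  rw [eχ] at r2 r3
  have pa : ∀ t, ind (arc c r) (t + 1) = ind (arc c r) t := fun t => by
    by_cases ht : t ∈ arc c r <;> simp [ind, ht, mem_arc_add_one]
  rw [← per_Arc fun t => by rw [hp, pa]] at r2
  have w1 := tri_Arc iG iu (iA c r)
  simp only [abs_sub_comm (ind G _) (u _)] at w1
  have w2 : |m - 2 * r| ≤ 4 * e := by
    rw [hm, ← real_arc c r0 r1, ← integral_ind μ1 hG, ← integral_ind μ1 (measurableSet_arc c r),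
      ← integral_sub iG (iA c r)]
    exact abs_integral_le_integral_abs.trans (by linarith)
  refine ⟨c, ?_, fun φ => ?_⟩
  · have w3 := tri_Arc iG (iA c r) (iA c (m / 2))
    have w4 := arc_close c c r (m / 2)
    have w5 : |r - m / 2| ≤ 2 * e := by
      rw [abs_le] at w2 ⊢
      constructor <;> linarith [w2.1, w2.2]
    rw [sub_self, abs_zero] at w4
    linarith
  · have w3 := r3 φ
    rw [← per_Arc fun t => by
      rw [hp1, show 2 * Real.pi * (t + 1) - φ = 2 * Real.pi * t - φ + 2 * Real.pi by ring,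
        Real.cos_add_two_pi]] at w3
    have w4 : |2 * Real.cos (2 * Real.pi * r) * Real.cos (2 * Real.pi * c - φ) -
        2 * Real.cos (Real.pi * m) * Real.cos (2 * Real.pi * c - φ)| ≤ 2 * (4 * (4 * e)) := by
      rw [← sub_mul, ← mul_sub, abs_mul, abs_mul, abs_two]
      refine (mul_le_of_le_one_right (by positivity) (Real.abs_cos_le_one _)).trans
        (mul_le_mul_of_nonneg_left ((Real.abs_cos_sub_cos_le _ _).trans ?_) zero_le_two)
      rw [show 2 * Real.pi * r - Real.pi * m = -(Real.pi * (m - 2 * r)) by ring, abs_neg, abs_mul,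
        abs_of_pos Real.pi_pos]
      exact mul_le_mul Real.pi_le_four w2 (abs_nonneg _) (by norm_num)
    have w5 := mul_le_mul_of_nonneg_right Real.pi_le_four he0
    refine (abs_sub_le _ _ _).trans ((add_le_add w3 w4).trans ?_)
    linarith

end Vale.Agent.P232
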