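import Vale.Agent.P232.Core2
import Vale.Agent.P232.Basic

/-!
# P232 / ArcA

An almost monotone transition is close to a step. `u b - u a ≤ ∫|u1| ≤ 1 + ε` gives
`u a ≥ -2ε`, `u b ≤ 1 + 2ε`, and `∫ (|u1| - u1) ≤ 3ε`, so `u y - u x ≥ -3ε/2` for `a ≤ x ≤ y ≤ b`.
Take `s` with `u s = 1/2` (IVT). For `t > s`: `u t ≥ 1/4`, so `|u t - 1| ≤ 3 |u t - χ t|`; for `t < s`:
`u t ≤ 3/4`, so `|u t| ≤ 3 |u t - χ t|`. Then `∫ |u1| ψ = ∫ u1 ψ ± 3ε`, integrate by parts
(`intervalIntegral.integral_mul_deriv_eq_deriv_mul` or FTC for `u ψ`), and compare `∫ u ψ'` with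
`∫_s^b ψ' = ψ b - ψ s`.
-/

open MeasureTheory Set

namespace Vale.Agent.P232

theorem ii_ArcA {g : ℝ → ℝ} (hg : Measurable g) (C : ℝ) (hC : ∀ x, |g x| ≤ C) (x y : ℝ) :
    IntervalIntegrable g volume x y := by
  rw [intervalIntegrable_iff]
  have : IsFiniteMeasure (volume.restrict (uIoc x y)) := by
    rw [isFiniteMeasure_restrict]
    exact (measure_Ioc_lt_top).ne
  exact integrable_of_bdd _ hg C hC

theorem step_lemma {u u1 : ℝ → ℝ} (h : Adm1 u u1) {a b ε : ℝ} (hab : a < b) (hε0 : 0 ≤ ε)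
    (hε : ε ≤ 1 / 100) (ha : u a ≤ ε) (hb : 1 - ε ≤ u b) (htv : ∫ t in a..b, |u1 t| ≤ 1 + ε)
    {χ : ℝ → ℝ} (hχ : Measurable χ) (hχ01 : ∀ t, χ t = 0 ∨ χ t = 1) :
    ∃ s ∈ Ioo a b, (∫ t in a..s, |u t|) + (∫ t in s..b, |u t - 1|) ≤
        3 * ∫ t in a..b, |u t - χ t| ∧
      ∀ (ψ ψ' : ℝ → ℝ) (L : ℝ), (∀ t, HasDerivAt ψ (ψ' t) t) → Continuous ψ' →
        (∀ t, |ψ t| ≤ 1) → (∀ t, |ψ' t| ≤ L) →
        |(∫ t in a..b, |u1 t| * ψ t) - ψ s| ≤ 10 * ε + 3 * L * ∫ t in a..b, |u t - χ t| := by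
  obtain ⟨hum, hu1m, ⟨C, hC⟩, hd⟩ := id h
  have huc : Continuous u := continuous_iff_continuousAt.2 fun x => (hd x).continuousAt
  have i1 : ∀ x y, IntervalIntegrable u1 volume x y :=
    fun x y => ii_ArcA hu1m C (fun t => (hC t).2) x y
  have i1a : ∀ x y, IntervalIntegrable (fun t => |u1 t|) volume x y := fun x y => (i1 x y).abs
  have iχ : ∀ x y, IntervalIntegrable χ volume x y := fun x y =>
    ii_ArcA hχ 1 (fun t => by rcases hχ01 t with h0 | h0 <;> simp [h0]) x y
  have iu : ∀ x y, IntervalIntegrable u volume x y := fun x y => huc.intervalIntegrable x y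
  have ie : ∀ x y, IntervalIntegrable (fun t => |u t - χ t|) volume x y :=
    fun x y => ((iu x y).sub (iχ x y)).abs
  have iD : ∀ x y, IntervalIntegrable (fun t => |u1 t| - u1 t) volume x y :=
    fun x y => (i1a x y).sub (i1 x y)
  have hD0 : ∀ t, 0 ≤ |u1 t| - u1 t := fun t => sub_nonneg.2 (le_abs_self _)
  have hftc := h.ftc a b
  have hD : ∫ t in a..b, (|u1 t| - u1 t) ≤ 3 * ε := by
    rw [intervalIntegral.integral_sub (i1a a b) (i1 a b), hftc]
    linarith
  have hDn : 0 ≤ ∫ t in a..b, (|u1 t| - u1 t) :=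
    intervalIntegral.integral_nonneg hab.le fun t _ => hD0 t
  have hup : u b - u a ≤ 1 + ε := by
    rw [intervalIntegral.integral_sub (i1a a b) (i1 a b), hftc] at hDn
    linarith
  have hmono : ∀ x y, a ≤ x → x ≤ y → y ≤ b → u x - u y ≤ 3 * ε := by
    intro x y hx hxy hy
    have e1 : u x - u y = ∫ t in x..y, -u1 t := by
      rw [intervalIntegral.integral_neg, h.ftc x y]; ring
    have e2 : ∫ t in x..y, -u1 t ≤ ∫ t in x..y, (|u1 t| - u1 t) :=
      intervalIntegral.integral_mono_on hxy (i1 x y).neg (iD x y) fun t _ => by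
        have := abs_nonneg (u1 t)
        linarith
    have e3 : ∫ t in x..y, (|u1 t| - u1 t) ≤ ∫ t in a..b, (|u1 t| - u1 t) :=
      intervalIntegral.integral_mono_interval hx hxy hy
        (Filter.Eventually.of_forall fun t => hD0 t) (iD a b)
    linarith
  obtain ⟨s, hs, hus⟩ : (1 / 2 : ℝ) ∈ u '' Ioo a b :=
    intermediate_value_Ioo hab.le huc.continuousOn ⟨by linarith, by linarith⟩
  have hl : ∫ t in a..s, |u t| ≤ ∫ t in a..s, 3 * |u t - χ t| := by
    refine intervalIntegral.integral_mono_on hs.1.le (iu a s).abs ((ie a s).const_mul 3) ?_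
    intro t ht
    have h1 := hmono t s ht.1 ht.2 hs.2.le
    rcases hχ01 t with h0 | h0
    · rw [h0, sub_zero]
      have := abs_nonneg (u t)
      linarith
    · rw [h0, abs_of_nonpos (by linarith : u t - 1 ≤ 0), abs_le]
      constructor <;> linarith
  have hr : ∫ t in s..b, |u t - 1| ≤ ∫ t in s..b, 3 * |u t - χ t| := by
    refine intervalIntegral.integral_mono_on hs.2.le
      ((iu s b).sub intervalIntegrable_const).abs ((ie s b).const_mul 3) ?_
    intro t ht
    have h1 := hmono s t hs.1.le ht.1 ht.2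
    rcases hχ01 t with h0 | h0
    · rw [h0, sub_zero, abs_of_nonneg (by linarith : 0 ≤ u t), abs_le]
      constructor <;> linarith
    · rw [h0]
      have := abs_nonneg (u t - 1)
      linarith
  have hsum : (∫ t in a..s, |u t|) + (∫ t in s..b, |u t - 1|) ≤
      3 * ∫ t in a..b, |u t - χ t| := by
    rw [intervalIntegral.integral_const_mul] at hl hr
    rw [← intervalIntegral.integral_add_adjacent_intervals (ie a s) (ie s b)]
    linarith
  refine ⟨s, hs, hsum, ?_⟩
  intro ψ ψ' L hψ hψ'c hψ1 hL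
  have hψc : Continuous ψ := continuous_iff_continuousAt.2 fun x => (hψ x).continuousAt
  have hL0 : 0 ≤ L := (abs_nonneg _).trans (hL 0)
  have iψ' : ∀ x y, IntervalIntegrable ψ' volume x y := fun x y => hψ'c.intervalIntegrable x y
  have hibp : ∫ t in a..b, u t * ψ' t = u b * ψ b - u a * ψ a - ∫ t in a..b, u1 t * ψ t :=
    intervalIntegral.integral_mul_deriv_eq_deriv_mul (fun t _ => hd t) (fun t _ => hψ t)
      (i1 a b) (iψ' a b)
  have iuψ : ∀ x y, IntervalIntegrable (fun t => u t * ψ' t) volume x y :=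
    fun x y => (huc.mul hψ'c).intervalIntegrable x y
  have iuψ1 : IntervalIntegrable (fun t => (u t - 1) * ψ' t) volume s b :=
    ((huc.sub continuous_const).mul hψ'c).intervalIntegrable s b
  have hsplit : ∫ t in a..b, u t * ψ' t =
      (∫ t in a..s, u t * ψ' t) + (∫ t in s..b, (u t - 1) * ψ' t) + (ψ b - ψ s) := by
    rw [← intervalIntegral.integral_add_adjacent_intervals (iuψ a s) (iuψ s b),
      ← intervalIntegral.integral_eq_sub_of_hasDerivAt (fun t _ => hψ t) (iψ' s b), add_assoc,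
      ← intervalIntegral.integral_add iuψ1 (iψ' s b)]
    refine congrArg _ (intervalIntegral.integral_congr fun t _ => ?_)
    ring
  have hA : |∫ t in a..s, u t * ψ' t| ≤ L * ∫ t in a..s, |u t| := by
    rw [← intervalIntegral.integral_const_mul]
    refine (intervalIntegral.abs_integral_le_integral_abs hs.1.le).trans ?_
    refine intervalIntegral.integral_mono_on hs.1.le (iuψ a s).abs ((iu a s).abs.const_mul L) ?_
    intro t _
    rw [abs_mul, mul_comm]
    exact mul_le_mul_of_nonneg_right (hL t) (abs_nonneg _)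
  have hB : |∫ t in s..b, (u t - 1) * ψ' t| ≤ L * ∫ t in s..b, |u t - 1| := by
    rw [← intervalIntegral.integral_const_mul]
    refine (intervalIntegral.abs_integral_le_integral_abs hs.2.le).trans ?_
    refine intervalIntegral.integral_mono_on hs.2.le
      iuψ1.abs
      (((iu s b).sub intervalIntegrable_const).abs.const_mul L) ?_
    intro t _
    rw [abs_mul, mul_comm]
    exact mul_le_mul_of_nonneg_right (hL t) (abs_nonneg _)
  have iDψ : IntervalIntegrable (fun t => (|u1 t| - u1 t) * ψ t) volume a b :=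
    (iD a b).mul_continuousOn hψc.continuousOn
  have i1ψ : IntervalIntegrable (fun t => u1 t * ψ t) volume a b :=
    (i1 a b).mul_continuousOn hψc.continuousOn
  have hE : |∫ t in a..b, (|u1 t| - u1 t) * ψ t| ≤ 3 * ε := by
    refine (intervalIntegral.abs_integral_le_integral_abs hab.le).trans (le_trans ?_ hD)
    refine intervalIntegral.integral_mono_on hab.le iDψ.abs (iD a b) ?_
    intro t _
    rw [abs_mul, abs_of_nonneg (hD0 t)]
    exact mul_le_of_le_one_right (hD0 t) (hψ1 t)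
  have hF : ∫ t in a..b, |u1 t| * ψ t =
      (∫ t in a..b, (|u1 t| - u1 t) * ψ t) + ∫ t in a..b, u1 t * ψ t := by
    rw [← intervalIntegral.integral_add iDψ i1ψ]
    refine intervalIntegral.integral_congr fun t _ => ?_
    ring
  have hG1 : |(u b - 1) * ψ b| ≤ 2 * ε := by
    rw [abs_mul]
    have h1 : |u b - 1| ≤ 2 * ε := by
      rw [abs_le]; constructor <;> linarith
    calc |u b - 1| * |ψ b| ≤ (2 * ε) * 1 :=
          mul_le_mul h1 (hψ1 b) (abs_nonneg _) (by linarith)
      _ = 2 * ε := mul_one _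
  have hG2 : |u a * ψ a| ≤ 2 * ε := by
    rw [abs_mul]
    have h1 : |u a| ≤ 2 * ε := by
      rw [abs_le]; constructor <;> linarith
    calc |u a| * |ψ a| ≤ (2 * ε) * 1 :=
          mul_le_mul h1 (hψ1 a) (abs_nonneg _) (by linarith)
      _ = 2 * ε := mul_one _
  have hH : L * ((∫ t in a..s, |u t|) + (∫ t in s..b, |u t - 1|)) ≤
      L * (3 * ∫ t in a..b, |u t - χ t|) := mul_le_mul_of_nonneg_left hsum hL0
  have key : (∫ t in a..b, |u1 t| * ψ t) - ψ s =
      (∫ t in a..b, (|u1 t| - u1 t) * ψ t) + (u b - 1) * ψ b - u a * ψ a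
        - (∫ t in a..s, u t * ψ' t) - (∫ t in s..b, (u t - 1) * ψ' t) := by
    rw [hF]
    linarith
  rw [key]
  rw [abs_le] at hA hB hE hG1 hG2 ⊢
  constructor <;> linarith [hA.1, hA.2, hB.1, hB.2, hE.1, hE.2, hG1.1, hG1.2, hG2.1, hG2.2]

end Vale.Agent.P232
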