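import Vale.Agent.P232.Basic

/-!
# P232 / Perm

Permutations of coordinates. `measurePreserving_rot`: compose
`MeasureTheory.measurePreserving_prodAssoc` (or its inverse) with `measurePreserving_swap`.
-/

open MeasureTheory Set

namespace Vale.Agent.P232

private def eq_Perm : R3 ≃ᵐ R3 :=
  (MeasurableEquiv.prodAssoc (α := ℝ) (β := ℝ) (γ := ℝ)).symm.trans MeasurableEquiv.prodComm

private theorem mp_Perm : MeasurePreserving eq_Perm μ3 μ3 :=
  Measure.measurePreserving_swap.comp (measurePreserving_prodAssoc μ1 μ1 μ1).symm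

theorem measurePreserving_rot :
    MeasurePreserving (fun p : R3 => ((p.2.2, p.1, p.2.1) : R3)) μ3 μ3 := mp_Perm

theorem rot_rot_rot (D : Set R3) : rot (rot (rot D)) = D := rfl

theorem measurableSet_rot {D : Set R3} (hD : MeasurableSet D) : MeasurableSet (rot D) :=
  measurePreserving_rot.measurable hD

theorem real_rot {D : Set R3} (hD : MeasurableSet D) : μ3.real (rot D) = μ3.real D :=
  measurePreserving_rot.measureReal_preimage hD.nullMeasurableSet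

theorem ae_rot {A B : Set R3} (h : A =ᵐ[μ3] B) : rot A =ᵐ[μ3] rot B :=
  measurePreserving_rot.quasiMeasurePreserving.preimage_ae_eq h

theorem Dn1.rot {D : Set R3} (h : Dn1 D) : Dn3 (rot D) :=
  fun x y z z' h1 h2 h3 hx hy hm => h z z' x y h1 h2 h3 hx hy hm

theorem Dn2.rot {D : Set R3} (h : Dn2 D) : Dn1 (rot D) :=
  fun x x' y z h1 h2 h3 hy hz hm => h z x x' y h1 h2 h3 hz hy hm

theorem Dn3.rot {D : Set R3} (h : Dn3 D) : Dn2 (rot D) :=
  fun x y y' z h1 h2 h3 hx hz hm => h z x y y' h1 h2 h3 hz hx hm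

theorem Down3.rot {D : Set R3} (h : Down3 D) : Down3 (rot D) :=
  ⟨measurableSet_rot h.1, h.2.2.1.rot, h.2.2.2.rot, h.2.1.rot⟩

theorem Appr3.rot {c1 c2 c3 : ℝ} {k1 k2 k3 : Prop} {D : Set R3} {P : ℝ} (hD : MeasurableSet D)
    (h : Appr3 c1 c2 c3 k1 k2 k3 D P) : Appr3 c2 c3 c1 k2 k3 k1 (rot D) P := by
  have _ := hD
  intro ε hε
  obtain ⟨u, u1, u2, u3, ⟨m, m1, m2, m3, ⟨C, hC⟩, d1, d2, d3⟩, p1, p2, p3, h1, h2⟩ := h ε hε
  have mm := eq_Perm.measurable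
  refine ⟨fun p => u (eq_Perm p), fun p => u2 (eq_Perm p), fun p => u3 (eq_Perm p),
    fun p => u1 (eq_Perm p), ⟨m.comp mm, m2.comp mm, m3.comp mm, m1.comp mm,
      ⟨C, fun p => ⟨(hC _).1, (hC _).2.2.1, (hC _).2.2.2, (hC _).2.1⟩⟩,
      fun x y z => d2 z x y, fun x y z => d3 z x y, fun x y z => d1 z x y⟩,
    fun k x y z => p2 k z x y, fun k x y z => p3 k z x y, fun k x y z => p1 k z x y, ?_, ?_⟩
  · rw [← mp_Perm.integral_comp'] at h1
    exact h1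
  · rw [en3, ← mp_Perm.integral_comp'] at h2
    refine le_trans (le_of_eq ?_) h2
    rw [en3]
    congr 1; funext p; congr 1; ring

theorem Appr3.half {k1 k2 k3 : Prop} {D : Set R3} {P : ℝ}
    (h : Appr3 2 2 2 k1 k2 k3 D P) : Appr3 1 1 1 k1 k2 k3 D (P / 2) := by
  intro ε hε
  obtain ⟨u, u1, u2, u3, a, p1, p2, p3, h1, h2⟩ := h ε hε
  refine ⟨u, u1, u2, u3, a, p1, p2, p3, h1, ?_⟩
  have e : en3 2 2 2 u1 u2 u3 = 2 * en3 1 1 1 u1 u2 u3 := by
    rw [en3, en3, ← integral_const_mul]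
    congr 1; funext p
    rw [show (2 * u1 p) ^ 2 + (2 * u2 p) ^ 2 + (2 * u3 p) ^ 2 =
      2 ^ 2 * ((1 * u1 p) ^ 2 + (1 * u2 p) ^ 2 + (1 * u3 p) ^ 2) by ring,
      Real.sqrt_mul (by norm_num), Real.sqrt_sq (by norm_num)]
  linarith

theorem Appr3.nonneg {c1 c2 c3 : ℝ} {k1 k2 k3 : Prop} {D : Set R3} {P : ℝ}
    (h : Appr3 c1 c2 c3 k1 k2 k3 D P) : 0 ≤ P := by
  refine le_of_forall_pos_le_add fun ε hε => ?_
  obtain ⟨u, u1, u2, u3, -, -, -, -, -, h2⟩ := h ε hε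
  exact le_trans (integral_nonneg fun _ => Real.sqrt_nonneg _) h2

theorem Appr2.swap {F : Set (ℝ × ℝ)} {p : ℝ} (hF : MeasurableSet F) (h : Appr2 F p) :
    Appr2 (Prod.swap ⁻¹' F) p := by
  have _ := hF
  intro ε hε
  obtain ⟨u, u1, u2, ⟨m, m1, m2, ⟨C, hC⟩, d1, d2⟩, h1, h2⟩ := h ε hε
  refine ⟨fun q => u q.swap, fun q => u2 q.swap, fun q => u1 q.swap,
    ⟨m.comp measurable_swap, m2.comp measurable_swap, m1.comp measurable_swap,
      ⟨C, fun q => ⟨(hC _).1, (hC _).2.2, (hC _).2.1⟩⟩, fun x y => d2 y x, fun x y => d1 y x⟩,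
    ?_, ?_⟩
  · rw [← integral_prod_swap] at h1
    exact h1
  · rw [← integral_prod_swap] at h2
    refine le_trans (le_of_eq ?_) h2
    congr 1; funext q; rw [add_comm]

theorem Down2.swap {F : Set (ℝ × ℝ)} (h : Down2 F) : Down2 (Prod.swap ⁻¹' F) :=
  ⟨measurable_swap h.1, fun x x' y h1 h2 h3 hy hm => h.2.2 y x x' h1 h2 h3 hy hm,
    fun x y y' h1 h2 h3 hx hm => h.2.1 y y' x h1 h2 h3 hx hm⟩

theorem real_swap {F : Set (ℝ × ℝ)} (hF : MeasurableSet F) :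
    μ2.real (Prod.swap ⁻¹' F) = μ2.real F :=
  Measure.measurePreserving_swap.measureReal_preimage hF.nullMeasurableSet

theorem row_swap (F : Set (ℝ × ℝ)) : row (Prod.swap ⁻¹' F) = col F := rfl

theorem rot_canC (e1 e2 e3 c1 o1 c2 o2 c3 o3 R : ℝ) :
    rot (canC e1 e2 e3 c1 o1 c2 o2 c3 o3 R) = canC e2 e3 e1 c2 o2 c3 o3 c1 o1 R := by
  ext p
  simp only [rot, canC, mem_setOf_eq]
  constructor <;> intro h <;> linarith

theorem measurableSet_canC (e1 e2 e3 c1 o1 c2 o2 c3 o3 R : ℝ) :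
    MeasurableSet (canC e1 e2 e3 c1 o1 c2 o2 c3 o3 R) :=
  (isOpen_lt (by fun_prop) continuous_const).measurableSet

theorem canC_half (e1 e2 e3 r : ℝ) :
    canC e1 e2 e3 1 0 1 0 1 0 r = canC e1 e2 e3 2 0 2 0 2 0 (r / 2) := by
  ext p
  simp only [canC, mem_setOf_eq, sub_zero, div_one, div_pow]
  constructor <;> intro h <;> linarith

end Vale.Agent.P232
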