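import Vale.Agent.P232.SteinA
import Vale.Agent.P232.OneD
import Vale.Agent.P232.Perm

/-!
# P232 / Stein

Steiner symmetrisation with folding halves the cost in the first coordinate.
Given `u` with `∫|u - 1_E| ≤ ε'`, energy `≤ P + ε'`. Put `e q = ∫ t, |u (t,q) - 1_E (t,q)|`,
`mu q = ∫ t, u (t,q)` (so `|mu - fib E| ≤ e`), `m2, m3` its derivatives (`fib_adm` with `ψ = 1`),
`τ q = ∫ t, |u1 (t,q)|`, `κ = (1+γ)/(1-4δ)`, `M = κ (mu - 2δ)`,
`w (t,q) = ramp ((M q - t)/γ)`, `w1 = -ramp'(..)/γ`, `w2 = ramp'(..)/γ * κ m2`, `w3` likewise.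
* `∫ t, ramp' ((M-t)/γ)/γ ∂μ1 = ramp (M/γ) - ramp ((M-1)/γ) ∈ [0,1]`, and it is `0` unless
  `0 < M < 1+γ`, i.e. `2δ < mu < 1-2δ`.
* On that set `2 ≤ τ + 4e/δ` (either `e ≥ δ`, or `δ < fib E q < 1-δ` and `tv_per`), so
  `√((2c1)² + (c2 κ m2)² + (c3 κ m3)²) ≤ κ (√((c1 τ)² + (c2 m2)² + (c3 m3)²) + 4 c1 e/δ)`, and
  `minkowski3` (with `a = c1 |u1|`) bounds the root by the fibre energy. Fubini
  (`integral_prod_symm`): energy of `w` `≤ κ (P + ε' + 4 c1 ε'/δ)`.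
* `∫ t, |w - 1[t < fib]| ≤ |M - fib| + γ ≤ κ e + (κ - 1) + 2κδ + γ`.
Choose `γ, δ` small, then `ε'`. Finally iterate three times.
-/

open MeasureTheory Set

namespace Vale.Agent.P232

theorem der_Stein {γ : ℝ} {g : ℝ → ℝ} {g' s : ℝ} (h : HasDerivAt g g' s) :
    HasDerivAt (fun s => ramp (g s / γ)) (ramp' (g s / γ) / γ * g') s :=
  ((hasDerivAt_ramp _).comp s (h.div_const γ)).congr_deriv (by ring)

theorem rho_Stein (γ M : ℝ) :
    ∫ t, ramp' ((M - t) / γ) / γ ∂μ1 = ramp (M / γ) - ramp ((M - 1) / γ) := by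
  rw [integral_μ1, intervalIntegral.integral_eq_sub_of_hasDerivAt
    (f := fun t => -ramp ((M - t) / γ)) (f' := fun t => ramp' ((M - t) / γ) / γ)
    (fun t _ => ?_) (Continuous.intervalIntegrable
      ((ramp'_cont.comp ((continuous_const.sub continuous_id).div_const γ)).div_const γ) _ _)]
  · simp only [sub_zero]
    ring
  · exact (der_Stein ((hasDerivAt_id t).const_sub M)).neg.congr_deriv (by simp)

theorem l1_Stein {γ : ℝ} (hγ : 0 < γ) (M f : ℝ) :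
    ∫ t, |ramp ((M - t) / γ) - ind {t | t < f} t| ∂μ1 ≤ |M - f| + γ := by
  have h1 : ∀ t, |ramp ((M - t) / γ) - ind {t | t < f} t| ≤
      ind (Icc (min (M - γ) f) (max M f)) t := by
    intro t
    by_cases h : t ∈ Icc (min (M - γ) f) (max M f)
    · have a1 := ramp_mem ((M - t) / γ)
      have a2 := ind_mem {t | t < f} t
      rw [show ind (Icc (min (M - γ) f) (max M f)) t = 1 from indicator_of_mem h _, abs_le]
      constructor <;> linarith
    · refine le_trans (le_of_eq ?_) (ind_mem _ _).1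
      rw [mem_Icc, not_and_or, not_le, not_le, lt_min_iff, max_lt_iff] at h
      rcases h with h | h
      · rw [ramp_of_one_le ((one_le_div hγ).2 (by linarith)),
          show ind {t | t < f} t = 1 from indicator_of_mem (s := {t | t < f}) h.2 _, sub_self, abs_zero]
      · rw [ramp_of_nonpos (div_nonpos_of_nonpos_of_nonneg (by linarith) hγ.le),
          show ind {t | t < f} t = 0 from indicator_of_notMem (s := {t | t < f}) (not_lt.2 h.2.le) _,
          sub_self, abs_zero]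
  refine (integral_mono_of_nonneg (Filter.Eventually.of_forall fun t => abs_nonneg _)
    (integrable_of_bdd μ1 (measurable_ind measurableSet_Icc) 1 fun t =>
      abs_le.2 ⟨by linarith [(ind_mem (Icc (min (M - γ) f) (max M f)) t).1], (ind_mem _ _).2⟩)
    (Filter.Eventually.of_forall h1)).trans ?_
  rw [integral_ind _ measurableSet_Icc]
  refine le_trans (ENNReal.toReal_mono (measure_Icc_lt_top (μ := volume)).ne
    (Measure.restrict_le_self _)) ?_
  rw [Real.volume_Icc]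
  refine ENNReal.toReal_le_of_le_ofReal (by positivity) (ENNReal.ofReal_le_ofReal ?_)
  have a1 := le_abs_self (M - f)
  have a2 := neg_abs_le (M - f)
  rcases max_cases M f with h | h <;> rcases min_cases (M - γ) f with h' | h' <;> linarith

theorem root_Stein {x κ a b c d : ℝ} (hx : 0 ≤ x) (hκ : 0 ≤ κ) (ha : 0 ≤ a) (hd : 0 ≤ d)
    (h : x ≤ κ * (a + d)) :
    √(x ^ 2 + (κ * b) ^ 2 + (κ * c) ^ 2) ≤ κ * (√(a ^ 2 + b ^ 2 + c ^ 2) + d) := by
  have h1 : a ≤ √(a ^ 2 + b ^ 2 + c ^ 2) := Real.le_sqrt_of_sq_le (by nlinarith)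
  have h2 : √(a ^ 2 + b ^ 2 + c ^ 2) ^ 2 = a ^ 2 + b ^ 2 + c ^ 2 := Real.sq_sqrt (by positivity)
  refine Real.sqrt_le_iff.2 ⟨by positivity, ?_⟩
  have h3 := pow_le_pow_left₀ hx h 2
  have h4 := mul_le_mul_of_nonneg_left (mul_le_mul_of_nonneg_right h1 hd) (sq_nonneg κ)
  rw [mul_pow κ (_ + d), add_sq, h2]
  nlinarith

theorem mu_Stein {u u1 : ℝ → ℝ} (h : Adm1 u u1) {G : Set ℝ} (hG : MeasurableSet G) :
    |∫ t, u t ∂μ1 - μ1.real G| ≤ ∫ t, |u t - ind G t| ∂μ1 := by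
  obtain ⟨C, hC⟩ := h.2.2.1
  rw [← integral_ind μ1 hG, ← integral_sub (integrable_of_bdd μ1 h.1 C fun t => (hC t).1)
    (integrable_of_bdd μ1 (measurable_ind hG) 1 fun t =>
      abs_le.2 ⟨by linarith [(ind_mem G t).1], (ind_mem _ _).2⟩)]
  exact abs_integral_le_integral_abs

theorem tv_Stein {u u1 : ℝ → ℝ} (h : Adm1 u u1) (hp : u 1 = u 0) {G : Set ℝ}
    (hG : MeasurableSet G) {δ : ℝ} (hδ : 0 < δ) (h0 : 2 * δ < ∫ t, u t ∂μ1)
    (h1 : ∫ t, u t ∂μ1 < 1 - 2 * δ) :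
    2 ≤ ∫ t, |u1 t| ∂μ1 + 4 * ((∫ t, |u t - ind G t| ∂μ1) / δ) := by
  have a1 := abs_le.1 (mu_Stein h hG)
  have a0 : 0 ≤ ∫ t, |u t - ind G t| ∂μ1 := integral_nonneg fun t => abs_nonneg _
  by_cases he : δ ≤ ∫ t, |u t - ind G t| ∂μ1
  · have a2 : 0 ≤ ∫ t, |u1 t| ∂μ1 := integral_nonneg fun t => abs_nonneg _
    linarith [(one_le_div hδ).2 he]
  · have a2 := tv_per h hp hG (by linarith) (by linarith)
    have a3 := div_le_div_of_nonneg_left a0 hδ (show δ ≤ μ1.real G by linarith)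
    have a4 := div_le_div_of_nonneg_left a0 hδ (show δ ≤ 1 - μ1.real G by linarith)
    rw [mul_div_assoc, mul_div_assoc] at a2
    linarith

theorem en_Stein {c1 c2 c3 C : ℝ} {α : Type} [MeasurableSpace α] (ν : Measure α)
    [IsFiniteMeasure ν] {u1 u2 u3 : α → ℝ} (h1 : Measurable u1) (h2 : Measurable u2)
    (h3 : Measurable u3) (hC : ∀ p, |u1 p| ≤ C ∧ |u2 p| ≤ C ∧ |u3 p| ≤ C) :
    Integrable (fun x => √((c1 * u1 x) ^ 2 + (c2 * u2 x) ^ 2 + (c3 * u3 x) ^ 2)) ν := by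
  refine integrable_of_bdd ν (by fun_prop) (√((c1 * C) ^ 2 + (c2 * C) ^ 2 + (c3 * C) ^ 2))
    fun x => ?_
  rw [abs_of_nonneg (Real.sqrt_nonneg _)]
  refine Real.sqrt_le_sqrt ?_
  have k : ∀ c a : ℝ, |a| ≤ C → (c * a) ^ 2 ≤ (c * C) ^ 2 := fun c a ha => by
    rw [mul_pow, mul_pow, ← sq_abs a]
    exact mul_le_mul_of_nonneg_left (pow_le_pow_left₀ (abs_nonneg _) ha 2) (sq_nonneg c)
  exact add_le_add (add_le_add (k _ _ (hC x).1) (k _ _ (hC x).2.1)) (k _ _ (hC x).2.2)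

theorem fibre_Stein {c1 c2 c3 C δ κ : ℝ} (hc : 0 ≤ c1) (hδ : 0 < δ) (hκ1 : 1 ≤ κ)
    (hκ : κ * (1 - 4 * δ) = 1 + δ) {u u1 u2 u3 : ℝ → ℝ} (h : Adm1 u u1) (hp : u 1 = u 0)
    (h2 : Measurable u2) (h3 : Measurable u3) (hC : ∀ p, |u1 p| ≤ C ∧ |u2 p| ≤ C ∧ |u3 p| ≤ C)
    {G : Set ℝ} (hG : MeasurableSet G) :
    ∫ t, √((2 * c1 * (ramp' ((κ * (∫ t, u t ∂μ1 - 2 * δ) - t) / δ) / δ * (-1))) ^ 2 +
      (c2 * (ramp' ((κ * (∫ t, u t ∂μ1 - 2 * δ) - t) / δ) / δ * (κ * ∫ t, u2 t ∂μ1))) ^ 2 +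
      (c3 * (ramp' ((κ * (∫ t, u t ∂μ1 - 2 * δ) - t) / δ) / δ * (κ * ∫ t, u3 t ∂μ1))) ^ 2) ∂μ1 ≤
      κ * (∫ t, √((c1 * u1 t) ^ 2 + (c2 * u2 t) ^ 2 + (c3 * u3 t) ^ 2) ∂μ1 +
        4 * c1 / δ * ∫ t, |u t - ind G t| ∂μ1) := by
  set M := κ * (∫ t, u t ∂μ1 - 2 * δ) with hM
  have e : ∀ t, √((2 * c1 * (ramp' ((M - t) / δ) / δ * (-1))) ^ 2 +
      (c2 * (ramp' ((M - t) / δ) / δ * (κ * ∫ t, u2 t ∂μ1))) ^ 2 +
      (c3 * (ramp' ((M - t) / δ) / δ * (κ * ∫ t, u3 t ∂μ1))) ^ 2) = ramp' ((M - t) / δ) / δ *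
      √((2 * c1) ^ 2 + (κ * (c2 * ∫ t, u2 t ∂μ1)) ^ 2 + (κ * (c3 * ∫ t, u3 t ∂μ1)) ^ 2) := by
    intro t
    rw [← Real.sqrt_sq (div_nonneg (ramp'_mem ((M - t) / δ)).1 hδ.le), ← Real.sqrt_mul (sq_nonneg _),
      Real.sqrt_sq (div_nonneg (ramp'_mem ((M - t) / δ)).1 hδ.le)]
    congr 1
    ring
  have a0 : 0 ≤ ∫ t, |u t - ind G t| ∂μ1 := integral_nonneg fun t => abs_nonneg _
  have a1 : 0 ≤ ∫ t, √((c1 * u1 t) ^ 2 + (c2 * u2 t) ^ 2 + (c3 * u3 t) ^ 2) ∂μ1 :=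
    integral_nonneg fun t => Real.sqrt_nonneg _
  have hκ0 : 0 < κ := by linarith
  simp only [e]
  rw [integral_mul_const, rho_Stein]
  by_cases b1 : M ≤ 0
  · rw [ramp_of_nonpos (div_nonpos_of_nonpos_of_nonneg b1 hδ.le),
      ramp_of_nonpos (div_nonpos_of_nonpos_of_nonneg (by linarith) hδ.le), sub_self, zero_mul]
    positivity
  by_cases b2 : 1 + δ ≤ M
  · rw [ramp_of_one_le ((one_le_div hδ).2 (by linarith)),
      ramp_of_one_le ((one_le_div hδ).2 (by linarith)), sub_self, zero_mul]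
    positivity
  have b3 := tv_Stein h hp hG hδ (by
    by_contra b
    exact b1 (mul_nonpos_of_nonneg_of_nonpos hκ0.le (by linarith))) (by
    by_contra b
    exact b2 (hκ ▸ mul_le_mul_of_nonneg_left (by linarith) hκ0.le))
  have b4 := minkowski3 (a := fun t => c1 * |u1 t|) (b := fun t => c2 * u2 t)
    (c := fun t => c3 * u3 t)
    ((integrable_of_bdd μ1 h.2.1 C fun t => (hC t).1).abs.const_mul _)
    ((integrable_of_bdd μ1 h2 C fun t => (hC t).2.1).const_mul _)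
    ((integrable_of_bdd μ1 h3 C fun t => (hC t).2.2).const_mul _)
  simp only [integral_const_mul, mul_pow c1 |u1 _|, sq_abs, ← mul_pow c1] at b4
  have a2 : 0 ≤ ∫ t, |u1 t| ∂μ1 := integral_nonneg fun t => abs_nonneg _
  refine (mul_le_of_le_one_left (Real.sqrt_nonneg _)
    (by linarith [(ramp_mem (M / δ)).2, (ramp_mem ((M - 1) / δ)).1])).trans
    ((root_Stein (a := c1 * ∫ t, |u1 t| ∂μ1) (d := 4 * c1 / δ * ∫ t, |u t - ind G t| ∂μ1)
      (by positivity) hκ0.le (by positivity) (by positivity) ?_).trans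
      (mul_le_mul_of_nonneg_left (add_le_add_left b4 _) hκ0.le))
  refine le_trans ?_ (le_mul_of_one_le_left (by positivity) hκ1)
  refine (mul_le_mul_of_nonneg_right b3 hc).trans_eq ?_
  ring

theorem adm_Stein {m m2 m3 : ℝ × ℝ → ℝ} (hm : Adm2 m m2 m3) {δ κ : ℝ} (hδ : 0 < δ) (hκ : 0 ≤ κ) :
    Adm3 (fun p => ramp ((κ * (m p.2 - 2 * δ) - p.1) / δ))
      (fun p => ramp' ((κ * (m p.2 - 2 * δ) - p.1) / δ) / δ * (-1))
      (fun p => ramp' ((κ * (m p.2 - 2 * δ) - p.1) / δ) / δ * (κ * m2 p.2))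
      (fun p => ramp' ((κ * (m p.2 - 2 * δ) - p.1) / δ) / δ * (κ * m3 p.2)) := by
  obtain ⟨h1, h2, h3, ⟨C2, hC2⟩, h4, h5⟩ := hm
  have hC0 : 0 ≤ C2 := (abs_nonneg _).trans (hC2 0).1
  have mM : Measurable fun p : R3 => (κ * (m p.2 - 2 * δ) - p.1) / δ :=
    ((((h1.comp measurable_snd).sub_const _).const_mul κ).sub measurable_fst).div_const δ
  have mr := (ramp'_cont.measurable.comp mM).div_const δ
  have hr : ∀ s x : ℝ, |x| ≤ 1 + κ * C2 → |ramp' s / δ * x| ≤ 1 + 2 / δ * (1 + κ * C2) := by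
    intro s x hx
    rw [abs_mul, abs_of_nonneg (div_nonneg (ramp'_mem s).1 hδ.le)]
    refine (mul_le_mul (div_le_div_of_nonneg_right (by linarith [(ramp'_mem s).2]) hδ.le) hx
      (abs_nonneg _) (by positivity)).trans (le_add_of_nonneg_left zero_le_one)
  have hk : ∀ x : ℝ, |x| ≤ C2 → |κ * x| ≤ 1 + κ * C2 := fun x hx => by
    rw [abs_mul, abs_of_nonneg hκ]
    linarith [mul_le_mul_of_nonneg_left hx hκ]
  refine ⟨ramp_cont.measurable.comp mM, mr.mul_const _,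
    mr.mul ((h2.comp measurable_snd).const_mul κ), mr.mul ((h3.comp measurable_snd).const_mul κ),
    ⟨1 + 2 / δ * (1 + κ * C2), fun p => ⟨?_, hr _ _ ?_, hr _ _ (hk _ (hC2 _).2.1),
      hr _ _ (hk _ (hC2 _).2.2)⟩⟩,
    fun x y z => der_Stein ((hasDerivAt_id' x).const_sub (κ * (m (y, z) - 2 * δ))),
    fun x y z => der_Stein ((((h4 y z).sub_const _).const_mul κ).sub_const x),
    fun x y z => der_Stein ((((h5 y z).sub_const _).const_mul κ).sub_const x)⟩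
  · rw [abs_of_nonneg (ramp_mem _).1]
    exact (ramp_mem _).2.trans (le_add_of_nonneg_right (by positivity))
  · rw [abs_neg, abs_one]
    exact le_add_of_nonneg_right (by positivity)

theorem fub_Stein {f g k : R3 → ℝ} (hf : Integrable f μ3) (hg : Integrable g μ3)
    (hk : Integrable k μ3) {a b c : ℝ} (h : ∀ q, ∫ t, f (t, q) ∂μ1 ≤
      a * (∫ t, g (t, q) ∂μ1 + b * ∫ t, k (t, q) ∂μ1) + c) :
    ∫ p, f p ∂μ3 ≤ a * (∫ p, g p ∂μ3 + b * ∫ p, k p ∂μ3) + c := by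
  have i1 := hg.integral_prod_right
  have i2 := hk.integral_prod_right.const_mul b
  have i3 : Integrable (fun q => a * (∫ t, g (t, q) ∂μ1 + b * ∫ t, k (t, q) ∂μ1)) μ2 :=
    (i1.add i2).const_mul a
  rw [integral_prod_symm _ hf]
  refine (integral_mono hf.integral_prod_right (i3.add (integrable_const c)) h).trans_eq ?_
  simp only [Pi.add_apply]
  rw [integral_add i3 (integrable_const c), integral_const_mul, integral_add i1 i2,
    integral_const_mul, ← integral_prod_symm _ hg, ← integral_prod_symm _ hk, integral_const]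
  simp only [probReal_univ, smul_eq_mul, one_mul]

theorem num_Stein {κ δ m f e : ℝ} (hδ : 0 < δ) (d1 : δ ≤ 1 / 8) (k1 : 1 ≤ κ) (k2 : κ ≤ 1 + 10 * δ)
    (hf : 0 ≤ f ∧ f ≤ 1) (h : |m - f| ≤ e) :
    |κ * (m - 2 * δ) - f| + δ ≤ κ * (e + 0 * e) + 17 * δ := by
  have b3 := mul_le_mul_of_nonneg_left (abs_le.1 h).1 (show 0 ≤ κ by linarith)
  have b4 := mul_le_mul_of_nonneg_left (abs_le.1 h).2 (show 0 ≤ κ by linarith)
  have b5 := mul_le_mul_of_nonneg_right (show κ ≤ 3 by linarith) hδ.le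
  have b6 := mul_le_mul_of_nonneg_right k1 hδ.le
  have b7 := mul_le_mul_of_nonneg_right k1 hf.1
  have b8 := mul_le_mul_of_nonneg_left hf.2 (sub_nonneg.2 k1)
  rw [← le_sub_iff_add_le, abs_le]
  constructor <;> linarith

theorem ib_Stein {v : R3 → ℝ} {D : Set R3} {K : ℝ} (hv : Measurable v) (hD : MeasurableSet D)
    (hK : ∀ p, |v p| ≤ K) : Integrable (fun p => |v p - ind D p|) μ3 :=
  ((integrable_of_bdd μ3 hv _ hK).sub (integrable_of_bdd μ3 (measurable_ind hD) 1 fun p =>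
    abs_le.2 ⟨neg_one_lt_zero.le.trans (ind_mem _ p).1, (ind_mem _ p).2⟩)).abs

theorem Appr3.stein {c1 c2 c3 : ℝ} (hc : 0 ≤ c1) {k2 k3 : Prop} {E : Set R3} {P : ℝ}
    (hE : MeasurableSet E) (h : Appr3 c1 c2 c3 True k2 k3 E P) :
    Appr3 (2 * c1) c2 c3 False k2 k3 (stein E) P := by
  intro ε hε
  have hP := h.nonneg
  obtain ⟨δ, hδ, d1, d2⟩ : ∃ δ : ℝ, 0 < δ ∧ δ ≤ 1 / 8 ∧ δ * (40 * (P + 1)) ≤ ε :=
    ⟨min (1 / 8) (ε / (40 * (P + 1))), by positivity, min_le_left _ _,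
      (le_div_iff₀ (by positivity)).1 (min_le_right _ _)⟩
  obtain ⟨κ, hκ⟩ : ∃ κ : ℝ, κ * (1 - 4 * δ) = 1 + δ :=
    ⟨(1 + δ) / (1 - 4 * δ), div_mul_cancel₀ _ (by linarith)⟩
  have k1 : 1 ≤ κ := by nlinarith
  have k2' : κ ≤ 1 + 10 * δ := by nlinarith
  have k0 : 0 ≤ κ := by linarith
  obtain ⟨η, hη, e1⟩ : ∃ η : ℝ, 0 < η ∧ η * (6 * (1 + 4 * c1 / δ)) = ε :=
    ⟨ε / (6 * (1 + 4 * c1 / δ)), by positivity, div_mul_cancel₀ _ (by positivity)⟩
  obtain ⟨u, u1, u2, u3, hA, p1, p2, p3, hl, hen⟩ := h η hη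
  have hm := fib_adm hA (ψ := fun _ => 1) measurable_const fun _ => by simp
  simp only [mul_one] at hm
  obtain ⟨a0, a1, a2, a3, ⟨C, hC⟩, -⟩ := id hA
  have hG : ∀ q : ℝ × ℝ, MeasurableSet {t | (t, q) ∈ E} := fun q => measurable_prodMk_right hE
  have hW := adm_Stein hm hδ k0
  have i1 := ib_Stein a0 hE fun p => (hC p).1
  have i2 := en_Stein (c1 := c1) (c2 := c2) (c3 := c3) μ3 a1 a2 a3 fun p => (hC p).2
  obtain ⟨w0, w1, w2, w3, ⟨K, hK⟩, -⟩ := id hW
  have i3 := ib_Stein w0 (measurableSet_stein hE) fun p => (hK p).1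
  have i4 := en_Stein (c1 := 2 * c1) (c2 := c2) (c3 := c3) μ3 w1 w2 w3 fun p => (hK p).2
  have hd : 0 ≤ 4 * c1 / δ := by positivity
  have hδP := mul_nonneg hδ.le hP
  have b1 : 0 ≤ 4 * c1 / δ * η := by positivity
  have b2 := mul_le_mul_of_nonneg_right (show κ ≤ 3 by linarith) b1
  have b3 := mul_le_mul_of_nonneg_right (show κ ≤ 3 by linarith) hη.le
  refine ⟨_, _, _, _, hW, False.elim, fun k x y z => by simp only [p2 k],
    fun k x y z => by simp only [p3 k], ?_, ?_⟩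
  · refine (fub_Stein i3 i1 i1 fun q => (l1_Stein hδ _ (fib E q)).trans
      (num_Stein hδ d1 k1 k2' (fib_mem E q) (mu_Stein (hA.slice1 q) (hG q)))).trans ?_
    linarith [mul_le_mul_of_nonneg_left hl k0]
  · refine (fub_Stein i4 i2 i1 (c := 0) fun q => (fibre_Stein hc hδ k1 hκ (hA.slice1 q)
      (by simpa using p1 trivial 0 q.1 q.2) (a2.comp measurable_prodMk_right)
      (a3.comp measurable_prodMk_right) (fun t => (hC (t, q)).2) (hG q)).trans_eq
      (add_zero _).symm).trans ?_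
    have b4 := mul_le_mul_of_nonneg_left (add_le_add hen (mul_le_mul_of_nonneg_left hl hd)) k0
    unfold en3 at b4
    linarith [mul_le_mul_of_nonneg_right k2' hP]

theorem measurableSet_St {E : Set R3} (hE : MeasurableSet E) : MeasurableSet (St E) :=
  measurableSet_rot (measurableSet_stein hE)

theorem real_St {E : Set R3} (hE : MeasurableSet E) : μ3.real (St E) = μ3.real E := by
  rw [St, real_rot (measurableSet_stein hE), real_stein hE]

theorem appr_St1 {E : Set R3} {P : ℝ} (hE : MeasurableSet E)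
    (h : Appr3 1 1 1 True True True E P) : Appr3 1 1 2 True True False (St E) P := by
  have := (h.stein zero_le_one hE).rot (measurableSet_stein hE)
  simpa [St] using this

theorem appr_St2 {E : Set R3} {P : ℝ} (hE : MeasurableSet E)
    (h : Appr3 1 1 2 True True False E P) : Appr3 1 2 2 True False False (St E) P := by
  have := (h.stein zero_le_one hE).rot (measurableSet_stein hE)
  simpa [St] using this

theorem appr_St3 {E : Set R3} {P : ℝ} (hE : MeasurableSet E)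
    (h : Appr3 1 2 2 True False False E P) : Appr3 2 2 2 False False False (St E) P := by
  have := (h.stein zero_le_one hE).rot (measurableSet_stein hE)
  simpa [St] using this

theorem down3_St3 {E : Set R3} (hE : MeasurableSet E) : Down3 (St (St (St E))) := by
  refine ⟨measurableSet_St (measurableSet_St (measurableSet_St hE)), ?_, ?_, ?_⟩
  · exact ((((dn1_stein E).rot).stein.rot).stein).rot
  · exact (((dn1_stein (St E)).rot).stein).rot
  · exact (dn1_stein (St (St E))).rot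

end Vale.Agent.P232
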