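import Vale.Agent.P232.Torus
import Vale.Agent.P232.Perm

/-!
# P232 / Vols

Volumes of the centred canonical sets (`R < 1/2`, so they lie inside the cube in the active
coordinates). Ball: `EuclideanSpace.volume_ball_fin_three` transported to `ℝ × ℝ × ℝ`, or slices:
`μ2` of a disc is `π r²` (`Complex.volume_ball` with `Complex.volume_preserving_equiv_real_prod`, or
`EuclideanSpace.volume_ball_fin_two`) and `∫ π (R² - x²) = 4πR³/3`. Use `rot_canC`, `real_rot` for the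
permuted versions. `proj_canT`: on `(0,1)`, `‖((t - 1/2 : ℝ) : UnitAddCircle)‖ = |t - 1/2|`.
-/

open MeasureTheory Set

namespace Vale.Agent.P232

theorem sq_lt_Vols {x s R : ℝ} (h0 : 0 < R) (h1 : R < 1 / 2) (hs : 0 ≤ s)
    (h : (x - 1 / 2) ^ 2 + s < R ^ 2) : x ∈ Ioo (0 : ℝ) 1 := by
  have h2 : |x - 1 / 2| < R := abs_lt_of_sq_lt_sq (by linarith) h0.le
  rw [abs_lt] at h2
  constructor <;> linarith [h2.1, h2.2]

theorem ae_μ3_Vols : ∀ᵐ p ∂μ3, p.1 ∈ Ioo (0 : ℝ) 1 ∧ p.2.1 ∈ Ioo (0 : ℝ) 1 ∧ p.2.2 ∈ Ioo (0 : ℝ) 1 :=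
  (Measure.quasiMeasurePreserving_fst.ae ae_μ1_mem).and
    (Measure.quasiMeasurePreserving_snd.ae ((Measure.quasiMeasurePreserving_fst.ae ae_μ1_mem).and
      (Measure.quasiMeasurePreserving_snd.ae ae_μ1_mem)))

theorem vol_ball {R : ℝ} (h0 : 0 < R) (h1 : R < 1 / 2) :
    μ3.real (canC 1 1 1 1 (1 / 2) 1 (1 / 2) 1 (1 / 2) R) = 4 * Real.pi * R ^ 3 / 3 := by
  have hs : canC 1 1 1 1 (1 / 2) 1 (1 / 2) 1 (1 / 2) R ⊆ cube := by
    intro p hp
    simp only [canC, mem_ofPred_eq, one_mul, div_one] at hp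
    refine ⟨Ioo_subset_Ico_self (sq_lt_Vols h0 h1 (s := (p.2.1 - 1 / 2) ^ 2 + (p.2.2 - 1 / 2) ^ 2)
      (by positivity) (by linarith)), Ioo_subset_Ico_self (sq_lt_Vols h0 h1
      (s := (p.1 - 1 / 2) ^ 2 + (p.2.2 - 1 / 2) ^ 2) (by positivity) (by linarith)),
      Ioo_subset_Ico_self (sq_lt_Vols h0 h1
      (s := (p.1 - 1 / 2) ^ 2 + (p.2.1 - 1 / 2) ^ 2) (by positivity) (by linarith))⟩
  have hm := (((MeasurePreserving.id (volume : Measure ℝ)).prod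
    (volume_preserving_finTwoArrow ℝ)).comp
    (volume_preserving_piFinSuccAbove (fun _ : Fin 3 => ℝ) 0)).comp
    (PiLp.volume_preserving_ofLp (Fin 3))
  have he := hm.measure_preimage
    (measurableSet_canC 1 1 1 1 (1 / 2) 1 (1 / 2) 1 (1 / 2) R).nullMeasurableSet
  have hb : (Prod.map id ⇑MeasurableEquiv.finTwoArrow ∘
      ⇑(MeasurableEquiv.piFinSuccAbove (fun _ : Fin 3 => ℝ) 0)) ∘ WithLp.ofLp ⁻¹'
      canC 1 1 1 1 (1 / 2) 1 (1 / 2) 1 (1 / 2) R =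
      Metric.ball (WithLp.toLp 2 fun _ => 1 / 2 : EuclideanSpace ℝ (Fin 3)) R := by
    ext x
    rw [Metric.mem_ball, EuclideanSpace.dist_eq, Real.sqrt_lt' h0, Fin.sum_univ_three]
    simp [canC, Real.dist_eq, MeasurableEquiv.piFinSuccAbove, MeasurableEquiv.finTwoArrow,
      Fin.tail]
  rw [hb, EuclideanSpace.volume_ball_fin_three] at he
  rw [measureReal_def, μ3_eq, Measure.restrict_eq_self _ hs, Measure.volume_eq_prod, ← he,
    ENNReal.toReal_mul, ENNReal.toReal_pow, ENNReal.toReal_ofReal h0.le,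
    ENNReal.toReal_ofReal (by positivity)]
  ring

theorem vol_tube {R : ℝ} (h0 : 0 < R) (h1 : R < 1 / 2) :
    μ3.real (canC 0 1 1 1 (1 / 2) 1 (1 / 2) 1 (1 / 2) R) = Real.pi * R ^ 2 := by
  obtain ⟨S, hS⟩ : ∃ S : Set (ℝ × ℝ), S = {q | (q.1 - 1 / 2) ^ 2 + (q.2 - 1 / 2) ^ 2 < R ^ 2} :=
    ⟨_, rfl⟩
  have e : canC 0 1 1 1 (1 / 2) 1 (1 / 2) 1 (1 / 2) R = univ ×ˢ S := by
    ext p
    simp [canC, hS]
  have hm : MeasurableSet S := by
    rw [hS]
    exact measurableSet_lt (by fun_prop) measurable_const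
  have hs : S ⊆ Ioo (0 : ℝ) 1 ×ˢ Ioo (0 : ℝ) 1 := by
    intro q hq
    rw [hS, mem_ofPred_eq] at hq
    exact ⟨sq_lt_Vols h0 h1 (sq_nonneg _) hq,
      sq_lt_Vols h0 h1 (sq_nonneg (q.1 - 1 / 2)) (by linarith)⟩
  have he := Complex.volume_preserving_equiv_real_prod.measure_preimage hm.nullMeasurableSet
  have hb : Complex.measurableEquivRealProd ⁻¹' S = Metric.ball (⟨1 / 2, 1 / 2⟩ : ℂ) R := by
    ext z
    rw [Metric.mem_ball, Complex.dist_eq_re_im, Real.sqrt_lt' h0, hS]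
    simp
  rw [hb, Complex.volume_ball] at he
  have h2 : μ2 S = volume S := by
    rw [μ2, μ1, Measure.prod_restrict, Measure.restrict_eq_self _ hs, Measure.volume_eq_prod]
  rw [e, measureReal_def, μ3, Measure.prod_prod, measure_univ, one_mul, h2, ← he,
    ENNReal.toReal_mul, ENNReal.toReal_pow, ENNReal.toReal_ofReal h0.le]
  simp [mul_comm]

theorem vol_slab {R : ℝ} (h0 : 0 < R) (h1 : R < 1 / 2) :
    μ3.real (canC 1 0 0 1 (1 / 2) 1 (1 / 2) 1 (1 / 2) R) = 2 * R := by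
  have e : canC 1 0 0 1 (1 / 2) 1 (1 / 2) 1 (1 / 2) R = Ioo (1 / 2 - R) (1 / 2 + R) ×ˢ univ := by
    ext p
    simp only [canC, mem_ofPred_eq, one_mul, div_one, zero_mul, add_zero, mem_prod, mem_Ioo,
      mem_univ, and_true, sq_lt_sq, abs_of_pos h0, abs_lt]
    constructor <;> rintro ⟨a, b⟩ <;> constructor <;> linarith
  rw [e, measureReal_def, μ3, Measure.prod_prod, measure_univ, mul_one, μ1,
    Measure.restrict_eq_self _ (Ioo_subset_Ioo (by linarith) (by linarith)), Real.volume_Ioo,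
    ENNReal.toReal_ofReal (by linarith)]
  ring

theorem norm_coe_sub_half {t : ℝ} (ht : t ∈ Ioo (0 : ℝ) 1) :
    ‖((t - 1 / 2 : ℝ) : UnitAddCircle)‖ = |t - 1 / 2| := by
  refine (AddCircle.norm_coe_eq_abs_iff 1 one_ne_zero).2 ?_
  rw [abs_one, abs_le]
  constructor <;> linarith [ht.1, ht.2]

theorem proj_canT (e1 e2 e3 R : ℝ) :
    proj ⁻¹' canT e1 e2 e3 (proj (1 / 2, 1 / 2, 1 / 2)) R =ᵐ[μ3]
      canC e1 e2 e3 1 (1 / 2) 1 (1 / 2) 1 (1 / 2) R := by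
  refine Filter.eventuallyEq_set.2 ?_
  filter_upwards [ae_μ3_Vols] with p hp
  simp only [mem_preimage, canT, canC, mem_ofPred_eq, proj, ← AddCircle.coe_sub, norm_coe_sub_half hp.1, norm_coe_sub_half hp.2.1,
    norm_coe_sub_half hp.2.2, sq_abs, div_one]

end Vale.Agent.P232
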