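import Vale.Agent.P232.StepR
import Vale.Agent.P232.Stein
import Vale.Agent.P232.Vols

/-!
# P232 / Chain

Three steps back. `sh1 c A = {p | (p.1 + c, p.2) ∈ A}`. For `L E = proj ⁻¹' E`:
`St (St (L (shiftT (proj (0,0,c)) E))) = sh1 c (St (St (L E)))` and
`St (L (shiftT (proj (0,c,0)) E)) = sh1 c (St (L E))` hold exactly (unfold; `proj_add`), and these sets are
periodic in the first coordinate. `ae_sh1`: a.e. equality of sets periodic in the first coordinate
survives `sh1` (integrate `|ind A - ind B|` fibrewise, `Function.Periodic.intervalIntegral_add_eq`).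
`centre`: after `step_rigid`, shifting by `c - 1/2` gives `canC e1 e2 e3 1 (1/2) ..` (`norm_coe_sub_half`).
`chain`: `St A =ᵐ B` means `stein A =ᵐ rot (rot B)` (`rot_rot_rot`, `ae_rot`, `rot_canC`). Step on
`St (St L)` (coordinates z,x,y; weights 1,2,2), shift; step on `St L'` (y,z,x; weights 1,1,2), shift; step
on `L''` (weights 1,1,1), shift by `proj (c - 1/2,0,0)`; `proj_canT`, `ae_of_proj`, `ae_canT_of_shift`.
-/

open MeasureTheory Set

namespace Vale.Agent.P232

/-- Shift in the first coordinate. -/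
def sh1 (c : ℝ) (A : Set R3) : Set R3 := {p | (p.1 + c, p.2) ∈ A}

private theorem meas_sh1_Chain {A : Set R3} (hA : MeasurableSet A) (c : ℝ) :
    MeasurableSet (sh1 c A) :=
  hA.preimage (f := fun p : R3 => ((p.1 + c, p.2) : R3)) (by fun_prop)

private theorem fib_sh1_Chain {S : Set R3} (hS : MeasurableSet S)
    (pS : ∀ t q, (t + 1, q) ∈ S ↔ (t, q) ∈ S) (c : ℝ) (q : ℝ × ℝ) :
    fib (sh1 c S) q = fib S q := by
  have m1 : MeasurableSet {t | (t, q) ∈ S} := measurable_prodMk_right hS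
  have m2 : MeasurableSet {t | (t, q) ∈ sh1 c S} := measurable_prodMk_right (meas_sh1_Chain hS c)
  have hp : Function.Periodic (ind {t | (t, q) ∈ S}) 1 := fun t => by
    unfold ind
    by_cases h : (t, q) ∈ S
    · rw [indicator_of_mem (show t ∈ {t | (t, q) ∈ S} from h),
        indicator_of_mem (show t + 1 ∈ {t | (t, q) ∈ S} from (pS t q).2 h)]
    · rw [indicator_of_notMem (show t ∉ {t | (t, q) ∈ S} from h),
        indicator_of_notMem (show t + 1 ∉ {t | (t, q) ∈ S} from fun h' => h ((pS t q).1 h'))]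
  have e : ∀ t, ind {t | (t, q) ∈ sh1 c S} t = ind {t | (t, q) ∈ S} (t + c) := fun t => rfl
  unfold fib
  rw [← integral_ind μ1 m1, ← integral_ind μ1 m2, integral_μ1, integral_μ1]
  simp only [e]
  rw [intervalIntegral.integral_comp_add_right, add_comm 1 c, zero_add,
    hp.intervalIntegral_add_eq c 0, zero_add]

theorem ae_sh1 {A B : Set R3} (hA : MeasurableSet A) (hB : MeasurableSet B)
    (pA : ∀ t q, (t + 1, q) ∈ A ↔ (t, q) ∈ A) (pB : ∀ t q, (t + 1, q) ∈ B ↔ (t, q) ∈ B)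
    (h : A =ᵐ[μ3] B) (c : ℝ) : sh1 c A =ᵐ[μ3] sh1 c B := by
  have hS : MeasurableSet (symmDiff A B) := hA.symmDiff hB
  have pS : ∀ t q, (t + 1, q) ∈ symmDiff A B ↔ (t, q) ∈ symmDiff A B := fun t q => by
    simp only [mem_symmDiff, pA, pB]
  have h0 : μ3.real (symmDiff A B) = 0 := by
    rw [measureReal_def, measure_symmDiff_eq_zero_iff.2 h, ENNReal.toReal_zero]
  have h1 : μ3.real (sh1 c (symmDiff A B)) = 0 := by
    rw [← integral_fib (meas_sh1_Chain hS c), ← h0, ← integral_fib hS]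
    simp only [fib_sh1_Chain hS pS]
  exact measure_symmDiff_eq_zero_iff.1 ((measureReal_eq_zero_iff (measure_ne_top _ _)).1 h1)

theorem centre {A : Set R3} (hA : MeasurableSet A) (pA : ∀ t q, (t + 1, q) ∈ A ↔ (t, q) ∈ A)
    {e1 e2 e3 c2 o2 c3 o3 R c : ℝ}
    (h : A =ᵐ[μ3] {p : R3 | e1 * ‖((p.1 - c : ℝ) : UnitAddCircle)‖ ^ 2 +
      sq2 e2 e3 c2 o2 c3 o3 p.2 < R ^ 2}) :
    sh1 (c - 1 / 2) A =ᵐ[μ3] canC e1 e2 e3 1 (1 / 2) c2 o2 c3 o3 R := by
  have hc : Continuous fun p : R3 => e1 * ‖((p.1 - c : ℝ) : UnitAddCircle)‖ ^ 2 +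
      sq2 e2 e3 c2 o2 c3 o3 p.2 := by
    have h1 : Continuous fun p : R3 => ((p.1 - c : ℝ) : UnitAddCircle) :=
      (AddCircle.continuous_mk' 1).comp (continuous_fst.sub continuous_const)
    unfold sq2
    fun_prop
  refine (ae_sh1 hA (isOpen_lt hc continuous_const).measurableSet pA (fun t q => ?_) h _).trans ?_
  · have e : t + 1 - c = (t - c) + 1 := by ring
    simp only [mem_ofPred_eq]
    rw [e, AddCircle.coe_add_period]
  · have h1 : ∀ᵐ p ∂μ3, p.1 ∈ Ioo (0 : ℝ) 1 :=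
      Measure.quasiMeasurePreserving_fst.ae ae_μ1_mem
    refine Filter.eventuallyEq_set.2 ?_
    filter_upwards [h1] with p hp
    have e : p.1 + (c - 1 / 2) - c = p.1 - 1 / 2 := by ring
    simp only [sh1, canC, sq2, mem_ofPred_eq]
    rw [e, norm_coe_sub_half hp, sq_abs, div_one, add_assoc]

private theorem shift_zero_Chain (E : Set T3) : shiftT 0 E = E := by
  ext x
  simp [shiftT]

private theorem shift_shift_Chain (c d : T3) (E : Set T3) :
    shiftT c (shiftT d E) = shiftT (c + d) E := by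
  ext x
  simp [shiftT, add_assoc]

private theorem mem_shift_Chain (E : Set T3) (w x : R3) :
    x ∈ proj ⁻¹' shiftT (proj w) E ↔ x + w ∈ proj ⁻¹' E := by
  rw [mem_preimage, mem_preimage, proj_add]
  rfl

private theorem sh_zero_Chain (E : Set T3) (c : ℝ) :
    proj ⁻¹' shiftT (proj (c, 0, 0)) E = sh1 c (proj ⁻¹' E) := by
  ext ⟨x, y, z⟩
  rw [mem_shift_Chain]
  simp only [sh1, mem_ofPred_eq, Prod.mk_add_mk, add_zero]

private theorem sh_one_Chain (E : Set T3) (c : ℝ) :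
    St (proj ⁻¹' shiftT (proj (0, c, 0)) E) = sh1 c (St (proj ⁻¹' E)) := by
  ext ⟨x, y, z⟩
  simp only [St, rot, stein, fib, sh1, mem_ofPred_eq, mem_shift_Chain, Prod.mk_add_mk, add_zero]

private theorem sh_two_Chain (E : Set T3) (c : ℝ) :
    St (St (proj ⁻¹' shiftT (proj (0, 0, c)) E)) = sh1 c (St (St (proj ⁻¹' E))) := by
  ext ⟨x, y, z⟩
  simp only [St, rot, stein, fib, sh1, mem_ofPred_eq, mem_shift_Chain, Prod.mk_add_mk, add_zero]

private theorem per_Chain {A : Set R3} (h : A = sh1 1 A) (t : ℝ) (q : ℝ × ℝ) :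
    (t + 1, q) ∈ A ↔ (t, q) ∈ A :=
  (Set.ext_iff.1 h (t, q)).symm

private theorem back_Chain {A B : Set R3} (h : St A =ᵐ[μ3] B) : stein A =ᵐ[μ3] rot (rot B) := by
  have h1 := ae_rot (ae_rot h)
  rwa [St, rot_rot_rot] at h1

private theorem real_shift_Chain (E : Set T3) (c : T3) :
    (volume : Measure T3).real (shiftT c E) = (volume : Measure T3).real E := by
  rw [measureReal_def, volume_shiftT, measureReal_def]

theorem chain {e1 e2 e3 R P : ℝ} (h1 : ZO e1) (h2 : ZO e2) (h3 : ZO e3) (hR0 : 0 < R)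
    (hR : R < 1 / 2) {E : Set T3} (hE : MeasurableSet E)
    (h : ∀ c : T3, Appr3 1 1 1 True True True (proj ⁻¹' shiftT c E) P)
    (hP : R * P = (e1 + e2 + e3) * (volume : Measure T3).real E)
    (hS : St (St (St (proj ⁻¹' E))) =ᵐ[μ3] canC e1 e2 e3 2 0 2 0 2 0 R) :
    ∃ c : T3, E =ᵐ[volume] canT e1 e2 e3 c R := by
  have fa : Fr 2 0 := Or.inl ⟨rfl, rfl⟩
  have fb : Fr 1 (1 / 2) := Or.inr ⟨rfl, rfl⟩
  have u : ((1 : ℝ) : UnitAddCircle) = 0 := AddCircle.coe_period 1
  have z1 : proj (1, 0, 0) = 0 := by simp [proj, u]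
  have z2 : proj (0, 1, 0) = 0 := by simp [proj, u]
  have z3 : proj (0, 0, 1) = 0 := by simp [proj, u]
  -- first step
  have mL := measurable_proj hE
  have a0 := h 0
  rw [shift_zero_Chain] at a0
  have s0 := back_Chain hS
  rw [rot_canC, rot_canC] at s0
  obtain ⟨c, hc⟩ := step_rigid h3 h1 h2 fa fa hR0 hR (measurableSet_St (measurableSet_St mL))
    (appr_St2 (measurableSet_St mL) (appr_St1 mL a0))
    (by rw [real_St (measurableSet_St mL), real_St mL, real_proj hE, hP]; ring) s0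
  have k1 := centre (measurableSet_St (measurableSet_St mL))
    (per_Chain (by rw [← sh_two_Chain, z3, shift_zero_Chain])) hc
  rw [← sh_two_Chain] at k1
  -- second step
  obtain ⟨d1, hd1⟩ : ∃ d1 : T3, proj (0, 0, c - 1 / 2) = d1 := ⟨_, rfl⟩
  rw [hd1] at k1
  have hE1 := measurableSet_shiftT hE d1
  have mL1 := measurable_proj hE1
  have s1 := back_Chain k1
  rw [rot_canC, rot_canC] at s1
  obtain ⟨c', hc'⟩ := step_rigid h2 h3 h1 fb fa hR0 hR (measurableSet_St mL1)
    (appr_St1 mL1 (h d1))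
    (by rw [real_St mL1, real_proj hE1, real_shift_Chain, hP]; ring) s1
  have k2 := centre (measurableSet_St mL1)
    (per_Chain (by rw [← sh_one_Chain, z2, shift_zero_Chain])) hc'
  rw [← sh_one_Chain, shift_shift_Chain] at k2
  -- third step
  obtain ⟨d2, hd2⟩ : ∃ d2 : T3, proj (0, c' - 1 / 2, 0) + d1 = d2 := ⟨_, rfl⟩
  rw [hd2] at k2
  have hE2 := measurableSet_shiftT hE d2
  have mL2 := measurable_proj hE2
  have s2 := back_Chain k2
  rw [rot_canC, rot_canC] at s2
  obtain ⟨c'', hc''⟩ := step_rigid h1 h2 h3 fb fb hR0 hR mL2 (h d2)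
    (by rw [real_proj hE2, real_shift_Chain, hP]) s2
  have k3 := centre mL2 (per_Chain (by rw [← sh_zero_Chain, z1, shift_zero_Chain])) hc''
  rw [← sh_zero_Chain, shift_shift_Chain] at k3
  exact ⟨_, ae_canT_of_shift (ae_of_proj (measurableSet_shiftT hE _) (measurableSet_canT _ _ _ _ _)
    (k3.trans (proj_canT e1 e2 e3 R).symm))⟩

end Vale.Agent.P232
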