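import Vale.Agent.P232.Core2

/-!
# P232 / Chk

Fixed-point branch-and-bound checker (scale `QQ = 2^20`). Only definitions.
-/

namespace Vale.Agent.P232

def QQ : ℕ := 1048576
def PIlo : ℕ := 3294198
def SPhi : ℕ := 1858553
def ETA : ℕ := 73400
def LI : ℕ := 734003
def C127 : ℕ := 1379103
def FF0 : ℕ := 48234
def BJ : ℕ := 1132462
def AJ : ℕ := 856501
def S0I : ℕ := 443648
def KK1 : ℕ := 333770

def mn (a b : ℕ) : ℕ := bif Nat.ble a b then a else b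
def mx (a b : ℕ) : ℕ := bif Nat.ble a b then b else a
def cdiv (a b : ℕ) : ℕ := (a + b - 1) / b
def nw (n g : ℕ) : ℕ := (g + n / g) / 2
def isqG (n r : ℕ) : ℕ :=
  bif Nat.ble (r * r) n then r else bif Nat.ble ((r - 1) * (r - 1)) n then r - 1 else 0
/-- A number whose square is at most `n`. -/
def isq (n : ℕ) : ℕ := isqG n (nw n (nw n (nw n (nw n (nw n (2 ^ (n.log2 / 2 + 1)))))))

def Slam (l : ℕ) : ℕ :=
  QQ - (cdiv (l * l) (6 * QQ) + cdiv (l ^ 4) (40 * QQ ^ 3) + cdiv (3 * l ^ 6) (56 * QQ ^ 5))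

/-- Data of one leaf after clipping to its box. -/
structure Cfg where
  mode : ℕ
  mp : ℕ
  mm : ℕ
  lp : ℕ
  lm : ℕ
  eps : ℕ
  kap : ℕ
  lam : ℕ
  thr : ℕ
  c0 : ℕ
  w0 : ℕ
  f1 : ℕ
  a0 : ℕ
  a1 : ℕ
  vA : ℕ
  vB : ℕ
  t0 : ℕ
  t1 : ℕ
  A : ℕ

def Cfg.P (c : Cfg) (S : ℕ) : ℕ := c.mp * QQ + c.lp * S
def Cfg.N (c : Cfg) (S : ℕ) : ℕ := c.mm * QQ + c.lm * S

def baseN (S : ℕ) : ℕ := mn QQ (isq (PIlo * mn S (QQ - S)))

def Cfg.alt2 (c : Cfg) (S : ℕ) : ℕ :=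
  bif Nat.ble c.mode 1 then baseN S else
  bif Nat.beq c.mode 2 then mn (mn (isq (PIlo * S)) (c.c0 + c.lam * S / QQ)) C127 else
  bif Nat.beq c.mode 3 then BJ * baseN S / QQ else
  mn (isq (PIlo * S)) (c.c0 + c.lam * S / QQ)

def Cfg.alt1 (c : Cfg) (S : ℕ) : ℕ :=
  bif Nat.beq c.mode 1 then mn ETA (isq (PIlo * (QQ - S))) else
  bif Nat.beq c.mode 4 then mn QQ (isq (PIlo * S)) else c.alt2 S

def Cfg.node (c : Cfg) (S : ℕ) : ℕ :=
  bif Nat.blt S c.thr then c.alt1 S else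
  bif Nat.blt c.thr S then c.alt2 S else mn (c.alt1 S) (c.alt2 S)

def Cfg.act (c : Cfg) (S : ℕ) : Bool := Nat.beq c.mode 4 && Nat.ble c.w0 S

def nodeCv (B cc W k1 : ℕ) : ℕ :=
  bif Nat.ble (cc * W * W) (k1 * k1 * B) then W * cc / k1 + k1 * B / W else isq (4 * cc * B)

def Cfg.nodeC (c : Cfg) (S : ℕ) : ℕ :=
  bif c.act (S + 1) then nodeCv (QQ - S) (PIlo / 4 + c.kap) (QQ - c.w0) (QQ + c.kap) else 0

def Cfg.beta (c : Cfg) (S I J : ℕ) : ℕ :=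
  bif c.act (S + 1) then
    mx (cdiv (c.P S + c.eps - c.N S) I) (cdiv (c.P S + c.eps + c.kap * QQ - c.N S) J)
  else cdiv (c.P S + c.eps - c.N S) I

def alphaN (b : ℕ) : ℕ := isq (QQ * QQ - b * b)

/-- The quadratic test on one segment; `x = p - n`, `x' = p' - n'` are the values of the line. -/
def quadOK (b i p n b' i' p' n' : ℕ) : Bool :=
  Nat.ble (4 * p + ((b' - b) * (i' - i) + (b - b') * (i - i'))) (4 * (b * i + n)) &&
  Nat.ble (4 * p' + ((b' - b) * (i' - i) + (b - b') * (i - i'))) (4 * (b' * i' + n'))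

def Cfg.segOK (c : Cfg) (S b I J S' b' I' J' : ℕ) : Bool :=
  (Nat.ble S' c.thr || Nat.ble c.thr S) &&
  quadOK b I (c.P S) (c.N S) b' I' (c.P S') (c.N S') &&
  (bif c.act S' then
    quadOK b J (c.P S + c.kap * QQ) (c.N S) b' J' (c.P S' + c.kap * QQ) (c.N S') else true)

def Cfg.credit (c : Cfg) (S al S' al' : ℕ) : ℕ :=
  bif Nat.ble c.f1 S && Nat.ble S' c.a0 then (S' - S) * (al + al') else 0

def Cfg.finalAt (c : Cfg) (G V : ℕ) : Bool :=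
  Nat.blt (2 * QQ * (c.N V + c.t0 * QQ + c.t1 * V)) (2 * QQ * (c.P V + c.kap * FF0) + c.A * G)

def Cfg.stepK (c : Cfg) (S b al I J G S' b' al' I' J' : ℕ)
    (k : ℕ → ℕ → ℕ → ℕ → ℕ → ℕ → Bool) : Bool :=
  Nat.ble S S' && Nat.ble S' QQ && Nat.ble b' QQ && c.segOK S b I J S' b' I' J' &&
    k S' b' al' I' J' (G + c.credit S al S' al')

def Cfg.run (c : Cfg) : List ℕ → ℕ → ℕ → ℕ → ℕ → ℕ → ℕ → Bool
  | [], S, b, _, I, J, G =>
      c.segOK S b I J S b I J && Nat.ble c.a1 S && c.finalAt G c.vA && c.finalAt G c.vB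
  | S' :: L, S, b, al, I, J, G =>
      c.stepK S b al I J G S' (c.beta S' (c.node S') (c.nodeC S'))
        (alphaN (c.beta S' (c.node S') (c.nodeC S'))) (c.node S') (c.nodeC S') (c.run L)

def Cfg.start (c : Cfg) (f0 : ℕ) (L : List ℕ) : Bool :=
  Nat.ble f0 QQ && Nat.ble (c.beta f0 (c.node f0) (c.nodeC f0)) QQ &&
    c.run L f0 (c.beta f0 (c.node f0) (c.nodeC f0))
      (alphaN (c.beta f0 (c.node f0) (c.nodeC f0))) (c.node f0) (c.nodeC f0) 0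

def subN (cur d k : ℕ) : ℕ → List ℕ → List ℕ
  | 0, acc => acc
  | j + 1, acc =>
      subN cur d k j ((cur + d * (j + 1) * (j + 1) * (3 * k - 2 * (j + 1)) / (k * k * k)) :: acc)

def nodesN (K : ℕ) : List ℕ → ℕ → List ℕ
  | [], _ => []
  | x :: r, cur =>
      subN cur (x - cur) (bif Nat.blt (x - cur) 64 then 1 else K)
        (bif Nat.blt (x - cur) 64 then 1 else K) (nodesN K r x)

def tl0 (tk sg : ℕ) : ℕ :=
  bif Nat.beq tk 0 then QQ else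
  bif Nat.beq tk 1 then cdiv (SPhi * sg) (4 * QQ) else cdiv (2 * sg * sg) (3 * QQ)

def tl1 (tk sg : ℕ) : ℕ := bif Nat.beq tk 0 then 0 else cdiv (SPhi * QQ) sg

def lamOf (mode lam : ℕ) : ℕ := bif Nat.beq mode 2 then LI else lam
def omOf (mode w1 : ℕ) : ℕ := bif Nat.beq mode 2 then ETA else w1

def mkCfg (mode mp mm lp lm eps tk sg kap lam thr v0 v1 a0 a1 f0 f1 w0 w1 : ℕ) : Cfg where
  mode := mode
  mp := mp
  mm := mm
  lp := lp
  lm := lm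
  eps := eps
  kap := bif Nat.beq mode 4 then kap else 0
  lam := lamOf mode lam
  thr := thr
  c0 := Slam (lamOf mode lam) - cdiv (lamOf mode lam * omOf mode w1) QQ
  w0 := w0
  f1 := mn f1 v1
  a0 := mx a0 v0
  a1 := a1
  vA := mx v0 f0
  vB := mn v1 a1
  t0 := tl0 tk sg
  t1 := tl1 tk sg
  A := bif Nat.beq mode 3 then AJ else QQ

def leafOK (mode mp mm lp lm eps tk sg kap lam thr K : ℕ) (bp : List ℕ)
    (v0 v1 a0 a1 f0 f1 w0 w1 : ℕ) : Bool :=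
  Nat.ble mode 4 && Nat.ble 1 sg && Nat.ble (lamOf mode lam) QQ &&
  Nat.ble (cdiv (lamOf mode lam * omOf mode w1) QQ) (Slam (lamOf mode lam)) &&
  (mkCfg mode mp mm lp lm eps tk sg kap lam thr v0 v1 a0 a1 f0 f1 w0 w1).start f0
    (nodesN K bp f0)

inductive Tr where
  | k0 : Tr
  | k1 : Tr
  | k2 : Tr
  | lf (mode mp mm lp lm eps tk sg kap lam thr K : ℕ) (bp : List ℕ) : Tr
  | sp (d mid : ℕ) (l r : Tr) : Tr

def allowed (th mode v0 f0 : ℕ) : Bool :=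
  bif Nat.beq th 2 then Nat.beq mode 2 else
  bif Nat.beq th 1 then
    Nat.beq mode 1 || (Nat.beq mode 3 && Nat.ble FF0 f0 && Nat.ble 262144 v0)
  else Nat.beq mode 0 || Nat.beq mode 3 || Nat.beq mode 4

def chk (th : ℕ) : Tr → ℕ → ℕ → ℕ → ℕ → ℕ → ℕ → ℕ → ℕ → Bool
  | .k0, v0, v1, _, a1, f0, _, _, _ => Nat.blt v1 f0 || Nat.blt a1 v0
  | .k1, _, _, _, a1, _, _, _, _ => Nat.ble a1 (bif Nat.beq th 2 then S0I else KK1)
  | .k2, _, _, a0, _, _, f1, _, _ => Nat.beq th 3 && Nat.ble 1044480 a0 && Nat.ble f1 4096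
  | .lf mode mp mm lp lm eps tk sg kap lam thr K bp, v0, v1, a0, a1, f0, f1, w0, w1 =>
      allowed th mode v0 f0 &&
        leafOK mode mp mm lp lm eps tk sg kap lam thr K bp v0 v1 a0 a1 f0 f1 w0 w1
  | .sp d mid l r, v0, v1, a0, a1, f0, f1, w0, w1 =>
      bif Nat.beq d 0 then chk th l v0 mid a0 a1 f0 f1 w0 w1 && chk th r mid v1 a0 a1 f0 f1 w0 w1
      else bif Nat.beq d 1 then
        chk th l v0 v1 a0 mid f0 f1 w0 w1 && chk th r v0 v1 mid a1 f0 f1 w0 w1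
      else bif Nat.beq d 2 then
        chk th l v0 v1 a0 a1 f0 mid w0 w1 && chk th r v0 v1 a0 a1 mid f1 w0 w1
      else chk th l v0 v1 a0 a1 f0 f1 w0 mid && chk th r v0 v1 a0 a1 f0 f1 mid w1

/-- Real value of a fixed-point number. -/
noncomputable def rq (n : ℕ) : ℝ := (n : ℝ) / 1048576

/-- The profile certified in each mode. -/
noncomputable def prof (mode : ℕ) (lam ω s : ℝ) : ℝ :=
  if mode = 0 then I2 s else if mode = 1 then IT (rq ETA) s else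
  if mode = 2 then II (rq ETA) (rq LI) s else if mode = 3 then rq BJ * I2 s else
  min (Real.sqrt (Real.pi * s)) (max 1 (Sl lam + lam * (s - ω)))

/-- Pointwise condition on the calibration value `β` at level `s`. -/
def Cfg.cond (c : Cfg) (ω s β : ℝ) : Prop :=
  (rq c.mp - rq c.mm) + (rq c.lp - rq c.lm) * s ≤ β * prof c.mode (rq c.lam) ω s ∧
  (c.mode = 4 → ∀ W : ℝ, 1 - s ≤ W → W ≤ 1 - ω →
    (rq c.mp - rq c.mm) + (rq c.lp - rq c.lm) * s + rq c.kap ≤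
      β * (W * (Real.pi / 4 + rq c.kap) / (1 + rq c.kap) + (1 + rq c.kap) * (1 - s) / W))

/-- Side conditions under which the node values are valid for the threshold `ω`. -/
def Cfg.valid (c : Cfg) (ω : ℝ) : Prop :=
  c.mode ≤ 4 ∧ (c.mode = 2 → c.lam = LI ∧ rq c.c0 ≤ Sl (rq LI) - rq LI * rq ETA) ∧
    (c.mode = 4 → rq c.c0 ≤ Sl (rq c.lam) - rq c.lam * ω ∧ rq c.w0 ≤ ω ∧ ω ≤ 1)

/-- What a tree certifies. -/
def Concl (th : ℕ) (v a f ω : ℝ) : Prop :=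
  (th = 2 → a ≤ rq S0I ∨ Good (II (rq ETA) (rq LI)) 1 v a f) ∧
  (th = 1 → a ≤ rq KK1 ∨ Good (IT (rq ETA)) 1 v a f ∨
    (Good (fun s => rq BJ * I2 s) (rq AJ) v a f ∧ rq FF0 ≤ f ∧ 1 / 4 ≤ v)) ∧
  (th = 3 → a ≤ rq KK1 ∨ (1 - 1 / 256 ≤ a ∧ f ≤ 1 / 256) ∨ Good I2 1 v a f ∨
    Good (fun s => rq BJ * I2 s) (rq AJ) v a f ∨ GoodP (rq FF0) ω v a f)

end Vale.Agent.P232
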