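import Vale.Agent.P232.Chk
import Vale.Agent.P232.Analytic

/-!
# P232 / ChkA

Arithmetic of the checker. `rq n = n / 2^20`. `Real.pi_gt_d6`, `Real.pi_lt_d6` give the bounds on
`π`. `jf_le_line`: `tk = 0`: `jf ≤ 1`; `tk = 1`: `tube_le` with `σ = rq sg`; otherwise `ball_le` with
`ρ = rq sg`. `quad_real`: the difference is
`(1-θ)(b i - x) + θ (b' i' - x') - θ(1-θ)(b'-b)(i'-i)` and `θ(1-θ) ≤ 1/4`.
`quad_sound`: the truncated expression `L` is `≥ 0` and `≥ (b'-b)(i'-i)` over the reals.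
-/

open MeasureTheory Set

namespace Vale.Agent.P232

theorem mn_eq (a b : ℕ) : mn a b = min a b := by
  unfold mn
  rcases le_total a b with h | h
  · rw [Nat.ble_eq_true_of_le h]; simp [h]
  · by_cases h' : a ≤ b
    · rw [Nat.ble_eq_true_of_le h']; simp [h']
    · have : Nat.ble a b = false := by
        rw [Bool.eq_false_iff]; intro hh; exact h' (Nat.le_of_ble_eq_true hh)
      rw [this]; simp [h]

theorem mx_eq (a b : ℕ) : mx a b = max a b := by
  unfold mx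
  by_cases h' : a ≤ b
  · rw [Nat.ble_eq_true_of_le h']; simp [h']
  · have : Nat.ble a b = false := by
      rw [Bool.eq_false_iff]; intro hh; exact h' (Nat.le_of_ble_eq_true hh)
    rw [this]; simp [(not_le.1 h').le]

theorem isq_sq_le (n : ℕ) : isq n * isq n ≤ n := by
  have key : ∀ r, isqG n r * isqG n r ≤ n := by
    intro r
    unfold isqG
    cases h1 : Nat.ble (r * r) n
    · cases h2 : Nat.ble ((r - 1) * (r - 1)) n
      · simp
      · simpa using Nat.le_of_ble_eq_true h2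
    · simpa using Nat.le_of_ble_eq_true h1
  exact key _

theorem le_cdiv (a : ℕ) {b : ℕ} (hb : 0 < b) : (a : ℝ) / b ≤ (cdiv a b : ℝ) := by
  have hb' : (0 : ℝ) < b := by exact_mod_cast hb
  rw [div_le_iff₀ hb']
  have h : a ≤ cdiv a b * b := by
    unfold cdiv
    have h1 := Nat.div_add_mod (a + b - 1) b
    have h2 := Nat.mod_lt (a + b - 1) hb
    rw [mul_comm] at h1
    omega
  exact_mod_cast h

theorem rq_nonneg (n : ℕ) : 0 ≤ rq n := by
  unfold rq; positivity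

theorem rq_mono {a b : ℕ} (h : a ≤ b) : rq a ≤ rq b := by
  unfold rq
  have : (a : ℝ) ≤ b := by exact_mod_cast h
  gcongr

theorem rq_lt {a b : ℕ} (h : a < b) : rq a < rq b := by
  unfold rq
  have : (a : ℝ) < b := by exact_mod_cast h
  gcongr

theorem rq_QQ : rq QQ = 1 := by
  unfold rq QQ; norm_num

theorem rq_sub {a b : ℕ} (h : b ≤ a) : rq (a - b) = rq a - rq b := by
  unfold rq; rw [Nat.cast_sub h]; ring

theorem rq_add (a b : ℕ) : rq (a + b) = rq a + rq b := by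
  unfold rq; push_cast; ring

theorem rq_min (a b : ℕ) : rq (min a b) = min (rq a) (rq b) := by
  rcases le_total a b with h | h
  · rw [min_eq_left h, min_eq_left (rq_mono h)]
  · rw [min_eq_right h, min_eq_right (rq_mono h)]

theorem rq_max (a b : ℕ) : rq (max a b) = max (rq a) (rq b) := by
  rcases le_total a b with h | h
  · rw [max_eq_right h, max_eq_right (rq_mono h)]
  · rw [max_eq_left h, max_eq_left (rq_mono h)]

theorem rq_mul_div (a b : ℕ) : rq (a * b / QQ) ≤ rq a * rq b := by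
  unfold rq
  have h : ((a * b / QQ : ℕ) : ℝ) ≤ ((a * b : ℕ) : ℝ) / (QQ : ℕ) := Nat.cast_div_le
  have hQ : ((QQ : ℕ) : ℝ) = 1048576 := by unfold QQ; norm_num
  rw [hQ] at h
  push_cast at h
  calc _ ≤ ((a : ℝ) * b / 1048576) / 1048576 := by gcongr
    _ = _ := by ring

theorem PIlo_le : rq PIlo ≤ Real.pi := by
  have := Real.pi_gt_d20
  unfold rq PIlo
  norm_num at this ⊢
  linarith

theorem le_SPhi : Real.sqrt Real.pi ≤ rq SPhi := by
  have := Real.pi_lt_d6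
  rw [Real.sqrt_le_iff]
  refine ⟨rq_nonneg _, ?_⟩
  unfold rq SPhi
  norm_num at this ⊢
  linarith

theorem C127_le : rq C127 ≤ Real.sqrt 2 * (1 - rq ETA) := by
  have h : (1.41421356 : ℝ) ≤ Real.sqrt 2 := by
    apply Real.le_sqrt_of_sq_le; norm_num
  unfold rq C127 ETA
  norm_num at h ⊢
  linarith

theorem rq_isq_le (n : ℕ) : rq (isq n) ≤ Real.sqrt ((n : ℝ) / 1048576 ^ 2) := by
  apply Real.le_sqrt_of_sq_le
  have h : ((isq n : ℕ) : ℝ) * (isq n : ℕ) ≤ n := by exact_mod_cast isq_sq_le n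
  unfold rq
  rw [div_pow, sq (isq n : ℝ)]
  gcongr

theorem rq_isq_pi (S : ℕ) : rq (isq (PIlo * S)) ≤ Real.sqrt (Real.pi * rq S) := by
  refine (rq_isq_le _).trans (Real.sqrt_le_sqrt ?_)
  have h1 := PIlo_le
  have h2 := rq_nonneg S
  calc ((PIlo * S : ℕ) : ℝ) / 1048576 ^ 2 = rq PIlo * rq S := by
        unfold rq; push_cast; ring
    _ ≤ Real.pi * rq S := by gcongr

theorem alphaN_le {b : ℕ} (hb : b ≤ QQ) : rq (alphaN b) ≤ Real.sqrt (1 - rq b ^ 2) := by
  unfold alphaN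
  refine (rq_isq_le _).trans (Real.sqrt_le_sqrt (le_of_eq ?_))
  have h : b * b ≤ QQ * QQ := Nat.mul_le_mul hb hb
  rw [Nat.cast_sub h]
  unfold rq QQ
  push_cast
  ring

theorem slam_le {l : ℕ} (hl : l ≤ QQ) : rq (Slam l) ≤ Sl (rq l) := by
  have hQ : ((QQ : ℕ) : ℝ) = 1048576 := by unfold QQ; norm_num
  have hl1 : rq l ≤ 1 := by rw [← rq_QQ]; exact rq_mono hl
  have hl0 := rq_nonneg l
  have h1 := le_cdiv (l * l) (b := 6 * QQ) (by unfold QQ; norm_num)
  have h2 := le_cdiv (l ^ 4) (b := 40 * QQ ^ 3) (by unfold QQ; norm_num)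
  have h3 := le_cdiv (3 * l ^ 6) (b := 56 * QQ ^ 5) (by unfold QQ; norm_num)
  push_cast at h1 h2 h3
  rw [hQ] at h1 h2 h3
  unfold Slam
  generalize cdiv (l * l) (6 * QQ) = c1 at *
  generalize cdiv (l ^ 4) (40 * QQ ^ 3) = c2 at *
  generalize cdiv (3 * l ^ 6) (56 * QQ ^ 5) = c3 at *
  have e1 : rq l ^ 2 / 6 ≤ rq c1 := by
    unfold rq
    calc ((l : ℝ) / 1048576) ^ 2 / 6 = ((l : ℝ) * l / (6 * 1048576)) / 1048576 := by ring
      _ ≤ _ := by gcongr
  have e2 : rq l ^ 4 / 40 ≤ rq c2 := by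
    unfold rq
    calc ((l : ℝ) / 1048576) ^ 4 / 40 = ((l : ℝ) ^ 4 / (40 * 1048576 ^ 3)) / 1048576 := by ring
      _ ≤ _ := by gcongr
  have e3 : 3 * rq l ^ 6 / 56 ≤ rq c3 := by
    unfold rq
    calc 3 * ((l : ℝ) / 1048576) ^ 6 / 56
        = (3 * (l : ℝ) ^ 6 / (56 * 1048576 ^ 5)) / 1048576 := by ring
      _ ≤ _ := by gcongr
  by_cases h : c1 + c2 + c3 ≤ QQ
  · rw [rq_sub h, rq_add, rq_add, rq_QQ]
    unfold Sl
    linarith
  · rw [Nat.sub_eq_zero_of_le (not_le.1 h).le]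
    have p2 : rq l ^ 2 ≤ 1 := pow_le_one₀ hl0 hl1
    have p4 : rq l ^ 4 ≤ 1 := pow_le_one₀ hl0 hl1
    have p6 : rq l ^ 6 ≤ 1 := pow_le_one₀ hl0 hl1
    have : rq 0 = 0 := by unfold rq; simp
    unfold Sl
    linarith

theorem c0_le {l w : ℕ} (hl : l ≤ QQ) (h : cdiv (l * w) QQ ≤ Slam l) :
    rq (Slam l - cdiv (l * w) QQ) ≤ Sl (rq l) - rq l * rq w := by
  rw [rq_sub h]
  have h1 := slam_le hl
  have hQ : ((QQ : ℕ) : ℝ) = 1048576 := by unfold QQ; norm_num
  have h2 := le_cdiv (l * w) (b := QQ) (by unfold QQ; norm_num)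
  push_cast at h2
  rw [hQ] at h2
  have : rq l * rq w ≤ rq (cdiv (l * w) QQ) := by
    unfold rq
    calc (l : ℝ) / 1048576 * ((w : ℝ) / 1048576) = ((l : ℝ) * w / 1048576) / 1048576 := by ring
      _ ≤ _ := by gcongr
  linarith

theorem cdiv_a_ChkA (S : ℕ) {sg : ℕ} (hs : 1 ≤ sg) : rq S / rq sg ≤ rq (cdiv (S * QQ) sg) := by
  have hQ : ((QQ : ℕ) : ℝ) = 1048576 := by unfold QQ; norm_num
  have hs' : (0 : ℝ) < sg := by exact_mod_cast hs
  have h := le_cdiv (S * QQ) (b := sg) hs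
  generalize cdiv (S * QQ) sg = c at h ⊢
  rw [Nat.cast_mul, hQ] at h
  unfold rq
  calc (S : ℝ) / 1048576 / ((sg : ℝ) / 1048576)
      = ((S : ℝ) * 1048576 / sg) / 1048576 := by field_simp
    _ ≤ _ := by gcongr

theorem cdiv_b_ChkA (S sg k : ℕ) (hk : 0 < k) :
    rq S * rq sg / k ≤ rq (cdiv (S * sg) (k * QQ)) := by
  have hQ : ((QQ : ℕ) : ℝ) = 1048576 := by unfold QQ; norm_num
  have hk' : (0 : ℝ) < k := by exact_mod_cast hk
  have h := le_cdiv (S * sg) (b := k * QQ) (Nat.mul_pos hk (by unfold QQ; norm_num))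
  generalize cdiv (S * sg) (k * QQ) = c at h ⊢
  rw [Nat.cast_mul, Nat.cast_mul, hQ] at h
  unfold rq
  calc (S : ℝ) / 1048576 * ((sg : ℝ) / 1048576) / k
      = ((S : ℝ) * sg / (k * 1048576)) / 1048576 := by field_simp
    _ ≤ _ := by gcongr

theorem tl0_zero_ChkA (sg : ℕ) : tl0 0 sg = QQ := rfl

theorem tl1_zero_ChkA (sg : ℕ) : tl1 0 sg = 0 := rfl

theorem tl0_one_ChkA (sg : ℕ) : tl0 1 sg = cdiv (SPhi * sg) (4 * QQ) := by
  unfold tl0
  rw [show Nat.beq 1 0 = false from rfl, show Nat.beq 1 1 = true from rfl, cond_false, cond_true]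

theorem tl0_two_ChkA (k sg : ℕ) : tl0 (k + 2) sg = cdiv (2 * sg * sg) (3 * QQ) := by
  unfold tl0
  rw [show Nat.beq (k + 2) 0 = false from rfl, show Nat.beq (k + 2) 1 = false from rfl, cond_false,
    cond_false]

theorem tl1_succ_ChkA (k sg : ℕ) : tl1 (k + 1) sg = cdiv (SPhi * QQ) sg := by
  unfold tl1
  rw [show Nat.beq (k + 1) 0 = false from rfl, cond_false]

theorem jf_le_line (tk : ℕ) {sg : ℕ} (hs : 1 ≤ sg) {v : ℝ} (hv : 0 ≤ v) :
    jf v ≤ rq (tl0 tk sg) + rq (tl1 tk sg) * v := by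
  have hσ : 0 < rq sg := by
    have h0 : rq 0 = 0 := by unfold rq; simp
    rw [← h0]; exact rq_lt hs
  have hS := le_SPhi
  have e1 : Real.sqrt Real.pi * v / rq sg ≤ rq (cdiv (SPhi * QQ) sg) * v := by
    have h2 := cdiv_a_ChkA SPhi hs
    generalize rq (cdiv (SPhi * QQ) sg) = c at h2 ⊢
    generalize rq SPhi = S at h2 hS
    calc Real.sqrt Real.pi * v / rq sg = Real.sqrt Real.pi / rq sg * v := by ring
      _ ≤ S / rq sg * v := by gcongr
      _ ≤ _ := by gcongr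
  rcases tk with _ | _ | k
  · have h0 : rq 0 = 0 := by unfold rq; simp
    rw [tl0_zero_ChkA, tl1_zero_ChkA, rq_QQ, h0, zero_mul, add_zero]
    exact (min_le_right _ _).trans (min_le_right _ _)
  · rw [zero_add, tl0_one_ChkA, show tl1 1 sg = cdiv (SPhi * QQ) sg from tl1_succ_ChkA 0 sg]
    have h := cdiv_b_ChkA SPhi sg 4 (by norm_num)
    generalize rq (cdiv (SPhi * sg) (4 * QQ)) = c at h ⊢
    generalize rq (cdiv (SPhi * QQ) sg) = c' at e1 ⊢
    generalize rq SPhi = S at h hS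
    have e2 : Real.sqrt Real.pi * rq sg ≤ S * rq sg := by gcongr
    have := tube_le hv hσ
    refine ((min_le_right _ _).trans (min_le_left _ _)).trans ?_
    push_cast at h
    linarith
  · rw [show k + 1 + 1 = k + 2 from rfl, tl0_two_ChkA,
      show tl1 (k + 2) sg = cdiv (SPhi * QQ) sg from tl1_succ_ChkA (k + 1) sg]
    have h := cdiv_b_ChkA (2 * sg) sg 3 (by norm_num)
    generalize rq (cdiv (2 * sg * sg) (3 * QQ)) = c at h ⊢
    generalize rq (cdiv (SPhi * QQ) sg) = c' at e1 ⊢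
    have e2 : rq (2 * sg) = 2 * rq sg := by unfold rq; push_cast; ring
    rw [e2] at h
    have := ball_le hv hσ
    refine (min_le_left _ _).trans ?_
    push_cast at h
    nlinarith

theorem quad_real {b i x b' i' x' L θ : ℝ} (hL : 0 ≤ L) (hL' : (b' - b) * (i' - i) ≤ L)
    (h0 : 4 * x + L ≤ 4 * (b * i)) (h1 : 4 * x' + L ≤ 4 * (b' * i')) (hθ0 : 0 ≤ θ)
    (hθ1 : θ ≤ 1) :
    (1 - θ) * x + θ * x' ≤ ((1 - θ) * b + θ * b') * ((1 - θ) * i + θ * i') := by
  have h2 : θ * (1 - θ) ≤ 1 / 4 := by nlinarith [sq_nonneg (θ - 1 / 2)]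
  have h3 : 0 ≤ θ * (1 - θ) := mul_nonneg hθ0 (by linarith)
  have h4 : θ * (1 - θ) * ((b' - b) * (i' - i)) ≤ L / 4 := by
    calc _ ≤ θ * (1 - θ) * L := mul_le_mul_of_nonneg_left hL' h3
      _ ≤ 1 / 4 * L := mul_le_mul_of_nonneg_right h2 hL
      _ = L / 4 := by ring
  have h5 : (1 - θ) * (L / 4) ≤ (1 - θ) * (b * i - x) :=
    mul_le_mul_of_nonneg_left (by linarith) (by linarith)
  have h6 : θ * (L / 4) ≤ θ * (b' * i' - x') :=
    mul_le_mul_of_nonneg_left (by linarith) hθ0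
  nlinarith

theorem quad_sound {b i p n b' i' p' n' : ℕ} (h : quadOK b i p n b' i' p' n' = true) {θ : ℝ}
    (hθ0 : 0 ≤ θ) (hθ1 : θ ≤ 1) :
    (1 - θ) * (((p : ℝ) - n) / 1048576 ^ 2) + θ * (((p' : ℝ) - n') / 1048576 ^ 2) ≤
      ((1 - θ) * rq b + θ * rq b') * ((1 - θ) * rq i + θ * rq i') := by
  unfold quadOK at h
  rw [Bool.and_eq_true] at h
  have h0 := Nat.le_of_ble_eq_true h.1
  have h1 := Nat.le_of_ble_eq_true h.2
  have hL : ((b' : ℝ) - b) * ((i' : ℝ) - i) ≤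
      (((b' - b) * (i' - i) + (b - b') * (i - i') : ℕ) : ℝ) := by
    rcases le_total b b' with hb | hb <;> rcases le_total i i' with hi | hi
    · rw [Nat.sub_eq_zero_of_le hb]
      push_cast [Nat.cast_sub hb, Nat.cast_sub hi]
      linarith
    · have e1 : (b : ℝ) ≤ b' := by exact_mod_cast hb
      have e2 : (i' : ℝ) ≤ i := by exact_mod_cast hi
      refine le_trans ?_ (Nat.cast_nonneg _)
      nlinarith
    · have e1 : (b' : ℝ) ≤ b := by exact_mod_cast hb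
      have e2 : (i : ℝ) ≤ i' := by exact_mod_cast hi
      refine le_trans ?_ (Nat.cast_nonneg _)
      nlinarith
    · rw [Nat.sub_eq_zero_of_le hb]
      push_cast [Nat.cast_sub hb, Nat.cast_sub hi]
      linarith
  generalize (b' - b) * (i' - i) + (b - b') * (i - i') = L at h0 h1 hL
  have h0' : 4 * (p : ℝ) + L ≤ 4 * (b * i + n) := by exact_mod_cast h0
  have h1' : 4 * (p' : ℝ) + L ≤ 4 * (b' * i' + n') := by exact_mod_cast h1
  have key := quad_real (b := b) (i := i) (x := (p : ℝ) - n) (b' := b') (i' := i')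
    (x' := (p' : ℝ) - n') (L := L) (θ := θ) (Nat.cast_nonneg _) hL (by linarith) (by linarith)
    hθ0 hθ1
  unfold rq
  calc _ = ((1 - θ) * ((p : ℝ) - n) + θ * ((p' : ℝ) - n')) / 1048576 ^ 2 := by ring
    _ ≤ (((1 - θ) * b + θ * b') * ((1 - θ) * i + θ * i')) / 1048576 ^ 2 := by gcongr
    _ = _ := by ring

theorem line_val (c : Cfg) (S : ℕ) :
    ((c.P S : ℝ) - c.N S) / 1048576 ^ 2 = (rq c.mp - rq c.mm) + (rq c.lp - rq c.lm) * rq S := by
  unfold Cfg.P Cfg.N rq QQ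
  push_cast
  ring

end Vale.Agent.P232
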