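import Vale.Agent.P232.ChkA

/-!
# P232 / ChkB

Soundness of one segment. `sqrt_conc`: concavity of the square root. Each of `alt1`, `alt2` is a
minimum of quantities bounded at the nodes by functions that are concave in `s` (`√(π s)`,
`√(π (1-s))`, constants, affine functions) and whose minimum is at most `prof` on `[0,1]`:
interpolate each one separately (`le_min`). `baseN S ≤ min 1 (min √(π S) √(π(1-S)))` by monotonicity.
If `S' ≤ thr` both node values are `≤ alt1`, if `thr ≤ S` both are `≤ alt2`.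
`nodeCv_le`: with `c = cc/Q ≤ π/4 + κ`, `k = 1 + κ`, `B = 1 - S`: in the first branch
`W c/k + k B/W` is antitone in `W ∈ (0, W0]` since `c W0² ≤ k² B`; in the second use AM-GM.
`seg_sound`, pentagon part: if `w0 > S'` then `s < ω`, contradiction with `1 - s ≤ W ≤ 1 - ω`;
otherwise for `W > 0` the expression is affine in `s`; `W = 0` forces `s = 1`, so the interpolated value
is `nodeC QQ = 0` (`isq 0 = 0`).
-/

open MeasureTheory Set

namespace Vale.Agent.P232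

theorem sqrt_conc {x y θ : ℝ} (hx : 0 ≤ x) (hy : 0 ≤ y) (hθ0 : 0 ≤ θ) (hθ1 : θ ≤ 1) :
    (1 - θ) * Real.sqrt x + θ * Real.sqrt y ≤ Real.sqrt ((1 - θ) * x + θ * y) := by
  refine Real.le_sqrt_of_sq_le ?_
  have h1 := Real.sq_sqrt hx
  have h2 := Real.sq_sqrt hy
  have h3 : 0 ≤ θ * (1 - θ) * (Real.sqrt x - Real.sqrt y) ^ 2 :=
    mul_nonneg (mul_nonneg hθ0 (sub_nonneg.2 hθ1)) (sq_nonneg _)
  generalize Real.sqrt x = a at *
  generalize Real.sqrt y = b at *
  subst h1 h2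
  nlinarith

theorem mix_ChkB {x x' y y' θ : ℝ} (h : x ≤ y) (h' : x' ≤ y') (hθ0 : 0 ≤ θ) (hθ1 : θ ≤ 1) :
    (1 - θ) * x + θ * x' ≤ (1 - θ) * y + θ * y' :=
  add_le_add (mul_le_mul_of_nonneg_left h (sub_nonneg.2 hθ1)) (mul_le_mul_of_nonneg_left h' hθ0)

theorem beq_ChkB {a b : ℕ} (h : ¬ a = b) : Nat.beq a b = false := by
  cases e : Nat.beq a b
  · rfl
  · exact absurd (Nat.eq_of_beq_eq_true e) h

theorem le1_ChkB {S : ℕ} (h : S ≤ QQ) : rq S ≤ 1 := rq_QQ ▸ rq_mono h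

theorem gA_ChkB {x x' θ : ℝ} {S S' : ℕ} (h : x ≤ Real.sqrt (Real.pi * rq S))
    (h' : x' ≤ Real.sqrt (Real.pi * rq S')) (hθ0 : 0 ≤ θ) (hθ1 : θ ≤ 1) :
    (1 - θ) * x + θ * x' ≤ Real.sqrt (Real.pi * ((1 - θ) * rq S + θ * rq S')) := by
  refine (mix_ChkB h h' hθ0 hθ1).trans ((sqrt_conc (mul_nonneg Real.pi_pos.le (rq_nonneg S))
    (mul_nonneg Real.pi_pos.le (rq_nonneg S')) hθ0 hθ1).trans (le_of_eq ?_))
  congr 1
  ring

theorem gB_ChkB {x x' θ : ℝ} {S S' : ℕ} (hS : S ≤ QQ) (hS' : S' ≤ QQ)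
    (h : x ≤ Real.sqrt (Real.pi * rq (QQ - S))) (h' : x' ≤ Real.sqrt (Real.pi * rq (QQ - S')))
    (hθ0 : 0 ≤ θ) (hθ1 : θ ≤ 1) :
    (1 - θ) * x + θ * x' ≤ Real.sqrt (Real.pi * (1 - ((1 - θ) * rq S + θ * rq S'))) := by
  refine (gA_ChkB h h' hθ0 hθ1).trans (le_of_eq ?_)
  rw [rq_sub hS, rq_sub hS', rq_QQ]
  congr 1
  ring

theorem gC_ChkB {x x' y θ : ℝ} (h : x ≤ y) (h' : x' ≤ y) (hθ0 : 0 ≤ θ) (hθ1 : θ ≤ 1) :
    (1 - θ) * x + θ * x' ≤ y :=
  (mix_ChkB h h' hθ0 hθ1).trans (le_of_eq (by ring))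

theorem gD_ChkB {x x' θ a ω : ℝ} {S S' c l : ℕ} (h : x ≤ rq (c + l * S / QQ))
    (h' : x' ≤ rq (c + l * S' / QQ)) (ha : rq c ≤ a - rq l * ω) (hθ0 : 0 ≤ θ) (hθ1 : θ ≤ 1) :
    (1 - θ) * x + θ * x' ≤ a + rq l * ((1 - θ) * rq S + θ * rq S' - ω) := by
  rw [rq_add] at h h'
  have h1 : x ≤ a - rq l * ω + rq l * rq S := by linarith [rq_mul_div l S]
  have h2 : x' ≤ a - rq l * ω + rq l * rq S' := by linarith [rq_mul_div l S']
  exact (mix_ChkB h1 h2 hθ0 hθ1).trans (le_of_eq (by ring))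

theorem mnl_ChkB (a b : ℕ) : rq (mn a b) ≤ rq a := by
  rw [mn_eq]
  exact rq_mono (min_le_left _ _)

theorem mnr_ChkB (a b : ℕ) : rq (mn a b) ≤ rq b := by
  rw [mn_eq]
  exact rq_mono (min_le_right _ _)

theorem base_ChkB (S : ℕ) : rq (baseN S) ≤ 1 ∧ rq (baseN S) ≤ Real.sqrt (Real.pi * rq S) ∧
    rq (baseN S) ≤ Real.sqrt (Real.pi * rq (QQ - S)) := by
  have h := (mnr_ChkB QQ (isq (PIlo * mn S (QQ - S)))).trans (rq_isq_pi _)
  exact ⟨(mnl_ChkB _ _).trans rq_QQ.le,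
    h.trans (Real.sqrt_le_sqrt (mul_le_mul_of_nonneg_left (mnl_ChkB _ _) Real.pi_pos.le)),
    h.trans (Real.sqrt_le_sqrt (mul_le_mul_of_nonneg_left (mnr_ChkB _ _) Real.pi_pos.le))⟩

theorem baseI_ChkB {S S' : ℕ} (hS : S ≤ QQ) (hS' : S' ≤ QQ) {θ : ℝ} (hθ0 : 0 ≤ θ) (hθ1 : θ ≤ 1) :
    (1 - θ) * rq (baseN S) + θ * rq (baseN S') ≤ I2 ((1 - θ) * rq S + θ * rq S') :=
  le_min (gA_ChkB (base_ChkB S).2.1 (base_ChkB S').2.1 hθ0 hθ1)
    (le_min (gC_ChkB (base_ChkB S).1 (base_ChkB S').1 hθ0 hθ1)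
      (gB_ChkB hS hS' (base_ChkB S).2.2 (base_ChkB S').2.2 hθ0 hθ1))

theorem alt2_ChkB {c : Cfg} {ω : ℝ} (hc : c.valid ω) {S S' : ℕ} (hS : S ≤ QQ) (hS' : S' ≤ QQ)
    {θ : ℝ} (hθ0 : 0 ≤ θ) (hθ1 : θ ≤ 1) :
    (1 - θ) * rq (c.alt2 S) + θ * rq (c.alt2 S') ≤
      prof c.mode (rq c.lam) ω ((1 - θ) * rq S + θ * rq S') := by
  obtain ⟨h4, h2, h3⟩ := hc
  have hb := baseI_ChkB hS hS' hθ0 hθ1
  have hm : c.mode = 0 ∨ c.mode = 1 ∨ c.mode = 2 ∨ c.mode = 3 ∨ c.mode = 4 := by omega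
  rcases hm with hm | hm | hm | hm | hm
  · have e : ∀ S, c.alt2 S = baseN S := fun S => by
      rw [Cfg.alt2, hm, show Nat.ble 0 1 = true from rfl, cond_true]
    rw [e, e, hm, prof, if_pos rfl]
    exact hb
  · have e : ∀ S, c.alt2 S = baseN S := fun S => by
      rw [Cfg.alt2, hm, show Nat.ble 1 1 = true from rfl, cond_true]
    rw [e, e, hm, prof, if_neg (by norm_num), if_pos rfl]
    exact hb.trans (le_max_left _ _)
  · have e : ∀ S, c.alt2 S = mn (mn (isq (PIlo * S)) (c.c0 + c.lam * S / QQ)) C127 := fun S => by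
      rw [Cfg.alt2, hm, show Nat.ble 2 1 = false from rfl, cond_false,
        show Nat.beq 2 2 = true from rfl, cond_true]
    rw [e, e, hm, prof, if_neg (by norm_num), if_neg (by norm_num), if_pos rfl, (h2 hm).1]
    exact le_min (gA_ChkB ((mnl_ChkB _ _).trans ((mnl_ChkB _ _).trans (rq_isq_pi _)))
        ((mnl_ChkB _ _).trans ((mnl_ChkB _ _).trans (rq_isq_pi _))) hθ0 hθ1)
      (le_min (gD_ChkB ((mnl_ChkB _ _).trans (mnr_ChkB _ _)) ((mnl_ChkB _ _).trans (mnr_ChkB _ _))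
        (h2 hm).2 hθ0 hθ1)
        (gC_ChkB ((mnr_ChkB _ _).trans C127_le) ((mnr_ChkB _ _).trans C127_le) hθ0 hθ1))
  · have e : ∀ S, c.alt2 S = BJ * baseN S / QQ := fun S => by
      rw [Cfg.alt2, hm, show Nat.ble 3 1 = false from rfl, cond_false,
        show Nat.beq 3 2 = false from rfl, cond_false, show Nat.beq 3 3 = true from rfl, cond_true]
    rw [e, e, hm, prof, if_neg (by norm_num), if_neg (by norm_num), if_neg (by norm_num),
      if_pos rfl]
    refine (mix_ChkB (rq_mul_div _ _) (rq_mul_div _ _) hθ0 hθ1).trans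
      (le_trans (le_of_eq ?_) (mul_le_mul_of_nonneg_left hb (rq_nonneg BJ)))
    ring
  · have e : ∀ S, c.alt2 S = mn (isq (PIlo * S)) (c.c0 + c.lam * S / QQ) := fun S => by
      rw [Cfg.alt2, hm, show Nat.ble 4 1 = false from rfl, cond_false,
        show Nat.beq 4 2 = false from rfl, cond_false, show Nat.beq 4 3 = false from rfl,
        cond_false]
    rw [e, e, hm, prof, if_neg (by norm_num), if_neg (by norm_num), if_neg (by norm_num),
      if_neg (by norm_num)]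
    exact le_min (gA_ChkB ((mnl_ChkB _ _).trans (rq_isq_pi _))
        ((mnl_ChkB _ _).trans (rq_isq_pi _)) hθ0 hθ1)
      ((gD_ChkB (mnr_ChkB _ _) (mnr_ChkB _ _) (h3 hm).1 hθ0 hθ1).trans (le_max_right _ _))

theorem alt1_interp {c : Cfg} {ω : ℝ} (hc : c.valid ω) {S S' : ℕ} (hS : S ≤ QQ) (hS' : S' ≤ QQ)
    {θ : ℝ} (hθ0 : 0 ≤ θ) (hθ1 : θ ≤ 1) :
    (1 - θ) * rq (c.alt1 S) + θ * rq (c.alt1 S') ≤
      prof c.mode (rq c.lam) ω ((1 - θ) * rq S + θ * rq S') := by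
  by_cases h1 : c.mode = 1
  · have e : ∀ S, c.alt1 S = mn ETA (isq (PIlo * (QQ - S))) := fun S => by
      rw [Cfg.alt1, h1, show Nat.beq 1 1 = true from rfl, cond_true]
    rw [e, e, h1, prof, if_neg (by norm_num), if_pos rfl]
    exact (le_min (gC_ChkB (mnl_ChkB _ _) (mnl_ChkB _ _) hθ0 hθ1)
      (gB_ChkB hS hS' ((mnr_ChkB _ _).trans (rq_isq_pi _)) ((mnr_ChkB _ _).trans (rq_isq_pi _))
        hθ0 hθ1)).trans (le_max_right _ _)
  by_cases h4 : c.mode = 4
  · have e : ∀ S, c.alt1 S = mn QQ (isq (PIlo * S)) := fun S => by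
      rw [Cfg.alt1, h4, show Nat.beq 4 1 = false from rfl, cond_false,
        show Nat.beq 4 4 = true from rfl, cond_true]
    rw [e, e, h4, prof, if_neg (by norm_num), if_neg (by norm_num), if_neg (by norm_num),
      if_neg (by norm_num)]
    exact le_min (gA_ChkB ((mnr_ChkB _ _).trans (rq_isq_pi _))
        ((mnr_ChkB _ _).trans (rq_isq_pi _)) hθ0 hθ1)
      ((gC_ChkB ((mnl_ChkB _ _).trans rq_QQ.le) ((mnl_ChkB _ _).trans rq_QQ.le) hθ0 hθ1).trans
        (le_max_left _ _))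
  have e : ∀ S, c.alt1 S = c.alt2 S := fun S => by
    rw [Cfg.alt1, beq_ChkB h1, beq_ChkB h4, cond_false, cond_false]
  rw [e, e]
  exact alt2_ChkB hc hS hS' hθ0 hθ1

theorem alt2_interp {c : Cfg} {ω : ℝ} (hc : c.valid ω) {S S' : ℕ} (hS : S ≤ QQ) (hS' : S' ≤ QQ)
    {θ : ℝ} (hθ0 : 0 ≤ θ) (hθ1 : θ ≤ 1) :
    (1 - θ) * rq (c.alt2 S) + θ * rq (c.alt2 S') ≤
      prof c.mode (rq c.lam) ω ((1 - θ) * rq S + θ * rq S') := by
  exact alt2_ChkB hc hS hS' hθ0 hθ1

theorem anti_ChkB {c k β w W : ℝ} (hc : 0 ≤ c) (hk : 0 < k) (h0 : 0 < W) (h1 : W ≤ w)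
    (h : c * w * w ≤ k * k * β) : w * c / k + k * β / w ≤ W * c / k + k * β / W := by
  have hw : 0 < w := h0.trans_le h1
  have h2 : c * w * W ≤ c * w * w := mul_le_mul_of_nonneg_left h1 (by positivity)
  have h3 : 0 ≤ (w - W) * (k * k * β - c * w * W) / (k * w * W) :=
    div_nonneg (mul_nonneg (by linarith) (by linarith)) (by positivity)
  have e : W * c / k + k * β / W - (w * c / k + k * β / w) =
      (w - W) * (k * k * β - c * w * W) / (k * w * W) := by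
    field_simp
    ring
  linarith

theorem amgm_ChkB {c k β W : ℝ} (hc : 0 ≤ c) (hk : 0 < k) (hβ : 0 ≤ β) (h0 : 0 < W) :
    Real.sqrt (4 * c * β) ≤ W * c / k + k * β / W := by
  refine Real.sqrt_le_iff.2 ⟨by positivity, ?_⟩
  have e : W * c / k * (k * β / W) = c * β := by field_simp
  nlinarith [sq_nonneg (W * c / k - k * β / W)]

theorem nodeCv_le (B kap W0 : ℕ) {W : ℝ} (h0 : 0 < W) (h1 : W ≤ rq W0) :
    rq (nodeCv B (PIlo / 4 + kap) W0 (QQ + kap)) ≤
      W * (Real.pi / 4 + rq kap) / (1 + rq kap) + (1 + rq kap) * rq B / W := by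
  have hκ := rq_nonneg kap
  have hk : rq (QQ + kap) = 1 + rq kap := by rw [rq_add, rq_QQ]
  have hc : rq (PIlo / 4 + kap) ≤ Real.pi / 4 + rq kap := by
    rw [rq_add]
    have h3 : rq (PIlo / 4) ≤ rq PIlo / 4 := by
      unfold rq
      have : ((PIlo / 4 : ℕ) : ℝ) ≤ (PIlo : ℝ) / (4 : ℕ) := Nat.cast_div_le
      push_cast at this
      linarith
    linarith [PIlo_le]
  have hk0 : 0 < rq (QQ + kap) := by rw [hk]; positivity
  have key : rq (nodeCv B (PIlo / 4 + kap) W0 (QQ + kap)) ≤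
      W * rq (PIlo / 4 + kap) / rq (QQ + kap) + rq (QQ + kap) * rq B / W := by
    generalize PIlo / 4 + kap = cc at *
    generalize QQ + kap = k1 at *
    have hW : 0 < rq W0 := h0.trans_le h1
    unfold nodeCv
    cases hb : Nat.ble (cc * W0 * W0) (k1 * k1 * B)
    · rw [cond_false]
      refine (rq_isq_le _).trans (le_trans (le_of_eq ?_)
        (amgm_ChkB (rq_nonneg cc) hk0 (rq_nonneg B) h0))
      congr 1
      unfold rq
      push_cast
      ring
    · have h2 : ((cc * W0 * W0 : ℕ) : ℝ) ≤ ((k1 * k1 * B : ℕ) : ℝ) :=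
        Nat.cast_le.2 (Nat.le_of_ble_eq_true hb)
      push_cast at h2
      have h3 : rq cc * rq W0 * rq W0 ≤ rq k1 * rq k1 * rq B := by
        unfold rq
        linarith
      refine le_trans ?_ (anti_ChkB (rq_nonneg cc) hk0 h0 h1 h3)
      rw [cond_true]
      have a1 : ((W0 * cc / k1 : ℕ) : ℝ) ≤ ((W0 * cc : ℕ) : ℝ) / k1 := Nat.cast_div_le
      have a2 : ((k1 * B / W0 : ℕ) : ℝ) ≤ ((k1 * B : ℕ) : ℝ) / W0 := Nat.cast_div_le
      have e1 : rq W0 * rq cc / rq k1 = ((W0 * cc : ℕ) : ℝ) / k1 / 1048576 := by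
        unfold rq
        push_cast
        ring
      have e2 : rq k1 * rq B / rq W0 = ((k1 * B : ℕ) : ℝ) / W0 / 1048576 := by
        unfold rq
        push_cast
        ring
      rw [rq_add, e1, e2]
      unfold rq
      linarith
  rw [hk] at key hk0
  refine key.trans (add_le_add_left ?_ _)
  exact div_le_div_of_nonneg_right (mul_le_mul_of_nonneg_left hc h0.le) hk0.le

theorem node1_ChkB (c : Cfg) {S : ℕ} (h : S ≤ c.thr) : rq (c.node S) ≤ rq (c.alt1 S) := by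
  unfold Cfg.node
  cases h1 : Nat.blt S c.thr
  · cases h2 : Nat.blt c.thr S
    · rw [cond_false, cond_false]
      exact mnl_ChkB _ _
    · exact absurd (Nat.blt_eq ▸ h2 : c.thr < S) (not_lt.2 h)
  · rw [cond_true]

theorem node2_ChkB (c : Cfg) {S : ℕ} (h : c.thr ≤ S) : rq (c.node S) ≤ rq (c.alt2 S) := by
  unfold Cfg.node
  cases h1 : Nat.blt S c.thr
  · cases h2 : Nat.blt c.thr S
    · rw [cond_false, cond_false]
      exact mnr_ChkB _ _
    · rw [cond_false, cond_true]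
  · exact absurd (Nat.blt_eq ▸ h1 : S < c.thr) (not_lt.2 h)

theorem rq0_ChkB : rq 0 = 0 := by simp [rq]

theorem nodeC_ChkB (c : Cfg) {S : ℕ} (hS : S ≤ QQ) {W : ℝ} (h0 : 0 < W)
    (h1 : W ≤ rq (QQ - c.w0)) : rq (c.nodeC S) ≤
      W * (Real.pi / 4 + rq c.kap) / (1 + rq c.kap) + (1 + rq c.kap) * (1 - rq S) / W := by
  unfold Cfg.nodeC
  cases c.act (S + 1)
  · have := rq_nonneg c.kap
    have := Real.pi_pos
    have := sub_nonneg.2 (le1_ChkB hS)
    rw [cond_false, rq0_ChkB]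
    positivity
  · have := nodeCv_le (QQ - S) c.kap (QQ - c.w0) h0 h1
    rw [cond_true]
    rwa [rq_sub hS, rq_QQ] at this

theorem nodeQ_ChkB (c : Cfg) {S : ℕ} (hS : S ≤ QQ) (h : rq S = 1) : rq (c.nodeC S) = 0 := by
  have e : S = QQ := le_antisymm hS (not_lt.1 fun hl => by
    have := rq_lt hl
    rw [rq_QQ] at this
    linarith)
  have e2 : c.nodeC S = 0 := by
    unfold Cfg.nodeC
    cases c.act (S + 1)
    · rw [cond_false]
    · rw [e, Nat.sub_self, cond_true]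
      generalize PIlo / 4 + c.kap = cc
      generalize QQ - c.w0 = W
      generalize QQ + c.kap = k1
      unfold nodeCv
      cases hb : Nat.ble (cc * W * W) (k1 * k1 * 0)
      · have := isq_sq_le 0
        rw [cond_false, mul_zero]
        exact (Nat.mul_eq_zero.1 (Nat.le_zero.1 this)).elim id id
      · have h2 := Nat.le_of_ble_eq_true hb
        rw [mul_zero] at h2
        have h3 : W * cc = 0 := by
          rcases Nat.mul_eq_zero.1 (Nat.le_zero.1 h2) with h4 | h4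
          · rwa [mul_comm]
          · rw [h4, zero_mul]
        rw [cond_true, h3, mul_zero, Nat.zero_div, Nat.zero_div]
  rw [e2, rq0_ChkB]

theorem seg_sound {c : Cfg} {ω : ℝ} (hc : c.valid ω) {S S' b b' : ℕ} (hSS : S ≤ S')
    (hS' : S' ≤ QQ)
    (h : c.segOK S b (c.node S) (c.nodeC S) S' b' (c.node S') (c.nodeC S') = true) {θ : ℝ}
    (hθ0 : 0 ≤ θ) (hθ1 : θ ≤ 1) :
    c.cond ω ((1 - θ) * rq S + θ * rq S') ((1 - θ) * rq b + θ * rq b') := by
  have hS : S ≤ QQ := hSS.trans hS'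
  rw [Cfg.segOK, Bool.and_eq_true, Bool.and_eq_true, Bool.or_eq_true] at h
  obtain ⟨⟨h1, h2⟩, h3⟩ := h
  have hβ : 0 ≤ (1 - θ) * rq b + θ * rq b' :=
    add_nonneg (mul_nonneg (sub_nonneg.2 hθ1) (rq_nonneg b)) (mul_nonneg hθ0 (rq_nonneg b'))
  refine ⟨?_, fun hm W hW1 hW2 => ?_⟩
  · have a1 := quad_sound h2 hθ0 hθ1
    rw [line_val, line_val] at a1
    have a2 : (1 - θ) * rq (c.node S) + θ * rq (c.node S') ≤
        prof c.mode (rq c.lam) ω ((1 - θ) * rq S + θ * rq S') := by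
      rcases h1 with h1 | h1
      · have h1 := Nat.le_of_ble_eq_true h1
        exact (mix_ChkB (node1_ChkB c (hSS.trans h1)) (node1_ChkB c h1) hθ0 hθ1).trans
          (alt1_interp hc hS hS' hθ0 hθ1)
      · have h1 := Nat.le_of_ble_eq_true h1
        exact (mix_ChkB (node2_ChkB c h1) (node2_ChkB c (h1.trans hSS)) hθ0 hθ1).trans
          (alt2_interp hc hS hS' hθ0 hθ1)
    have a3 := mul_le_mul_of_nonneg_left a2 hβ
    linarith
  · obtain ⟨-, hw, -⟩ := hc.2.2 hm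
    have s1 : (1 - θ) * rq S + θ * rq S' ≤ rq S' := gC_ChkB (rq_mono hSS) le_rfl hθ0 hθ1
    have hw0 : c.w0 ≤ S' := not_lt.1 fun hl => by
      have := rq_lt hl
      linarith
    have hact : c.act S' = true := by
      rw [Cfg.act, hm, Nat.ble_eq_true_of_le hw0]
      rfl
    rw [hact, cond_true] at h3
    have a1 := quad_sound h3 hθ0 hθ1
    have e : ∀ T : ℕ, (((c.P T + c.kap * QQ : ℕ) : ℝ) - c.N T) / 1048576 ^ 2 =
        (rq c.mp - rq c.mm) + (rq c.lp - rq c.lm) * rq T + rq c.kap := fun T => by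
      rw [← line_val]
      unfold rq QQ
      push_cast
      ring
    rw [e, e] at a1
    have a2 : (1 - θ) * rq (c.nodeC S) + θ * rq (c.nodeC S') ≤
        W * (Real.pi / 4 + rq c.kap) / (1 + rq c.kap) +
          (1 + rq c.kap) * (1 - ((1 - θ) * rq S + θ * rq S')) / W := by
      rcases lt_or_ge 0 W with h0 | h0
      · have hW : W ≤ rq (QQ - c.w0) := by
          rw [rq_sub (hw0.trans hS'), rq_QQ]
          linarith
        refine (mix_ChkB (nodeC_ChkB c hS h0 hW) (nodeC_ChkB c hS' h0 hW) hθ0 hθ1).trans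
          (le_of_eq ?_)
        ring
      · have b1 := mul_nonneg (sub_nonneg.2 hθ1) (sub_nonneg.2 (le1_ChkB hS))
        have b2 := mul_nonneg hθ0 (sub_nonneg.2 (le1_ChkB hS'))
        have hW : W = 0 := by nlinarith
        have c1 : (1 - θ) * (1 - rq S) = 0 := by nlinarith
        have c2 : θ * (1 - rq S') = 0 := by nlinarith
        have d1 : (1 - θ) * rq (c.nodeC S) = 0 := by
          rcases mul_eq_zero.1 c1 with e | e
          · rw [e, zero_mul]
          · rw [nodeQ_ChkB c hS (by linarith), mul_zero]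
        have d2 : θ * rq (c.nodeC S') = 0 := by
          rcases mul_eq_zero.1 c2 with e | e
          · rw [e, zero_mul]
          · rw [nodeQ_ChkB c hS' (by linarith), mul_zero]
        rw [d1, d2, hW]
        simp
    have a3 := mul_le_mul_of_nonneg_left a2 hβ
    linarith

end Vale.Agent.P232
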