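import Vale.Agent.P232.ChkB

/-!
# P232 / ChkC

Soundness of the loop. `extend`: for `S < S'` put
`β' s = β s + (b' - b) * max 0 (min 1 ((s - S)/(S' - S)))`; for `S = S'` the statement only asks for
something when `b = b'`, so the degenerate case is handled in `run_sound` as follows: if `S = S'` then
`b' = b` because both are `c.beta S (c.node S) (c.nodeC S)`, and the credit is zero.
Trapezoid: `√(1 - β²)` is concave along the segment (`sqrt_conc` and convexity of the square), so its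
integral is at least the trapezoid value. `run_sound`: induction on the list with the invariant `Inv`;
at the end the point `s = rq S` is covered by the degenerate segment test (`seg_sound` with `θ = 0`).
-/

open MeasureTheory Set

namespace Vale.Agent.P232

theorem extend {β : ℝ → ℝ} (hβ : Continuous β) (hb : ∀ s, 0 ≤ β s ∧ β s ≤ 1) {S S' b b' : ℝ}
    (hSS : S < S') (hc : ∀ s, S ≤ s → β s = b) (hb' : 0 ≤ b' ∧ b' ≤ 1) :
    ∃ β' : ℝ → ℝ, Continuous β' ∧ (∀ s, 0 ≤ β' s ∧ β' s ≤ 1) ∧ (∀ s, s ≤ S → β' s = β s) ∧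
      (∀ s, S' ≤ s → β' s = b') ∧
      (∀ s ∈ Icc S S', ∃ θ, 0 ≤ θ ∧ θ ≤ 1 ∧ s = (1 - θ) * S + θ * S' ∧
        β' s = (1 - θ) * b + θ * b') ∧
      (S' - S) * (Real.sqrt (1 - b ^ 2) + Real.sqrt (1 - b' ^ 2)) / 2 ≤
        ∫ s in S..S', Real.sqrt (1 - β' s ^ 2) := by
  have hd : 0 < S' - S := sub_pos.2 hSS
  have hb0 : 0 ≤ b ∧ b ≤ 1 := hc S le_rfl ▸ hb S
  set t : ℝ → ℝ := fun s => max 0 (min 1 ((s - S) / (S' - S))) with ht
  have ht0 : ∀ s, 0 ≤ t s := fun s => le_max_left _ _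
  have ht1 : ∀ s, t s ≤ 1 := fun s => max_le zero_le_one (min_le_left _ _)
  have htl : ∀ s, s ≤ S → t s = 0 := fun s hs =>
    max_eq_left ((min_le_right _ _).trans (div_nonpos_of_nonpos_of_nonneg (sub_nonpos.2 hs) hd.le))
  have htr : ∀ s, S' ≤ s → t s = 1 := fun s hs => by
    have h1 : 1 ≤ (s - S) / (S' - S) := (one_le_div hd).2 (by linarith)
    simp only [ht, min_eq_left h1, max_eq_right zero_le_one]
  have htm : ∀ s ∈ Icc S S', t s = (s - S) / (S' - S) := fun s hs => by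
    have h1 : (s - S) / (S' - S) ≤ 1 := (div_le_one hd).2 (by linarith [hs.2])
    have h2 : 0 ≤ (s - S) / (S' - S) := div_nonneg (sub_nonneg.2 hs.1) hd.le
    simp only [ht, min_eq_right h1, max_eq_right h2]
  have hv : ∀ s, S ≤ s → β s + (b' - b) * t s = (1 - t s) * b + t s * b' := fun s hs => by
    rw [hc s hs]; ring
  have hcont : Continuous fun s => β s + (b' - b) * t s := by
    simp only [ht]
    fun_prop
  refine ⟨fun s => β s + (b' - b) * t s, hcont, fun s => ?_, fun s hs => ?_, fun s hs => ?_,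
    fun s hs => ⟨t s, ht0 s, ht1 s, ?_, hv s hs.1⟩, ?_⟩
  · rcases le_total s S with hs | hs
    · simp only [htl s hs, mul_zero, add_zero]
      exact hb s
    · simp only [hv s hs]
      have h0 := ht0 s
      have h1 := sub_nonneg.2 (ht1 s)
      constructor
      · exact add_nonneg (mul_nonneg h1 hb0.1) (mul_nonneg h0 hb'.1)
      · nlinarith [mul_le_mul_of_nonneg_left hb0.2 h1, mul_le_mul_of_nonneg_left hb'.2 h0]
  · simp only [htl s hs, mul_zero, add_zero]
  · simp only [hc s (hSS.le.trans hs), htr s hs]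
    ring
  · rw [htm s hs]
    field_simp
    ring
  · set u := Real.sqrt (1 - b ^ 2)
    set u' := Real.sqrt (1 - b' ^ 2)
    have e : ∫ s in S..S', ((u - (u' - u) / (S' - S) * S) + (u' - u) / (S' - S) * s) =
        (S' - S) * (u + u') / 2 := by
      rw [intervalIntegral.integral_add (by simp) (Continuous.intervalIntegrable (by fun_prop) _ _),
        intervalIntegral.integral_const, intervalIntegral.integral_const_mul, integral_id,
        smul_eq_mul]
      field_simp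
      ring
    rw [← e]
    refine intervalIntegral.integral_mono_on hSS.le (Continuous.intervalIntegrable (by fun_prop) _ _)
      (Continuous.intervalIntegrable (by fun_prop) _ _) fun s hs => ?_
    have h1 := sqrt_conc (x := 1 - b ^ 2) (y := 1 - b' ^ 2) (by nlinarith [hb0.1, hb0.2])
      (by nlinarith [hb'.1, hb'.2]) (ht0 s) (ht1 s)
    have h2 : u - (u' - u) / (S' - S) * S + (u' - u) / (S' - S) * s = (1 - t s) * u + t s * u' := by
      rw [htm s hs]
      field_simp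
      ring
    rw [h2]
    refine h1.trans (Real.sqrt_le_sqrt ?_)
    simp only [hv s hs.1]
    nlinarith [mul_nonneg (mul_nonneg (ht0 s) (sub_nonneg.2 (ht1 s))) (sq_nonneg (b - b'))]

/-- Loop invariant. -/
def Cfg.Inv (c : Cfg) (ω : ℝ) (f0 S G : ℕ) : Prop :=
  S ≤ QQ ∧ c.beta S (c.node S) (c.nodeC S) ≤ QQ ∧ ∃ β : ℝ → ℝ, Continuous β ∧
    (∀ s, 0 ≤ β s ∧ β s ≤ 1) ∧ (∀ s, rq S ≤ s → β s = rq (c.beta S (c.node S) (c.nodeC S))) ∧
    (∀ s ∈ Ico (rq f0) (rq S), c.cond ω s (β s)) ∧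
    (G : ℝ) / (2 * 1048576 ^ 2) ≤
      ∫ s in Ioc (rq c.f1) (min (rq S) (rq c.a0)), Real.sqrt (1 - β s ^ 2)

/-- What an accepted leaf yields. -/
def Cfg.Out (c : Cfg) (ω : ℝ) (f0 : ℕ) : Prop :=
  ∃ (β : ℝ → ℝ) (G : ℕ), Continuous β ∧ (∀ s, 0 ≤ β s ∧ β s ≤ 1) ∧
    (∀ s ∈ Icc (rq f0) (rq c.a1), c.cond ω s (β s)) ∧
    c.finalAt G c.vA = true ∧ c.finalAt G c.vB = true ∧
    ∀ f a : ℝ, f ≤ rq c.f1 → rq c.a0 ≤ a → f ≤ a →
      (G : ℝ) / (2 * 1048576 ^ 2) ≤ ∫ s in f..a, Real.sqrt (1 - β s ^ 2)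

theorem mono_ChkC {β : ℝ → ℝ} (hβ : Continuous β) {x y x' y' : ℝ} (hx : x' ≤ x) (hy : y ≤ y') :
    ∫ s in Ioc x y, Real.sqrt (1 - β s ^ 2) ≤ ∫ s in Ioc x' y', Real.sqrt (1 - β s ^ 2) :=
  setIntegral_mono_set (Continuous.integrableOn_Ioc (by fun_prop))
    (Filter.Eventually.of_forall fun _ => Real.sqrt_nonneg _)
    (Ioc_subset_Ioc hx hy).eventuallyLE

theorem run_sound {c : Cfg} {ω : ℝ} (hc : c.valid ω) (f0 : ℕ) (L : List ℕ) :
    ∀ S G : ℕ, c.Inv ω f0 S G →
      c.run L S (c.beta S (c.node S) (c.nodeC S)) (alphaN (c.beta S (c.node S) (c.nodeC S)))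
        (c.node S) (c.nodeC S) G = true → c.Out ω f0 := by
  induction L with
  | nil =>
    rintro S G ⟨hS, -, β, h1, h2, h3, h4, h5⟩ h
    simp only [Cfg.run, Bool.and_eq_true, Nat.ble_eq] at h
    obtain ⟨⟨⟨k1, k2⟩, k3⟩, k4⟩ := h
    refine ⟨β, G, h1, h2, fun s hs => ?_, k3, k4, fun f a hf ha hfa => h5.trans ?_⟩
    · rcases lt_or_ge s (rq S) with h6 | h6
      · exact h4 s ⟨hs.1, h6⟩
      · have h7 := seg_sound hc le_rfl hS k1 le_rfl zero_le_one
        simp only [sub_zero, one_mul, zero_mul, add_zero] at h7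
        rw [h3 s h6, le_antisymm (hs.2.trans (rq_mono k2)) h6]
        exact h7
    · rw [intervalIntegral.integral_of_le hfa]
      exact mono_ChkC h1 hf ((min_le_right _ _).trans ha)
  | cons S' L ih =>
    rintro S G ⟨hS, hb, β, h1, h2, h3, h4, h5⟩ h
    simp only [Cfg.run, Cfg.stepK, Bool.and_eq_true, Nat.ble_eq] at h
    obtain ⟨⟨⟨⟨k1, k2⟩, k3⟩, k4⟩, k5⟩ := h
    refine ih S' _ ?_ k5
    rcases k1.eq_or_lt with rfl | k6
    · refine ⟨hS, hb, β, h1, h2, h3, h4, ?_⟩
      simpa only [Cfg.credit, Nat.sub_self, zero_mul, Bool.cond_self, add_zero] using h5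
    obtain ⟨γ, g1, g2, g3, g4, g5, g6⟩ := extend h1 h2 (rq_lt k6) h3
      ⟨rq_nonneg (c.beta S' (c.node S') (c.nodeC S')), (rq_mono k3).trans rq_QQ.le⟩
    refine ⟨k2, k3, γ, g1, g2, g4, fun s hs => ?_, ?_⟩
    · rcases lt_or_ge s (rq S) with h6 | h6
      · rw [g3 s h6.le]
        exact h4 s ⟨hs.1, h6⟩
      · obtain ⟨θ, t0, t1, t2, t3⟩ := g5 s ⟨h6, hs.2.le⟩
        rw [t3, t2]
        exact seg_sound hc k1 k2 k4 t0 t1
    have h6 : (G : ℝ) / (2 * 1048576 ^ 2) ≤
        ∫ s in Ioc (rq c.f1) (min (rq S) (rq c.a0)), Real.sqrt (1 - γ s ^ 2) := by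
      refine h5.trans_eq (setIntegral_congr_fun measurableSet_Ioc fun s hs => ?_)
      simp only [g3 s (hs.2.trans (min_le_left _ _))]
    unfold Cfg.credit
    by_cases hq : c.f1 ≤ S ∧ S' ≤ c.a0
    · have hq' : (Nat.ble c.f1 S && Nat.ble S' c.a0) = true := by
        simpa only [Bool.and_eq_true, Nat.ble_eq] using hq
      have hi : ∀ x y, IntervalIntegrable (fun s => Real.sqrt (1 - γ s ^ 2)) volume x y :=
        fun x y => Continuous.intervalIntegrable (by fun_prop) _ _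
      rw [min_eq_left (rq_mono (k1.trans hq.2)),
        ← intervalIntegral.integral_of_le (rq_mono hq.1)] at h6
      rw [hq', cond_true, min_eq_left (rq_mono hq.2),
        ← intervalIntegral.integral_of_le (rq_mono (hq.1.trans k1)),
        ← intervalIntegral.integral_add_adjacent_intervals (hi _ (rq S)) (hi _ _), Nat.cast_add,
        add_div]
      refine add_le_add h6 (le_trans ?_ g6)
      have h7 := add_le_add (alphaN_le hb) (alphaN_le k3)
      have h8 := mul_le_mul_of_nonneg_left h7 (sub_nonneg.2 (rq_mono k1))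
      refine le_trans (le_of_eq ?_) (div_le_div_of_nonneg_right h8 zero_le_two)
      simp only [rq, Nat.cast_mul, Nat.cast_sub k1, Nat.cast_add]
      ring
    · have hq' : (Nat.ble c.f1 S && Nat.ble S' c.a0) = false := by
        rw [← Bool.not_eq_true]
        simpa only [Bool.and_eq_true, Nat.ble_eq] using hq
      rw [hq', cond_false, add_zero]
      exact h6.trans (mono_ChkC g1 le_rfl (min_le_min_right _ (rq_mono k1)))

theorem start_sound {c : Cfg} {ω : ℝ} (hc : c.valid ω) {f0 : ℕ} {L : List ℕ}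
    (h : c.start f0 L = true) : c.Out ω f0 := by
  simp only [Cfg.start, Bool.and_eq_true, Nat.ble_eq] at h
  obtain ⟨⟨k1, k2⟩, k3⟩ := h
  refine run_sound hc f0 L f0 0 ⟨k1, k2, fun _ => rq (c.beta f0 (c.node f0) (c.nodeC f0)),
    continuous_const, fun _ => ⟨rq_nonneg _, (rq_mono k2).trans rq_QQ.le⟩, fun _ _ => rfl,
    fun s hs => absurd hs.2 (not_lt.2 hs.1), ?_⟩ k3
  rw [Nat.cast_zero, zero_div]
  exact integral_nonneg fun s => Real.sqrt_nonneg _

end Vale.Agent.P232
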