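import Vale.Agent.P232.ChkL

/-!
# P232 / ChkD

Soundness of trees and the numerical input. `box_of_chk`: induction on the tree (generalizing the
box), `leaf_sound` at leaves, the `split` lemmas at nodes. `numerics_of`: constants `η = rq ETA`,
`l = rq LI`, `s0 = rq S0I`, `k1 = rq KK1`, `F0 = rq FF0`, `A = rq AJ`, `b = rq BJ` (use `ω = 0` for the first
two trees). `s0_ok`: with `c = Sl l - l η ≈ 0.85703`, `(c + l s)² - π s` is decreasing on `[0, s0]` and positive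
at `s0` (margin about `4e-4`; `π < 3.141593`); `π s0 < 2 (1-η)²`.
-/

open MeasureTheory Set

namespace Vale.Agent.P232

/-- The conclusion holds on a box. -/
def BoxOK (th v0 v1 a0 a1 f0 f1 w0 w1 : ℕ) : Prop :=
  ∀ v a f ω : ℝ, Rg v a f → ω ≤ 1 → rq v0 ≤ v → v ≤ rq v1 → rq a0 ≤ a → a ≤ rq a1 →
    rq f0 ≤ f → f ≤ rq f1 → rq w0 ≤ ω → ω ≤ rq w1 → Concl th v a f ω

theorem BoxOK.split0 {th v0 v1 a0 a1 f0 f1 w0 w1 : ℕ} (mid : ℕ)
    (hl : BoxOK th v0 mid a0 a1 f0 f1 w0 w1) (hr : BoxOK th mid v1 a0 a1 f0 f1 w0 w1) :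
    BoxOK th v0 v1 a0 a1 f0 f1 w0 w1 := by
  intro v a f ω hR hω h1 h2 h3 h4 h5 h6 h7 h8
  rcases le_total v (rq mid) with h | h
  · exact hl v a f ω hR hω h1 h h3 h4 h5 h6 h7 h8
  · exact hr v a f ω hR hω h h2 h3 h4 h5 h6 h7 h8

theorem BoxOK.split1 {th v0 v1 a0 a1 f0 f1 w0 w1 : ℕ} (mid : ℕ)
    (hl : BoxOK th v0 v1 a0 mid f0 f1 w0 w1) (hr : BoxOK th v0 v1 mid a1 f0 f1 w0 w1) :
    BoxOK th v0 v1 a0 a1 f0 f1 w0 w1 := by
  intro v a f ω hR hω h1 h2 h3 h4 h5 h6 h7 h8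
  rcases le_total a (rq mid) with h | h
  · exact hl v a f ω hR hω h1 h2 h3 h h5 h6 h7 h8
  · exact hr v a f ω hR hω h1 h2 h h4 h5 h6 h7 h8

theorem BoxOK.split2 {th v0 v1 a0 a1 f0 f1 w0 w1 : ℕ} (mid : ℕ)
    (hl : BoxOK th v0 v1 a0 a1 f0 mid w0 w1) (hr : BoxOK th v0 v1 a0 a1 mid f1 w0 w1) :
    BoxOK th v0 v1 a0 a1 f0 f1 w0 w1 := by
  intro v a f ω hR hω h1 h2 h3 h4 h5 h6 h7 h8
  rcases le_total f (rq mid) with h | h
  · exact hl v a f ω hR hω h1 h2 h3 h4 h5 h h7 h8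
  · exact hr v a f ω hR hω h1 h2 h3 h4 h h6 h7 h8

theorem BoxOK.split3 {th v0 v1 a0 a1 f0 f1 w0 w1 : ℕ} (mid : ℕ)
    (hl : BoxOK th v0 v1 a0 a1 f0 f1 w0 mid) (hr : BoxOK th v0 v1 a0 a1 f0 f1 mid w1) :
    BoxOK th v0 v1 a0 a1 f0 f1 w0 w1 := by
  intro v a f ω hR hω h1 h2 h3 h4 h5 h6 h7 h8
  rcases le_total ω (rq mid) with h | h
  · exact hl v a f ω hR hω h1 h2 h3 h4 h5 h6 h7 h
  · exact hr v a f ω hR hω h1 h2 h3 h4 h5 h6 h h8

theorem k0_ChkD {th v0 v1 a0 a1 f0 f1 w0 w1 : ℕ} (h : v1 < f0 ∨ a1 < v0) :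
    BoxOK th v0 v1 a0 a1 f0 f1 w0 w1 := by
  intro v a f ω hR hω h1 h2 h3 h4 h5 h6 h7 h8
  exfalso
  obtain ⟨-, r1, r2, -⟩ := hR
  rcases h with h | h
  · have := rq_lt h
    linarith
  · have := rq_lt h
    linarith

theorem k1_ChkD {th v0 v1 a0 a1 f0 f1 w0 w1 : ℕ}
    (h : a1 ≤ bif Nat.beq th 2 then S0I else KK1) : BoxOK th v0 v1 a0 a1 f0 f1 w0 w1 := by
  intro v a f ω hR hω h1 h2 h3 h4 h5 h6 h7 h8
  refine ⟨fun ht => ?_, fun ht => ?_, fun ht => ?_⟩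
  all_goals
    subst ht
    exact Or.inl (h4.trans (rq_mono h))

theorem k2_ChkD {v0 v1 a0 a1 f0 f1 w0 w1 : ℕ} (h : 1044480 ≤ a0) (h' : f1 ≤ 4096) :
    BoxOK 3 v0 v1 a0 a1 f0 f1 w0 w1 := by
  intro v a f ω hR hω h1 h2 h3 h4 h5 h6 h7 h8
  refine ⟨fun ht => absurd ht (by norm_num), fun ht => absurd ht (by norm_num), fun _ => ?_⟩
  have e1 : rq 1044480 = 1 - 1 / 256 := by norm_num [rq]
  have e2 : rq 4096 = 1 / 256 := by norm_num [rq]
  exact Or.inr (Or.inl ⟨e1 ▸ (rq_mono h).trans h3, e2 ▸ h6.trans (rq_mono h')⟩)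

theorem lf_ChkD {th mode mp mm lp lm eps tk sg kap lam thr K : ℕ} {bp : List ℕ}
    {v0 v1 a0 a1 f0 f1 w0 w1 : ℕ} (ha : allowed th mode v0 f0 = true)
    (h : leafOK mode mp mm lp lm eps tk sg kap lam thr K bp v0 v1 a0 a1 f0 f1 w0 w1 = true) :
    BoxOK th v0 v1 a0 a1 f0 f1 w0 w1 := by
  intro v a f ω hR hω h1 h2 h3 h4 h5 h6 h7 h8
  obtain ⟨m0, m1, m2, m3, m4⟩ := leaf_sound h hR hω h1 h2 h3 h4 h5 h6 h7 h8
  refine ⟨fun ht => ?_, fun ht => ?_, fun ht => ?_⟩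
  · subst ht
    have ha' : Nat.beq mode 2 = true := ha
    exact Or.inr (m2 (Nat.eq_of_beq_eq_true ha'))
  · subst ht
    have ha' : (Nat.beq mode 1 || (Nat.beq mode 3 && Nat.ble FF0 f0 && Nat.ble 262144 v0)) =
      true := ha
    simp only [Bool.or_eq_true, Bool.and_eq_true, Nat.beq_eq, Nat.ble_eq] at ha'
    rcases ha' with hm | ⟨⟨hm, p1⟩, p2⟩
    · exact Or.inr (Or.inl (m1 hm))
    · have e : rq 262144 = 1 / 4 := by norm_num [rq]
      exact Or.inr (Or.inr ⟨m3 hm, (rq_mono p1).trans h5, e ▸ (rq_mono p2).trans h1⟩)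
  · subst ht
    have ha' : (Nat.beq mode 0 || Nat.beq mode 3 || Nat.beq mode 4) = true := ha
    simp only [Bool.or_eq_true, Nat.beq_eq] at ha'
    rcases ha' with (hm | hm) | hm
    · exact Or.inr (Or.inr (Or.inl (m0 hm)))
    · exact Or.inr (Or.inr (Or.inr (Or.inl (m3 hm))))
    · exact Or.inr (Or.inr (Or.inr (Or.inr (m4 hm))))

theorem box_of_chk {th : ℕ} {t : Tr} {v0 v1 a0 a1 f0 f1 w0 w1 : ℕ}
    (h : chk th t v0 v1 a0 a1 f0 f1 w0 w1 = true) : BoxOK th v0 v1 a0 a1 f0 f1 w0 w1 := by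
  induction t generalizing v0 v1 a0 a1 f0 f1 w0 w1 with
  | k0 =>
    rw [chk, Bool.or_eq_true, Nat.blt_eq, Nat.blt_eq] at h
    exact k0_ChkD h
  | k1 =>
    rw [chk, Nat.ble_eq] at h
    exact k1_ChkD h
  | k2 =>
    rw [chk, Bool.and_eq_true, Bool.and_eq_true, Nat.beq_eq, Nat.ble_eq, Nat.ble_eq] at h
    obtain ⟨⟨rfl, h1⟩, h2⟩ := h
    exact k2_ChkD h1 h2
  | lf mode mp mm lp lm eps tk sg kap lam thr K bp =>
    rw [chk, Bool.and_eq_true] at h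
    exact lf_ChkD h.1 h.2
  | sp d mid l r ihl ihr =>
    rw [chk] at h
    cases h0 : Nat.beq d 0
    · cases h1 : Nat.beq d 1
      · cases h2 : Nat.beq d 2
        · rw [h0, h1, h2, cond_false, cond_false, cond_false, Bool.and_eq_true] at h
          exact BoxOK.split3 mid (ihl h.1) (ihr h.2)
        · rw [h0, h1, h2, cond_false, cond_false, cond_true, Bool.and_eq_true] at h
          exact BoxOK.split2 mid (ihl h.1) (ihr h.2)
      · rw [h0, h1, cond_false, cond_true, Bool.and_eq_true] at h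
        exact BoxOK.split1 mid (ihl h.1) (ihr h.2)
    · rw [h0, cond_true, Bool.and_eq_true] at h
      exact BoxOK.split0 mid (ihl h.1) (ihr h.2)

theorem s0_ok (s : ℝ) (h0 : 0 ≤ s) (h1 : s ≤ rq S0I) :
    Real.sqrt (Real.pi * s) < Sl (rq LI) + rq LI * (s - rq ETA) ∧
      Real.sqrt (Real.pi * s) < Real.sqrt 2 * (1 - rq ETA) := by
  have hs : s ≤ 0.4231 := h1.trans (by norm_num [rq, S0I])
  have hp : Real.pi * s ≤ 3.141593 * s := mul_le_mul_of_nonneg_right Real.pi_lt_d6.le h0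
  constructor
  · have c1 : (0.857 : ℝ) ≤ Sl (rq LI) - rq LI * rq ETA := by norm_num [Sl, rq, LI, ETA]
    have c2 : (0.6999 : ℝ) ≤ rq LI := by norm_num [rq, LI]
    have c3 : 0.6999 * s ≤ rq LI * s := mul_le_mul_of_nonneg_right c2 h0
    have c4 : Real.sqrt (Real.pi * s) < 0.857 + 0.6999 * s := by
      rw [Real.sqrt_lt' (by positivity)]
      nlinarith [sq_nonneg (s - 0.4231)]
    linarith
  · have c1 : (0.93 : ℝ) ≤ 1 - rq ETA := by norm_num [rq, ETA]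
    have c2 : (1.4 : ℝ) ≤ Real.sqrt 2 := Real.le_sqrt_of_sq_le (by norm_num)
    have c3 : Real.sqrt (Real.pi * s) < 1.4 * 0.93 := by
      rw [Real.sqrt_lt' (by norm_num)]
      linarith
    exact c3.trans_le (mul_le_mul c2 c1 (by norm_num) (Real.sqrt_nonneg _))

theorem numerics_of (h2 : BoxOK 2 0 524288 0 1048576 0 524288 0 1048576)
    (h1 : BoxOK 1 0 524288 0 1048576 0 524288 0 1048576)
    (h3 : BoxOK 3 262144 524288 0 1048576 0 524288 0 1048576) : Numerics := by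
  have e0 : rq 0 = 0 := by norm_num [rq]
  have e1 : rq 1048576 = 1 := by norm_num [rq]
  have e2 : rq 524288 = 1 / 2 := by norm_num [rq]
  have e4 : rq 262144 = 1 / 4 := by norm_num [rq]
  refine ⟨rq ETA, rq LI, rq S0I, rq KK1, rq FF0, rq AJ, rq BJ, by norm_num [rq, ETA],
    by norm_num [rq, ETA], rq_nonneg _, by norm_num [rq, LI], s0_ok, ?_, by norm_num [rq, BJ],
    by norm_num [rq, AJ, BJ], fun v a f hR => ?_, fun v a f hR => ?_,
    fun v a f ω hR hv hω0 hω1 => ?_⟩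
  · have c1 : Real.pi * rq KK1 ≤ 3.141593 * rq KK1 :=
      mul_le_mul_of_nonneg_right Real.pi_lt_d6.le (rq_nonneg _)
    exact c1.trans_lt (by norm_num [rq, KK1])
  · have ⟨r0, r1, r2, r3, r4⟩ := hR
    exact (h2 v a f 0 hR zero_le_one (by linarith) (by linarith) (by linarith) (by linarith)
      (by linarith) (by linarith) (by linarith) (by linarith)).1 rfl
  · have ⟨r0, r1, r2, r3, r4⟩ := hR
    exact (h1 v a f 0 hR zero_le_one (by linarith) (by linarith) (by linarith) (by linarith)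
      (by linarith) (by linarith) (by linarith) (by linarith)).2.1 rfl
  · have ⟨r0, r1, r2, r3, r4⟩ := hR
    exact (h3 v a f ω hR hω1 (by linarith) (by linarith) (by linarith) (by linarith)
      (by linarith) (by linarith) (by linarith) (by linarith)).2.2 rfl

end Vale.Agent.P232
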