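import Vale.Agent.P232.ChkC

/-!
# P232 / ChkL

Soundness of a leaf. `final_sound`: divide `finalAt` by `2 Q³`; both sides are affine in `V`, so the
inequality holds on `[rq vA, rq vB]`. `leaf_sound`: the configuration is valid (`c0_le`, `ω ≤ rq w1`),
`v ∈ [rq vA, rq vB]`, `f ≤ rq (min f1 v1)`, `rq (max a0 v0) ≤ a` by `Rg`; `jf_le_line`; then read off
`Good` / `GoodP` according to the mode (`kap = 0` unless `mode = 4`, `A = QQ` unless `mode = 3`).
-/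

open MeasureTheory Set

namespace Vale.Agent.P232

theorem final_one_ChkL {c : Cfg} {G V : ℕ} (h : c.finalAt G V = true) :
    rq c.t0 + rq c.t1 * rq V < (rq c.mp - rq c.mm) + (rq c.lp - rq c.lm) * rq V +
      rq c.kap * rq FF0 + rq c.A * ((G : ℝ) / (2 * 1048576 ^ 2)) := by
  rw [Cfg.finalAt, Nat.blt_eq, Cfg.N, Cfg.P] at h
  have h1 : (2 * (QQ : ℝ) * (c.mm * QQ + c.lm * V + c.t0 * QQ + c.t1 * V)) <
      2 * QQ * (c.mp * QQ + c.lp * V + c.kap * FF0) + c.A * G := by exact_mod_cast h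
  have e : (QQ : ℝ) = 1048576 := by norm_num [QQ]
  rw [e] at h1
  simp only [rq]
  generalize (FF0 : ℝ) = F at *
  linarith

theorem final_sound {c : Cfg} {G : ℕ} (hA : c.finalAt G c.vA = true)
    (hB : c.finalAt G c.vB = true) {v : ℝ} (h0 : rq c.vA ≤ v) (h1 : v ≤ rq c.vB) :
    rq c.t0 + rq c.t1 * v < (rq c.mp - rq c.mm) + (rq c.lp - rq c.lm) * v + rq c.kap * rq FF0 +
      rq c.A * ((G : ℝ) / (2 * 1048576 ^ 2)) := by
  have h2 := final_one_ChkL hA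
  have h3 := final_one_ChkL hB
  rcases le_total 0 (rq c.lp - rq c.lm - rq c.t1) with h | h
  · nlinarith [mul_le_mul_of_nonneg_left h0 h]
  · nlinarith [mul_le_mul_of_nonpos_left h1 h]

theorem leaf_sound {mode mp mm lp lm eps tk sg kap lam thr K : ℕ} {bp : List ℕ}
    {v0 v1 a0 a1 f0 f1 w0 w1 : ℕ}
    (h : leafOK mode mp mm lp lm eps tk sg kap lam thr K bp v0 v1 a0 a1 f0 f1 w0 w1 = true)
    {v a f ω : ℝ} (hR : Rg v a f) (hω1 : ω ≤ 1) (hv0 : rq v0 ≤ v) (hv1 : v ≤ rq v1)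
    (ha0 : rq a0 ≤ a) (ha1 : a ≤ rq a1) (hf0 : rq f0 ≤ f) (hf1 : f ≤ rq f1) (hw0 : rq w0 ≤ ω)
    (hw1 : ω ≤ rq w1) :
    (mode = 0 → Good I2 1 v a f) ∧ (mode = 1 → Good (IT (rq ETA)) 1 v a f) ∧
      (mode = 2 → Good (II (rq ETA) (rq LI)) 1 v a f) ∧
      (mode = 3 → Good (fun s => rq BJ * I2 s) (rq AJ) v a f) ∧
      (mode = 4 → GoodP (rq FF0) ω v a f) := by
  simp only [leafOK, Bool.and_eq_true, Nat.ble_eq] at h
  obtain ⟨⟨⟨⟨hm, hs⟩, hl⟩, hc⟩, hst⟩ := h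
  obtain ⟨hf, hfv, hva, -, -⟩ := hR
  have hc0 := c0_le hl hc
  have hval : (mkCfg mode mp mm lp lm eps tk sg kap lam thr v0 v1 a0 a1 f0 f1 w0 w1).valid ω := by
    refine ⟨hm, fun e => ?_, fun e => ?_⟩
    · obtain rfl : mode = 2 := e
      exact ⟨rfl, hc0⟩
    · obtain rfl : mode = 4 := e
      refine ⟨hc0.trans ?_, hw0, hω1⟩
      exact sub_le_sub_left (mul_le_mul_of_nonneg_left hw1 (rq_nonneg _)) _
  obtain ⟨β, G, hβ, hb, hcond, hA, hB, hI⟩ := start_sound hval hst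
  have hfin := final_sound hA hB (v := v)
    (by
      change rq (mx v0 f0) ≤ v
      rw [mx_eq, rq_max]
      exact max_le hv0 (hf0.trans hfv))
    (by
      change v ≤ rq (mn v1 a1)
      rw [mn_eq, rq_min]
      exact le_min hv1 (hva.trans ha1))
  have hG := hI f a
    (by
      change f ≤ rq (mn f1 v1)
      rw [mn_eq, rq_min]
      exact le_min hf1 (hfv.trans hv1))
    (by
      change rq (mx a0 v0) ≤ a
      rw [mx_eq, rq_max]
      exact max_le ha0 (hv0.trans hva)) (hfv.trans hva)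
  have hj := (jf_le_line tk hs (hf.trans hfv)).trans_lt hfin
  have hj' := hj.trans_le (add_le_add_right (mul_le_mul_of_nonneg_left hG (rq_nonneg _)) _)
  have hc' := fun s (hs : s ∈ Icc f a) => hcond s ⟨hf0.trans hs.1, hs.2.trans ha1⟩
  have z : rq 0 = 0 := by simp [rq]
  refine ⟨?_, ?_, ?_, ?_, ?_⟩ <;> rintro rfl
  · refine ⟨_, _, β, hβ, hb, fun s hs => (hc' s hs).1, hj'.trans_eq ?_⟩
    change _ + rq 0 * _ + rq QQ * _ = _
    rw [z, rq_QQ, zero_mul, add_zero]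
  · refine ⟨_, _, β, hβ, hb, fun s hs => (hc' s hs).1, hj'.trans_eq ?_⟩
    change _ + rq 0 * _ + rq QQ * _ = _
    rw [z, rq_QQ, zero_mul, add_zero]
  · refine ⟨_, _, β, hβ, hb, fun s hs => (hc' s hs).1, hj'.trans_eq ?_⟩
    change _ + rq 0 * _ + rq QQ * _ = _
    rw [z, rq_QQ, zero_mul, add_zero]
  · refine ⟨_, _, β, hβ, hb, fun s hs => (hc' s hs).1, hj'.trans_eq ?_⟩
    change _ + rq 0 * _ + rq AJ * _ = _
    rw [z, zero_mul, add_zero]
  · refine ⟨_, _, rq kap, rq lam, β, rq_nonneg _, rq_nonneg _, rq_QQ ▸ rq_mono hl, hβ, hb,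
      fun s hs => (hc' s hs).1, fun s hs => (hc' s hs).2 rfl, hj'.trans_eq ?_⟩
    change _ + rq kap * _ + rq QQ * _ = _
    rw [rq_QQ, one_mul]

end Vale.Agent.P232
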