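import Vale.Agent.P232.Defs

/-! # P232: internal definitions (see notes/P232.md) -/

open MeasureTheory Set

namespace Vale.Agent.P232

/-- Lebesgue measure on `(0,1)`. -/
noncomputable def μ1 : Measure ℝ := volume.restrict (Ioo (0 : ℝ) 1)

instance μ1_prob : IsProbabilityMeasure μ1 := ⟨by simp [μ1]⟩

noncomputable abbrev μ2 : Measure (ℝ × ℝ) := μ1.prod μ1

noncomputable abbrev μ3 : Measure R3 := μ1.prod μ2

/-- Real indicator function. -/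
noncomputable def ind {α : Type} (E : Set α) : α → ℝ := E.indicator (fun _ => 1)

/-- Bounded measurable function with bounded measurable derivative. -/
def Adm1 (u u1 : ℝ → ℝ) : Prop :=
  Measurable u ∧ Measurable u1 ∧ (∃ C : ℝ, ∀ x, |u x| ≤ C ∧ |u1 x| ≤ C) ∧
    ∀ x, HasDerivAt u (u1 x) x

def Adm2 (u u1 u2 : ℝ × ℝ → ℝ) : Prop :=
  Measurable u ∧ Measurable u1 ∧ Measurable u2 ∧
    (∃ C : ℝ, ∀ p, |u p| ≤ C ∧ |u1 p| ≤ C ∧ |u2 p| ≤ C) ∧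
    (∀ x y, HasDerivAt (fun s => u (s, y)) (u1 (x, y)) x) ∧
    (∀ x y, HasDerivAt (fun s => u (x, s)) (u2 (x, y)) y)

def Adm3 (u u1 u2 u3 : R3 → ℝ) : Prop :=
  Measurable u ∧ Measurable u1 ∧ Measurable u2 ∧ Measurable u3 ∧
    (∃ C : ℝ, ∀ p, |u p| ≤ C ∧ |u1 p| ≤ C ∧ |u2 p| ≤ C ∧ |u3 p| ≤ C) ∧
    (∀ x y z, HasDerivAt (fun s => u (s, y, z)) (u1 (x, y, z)) x) ∧
    (∀ x y z, HasDerivAt (fun s => u (x, s, z)) (u2 (x, y, z)) y) ∧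
    (∀ x y z, HasDerivAt (fun s => u (x, y, s)) (u3 (x, y, z)) z)

/-- Relaxed relative perimeter in `(0,1)` is at most `q`. -/
def Appr1 (G : Set ℝ) (q : ℝ) : Prop :=
  ∀ ε > (0 : ℝ), ∃ u u1 : ℝ → ℝ, Adm1 u u1 ∧ ∫ x, |u x - ind G x| ∂μ1 ≤ ε ∧
    ∫ x, |u1 x| ∂μ1 ≤ q + ε

/-- Relaxed relative perimeter in `(0,1)²` is at most `p`. -/
def Appr2 (F : Set (ℝ × ℝ)) (p : ℝ) : Prop :=
  ∀ ε > (0 : ℝ), ∃ u u1 u2 : ℝ × ℝ → ℝ, Adm2 u u1 u2 ∧ ∫ x, |u x - ind F x| ∂μ2 ≤ ε ∧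
    ∫ x, Real.sqrt (u1 x ^ 2 + u2 x ^ 2) ∂μ2 ≤ p + ε

/-- Weighted energy of an approximant. -/
noncomputable def en3 (c1 c2 c3 : ℝ) (u1 u2 u3 : R3 → ℝ) : ℝ :=
  ∫ x, Real.sqrt ((c1 * u1 x) ^ 2 + (c2 * u2 x) ^ 2 + (c3 * u3 x) ^ 2) ∂μ3

/-- Weighted relaxed perimeter in `(0,1)³` is at most `P`; the approximants are periodic in the
coordinates whose flag `k_i` holds. -/
def Appr3 (c1 c2 c3 : ℝ) (k1 k2 k3 : Prop) (D : Set R3) (P : ℝ) : Prop :=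
  ∀ ε > (0 : ℝ), ∃ u u1 u2 u3 : R3 → ℝ, Adm3 u u1 u2 u3 ∧
    (k1 → ∀ x y z, u (x + 1, y, z) = u (x, y, z)) ∧
    (k2 → ∀ x y z, u (x, y + 1, z) = u (x, y, z)) ∧
    (k3 → ∀ x y z, u (x, y, z + 1) = u (x, y, z)) ∧
    ∫ x, |u x - ind D x| ∂μ3 ≤ ε ∧ en3 c1 c2 c3 u1 u2 u3 ≤ P + ε

/-- Length of the fibre of `E` over `q` in the first coordinate. -/
noncomputable def fib (E : Set R3) (q : ℝ × ℝ) : ℝ := μ1.real {t | (t, q) ∈ E}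

/-- Steiner symmetrisation in the first coordinate, folded and stretched back to `(0,1)`. -/
def stein (E : Set R3) : Set R3 := {p | p.1 < fib E p.2}

/-- Cyclic permutation: the coordinates of `rot D` are the second, third, first of `D`. -/
def rot (D : Set R3) : Set R3 := {p | (p.2.2, p.1, p.2.1) ∈ D}

/-- One full step. -/
def St (E : Set R3) : Set R3 := rot (stein E)

def Dn1 (D : Set R3) : Prop :=
  ∀ x x' y z : ℝ, 0 < x' → x' ≤ x → x < 1 → y ∈ Ioo (0 : ℝ) 1 → z ∈ Ioo (0 : ℝ) 1 →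
    (x, y, z) ∈ D → (x', y, z) ∈ D

def Dn2 (D : Set R3) : Prop :=
  ∀ x y y' z : ℝ, 0 < y' → y' ≤ y → y < 1 → x ∈ Ioo (0 : ℝ) 1 → z ∈ Ioo (0 : ℝ) 1 →
    (x, y, z) ∈ D → (x, y', z) ∈ D

def Dn3 (D : Set R3) : Prop :=
  ∀ x y z z' : ℝ, 0 < z' → z' ≤ z → z < 1 → x ∈ Ioo (0 : ℝ) 1 → y ∈ Ioo (0 : ℝ) 1 →
    (x, y, z) ∈ D → (x, y, z') ∈ D

/-- Measurable down-set of the open cube. -/
def Down3 (D : Set R3) : Prop := MeasurableSet D ∧ Dn1 D ∧ Dn2 D ∧ Dn3 D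

/-- Measurable down-set of the open square. -/
def Down2 (F : Set (ℝ × ℝ)) : Prop :=
  MeasurableSet F ∧
  (∀ x x' y : ℝ, 0 < x' → x' ≤ x → x < 1 → y ∈ Ioo (0 : ℝ) 1 → (x, y) ∈ F → (x', y) ∈ F) ∧
  (∀ x y y' : ℝ, 0 < y' → y' ≤ y → y < 1 → x ∈ Ioo (0 : ℝ) 1 → (x, y) ∈ F → (x, y') ∈ F)

noncomputable def top (h : ℝ → ℝ) : ℝ := sSup (h '' Ioo (0 : ℝ) 1)

noncomputable def bot (h : ℝ → ℝ) : ℝ := sInf (h '' Ioo (0 : ℝ) 1)

/-- Height of the column of `F` over `x`. -/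
noncomputable def col (F : Set (ℝ × ℝ)) (x : ℝ) : ℝ := μ1.real (Prod.mk x ⁻¹' F)

/-- Length of the row of `F` at height `y`. -/
noncomputable def row (F : Set (ℝ × ℝ)) (y : ℝ) : ℝ := col (Prod.swap ⁻¹' F) y

/-- Slice of `D` at first coordinate `t`. -/
def sl (D : Set R3) (t : ℝ) : Set (ℝ × ℝ) := Prod.mk t ⁻¹' D

/-- Area of the slice. -/
noncomputable def ar (D : Set R3) (t : ℝ) : ℝ := μ2.real (sl D t)

/-- A measurable antitone function on `(0,1)` with values in `[0,1]`. -/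
def Lev (h : ℝ → ℝ) : Prop :=
  Measurable h ∧ AntitoneOn h (Ioo (0 : ℝ) 1) ∧ ∀ t, 0 ≤ h t ∧ h t ≤ 1

/-- A level-based calibration. -/
def Cal (α β : ℝ → ℝ) : Prop :=
  Continuous α ∧ Continuous β ∧ (∀ s, 0 ≤ β s) ∧ ∀ s, α s ^ 2 + β s ^ 2 ≤ 1

/-- Output of slicing in one direction: `h` = slice measure, `p` = slice perimeter. -/
def DirData (A b P : ℝ) (h p : ℝ → ℝ) : Prop :=
  Lev h ∧ Integrable p μ1 ∧ (∀ t, 0 ≤ p t) ∧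
    ∀ α β : ℝ → ℝ, Cal α β →
      b * ∫ t, β (h t) * p t ∂μ1 + A * ∫ s in bot h..top h, α s ≤ P

/-- One orientation of the planar calibration inequality. -/
def Ori (p A w w' h h' : ℝ) : Prop :=
  ∀ m l : ℝ, (∀ s ∈ Icc h' h, m + l * s ≤ 1) →
    m * w + l * A - (m + l) * w' + ∫ s in h'..h, Real.sqrt (1 - (max (m + l * s) 0) ^ 2) ≤ p

/-- All that is used of a planar down-set: perimeter `p`, area `A`, largest and smallest row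
lengths `w, w'`, largest and smallest column heights `h, h'`. -/
def Sl2 (p A w w' h h' : ℝ) : Prop :=
  0 ≤ w' ∧ w' ≤ w ∧ w ≤ 1 ∧ 0 ≤ h' ∧ h' ≤ h ∧ h ≤ 1 ∧ (0 < w' → h = 1) ∧ (0 < h' → w = 1) ∧
    w' ≤ A ∧ h' ≤ A ∧ A ≤ w ∧ A ≤ h ∧ (w' = 1 → h' = 1) ∧ (h' = 1 → w' = 1) ∧
    Ori p A w w' h h' ∧ Ori p A h h' w w'

/-- `Sl2` for an actual set. -/
def SlOf (F : Set (ℝ × ℝ)) (p : ℝ) : Prop :=
  Sl2 p (μ2.real F) (top (row F)) (bot (row F)) (top (col F)) (bot (col F))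

/-- The conjectured profile of the unit cube (for `v ≤ 1/2`). -/
noncomputable def jf (v : ℝ) : ℝ :=
  min ((9 * Real.pi / 2) ^ ((1 : ℝ) / 3) * v ^ ((2 : ℝ) / 3)) (min (Real.sqrt (Real.pi * v)) 1)

/-- The profile of the unit square. -/
noncomputable def I2 (s : ℝ) : ℝ :=
  min (Real.sqrt (Real.pi * s)) (min 1 (Real.sqrt (Real.pi * (1 - s))))

/-- Polynomial lower bound for `∫₀¹ √(1 - l² y²) dy`. -/
noncomputable def Sl (l : ℝ) : ℝ := 1 - l ^ 2 / 6 - l ^ 4 / 40 - 3 * l ^ 6 / 56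

/-- A strict one-direction certificate for the profile `I`. -/
def Good (I : ℝ → ℝ) (A v a f : ℝ) : Prop :=
  ∃ (m l : ℝ) (β : ℝ → ℝ), Continuous β ∧ (∀ s, 0 ≤ β s ∧ β s ≤ 1) ∧
    (∀ s ∈ Icc f a, m + l * s ≤ β s * I s) ∧
    jf v < m + l * v + A * ∫ s in f..a, Real.sqrt (1 - β s ^ 2)

/-- A strict certificate in pentagon mode (reward `κ F0`, threshold `ω`). -/
def GoodP (F0 ω v a f : ℝ) : Prop :=
  ∃ (m l κ lam : ℝ) (β : ℝ → ℝ), 0 ≤ κ ∧ 0 ≤ lam ∧ lam ≤ 1 ∧ Continuous β ∧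
    (∀ s, 0 ≤ β s ∧ β s ≤ 1) ∧
    (∀ s ∈ Icc f a, m + l * s ≤
      β s * min (Real.sqrt (Real.pi * s)) (max 1 (Sl lam + lam * (s - ω)))) ∧
    (∀ s ∈ Icc f a, ∀ W : ℝ, 1 - s ≤ W → W ≤ 1 - ω → m + l * s + κ ≤
      β s * (W * (Real.pi / 4 + κ) / (1 + κ) + (1 + κ) * (1 - s) / W)) ∧
    jf v < m + l * v + κ * F0 + ∫ s in f..a, Real.sqrt (1 - β s ^ 2)

/-- All slices have short full rows and short full columns. -/
def CaseI (η : ℝ) (D : Set R3) : Prop :=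
  ∀ t ∈ Ioo (0 : ℝ) 1, bot (row (sl D t)) ≤ η ∧ bot (col (sl D t)) ≤ η

/-- All slices have extent at least `η`. -/
def TallD (η : ℝ) (D : Set R3) : Prop :=
  ∀ t ∈ Ioo (0 : ℝ) 1, η ≤ top (row (sl D t)) ∨ η ≤ top (col (sl D t))

/-- The quarter-disc bound holds on every slice, with equality only for corner-type slices. -/
def AnCase (D : Set R3) : Prop :=
  ∀ t ∈ Ioo (0 : ℝ) 1, ∀ p : ℝ, SlOf (sl D t) p → Real.sqrt (Real.pi * ar D t) ≤ p ∧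
    (p ≤ Real.sqrt (Real.pi * ar D t) → 0 < ar D t →
      bot (row (sl D t)) = 0 ∧ bot (col (sl D t)) = 0)

/-- Near-slab regime. -/
def CornerCase (D : Set R3) : Prop :=
  1 - 1 / 256 ≤ top (ar D) ∧ bot (ar D) ≤ 1 / 256 ∧ 1 / 4 ≤ μ3.real D

/-- `e` is `0` or `1`. -/
def ZO (e : ℝ) : Prop := e = 0 ∨ e = 1

/-- Canonical sets on the cover: `∑ e_i ((x_i - o_i)/c_i)² < R²`. -/
def canC (e1 e2 e3 c1 o1 c2 o2 c3 o3 R : ℝ) : Set R3 :=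
  {p | e1 * ((p.1 - o1) / c1) ^ 2 + e2 * ((p.2.1 - o2) / c2) ^ 2 +
    e3 * ((p.2.2 - o3) / c3) ^ 2 < R ^ 2}

/-- Canonical sets on the torus. -/
def canT (e1 e2 e3 : ℝ) (c : T3) (R : ℝ) : Set T3 :=
  {x | e1 * ‖x.1 - c.1‖ ^ 2 + e2 * ‖x.2.1 - c.2.1‖ ^ 2 + e3 * ‖x.2.2 - c.2.2‖ ^ 2 < R ^ 2}

/-- Derivative of the ramp. -/
noncomputable def ramp' (s : ℝ) : ℝ := max 0 (6 * s * (1 - s))

/-- A `C¹` ramp from `0` (for `s ≤ 0`) to `1` (for `s ≥ 1`). -/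
noncomputable def ramp (s : ℝ) : ℝ := ∫ r in (0 : ℝ)..s, ramp' r

/-- Translate of a subset of the torus. -/
def shiftT (c : T3) (E : Set T3) : Set T3 := {x | x + c ∈ E}

end Vale.Agent.P232
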