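import Vale.Agent.P232.Core

/-!
# P232 / Core2

More internal definitions (no proofs needed here).
-/

open MeasureTheory Set

namespace Vale.Agent.P232

/-- Slice profile when all slices have short full rows and columns. -/
noncomputable def II (η l s : ℝ) : ℝ :=
  min (Real.sqrt (Real.pi * s)) (min (Sl l + l * (s - η)) (Real.sqrt 2 * (1 - η)))

/-- Slice profile for a tall direction. -/
noncomputable def IT (η s : ℝ) : ℝ := max (I2 s) (min η (Real.sqrt (Real.pi * (1 - s))))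

/-- Admissible range of `(v, a, f)`. -/
def Rg (v a f : ℝ) : Prop := 0 ≤ f ∧ f ≤ v ∧ v ≤ a ∧ a ≤ 1 ∧ v ≤ 1 / 2

/-- The three numerical statements, for given constants. -/
def CertI (η l s0 : ℝ) : Prop := ∀ v a f, Rg v a f → a ≤ s0 ∨ Good (II η l) 1 v a f

def CertT (η k1 F0 A b : ℝ) : Prop := ∀ v a f, Rg v a f → a ≤ k1 ∨ Good (IT η) 1 v a f ∨
  (Good (fun s => b * I2 s) A v a f ∧ F0 ≤ f ∧ 1 / 4 ≤ v)

def Cert3 (k1 F0 A b : ℝ) : Prop := ∀ v a f ω, Rg v a f → 1 / 4 ≤ v → 0 ≤ ω → ω ≤ 1 →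
  a ≤ k1 ∨ (1 - 1 / 256 ≤ a ∧ f ≤ 1 / 256) ∨ Good I2 1 v a f ∨
    Good (fun s => b * I2 s) A v a f ∨ GoodP F0 ω v a f

/-- All numerical input of the cube theorem. -/
def Numerics : Prop := ∃ η l s0 k1 F0 A b : ℝ, 0 < η ∧ η < 1 ∧ 0 ≤ l ∧ l ≤ 1 ∧
  (∀ s, 0 ≤ s → s ≤ s0 → Real.sqrt (Real.pi * s) < Sl l + l * (s - η) ∧
    Real.sqrt (Real.pi * s) < Real.sqrt 2 * (1 - η)) ∧
  Real.pi * k1 < 1 ∧ 0 < b ∧ A ^ 2 + 2 * b ^ 2 ≤ 3 ∧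
  CertI η l s0 ∧ CertT η k1 F0 A b ∧ Cert3 k1 F0 A b

/-- Periodic arc of half-length `r` centred at `c`. -/
def arc (c r : ℝ) : Set ℝ := {t | ‖((t - c : ℝ) : UnitAddCircle)‖ < r}

/-- A coordinate is either folded (`c = 2, o = 0`) or centred (`c = 1, o = 1/2`). -/
def Fr (c o : ℝ) : Prop := (c = 2 ∧ o = 0) ∨ (c = 1 ∧ o = 1 / 2)

/-- Squared distance in the base. -/
noncomputable def sq2 (e2 e3 c2 o2 c3 o3 : ℝ) (q : ℝ × ℝ) : ℝ :=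
  e2 * ((q.1 - o2) / c2) ^ 2 + e3 * ((q.2 - o3) / c3) ^ 2

/-- Approximants that are almost optimal over `K`, for fibre-length gradient `(d2, d3)`. -/
def Tight (E : Set R3) (K : Set (ℝ × ℝ)) (d2 d3 : ℝ × ℝ → ℝ) : Prop :=
  ∀ η > (0 : ℝ), ∃ u u1 u2 u3 : R3 → ℝ, Adm3 u u1 u2 u3 ∧
    (∀ x y z, u (x + 1, y, z) = u (x, y, z)) ∧ ∫ x, |u x - ind E x| ∂μ3 ≤ η ∧
    ∫ q in K, max (∫ t, |u1 (t, q)| ∂μ1 - 2) 0 ∂μ2 ≤ η ∧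
    ∫ q in K, ∫ t, |u2 (t, q) - d2 q / 2 * (|u1 (t, q)|)| ∂μ1 ∂μ2 ≤ η ∧
    ∫ q in K, ∫ t, |u3 (t, q) - d3 q / 2 * (|u1 (t, q)|)| ∂μ1 ∂μ2 ≤ η

/-- Conclusion of the rigidity statements in the cube. -/
def CanCube (D : Set R3) (P : ℝ) : Prop :=
  ∃ e1 e2 e3 r : ℝ, ZO e1 ∧ ZO e2 ∧ ZO e3 ∧ 0 < e1 + e2 + e3 ∧ 0 < r ∧ r < 1 ∧
    r * P = (e1 + e2 + e3) * μ3.real D ∧ D =ᵐ[μ3] canC e1 e2 e3 1 0 1 0 1 0 r

end Vale.Agent.P232
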