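import Vale.Agent.P232.Core2
import Vale.Agent.P232.Basic

/-!
# P232 / Corner

The near-slab regime. `f = bot h`, `a = top h`, `g = 1 - a`, both in `[0, 1/256]`.
`ℓ s = √f (1-s) + √g s`; `I2 s ≥ √(π s (1-s))` on `[0,1]`;
`β s = (√(f/x) √(1-x) + √(g/(1-x)) √x)/√π` at `x = clamp s` to `[f,a]` (for `f = 0` the first term is
`0`, for `g = 0` the second; treat continuity by cases), so `β s √(π s (1-s)) ≥ ℓ s` on `[f,a]`
(equality inside), `β ≤ √2/√π ≤ 1`. `√(1-β²) ≥ 1 - β²` and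
`π β² ≤ f/x + g/(1-x) + f + g` so `π ∫_f^a β² ≤ f log(1/f) + g log(1/g) + f + g`.
For `0 < x ≤ 1/256`, with `y = x^(1/4) ≤ 1/4`: `log(1/x) = 4 log(1/y) ≤ 4 (1/(4y) + log 4 - 1)`, so
`x + (x + x log(1/x))/π ≤ √x / 5 < √x/4`. Hence `P ≥ 1 + √f/20 + √g/20`.
-/

open MeasureTheory Set

namespace Vale.Agent.P232

theorem corner_log {x : ℝ} (h0 : 0 ≤ x) (h1 : x ≤ 1 / 256) :
    x + (x + x * Real.log (1 / x)) / Real.pi ≤ Real.sqrt x / 5 := by
  rcases h0.eq_or_lt with rfl | hx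
  · simp
  obtain ⟨y, hy, rfl⟩ : ∃ y : ℝ, 0 < y ∧ x = y ^ 4 :=
    ⟨√√x, Real.sqrt_pos.2 (Real.sqrt_pos.2 hx), by
      rw [show 4 = 2 * 2 from rfl, pow_mul, Real.sq_sqrt (Real.sqrt_nonneg _), Real.sq_sqrt h0]⟩
  have h2 : y ≤ 1 / 4 := by
    refine (pow_le_pow_iff_left₀ hy.le (by norm_num) four_ne_zero).1 (h1.trans (by norm_num))
  have h3 : √(y ^ 4) = y ^ 2 := by
    rw [show y ^ 4 = (y ^ 2) ^ 2 by ring, Real.sqrt_sq (sq_nonneg y)]
  have h4 : Real.log (1 / y ^ 4) = 4 * (Real.log (1 / (4 * y)) + 2 * Real.log 2) := by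
    rw [one_div, one_div, Real.log_inv, Real.log_inv, Real.log_pow,
      Real.log_mul four_ne_zero hy.ne', show (4 : ℝ) = 2 ^ 2 by norm_num, Real.log_pow]
    push_cast
    ring
  have h5 : y * Real.log (1 / (4 * y)) ≤ 1 / 4 - y := by
    have h6 := mul_le_mul_of_nonneg_left (Real.log_le_sub_one_of_pos (x := 1 / (4 * y))
      (by positivity)) hy.le
    rw [mul_sub, mul_one, show y * (1 / (4 * y)) = 1 / 4 by field_simp] at h6
    exact h6
  have h7 := Real.log_two_lt_d9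
  have h8 := Real.pi_gt_d2
  have h9 : y ^ 2 + y ^ 2 * Real.log (1 / y ^ 4) ≤ 41 / 100 := by
    rw [h4]
    have h10 := mul_le_mul_of_nonneg_left h5 hy.le
    have h11 : y ^ 2 ≤ 1 / 16 := by nlinarith
    have h12 := mul_le_mul_of_nonneg_left h7.le (sq_nonneg y)
    nlinarith
  have h13 : (y ^ 4 + y ^ 4 * Real.log (1 / y ^ 4)) / Real.pi ≤ y ^ 2 * (41 / 314) := by
    rw [div_le_iff₀ Real.pi_pos]
    have h14 := mul_le_mul_of_nonneg_left h9 (sq_nonneg y)
    have h15 := mul_le_mul_of_nonneg_left h8.le (sq_nonneg y)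
    nlinarith
  have h11 : y ^ 2 ≤ 1 / 16 := by nlinarith
  have h16 := mul_le_mul_of_nonneg_left h11 (sq_nonneg y)
  rw [h3]
  nlinarith [sq_nonneg y]

theorem cont_Corner {c : ℝ} (hc : 0 ≤ c) : Continuous fun s : ℝ => c / max s c := by
  rcases hc.eq_or_lt with rfl | h
  · simp only [zero_div]
    exact continuous_const
  · exact continuous_const.div (continuous_id.max continuous_const)
      fun s => (h.trans_le (le_max_right s c)).ne'

theorem mul_Corner {c s : ℝ} (hc : 0 ≤ c) (hs : c ≤ s) :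
    0 ≤ c / max s c ∧ c / max s c ≤ 1 ∧ c / max s c * s = c := by
  rw [max_eq_left hs]
  refine ⟨div_nonneg hc (hc.trans hs), div_le_one_of_le₀ hs (hc.trans hs), ?_⟩
  rcases (hc.trans hs).eq_or_lt with h | h
  · rw [← h, mul_zero]
    exact le_antisymm hc (hs.trans h.ge)
  · exact div_mul_cancel₀ _ h.ne'

theorem int_Corner {c d : ℝ} (hc : 0 ≤ c) (hd : c ≤ d) (h1 : d ≤ 1) :
    ∫ s in c..d, c / max s c ≤ c * Real.log (1 / c) := by
  rcases hc.eq_or_lt with rfl | h
  · simp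
  have e : ∫ s in c..d, c / max s c = ∫ s in c..d, c * s⁻¹ :=
    intervalIntegral.integral_congr fun s hs => by
      rw [uIcc_of_le hd] at hs
      simp only [max_eq_left hs.1, div_eq_mul_inv]
  rw [e, intervalIntegral.integral_const_mul, integral_inv_of_pos h (h.trans_le hd)]
  exact mul_le_mul_of_nonneg_left (Real.log_le_log (div_pos (h.trans_le hd) h)
    (div_le_div_of_nonneg_right h1 hc)) hc

theorem I2_Corner {s : ℝ} (h0 : 0 ≤ s) (h1 : s ≤ 1) : √Real.pi * (√s * √(1 - s)) ≤ I2 s := by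
  rw [← Real.sqrt_mul h0, ← Real.sqrt_mul Real.pi_pos.le]
  have h2 := Real.pi_pos
  have h3 := Real.pi_le_four
  refine le_min (Real.sqrt_le_sqrt (mul_le_mul_of_nonneg_left (by nlinarith) h2.le))
    (le_min (Real.sqrt_le_one.2 ?_)
      (Real.sqrt_le_sqrt (mul_le_mul_of_nonneg_left (by nlinarith) h2.le)))
  have h4 : s * (1 - s) ≤ 1 / 4 := by nlinarith [sq_nonneg (s - 1 / 2)]
  have h5 := mul_le_mul h3 h4 (mul_nonneg h0 (sub_nonneg.2 h1)) (by norm_num)
  linarith

theorem cal_Corner {f g : ℝ} (hf : 0 ≤ f) (hg : 0 ≤ g) : ∃ β : ℝ → ℝ, Continuous β ∧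
    (∀ s, 0 ≤ β s ∧ β s ≤ 1) ∧ ∀ s, f ≤ s → g ≤ 1 - s →
      β s ^ 2 ≤ (f / max s f + g / max (1 - s) g) / Real.pi ∧
        √f * (1 - s) + √g * s ≤ β s * I2 s := by
  have hπ := Real.sqrt_pos.2 Real.pi_pos
  refine ⟨fun s => min 1 ((√(f / max s f) * √(1 - s) + √(g / max (1 - s) g) * √s) / √Real.pi),
    continuous_const.min (Continuous.div_const (((cont_Corner hf).sqrt.mul
      (continuous_const.sub continuous_id).sqrt).add
      (((cont_Corner hg).comp (continuous_const.sub continuous_id)).sqrt.mul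
        continuous_id.sqrt)) _), fun s => ⟨le_min zero_le_one (by positivity), min_le_left _ _⟩,
    fun s h1 h2 => ?_⟩
  obtain ⟨a1, a2, a3⟩ := mul_Corner hf h1
  obtain ⟨b1, b2, b3⟩ := mul_Corner hg h2
  beta_reduce
  generalize f / max s f = u at a1 a2 a3
  generalize g / max (1 - s) g = w at b1 b2 b3
  have s0 : 0 ≤ s := hf.trans h1
  have s1 : 0 ≤ 1 - s := hg.trans h2
  have e1 := Real.sq_sqrt a1
  have e2 := Real.sq_sqrt b1
  have e3 := Real.sq_sqrt s0
  have e4 := Real.sq_sqrt s1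
  have k1 : ((√u * √(1 - s) + √w * √s) / √Real.pi) ^ 2 ≤ (u + w) / Real.pi := by
    rw [div_pow, Real.sq_sqrt Real.pi_pos.le]
    refine div_le_div_of_nonneg_right ?_ Real.pi_pos.le
    have k2 : (√u * √(1 - s) + √w * √s) ^ 2 + (√u * √s - √w * √(1 - s)) ^ 2 =
        (√u ^ 2 + √w ^ 2) * (√s ^ 2 + √(1 - s) ^ 2) := by ring
    rw [e1, e2, e3, e4] at k2
    nlinarith [sq_nonneg (√u * √s - √w * √(1 - s))]
  have k3 : (√u * √(1 - s) + √w * √s) / √Real.pi ≤ 1 := by
    refine (sq_le_one_iff₀ (by positivity)).1 (k1.trans ?_)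
    rw [div_le_one Real.pi_pos]
    linarith [Real.two_le_pi]
  rw [min_eq_right k3]
  refine ⟨k1, le_trans (le_of_eq ?_)
    (mul_le_mul_of_nonneg_left (I2_Corner s0 (sub_nonneg.1 s1)) (by positivity))⟩
  rw [← mul_assoc, div_mul_cancel₀ _ hπ.ne', ← a3, ← b3, Real.sqrt_mul a1, Real.sqrt_mul b1]
  linear_combination (-(√u * √s)) * e4 - (√w * √(1 - s)) * e3

theorem corner_ge {P : ℝ} {h p : ℝ → ℝ} (hd : DirData 1 1 P h p)
    (hp : ∀ᵐ t ∂μ1, I2 (h t) ≤ p t) (ha : 1 - 1 / 256 ≤ top h) (hf : bot h ≤ 1 / 256)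
    (hv : 1 / 4 ≤ ∫ t, h t ∂μ1) (hv' : ∫ t, h t ∂μ1 ≤ 1 / 2) :
    1 + Real.sqrt (bot h) / 20 + Real.sqrt (1 - top h) / 20 ≤ P := by
  obtain ⟨hL, hI, hp0, hC⟩ := hd
  obtain ⟨f0, fa, a1⟩ := bot_top_mem hL.2.2
  have g0 : 0 ≤ 1 - top h := sub_nonneg.2 a1
  obtain ⟨β, hβ, hb, hk⟩ := cal_Corner f0 g0
  have h1 := hC (fun s => 1 - β s ^ 2) β ⟨continuous_const.sub (hβ.pow 2), hβ, fun s => (hb s).1,
    fun s => by
      have h2 : β s ^ 2 ≤ 1 := (sq_le_one_iff₀ (hb s).1).2 (hb s).2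
      nlinarith [sq_nonneg (β s)]⟩
  have i1 := hL.integrable
  have h2 : ∫ t, (√(bot h) + (√(1 - top h) - √(bot h)) * h t) ∂μ1 ≤ ∫ t, β (h t) * p t ∂μ1 := by
    refine integral_mono_ae ((integrable_const _).add (i1.const_mul _))
      (hI.bdd_mul (c := 1) (hβ.measurable.comp hL.1).aestronglyMeasurable
        (ae_of_all _ fun t => ?_)) ?_
    · rw [Real.norm_eq_abs, abs_of_nonneg (hb _).1]
      exact (hb _).2
    · filter_upwards [hp, ae_μ1_mem] with t h3 h4
      obtain ⟨h5, h6⟩ := le_top_of_bdd hL.2.2 h4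
      have h7 := (hk (h t) h5 (by linarith)).2
      have h8 := mul_le_mul_of_nonneg_left h3 (hb (h t)).1
      linarith
  rw [integral_add (integrable_const _) (i1.const_mul _), integral_const, integral_const_mul,
    probReal_univ, one_smul] at h2
  have c1 := cont_Corner f0
  have c2 : Continuous fun s => (1 - top h) / max (1 - s) (1 - top h) :=
    (cont_Corner g0).comp (continuous_const.sub continuous_id)
  have h3 : ∫ s in bot h..top h, (1 - (bot h / max s (bot h) +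
      (1 - top h) / max (1 - s) (1 - top h)) / Real.pi) ≤ ∫ s in bot h..top h, (1 - β s ^ 2) :=
    intervalIntegral.integral_mono_on fa
      ((continuous_const.sub ((c1.add c2).div_const _)).intervalIntegrable _ _)
      ((continuous_const.sub (hβ.pow 2)).intervalIntegrable _ _) fun s hs =>
        sub_le_sub_left (hk s hs.1 (by linarith [hs.2])).1 1
  have c3 : Continuous fun s => (bot h / max s (bot h) +
      (1 - top h) / max (1 - s) (1 - top h)) / Real.pi := (c1.add c2).div_const _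
  rw [intervalIntegral.integral_sub (continuous_const.intervalIntegrable _ _)
      (c3.intervalIntegrable _ _), intervalIntegral.integral_div,
    intervalIntegral.integral_add (c1.intervalIntegrable _ _) (c2.intervalIntegrable _ _),
    intervalIntegral.integral_const, smul_eq_mul, mul_one,
    intervalIntegral.integral_comp_sub_left (fun s => (1 - top h) / max s (1 - top h)) 1] at h3
  have h4 := int_Corner f0 fa a1
  have h5 := int_Corner g0 (sub_le_sub_left fa 1) (sub_le_self 1 f0)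
  have h6 := corner_log f0 hf
  have h7 := corner_log g0 (by linarith)
  have h8 := div_le_div_of_nonneg_right (add_le_add h4 h5) Real.pi_pos.le
  have h9 := div_nonneg f0 Real.pi_pos.le
  have h10 := div_nonneg g0 Real.pi_pos.le
  rw [add_div] at h6 h7
  rw [add_div (bot h * _)] at h8
  have h11 := mul_le_mul_of_nonneg_left hv (Real.sqrt_nonneg (1 - top h))
  have h12 := mul_le_mul_of_nonneg_left hv' (Real.sqrt_nonneg (bot h))
  have h13 := Real.sqrt_nonneg (bot h)
  linarith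

end Vale.Agent.P232
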