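import Vale.Agent.P232.Perm

/-!
# P232 / Ellipse

Joint three-direction splitting. Pointwise, with `n² = x² + y² + z²`, the three roots
`√((Ax)²+(by)²+(bz)²)` etc. sum to at most `√(3 (A² + 2b²) n²) ≤ 3 n` (Cauchy-Schwarz).
Take approximants with `ε = 1/(k+1)`; the triple of energies is bounded (each in `[0, 3P+3]`), extract a
convergent subsequence (`tendsto_subseq_of_bounded` or `IsCompact.tendsto_subseq` in `ℝ × ℝ × ℝ`);
`P1, P2, P3` are the limits.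
-/

open MeasureTheory Set

namespace Vale.Agent.P232

theorem pt_Ellipse {A b : ℝ} (hAb : A ^ 2 + 2 * b ^ 2 ≤ 3) (x y z : ℝ) :
    √((A * x) ^ 2 + (b * y) ^ 2 + (b * z) ^ 2) + √((b * x) ^ 2 + (A * y) ^ 2 + (b * z) ^ 2) +
      √((b * x) ^ 2 + (b * y) ^ 2 + (A * z) ^ 2) ≤
        3 * √((1 * x) ^ 2 + (1 * y) ^ 2 + (1 * z) ^ 2) := by
  have h1 := Real.sq_sqrt (show 0 ≤ (A * x) ^ 2 + (b * y) ^ 2 + (b * z) ^ 2 by positivity)
  have h2 := Real.sq_sqrt (show 0 ≤ (b * x) ^ 2 + (A * y) ^ 2 + (b * z) ^ 2 by positivity)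
  have h3 := Real.sq_sqrt (show 0 ≤ (b * x) ^ 2 + (b * y) ^ 2 + (A * z) ^ 2 by positivity)
  have h4 := Real.sq_sqrt (show 0 ≤ (1 * x) ^ 2 + (1 * y) ^ 2 + (1 * z) ^ 2 by positivity)
  have h5 := mul_le_mul_of_nonneg_right hAb (show 0 ≤ x ^ 2 + y ^ 2 + z ^ 2 by positivity)
  refine (abs_le_of_sq_le_sq' ?_ (by positivity)).2
  generalize √((A * x) ^ 2 + (b * y) ^ 2 + (b * z) ^ 2) = p at h1 ⊢
  generalize √((b * x) ^ 2 + (A * y) ^ 2 + (b * z) ^ 2) = q at h2 ⊢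
  generalize √((b * x) ^ 2 + (b * y) ^ 2 + (A * z) ^ 2) = r at h3 ⊢
  generalize √((1 * x) ^ 2 + (1 * y) ^ 2 + (1 * z) ^ 2) = n at h4 ⊢
  nlinarith [sq_nonneg (p - q), sq_nonneg (q - r), sq_nonneg (p - r)]

theorem int_Ellipse {u u1 u2 u3 : R3 → ℝ} (h : Adm3 u u1 u2 u3) (c1 c2 c3 : ℝ) :
    Integrable (fun x => √((c1 * u1 x) ^ 2 + (c2 * u2 x) ^ 2 + (c3 * u3 x) ^ 2)) μ3 := by
  obtain ⟨-, m1, m2, m3, ⟨C, hC⟩, -⟩ := h
  refine integrable_of_bdd μ3 (by fun_prop) √((c1 * C) ^ 2 + (c2 * C) ^ 2 + (c3 * C) ^ 2)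
    fun x => ?_
  obtain ⟨-, h1, h2, h3⟩ := hC x
  have key : ∀ c t : ℝ, |t| ≤ C → (c * t) ^ 2 ≤ (c * C) ^ 2 := fun c t ht => by
    rw [mul_pow, mul_pow, ← sq_abs t]
    exact mul_le_mul_of_nonneg_left (pow_le_pow_left₀ (abs_nonneg _) ht 2) (sq_nonneg _)
  rw [abs_of_nonneg (Real.sqrt_nonneg _)]
  exact Real.sqrt_le_sqrt (add_le_add (add_le_add (key _ _ h1) (key _ _ h2)) (key _ _ h3))

theorem sum_Ellipse {A b : ℝ} (hAb : A ^ 2 + 2 * b ^ 2 ≤ 3) {u u1 u2 u3 : R3 → ℝ}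
    (h : Adm3 u u1 u2 u3) :
    en3 A b b u1 u2 u3 + en3 b A b u1 u2 u3 + en3 b b A u1 u2 u3 ≤ 3 * en3 1 1 1 u1 u2 u3 := by
  unfold en3
  rw [← integral_add (int_Ellipse h _ _ _) (int_Ellipse h _ _ _),
    ← integral_add ((int_Ellipse h _ _ _).fun_add (int_Ellipse h _ _ _)) (int_Ellipse h _ _ _),
    ← integral_const_mul]
  exact integral_mono (((int_Ellipse h _ _ _).fun_add (int_Ellipse h _ _ _)).fun_add
    (int_Ellipse h _ _ _)) ((int_Ellipse h _ _ _).const_mul _) fun x => pt_Ellipse hAb _ _ _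

theorem lim_Ellipse {c1 c2 c3 Q : ℝ} {D : Set R3} {u u1 u2 u3 : ℕ → R3 → ℝ} {e : ℕ → ℝ}
    (h : ∀ k, Adm3 (u k) (u1 k) (u2 k) (u3 k)) (he : Filter.Tendsto e Filter.atTop (nhds 0))
    (h1 : ∀ k, ∫ x, |u k x - ind D x| ∂μ3 ≤ e k)
    (h2 : Filter.Tendsto (fun k => en3 c1 c2 c3 (u1 k) (u2 k) (u3 k)) Filter.atTop (nhds Q)) :
    Appr3 c1 c2 c3 False False False D Q := by
  intro ε hε
  obtain ⟨k, k1, k2⟩ := ((he.eventually_le_const hε).and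
    (h2.eventually_le_const (lt_add_of_pos_right Q hε))).exists
  exact ⟨_, _, _, _, h k, False.elim, False.elim, False.elim, (h1 k).trans k1, k2⟩

theorem Appr3.ellipse {A b P : ℝ} (hAb : A ^ 2 + 2 * b ^ 2 ≤ 3) {D : Set R3}
    (h : Appr3 1 1 1 False False False D P) :
    ∃ P1 P2 P3 : ℝ, P1 + P2 + P3 ≤ 3 * P ∧ Appr3 A b b False False False D P1 ∧
      Appr3 b A b False False False D P2 ∧ Appr3 b b A False False False D P3 := by
  choose u u1 u2 u3 ha _ _ _ h1 h2 using fun k : ℕ => h (1 / ((k : ℝ) + 1)) (by positivity)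
  have h0 : ∀ c1 c2 c3 k, 0 ≤ en3 c1 c2 c3 (u1 k) (u2 k) (u3 k) := fun c1 c2 c3 k =>
    integral_nonneg fun x => Real.sqrt_nonneg _
  have hs := fun k => (sum_Ellipse hAb (ha k)).trans
    (mul_le_mul_of_nonneg_left (h2 k) (by norm_num))
  have hk : ∀ k : ℕ, 1 / ((k : ℝ) + 1) ≤ 1 := fun k =>
    (div_le_one (by positivity)).2 (le_add_of_nonneg_left (Nat.cast_nonneg k))
  obtain ⟨Q, -, φ, hφ, hQ⟩ := (isCompact_Icc (a := ((0, 0, 0) : R3))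
    (b := (3 * (P + 1), 3 * (P + 1), 3 * (P + 1)))).tendsto_subseq
    (x := fun k => (en3 A b b (u1 k) (u2 k) (u3 k), en3 b A b (u1 k) (u2 k) (u3 k),
      en3 b b A (u1 k) (u2 k) (u3 k))) fun k => by
      have a1 := h0 A b b k
      have a2 := h0 b A b k
      have a3 := h0 b b A k
      have a4 := hs k
      have a5 := hk k
      exact ⟨⟨a1, a2, a3⟩, by dsimp only; linarith, by dsimp only; linarith,
        by dsimp only; linarith⟩
  have he := (tendsto_one_div_add_atTop_nhds_zero_nat (𝕜 := ℝ)).comp hφ.tendsto_atTop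
  have q1 := hQ.fst_nhds
  have q2 := hQ.snd_nhds.fst_nhds
  have q3 := hQ.snd_nhds.snd_nhds
  refine ⟨Q.1, Q.2.1, Q.2.2, ?_, lim_Ellipse (fun k => ha (φ k)) he (fun k => h1 (φ k)) q1,
    lim_Ellipse (fun k => ha (φ k)) he (fun k => h1 (φ k)) q2,
    lim_Ellipse (fun k => ha (φ k)) he (fun k => h1 (φ k)) q3⟩
  have q4 := (he.const_add P).const_mul 3
  rw [add_zero] at q4
  exact le_of_tendsto_of_tendsto' ((q1.add q2).add q3) q4 fun k => hs (φ k)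

end Vale.Agent.P232
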