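import Vale.Agent.P232.Types

/-!
# P232 / GoodL

Using certificates. `good_lt`: take `α = √(1 - β²)` in `DirData`; `h t ∈ [bot h, top h]` a.e.
`goodP_lt`: let `N = {t ∈ (0,1) | hh' t = 0}` and `ω = sSup (w' '' N)` (`0` if `N` is empty). For
`t ∈ N`: `w' t ≤ ω`, type D or S (`typeD`, `typeS`), so `m + l h ≤ β p` and `hh' t = 0`. For
`t ∈ (0,1) \ N`: `t` lies to the left of `N` (antitone), so `ω ≤ w' t`; use the `W = 1 - w' t`
instance and `typeC`: `β p ≥ β (..) - β κ (1 - hh') ≥ m + l h + κ hh'`. Integrate.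
-/

open MeasureTheory Set

namespace Vale.Agent.P232

theorem mem_GoodL {h : ℝ → ℝ} (hL : Lev h) {t : ℝ} (ht : t ∈ Ioo (0 : ℝ) 1) :
    h t ∈ Icc (bot h) (top h) := by
  constructor
  · exact csInf_le ⟨0, by rintro _ ⟨s, -, rfl⟩; exact (hL.2.2 s).1⟩ (mem_image_of_mem h ht)
  · exact le_csSup ⟨1, by rintro _ ⟨s, -, rfl⟩; exact (hL.2.2 s).2⟩ (mem_image_of_mem h ht)

theorem ae_GoodL : ∀ᵐ t ∂μ1, t ∈ Ioo (0 : ℝ) 1 := ae_restrict_mem measurableSet_Ioo

theorem core_GoodL {A b P m l : ℝ} {h p g β : ℝ → ℝ} (hd : DirData A b P h p)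
    (hβ : Continuous β) (hb : ∀ s, 0 ≤ β s ∧ β s ≤ 1) (hg : Integrable g μ1)
    (hle : ∀ᵐ t ∂μ1, m + l * h t + g t ≤ b * (β (h t) * p t)) :
    m + l * ∫ t, h t ∂μ1 + ∫ t, g t ∂μ1 +
      A * ∫ s in bot h..top h, Real.sqrt (1 - β s ^ 2) ≤ P := by
  obtain ⟨hL, hp, -, hP⟩ := hd
  have hC : Cal (fun s => Real.sqrt (1 - β s ^ 2)) β := by
    refine ⟨by fun_prop, hβ, fun s => (hb s).1, fun s => ?_⟩
    have h1 : 0 ≤ 1 - β s ^ 2 := by nlinarith [(hb s).1, (hb s).2]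
    show Real.sqrt (1 - β s ^ 2) ^ 2 + β s ^ 2 ≤ 1
    rw [Real.sq_sqrt h1]
    linarith
  have h1 := hP _ _ hC
  have hi : Integrable h μ1 :=
    (integrable_const (1 : ℝ)).mono' hL.1.aestronglyMeasurable
      (Filter.Eventually.of_forall fun t => by
        rw [Real.norm_eq_abs, abs_of_nonneg (hL.2.2 t).1]; exact (hL.2.2 t).2)
  have hj : Integrable (fun t => β (h t) * p t) μ1 :=
    hp.bdd_mul (c := 1) (hβ.measurable.comp hL.1).aestronglyMeasurable
      (Filter.Eventually.of_forall fun t => by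
        rw [Real.norm_eq_abs, abs_of_nonneg (hb _).1]; exact (hb _).2)
  have hk : Integrable (fun t => m + l * h t) μ1 := (integrable_const m).add (hi.const_mul l)
  have h2 : ∫ t, (m + l * h t + g t) ∂μ1 ≤ ∫ t, b * (β (h t) * p t) ∂μ1 :=
    integral_mono_ae (hk.add hg) (hj.const_mul b) hle
  rw [integral_add hk hg, integral_add (integrable_const m) (hi.const_mul l), integral_const,
    integral_const_mul, integral_const_mul] at h2
  simp only [probReal_univ, smul_eq_mul, one_mul] at h2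
  linarith

theorem good_lt {A b P : ℝ} {h p I : ℝ → ℝ} (hd : DirData A b P h p)
    (hI : ∀ᵐ t ∂μ1, I (h t) ≤ b * p t) (hg : Good I A (∫ t, h t ∂μ1) (top h) (bot h)) :
    jf (∫ t, h t ∂μ1) < P := by
  obtain ⟨m, l, β, hβ, hb, hle, hlt⟩ := hg
  have h1 := core_GoodL (m := m) (l := l) (g := fun _ => 0) hd hβ hb (integrable_zero _ _ _) (by
    filter_upwards [hI, ae_GoodL] with t h1 h2
    have h3 := hle _ (mem_GoodL hd.1 h2)
    have h4 := mul_le_mul_of_nonneg_left h1 (hb (h t)).1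
    nlinarith)
  simp only [integral_zero, add_zero] at h1
  linarith

theorem goodP_lt {P F0 : ℝ} {h p w w' hh hh' : ℝ → ℝ} (hd : DirData 1 1 P h p)
    (hS : ∀ᵐ t ∂μ1, Sl2 (p t) (h t) (w t) (w' t) (hh t) (hh' t))
    (hw : AntitoneOn w' (Ioo (0 : ℝ) 1)) (hh1 : AntitoneOn hh' (Ioo (0 : ℝ) 1))
    (hwb : ∀ t, 0 ≤ w' t ∧ w' t ≤ 1) (hhb : ∀ t, 0 ≤ hh' t ∧ hh' t ≤ 1)
    (hsub : ∀ t ∈ Ioo (0 : ℝ) 1, 0 < hh' t → 0 < w' t) (hint : Integrable hh' μ1)
    (hF : F0 ≤ ∫ t, hh' t ∂μ1) :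
    ∃ ω, 0 ≤ ω ∧ ω ≤ 1 ∧
      (GoodP F0 ω (∫ t, h t ∂μ1) (top h) (bot h) → jf (∫ t, h t ∂μ1) < P) := by
  set N : Set ℝ := {t | t ∈ Ioo (0 : ℝ) 1 ∧ hh' t = 0} with hN
  have hbd : BddAbove (w' '' N) := ⟨1, by rintro _ ⟨s, -, rfl⟩; exact (hwb s).2⟩
  refine ⟨sSup (w' '' N), Real.sSup_nonneg (by rintro _ ⟨s, -, rfl⟩; exact (hwb s).1),
    Real.sSup_le (by rintro _ ⟨s, -, rfl⟩; exact (hwb s).2) zero_le_one, ?_⟩
  rintro ⟨m, l, κ, lam, β, hκ, hl0, hl1, hβ, hb, hle, hle2, hlt⟩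
  have h1 := core_GoodL (m := m) (l := l) (g := fun t => κ * hh' t) hd hβ hb
    (hint.const_mul κ) (by
    filter_upwards [hS, ae_GoodL] with t h1 h2
    have hm := mem_GoodL hd.1 h2
    have hb0 := (hb (h t)).1
    have hb1 := (hb (h t)).2
    rw [one_mul]
    rcases (hhb t).1.eq_or_lt with h0 | h0
    · have hω : w' t ≤ sSup (w' '' N) := le_csSup hbd (mem_image_of_mem w' ⟨h2, h0.symm⟩)
      have h3 := hle _ hm
      have h4 : min (Real.sqrt (Real.pi * h t))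
          (max 1 (Sl lam + lam * (h t - sSup (w' '' N)))) ≤ p t := by
        rw [← h0] at h1
        rcases (hwb t).1.eq_or_lt with h5 | h5
        · rw [← h5] at h1
          exact (min_le_left _ _).trans h1.typeD
        · obtain ⟨h6, h7⟩ := h1.typeS h5 hl0 hl1
          refine (min_le_right _ _).trans (max_le h6 ?_)
          have := mul_le_mul_of_nonneg_left hω hl0
          linarith
      have h5 := mul_le_mul_of_nonneg_left h4 hb0
      rw [← h0]
      linarith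
    · have hω : sSup (w' '' N) ≤ w' t := by
        refine Real.sSup_le ?_ (hwb t).1
        rintro _ ⟨s, ⟨hs, hs0⟩, rfl⟩
        refine hw h2 hs ?_
        by_contra hts
        have := hh1 hs h2 (not_le.1 hts).le
        linarith
      have hA : w' t ≤ h t := h1.2.2.2.2.2.2.2.2.1
      have h3 := hle2 _ hm (1 - w' t) (by linarith) (by linarith)
      have h4 := h1.typeC (hsub t h2 h0) h0 hκ
      have h5 := mul_le_mul_of_nonneg_left h4 hb0
      have h6 : 0 ≤ (1 - β (h t)) * (κ * (1 - hh' t)) :=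
        mul_nonneg (by linarith) (mul_nonneg hκ (by linarith [(hhb t).2]))
      nlinarith)
  rw [integral_const_mul, one_mul] at h1
  have h2 := mul_le_mul_of_nonneg_left hF hκ
  linarith

end Vale.Agent.P232
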