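import Vale.Agent.P232.Perm

/-!
# P232 / Down2

Geometry of planar down-sets. Key remark: for `y ∈ (0,1)` the set
`{x ∈ (0,1) | (x,y) ∈ F}` is an initial segment, so `x < row F y → (x,y) ∈ F` and
`(x,y) ∈ F → x ≤ row F y` for `x ∈ (0,1)`; the same for columns. Hence for `x ∈ (0,1)`:
`x < top (row F) → 0 < col F x → x ≤ top (row F)` and
`x < bot (row F) → col F x = 1 → x ≤ bot (row F)`, which give the two measure identities.
-/

open MeasureTheory Set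

namespace Vale.Agent.P232

private theorem mono_Down2 {S T : Set ℝ} (h : ∀ t ∈ Ioo (0 : ℝ) 1, t ∈ S → t ∈ T) :
    μ1.real S ≤ μ1.real T :=
  ENNReal.toReal_mono (measure_ne_top _ _)
    (measure_mono_ae (ae_μ1_mem.mono fun t ht => h t ht))

private theorem atoms_Down2 : NullSingletonClass μ1 := by
  unfold μ1
  infer_instance

private theorem sand_Down2 {S : Set ℝ} {m : ℝ} (h0 : 0 ≤ m) (h1 : m ≤ 1)
    (ha : ∀ t ∈ Ioo (0 : ℝ) 1, t < m → t ∈ S) (hb : ∀ t ∈ Ioo (0 : ℝ) 1, t ∈ S → t ≤ m) :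
    μ1.real S = m := by
  have := atoms_Down2
  refine le_antisymm ?_ ((μ1_real_Iio m h0 h1).ge.trans (mono_Down2 ha))
  refine (mono_Down2 (T := Iic m) hb).trans ?_
  rw [← measureReal_congr Iio_ae_eq_Iic]
  exact (μ1_real_Iio m h0 h1).le

private theorem ne_Down2 (g : ℝ → ℝ) : (g '' Ioo (0 : ℝ) 1).Nonempty :=
  (nonempty_Ioo.2 one_pos).image g

theorem Down2.mem_of_lt_col {F : Set (ℝ × ℝ)} (h : Down2 F) {x y : ℝ} (hx : x ∈ Ioo (0 : ℝ) 1)
    (hy : 0 < y) (hlt : y < col F x) : (x, y) ∈ F := by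
  by_contra hn
  have h1 : y < 1 := hlt.trans_le measureReal_le_one
  have h2 : col F x ≤ μ1.real {t | t < y} := mono_Down2 fun t ht hm =>
    not_le.1 fun hle => hn (h.2.2 x t y hy hle ht.2 hx hm)
  rw [μ1_real_Iio y hy.le h1.le] at h2
  exact hlt.not_ge h2

theorem Down2.le_col {F : Set (ℝ × ℝ)} (h : Down2 F) {x y : ℝ} (hx : x ∈ Ioo (0 : ℝ) 1)
    (hy : y ∈ Ioo (0 : ℝ) 1) (hm : (x, y) ∈ F) : y ≤ col F x := by
  rw [← μ1_real_Iio y hy.1.le hy.2.le]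
  exact mono_Down2 fun t ht hlt => h.2.2 x y t ht.1 (le_of_lt hlt) hy.2 hx hm

theorem Down2.mem_of_lt_row {F : Set (ℝ × ℝ)} (h : Down2 F) {x y : ℝ} (hy : y ∈ Ioo (0 : ℝ) 1)
    (hx : 0 < x) (hlt : x < row F y) : (x, y) ∈ F := by
  exact h.swap.mem_of_lt_col hy hx hlt

theorem Down2.le_row {F : Set (ℝ × ℝ)} (h : Down2 F) {x y : ℝ} (hx : x ∈ Ioo (0 : ℝ) 1)
    (hy : y ∈ Ioo (0 : ℝ) 1) (hm : (x, y) ∈ F) : x ≤ row F y := by
  exact h.swap.le_col hy hx hm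

theorem col_mem (F : Set (ℝ × ℝ)) (x : ℝ) : 0 ≤ col F x ∧ col F x ≤ 1 := by
  exact ⟨measureReal_nonneg, measureReal_le_one⟩

theorem row_mem (F : Set (ℝ × ℝ)) (y : ℝ) : 0 ≤ row F y ∧ row F y ≤ 1 := by
  exact col_mem _ y

theorem Down2.lev_col {F : Set (ℝ × ℝ)} (h : Down2 F) : Lev (col F) := by
  exact ⟨(measurable_measure_prodMk_left h.1).ennreal_toReal,
    fun x hx x' hx' hle => mono_Down2 fun t ht hm => h.2.1 x' x t hx.1 hle hx'.2 ht hm,
    col_mem F⟩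

theorem Down2.lev_row {F : Set (ℝ × ℝ)} (h : Down2 F) : Lev (row F) := by
  exact h.swap.lev_col

theorem integral_col {F : Set (ℝ × ℝ)} (hF : MeasurableSet F) :
    ∫ x, col F x ∂μ1 = μ2.real F := by
  rw [Measure.real, Measure.prod_apply hF]
  exact integral_toReal (measurable_measure_prodMk_left hF).aemeasurable
    (Filter.Eventually.of_forall fun x => measure_lt_top _ _)

theorem integral_row {F : Set (ℝ × ℝ)} (hF : MeasurableSet F) :
    ∫ y, row F y ∂μ1 = μ2.real F := by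
  rw [← real_swap hF]
  exact integral_col (measurable_swap hF)

theorem Down2.real_col_pos {F : Set (ℝ × ℝ)} (h : Down2 F) :
    μ1.real {x | 0 < col F x} = top (row F) := by
  have hb := bot_top_mem (row_mem F)
  refine sand_Down2 (hb.1.trans hb.2.1) hb.2.2 (fun x hx hlt => ?_) fun x hx hp => ?_
  · obtain ⟨_, ⟨y, hy, rfl⟩, h1⟩ := exists_lt_of_lt_csSup (ne_Down2 _) hlt
    exact hy.1.trans_le (h.le_col hx hy (h.mem_of_lt_row hy hx.1 h1))
  · have hp' : 0 < col F x := hp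
    have hy : col F x / 2 ∈ Ioo (0 : ℝ) 1 := ⟨by linarith, by linarith [(col_mem F x).2]⟩
    exact (h.le_row hx hy (h.mem_of_lt_col hx hy.1 (by linarith))).trans
      (le_top_of_bdd (row_mem F) hy).2

private theorem one_Down2 {F : Set (ℝ × ℝ)} (h : Down2 F) {x : ℝ} (hx : x ∈ Ioo (0 : ℝ) 1)
    (hlt : x < bot (row F)) : col F x = 1 :=
  sand_Down2 zero_le_one le_rfl
    (fun _ hy _ => h.mem_of_lt_row hy hx.1 (hlt.trans_le (le_top_of_bdd (row_mem F) hy).1))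
    fun _ hy _ => hy.2.le

theorem Down2.real_col_one {F : Set (ℝ × ℝ)} (h : Down2 F) :
    μ1.real {x | col F x = 1} = bot (row F) := by
  have hb := bot_top_mem (row_mem F)
  refine sand_Down2 hb.1 (hb.2.1.trans hb.2.2) (fun x hx hlt => one_Down2 h hx hlt)
    fun x hx hp => le_csInf (ne_Down2 _) ?_
  rintro _ ⟨y, hy, rfl⟩
  have hp' : col F x = 1 := hp
  exact h.le_row hx hy (h.mem_of_lt_col hx hy.1 (hy.2.trans_eq hp'.symm))

theorem Down2.rel {F : Set (ℝ × ℝ)} (h : Down2 F) :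
    (0 < bot (row F) → top (col F) = 1) ∧ (bot (row F) = 1 → bot (col F) = 1) := by
  have hb := bot_top_mem (row_mem F)
  have hc := bot_top_mem (col_mem F)
  refine ⟨fun h0 => le_antisymm hc.2.2 ?_,
    fun h1 => le_antisymm (hc.2.1.trans hc.2.2) (le_csInf (ne_Down2 _) ?_)⟩
  · have hx : bot (row F) / 2 ∈ Ioo (0 : ℝ) 1 := ⟨by linarith, by linarith [hb.2.1, hb.2.2]⟩
    rw [← one_Down2 h hx (by linarith)]
    exact (le_top_of_bdd (col_mem F) hx).2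
  · rintro _ ⟨x, hx, rfl⟩
    exact (one_Down2 h hx (hx.2.trans_eq h1.symm)).ge

theorem Down2.ae_eq_col {F : Set (ℝ × ℝ)} (h : Down2 F) :
    F =ᵐ[μ2] {q : ℝ × ℝ | q.2 < col F q.1} := by
  have := atoms_Down2
  have hm : MeasurableSet {q : ℝ × ℝ | q.1 ∈ Ioo (0 : ℝ) 1 ∧ q.2 ∈ Ioo (0 : ℝ) 1 ∧
      q.2 ≠ col F q.1} :=
    (measurable_fst measurableSet_Ioo).inter ((measurable_snd measurableSet_Ioo).inter
      (measurableSet_eq_fun measurable_snd (h.lev_col.1.comp measurable_fst)).compl)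
  have ha : ∀ᵐ q ∂μ2, q.1 ∈ Ioo (0 : ℝ) 1 ∧ q.2 ∈ Ioo (0 : ℝ) 1 ∧ q.2 ≠ col F q.1 := by
    refine (Measure.ae_prod_iff_ae_ae hm).2 (ae_μ1_mem.mono fun x hx => ?_)
    filter_upwards [ae_μ1_mem, μ1.ae_ne (col F x)] with y hy hne
    exact ⟨hx, hy, hne⟩
  filter_upwards [ha] with q hq
  exact propext ⟨fun hm => lt_of_le_of_ne (h.le_col hq.1 hq.2.1 hm) hq.2.2,
    fun hlt => h.mem_of_lt_col hq.1 hq.2.1.1 hlt⟩

end Vale.Agent.P232
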