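import Vale.Agent.P232.SliceAbs
import Vale.Agent.P232.OneD
import Vale.Agent.P232.Down2

/-!
# P232 / Slice2

Planar slicing. `dir2`: `slice_abs` with `Y = ℝ`, `A = 1`, `g = |u2|`,
`Adm v g := ∃ v1, Adm1 v v1 ∧ g = fun y => |v1 y|`; `Appr1.one_le` gives `ind {..} t ≤ p t` a.e.;
`lim_ends` with `G (a, f) = ∫ s in f..a, α s`.
`ori_of_dir`: `β s = min 1 (max (m + l s) 0)`, `α = √(1 - β²)`;
`∫ β(col)·ind ≥ ∫ (m + l col)·ind = m (w - w') + l (A - w')`.
-/

open MeasureTheory Set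

namespace Vale.Agent.P232

theorem measE_Slice2 {h : ℝ → ℝ} (hl : Lev h) : MeasurableSet {x | 0 < h x ∧ h x < 1} :=
  hl.1 measurableSet_Ioo

theorem int_ind_Slice2 {E : Set ℝ} (hE : MeasurableSet E) : Integrable (ind E) μ1 :=
  integrable_of_bdd μ1 (measurable_ind hE) 1 fun x => by
    rw [abs_of_nonneg (ind_mem _ x).1]
    exact (ind_mem _ x).2

theorem dir2 {F : Set (ℝ × ℝ)} {p : ℝ} (hF : Down2 F) (h : Appr2 F p) :
    DirData 1 1 p (col F) (ind {x | 0 < col F x ∧ col F x < 1}) := by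
  have hl := hF.lev_col
  have hE := measE_Slice2 hl
  refine ⟨hl, int_ind_Slice2 hE, fun t => (ind_mem _ t).1, fun α β hc => ?_⟩
  obtain ⟨q, hq, hq0, hq1, Z, hZ, hZ'⟩ := slice_abs μ1
    (fun v g => ∃ v1, Adm1 v v1 ∧ g = fun y => |v1 y|) hF.1 (A := 1) (P := p) fun ε hε => by
      obtain ⟨u, u1, u2, ⟨m0, m1, m2, ⟨C, hC⟩, d1, d2⟩, e1, e2⟩ := h ε hε
      refine ⟨u, u1, fun x => |u2 x|, m0, m1, m2.abs, ⟨C, fun x => by simpa using hC x⟩,
        fun _ => abs_nonneg _, d1, fun t => ⟨fun y => u2 (t, y),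
          ⟨m0.comp measurable_prodMk_left, m2.comp measurable_prodMk_left,
            ⟨C, fun y => ⟨(hC _).1, (hC _).2.2⟩⟩, d2 t⟩, rfl⟩, e1, ?_⟩
      simpa only [one_mul, sq_abs] using e2
  have hβ : ∀ s, β s ≤ 1 := fun s => by nlinarith [hc.2.2.2 s, sq_nonneg (α s), hc.2.2.1 s]
  have hi : ∀ a b, IntervalIntegrable α volume a b := hc.1.intervalIntegrable
  have hP := intervalIntegral.continuous_primitive hi 0
  have h1 := lim_ends hl hZ (c := p) (G := fun z => ∫ t, β (col F t) * q t ∂μ1 +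
    1 * ((∫ s in (0 : ℝ)..z.1, α s) - ∫ s in (0 : ℝ)..z.2, α s))
    (continuous_const.add (continuous_const.mul
      ((hP.comp continuous_fst).sub (hP.comp continuous_snd)))) fun t0 h0 t1 h1 a b c => by
      have h2 := hZ' t0 h0 t1 h1 a b c α β hc
      rwa [← intervalIntegral.integral_interval_sub_left (hi 0 _) (hi 0 _)] at h2
  simp only [intervalIntegral.integral_interval_sub_left (hi 0 _) (hi 0 _)] at h1
  rw [one_mul]
  refine le_trans (add_le_add_left (integral_mono_of_nonneg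
    (.of_forall fun t => mul_nonneg (hc.2.2.1 _) (ind_mem _ t).1)
    (hq.bdd_mul (c := 1) (hc.2.1.measurable.comp hl.1).aestronglyMeasurable
      (.of_forall fun t => ?_)) ?_) _) h1
  · exact (Real.norm_of_nonneg (hc.2.2.1 _)).trans_le (hβ _)
  filter_upwards [hq1] with t ht
  refine mul_le_mul_of_nonneg_left ?_ (hc.2.2.1 _)
  by_cases hE' : t ∈ {x | 0 < col F x ∧ col F x < 1}
  · rw [ind, indicator_of_mem hE']
    refine Appr1.one_le (measurable_prodMk_left hF.1) (fun ε hε => ?_) hE'.1 hE'.2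
    obtain ⟨v, g, ⟨v1, hv, rfl⟩, e1, e2⟩ := ht ε hε
    exact ⟨v, v1, hv, e1, e2⟩
  · rw [ind, indicator_of_notMem hE']
    exact hq0 t

theorem ori_of_dir {F : Set (ℝ × ℝ)} {p : ℝ} (hF : Down2 F) (h : Appr2 F p) :
    Ori p (μ2.real F) (top (row F)) (bot (row F)) (top (col F)) (bot (col F)) := by
  intro m l hml
  obtain ⟨hl, hi, -, hd⟩ := dir2 hF h
  obtain ⟨β, hβ⟩ : ∃ β : ℝ → ℝ, β = fun s => min 1 (max (m + l * s) 0) := ⟨_, rfl⟩
  have hβc : Continuous β := by
    rw [hβ]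
    fun_prop
  have hβ0 : ∀ s, 0 ≤ β s := fun s => hβ ▸ le_min zero_le_one (le_max_right _ _)
  have hβ1 : ∀ s, β s ≤ 1 := fun s => hβ ▸ min_le_left _ _
  have hβ2 : ∀ s ∈ Icc (bot (col F)) (top (col F)), β s = max (m + l * s) 0 := fun s hs =>
    hβ ▸ min_eq_right (max_le (hml s hs) zero_le_one)
  have h1 := hd (fun s => √(1 - β s ^ 2)) β ⟨by fun_prop, hβc, hβ0, fun s => by
    rw [Real.sq_sqrt (by nlinarith [hβ0 s, hβ1 s]), sub_add_cancel]⟩
  rw [one_mul, one_mul, intervalIntegral.integral_congr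
    (g := fun s => √(1 - (max (m + l * s) 0) ^ 2)) fun s hs => by
      rw [uIcc_of_le (bot_top_mem hl.2.2).2.1] at hs
      simp only [hβ2 s hs]] at h1
  refine le_trans (add_le_add_left ?_ _) h1
  have m1 : MeasurableSet {x | 0 < col F x} := hl.1 measurableSet_Ioi
  have m2 : MeasurableSet {x | col F x = 1} := hl.1 (measurableSet_singleton 1)
  have i1 := (int_ind_Slice2 m1).const_mul m
  have i2 := hl.integrable.const_mul l
  have i3 := (int_ind_Slice2 m2).const_mul (m + l)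
  rw [← hF.real_col_pos, ← hF.real_col_one, ← integral_col hF.1, ← integral_ind μ1 m1,
    ← integral_ind μ1 m2, ← integral_const_mul, ← integral_const_mul, ← integral_const_mul,
    ← integral_add i1 i2, ← integral_sub (i1.fun_add i2) i3]
  refine integral_mono_ae ((i1.fun_add i2).sub' i3)
    (hi.bdd_mul (c := 1) (hβc.measurable.comp hl.1).aestronglyMeasurable
      (.of_forall fun t => (Real.norm_of_nonneg (hβ0 _)).trans_le (hβ1 _))) ?_
  filter_upwards [ae_μ1_mem] with t ht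
  have h2 := hβ2 _ (le_top_of_bdd hl.2.2 ht)
  rcases (hl.2.2 t).1.eq_or_lt with h3 | h3
  · simp [ind, ← h3]
  rcases (hl.2.2 t).2.eq_or_lt with h4 | h4
  · simp [ind, h4]
  · simp [ind, h3, h4, h4.ne, h2]

theorem slOf_of_appr {F : Set (ℝ × ℝ)} {p : ℝ} (hF : Down2 F) (h : Appr2 F p) : SlOf F p := by
  have r := bot_top_mem (row_mem F)
  have c := bot_top_mem (col_mem F)
  have r' := hF.lev_row.integral_mem
  have c' := hF.lev_col.integral_mem
  rw [integral_row hF.1] at r'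
  rw [integral_col hF.1] at c'
  have s1 := hF.swap.rel
  have s2 := ori_of_dir hF.swap (h.swap hF.1)
  rw [row_swap] at s1 s2
  rw [real_swap hF.1] at s2
  exact ⟨r.1, r.2.1, r.2.2, c.1, c.2.1, c.2.2, hF.rel.1, s1.1, r'.1, c'.1, r'.2, c'.2, hF.rel.2,
    s1.2, ori_of_dir hF h, s2⟩

end Vale.Agent.P232
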