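import Vale.Agent.P232.Tri
import Vale.Agent.P232.GoodL
import Vale.Agent.P232.Slice2
import Vale.Agent.P232.Ellipse

/-!
# P232 / CubeMain

The decision tree. For any rotated copy `D'` (same volume `v`, `Appr3.rot`), `dir3` gives
`p` with `SlOf (sl D' t) (p t)` a.e. (`slOf_of_appr`), and `Rg v (top (ar D')) (bot (ar D'))`.
* `caseI_dir`: `CertI`: `a ≤ s0` gives `AnCase` (`Sl2.an_caseI`), otherwise `good_lt` with `Sl2.caseI`.
* `tall_dir`: `CertT`: `AnCase` (`Sl2.an_small`), or `good_lt` with `Sl2.tall`, or the third option.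
* `third_dir`: with both other directions in the third option: obtain `ω` from `goodP_lt` (used with
  `hh' = bot col`, or through `Sl2.symm` with `hh' = bot row`, according to `nested_pos`), then `Cert3`:
  `AnCase`, `CornerCase`, plain `good_lt` (`Sl2.plain`), pentagon, or `Good (b I2) A` in all three
  directions: `Appr3.ellipse`, rotate `P2`, `P3` to weights `(A,b,b)`, `good_lt` three times, average.
-/

open MeasureTheory Set

namespace Vale.Agent.P232

private theorem dir_CubeMain {A b P : ℝ} (hb : 0 < b) {D : Set R3} (hD : Down3 D)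
    (h : Appr3 A b b False False False D P) :
    ∃ p : ℝ → ℝ, DirData A b P (ar D) p ∧
      ∀ᵐ t ∂μ1, t ∈ Ioo (0 : ℝ) 1 ∧ SlOf (sl D t) (p t) := by
  obtain ⟨p, h1, h2⟩ := dir3 hb hD h
  refine ⟨p, h1, ?_⟩
  filter_upwards [h2, ae_μ1_mem] with t h3 ht using ⟨ht, slOf_of_appr (hD.sl ht) h3⟩

private theorem rg_CubeMain {D : Set R3} (hD : Down3 D) (hv : μ3.real D ≤ 1 / 2) :
    Rg (μ3.real D) (top (ar D)) (bot (ar D)) := by
  have h1 := hD.lev_ar.integral_mem
  have h2 := bot_top_mem hD.lev_ar.2.2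
  rw [integral_ar hD.1] at h1
  exact ⟨h2.1, h1.1, h1.2, h2.2.2, hv⟩

private theorem good_CubeMain {A b P : ℝ} (hb : 0 < b) {D : Set R3} (hD : Down3 D)
    (h : Appr3 A b b False False False D P) {I : ℝ → ℝ}
    (hI : ∀ t ∈ Ioo (0 : ℝ) 1, ∀ p, SlOf (sl D t) p → I (ar D t) ≤ b * p)
    (hg : Good I A (μ3.real D) (top (ar D)) (bot (ar D))) : jf (μ3.real D) < P := by
  obtain ⟨p, h1, h2⟩ := dir_CubeMain hb hD h
  rw [← integral_ar hD.1] at hg ⊢
  exact good_lt h1 (h2.mono fun t ht => hI t ht.1 _ ht.2) hg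

private theorem ell_CubeMain {A b P : ℝ} (hb : 0 < b) {D : Set R3} (hD : Down3 D)
    (h : Appr3 A b b False False False D P)
    (hg : Good (fun s => b * I2 s) A (μ3.real D) (top (ar D)) (bot (ar D))) :
    jf (μ3.real D) < P :=
  good_CubeMain (I := fun s => b * I2 s) hb hD h
    (fun _ _ _ hp => mul_le_mul_of_nonneg_left (Sl2.plain hp) hb.le) hg

private theorem small_CubeMain {k1 : ℝ} (hk : Real.pi * k1 < 1) {D : Set R3} (hD : Down3 D)
    (h : top (ar D) ≤ k1) : AnCase D := fun t ht p hp => by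
  have h1 := Sl2.an_small hp ((mul_le_mul_of_nonneg_left
    ((le_top_of_bdd hD.lev_ar.2.2 ht).2.trans h) Real.pi_pos.le).trans_lt hk)
  exact ⟨h1.1, fun h2 _ => h1.2 h2⟩

private theorem tall_CubeMain {η k1 F0 A b P : ℝ} (hk : Real.pi * k1 < 1)
    (hT : CertT η k1 F0 A b) {D : Set R3} (hD : Down3 D) (h : Appr3 1 1 1 False False False D P)
    (hv : μ3.real D ≤ 1 / 2) (h1 : TallD η D) : jf (μ3.real D) < P ∨ AnCase D ∨
      (Good (fun s => b * I2 s) A (μ3.real D) (top (ar D)) (bot (ar D)) ∧ F0 ≤ bot (ar D) ∧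
        1 / 4 ≤ μ3.real D) :=
  (hT _ _ _ (rg_CubeMain hD hv)).elim (fun h2 => .inr (.inl (small_CubeMain hk hD h2))) fun h2 =>
    h2.imp (good_CubeMain one_pos hD h fun t ht p hp =>
      (Sl2.tall hp (h1 t ht)).trans_eq (one_mul p).symm) .inr

private theorem caseI_CubeMain {η l s0 P : ℝ} (h0 : 0 ≤ l) (h1 : l ≤ 1)
    (hs : ∀ s, 0 ≤ s → s ≤ s0 → Real.sqrt (Real.pi * s) < Sl l + l * (s - η) ∧
      Real.sqrt (Real.pi * s) < Real.sqrt 2 * (1 - η)) (hI : CertI η l s0) {D : Set R3}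
    (hD : Down3 D) (h : Appr3 1 1 1 False False False D P) (hv : μ3.real D ≤ 1 / 2)
    (hc : CaseI η D) : jf (μ3.real D) < P ∨ AnCase D := by
  refine (hI _ _ _ (rg_CubeMain hD hv)).symm.imp (good_CubeMain one_pos hD h fun t ht p hp =>
    (Sl2.caseI hp (hc t ht).1 (hc t ht).2 h0 h1).trans_eq (one_mul p).symm) fun h2 t ht p hp => ?_
  have h3 := hs _ (hD.lev_ar.2.2 t).1 ((le_top_of_bdd hD.lev_ar.2.2 ht).2.trans h2)
  have h4 := Sl2.an_caseI hp (hc t ht).1 (hc t ht).2 h0 h1 h3.1 h3.2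
  exact ⟨h4.1, fun h5 _ => h4.2 h5⟩

private theorem pent_CubeMain {F0 P : ℝ} {D : Set R3} (hD : Down3 D)
    (h : Appr3 1 1 1 False False False D P) (h1 : F0 ≤ bot (ar (rot D)))
    (h2 : F0 ≤ bot (ar (rot (rot D)))) : ∃ ω, 0 ≤ ω ∧ ω ≤ 1 ∧
      (GoodP F0 ω (μ3.real D) (top (ar D)) (bot (ar D)) → jf (μ3.real D) < P) := by
  obtain ⟨p, h3, h4⟩ := dir_CubeMain one_pos hD h
  have hc : ∀ t, 0 ≤ bot (col (sl D t)) ∧ bot (col (sl D t)) ≤ 1 := fun t =>
    (bot_top_mem (col_mem _)).imp_right fun h => h.1.trans h.2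
  have hr : ∀ t, 0 ≤ bot (row (sl D t)) ∧ bot (row (sl D t)) ≤ 1 := fun t =>
    (bot_top_mem (row_mem _)).imp_right fun h => h.1.trans h.2
  rw [← integral_ar hD.1]
  rcases nested_pos (anti_bot_col hD) (anti_bot_row hD) with h5 | h5
  · exact goodP_lt h3 (h4.mono fun t ht => ht.2) (anti_bot_row hD) (anti_bot_col hD) hr hc h5
      (integrable_of_anti (anti_bot_col hD) hc) (h1.trans (bot_ar_rot_le hD))
  · exact goodP_lt h3 (h4.mono fun t ht => Sl2.symm ht.2) (anti_bot_col hD) (anti_bot_row hD) hc hr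
      h5 (integrable_of_anti (anti_bot_row hD) hr) (h2.trans (bot_ar_rot_rot_le hD))

theorem third_dir {η k1 F0 A b P : ℝ} (hk : Real.pi * k1 < 1) (hb : 0 < b)
    (hAb : A ^ 2 + 2 * b ^ 2 ≤ 3) (hT : CertT η k1 F0 A b) (h3 : Cert3 k1 F0 A b) {D : Set R3}
    (hD : Down3 D) (h : Appr3 1 1 1 False False False D P) (hv : μ3.real D ≤ 1 / 2)
    (h1 : TallD η (rot D)) (h2 : TallD η (rot (rot D))) :
    jf (μ3.real D) < P ∨ AnCase D ∨ AnCase (rot D) ∨ AnCase (rot (rot D)) ∨ CornerCase D := by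
  have e1 := real_rot hD.1
  have e2 := (real_rot hD.rot.1).trans e1
  rcases tall_CubeMain hk hT hD.rot (h.rot hD.1) (e1.trans_le hv) h1 with h4 | h4 | h4
  · exact .inl (e1 ▸ h4)
  · exact .inr (.inr (.inl h4))
  rcases tall_CubeMain hk hT hD.rot.rot ((h.rot hD.1).rot hD.rot.1) (e2.trans_le hv) h2 with
    h5 | h5 | h5
  · exact .inl (e2 ▸ h5)
  · exact .inr (.inr (.inr (.inl h5)))
  obtain ⟨ω, h6, h7, h8⟩ := pent_CubeMain hD h h4.2.1 h5.2.1
  have h9 := h4.2.2.trans_eq e1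
  rcases h3 _ _ _ ω (rg_CubeMain hD hv) h9 h6 h7 with h10 | h10 | h10 | h10 | h10
  · exact .inr (.inl (small_CubeMain hk hD h10))
  · exact .inr (.inr (.inr (.inr ⟨h10.1, h10.2, h9⟩)))
  · exact .inl (good_CubeMain one_pos hD h
      (fun _ _ p hp => (Sl2.plain hp).trans_eq (one_mul p).symm) h10)
  · obtain ⟨P1, P2, P3, k0, k1, k2, k3⟩ := h.ellipse hAb
    have k4 := ell_CubeMain hb hD k1 h10
    have k5 := ell_CubeMain hb hD.rot (k2.rot hD.1) h4.1
    have k6 := ell_CubeMain hb hD.rot.rot ((k3.rot hD.1).rot hD.rot.1) h5.1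
    rw [e1] at k5
    rw [e2] at k6
    exact .inl (by linarith)
  · exact .inl (h8 h10)

theorem cube_main (hN : Numerics) {D : Set R3} {P : ℝ} (hD : Down3 D)
    (h : Appr3 1 1 1 False False False D P) (hv : μ3.real D ≤ 1 / 2) :
    jf (μ3.real D) < P ∨ ∃ D' : Set R3, (D' = D ∨ D' = rot D ∨ D' = rot (rot D)) ∧
      (AnCase D' ∨ CornerCase D') := by
  obtain ⟨η, l, s0, k1, F0, A, b, h0, h1, h2, h3, h4, hk, hb, hAb, hI, hT, h5⟩ := hN
  have e1 := real_rot hD.1
  have e2 := (real_rot hD.rot.1).trans e1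
  have g1 := h.rot hD.1
  have g2 := g1.rot hD.rot.1
  have key : jf (μ3.real D) < P ∨ (AnCase D ∨ CornerCase D) ∨
      (AnCase (rot D) ∨ CornerCase (rot D)) ∨
      (AnCase (rot (rot D)) ∨ CornerCase (rot (rot D))) := by
    rcases trichotomy hD h0 h1 with h6 | h6 | h6 | h6 | h6 | h6
    · have := caseI_CubeMain h2 h3 h4 hI hD h hv h6
      tauto
    · have := caseI_CubeMain h2 h3 h4 hI hD.rot g1 (e1.trans_le hv) h6
      rw [e1] at this
      tauto
    · have := caseI_CubeMain h2 h3 h4 hI hD.rot.rot g2 (e2.trans_le hv) h6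
      rw [e2] at this
      tauto
    · have := third_dir hk hb hAb hT h5 hD h hv h6.1 h6.2
      tauto
    · have := third_dir hk hb hAb hT h5 hD.rot g1 (e1.trans_le hv) h6.1
        (by rw [rot_rot_rot]; exact h6.2)
      rw [e1, rot_rot_rot] at this
      tauto
    · have := third_dir hk hb hAb hT h5 hD.rot.rot g2 (e2.trans_le hv)
        (by rw [rot_rot_rot]; exact h6.1) (by rw [rot_rot_rot]; exact h6.2)
      rw [e2, rot_rot_rot D] at this
      tauto
  rcases key with h6 | h6 | h6 | h6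
  · exact .inl h6
  · exact .inr ⟨_, .inl rfl, h6⟩
  · exact .inr ⟨_, .inr (.inl rfl), h6⟩
  · exact .inr ⟨_, .inr (.inr rfl), h6⟩

end Vale.Agent.P232
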