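import Vale.Agent.P232.DefectA
import Vale.Agent.P232.OneD
import Vale.Agent.P232.Perm

/-!
# P232 / Defect

Equality in Steiner symmetrisation makes the approximants tight. Fix `η`; choose `κ`, then
`γ ≤ γ0`, then `ε`. With `calib_exists`, `mu q = ∫ u (t,q)` (`fib_adm`, `ψ = 1`), `e`, `τ` as in Stein:
* `∫ (Y2 c2 u2 + Y3 c3 u3) ∂μ3 = -∫ mu (c2 Z2 + c3 Z3) ∂μ2 ≥ -∫ m0 (c2 Z2 + c3 Z3) - 4Cε`
  (Fubini, `ibp21`, `ibp22` for `Y_i mu`);
* `β τ ≥ 2β - e/R - 2e/(1-2R)` a.e. (`tv_per` where `m0 > 0`, `β ≤ m0/(2R)`, `m0 ≤ 2R`; `β = 0` otherwise);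
* `(1+e2+e3)/R ∫ m0 = P` (`integral_fib`).
So the defect `δ = √(u1² + (c2 u2)² + (c3 u3)²) - β|u1| - Y2 c2 u2 - Y3 c3 u3 ≥ 0` has integral
`≤ 10√γ/R + C' ε`, and so has `β (τ - 2)`, whence `β max (τ-2) 0`. On `K`, `β ≥ √γ0/R` and
`(β, Y2, Y3)` is a unit vector; `cross_le` with `(x,y,z) = (|u1|, c2 u2, c3 u3)`; `d2/2 = Y2/(c2 β)`.
-/

open MeasureTheory Set

namespace Vale.Agent.P232

/-- Bounded measurable functions. -/
def BM_Defect {α : Type} [MeasurableSpace α] (f : α → ℝ) : Prop :=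
  Measurable f ∧ ∃ C : ℝ, ∀ x, |f x| ≤ C

namespace BM_Defect

variable {α : Type} [MeasurableSpace α] {f g : α → ℝ}

theorem const (c : ℝ) : BM_Defect fun _ : α => c := ⟨measurable_const, |c|, fun _ => le_rfl⟩

theorem add (hf : BM_Defect f) (hg : BM_Defect g) : BM_Defect fun x => f x + g x := by
  obtain ⟨h1, C, h2⟩ := hf
  obtain ⟨h3, D, h4⟩ := hg
  exact ⟨h1.add h3, C + D, fun x => (abs_add_le _ _).trans (add_le_add (h2 x) (h4 x))⟩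

theorem sub (hf : BM_Defect f) (hg : BM_Defect g) : BM_Defect fun x => f x - g x := by
  obtain ⟨h1, C, h2⟩ := hf
  obtain ⟨h3, D, h4⟩ := hg
  exact ⟨h1.sub h3, C + D, fun x => (abs_sub _ _).trans (add_le_add (h2 x) (h4 x))⟩

theorem mul (hf : BM_Defect f) (hg : BM_Defect g) : BM_Defect fun x => f x * g x := by
  obtain ⟨h1, C, h2⟩ := hf
  obtain ⟨h3, D, h4⟩ := hg
  refine ⟨h1.mul h3, C * D, fun x => ?_⟩
  rw [abs_mul]
  exact mul_le_mul (h2 x) (h4 x) (abs_nonneg _) ((abs_nonneg _).trans (h2 x))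

theorem sq (hf : BM_Defect f) : BM_Defect fun x => f x ^ 2 := by
  simpa only [pow_two] using hf.mul hf

theorem abs (hf : BM_Defect f) : BM_Defect fun x => |f x| := by
  obtain ⟨h1, C, h2⟩ := hf
  exact ⟨continuous_abs.measurable.comp h1, C, fun x => by rw [abs_abs]; exact h2 x⟩

theorem pos (hf : BM_Defect f) : BM_Defect fun x => max (f x) 0 := by
  obtain ⟨h1, C, h2⟩ := hf
  refine ⟨h1.max measurable_const, C, fun x => ?_⟩
  rw [abs_of_nonneg (le_max_right _ _)]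
  exact max_le (le_of_abs_le (h2 x)) ((abs_nonneg _).trans (h2 x))

theorem sqrt (hf : BM_Defect f) : BM_Defect fun x => Real.sqrt (f x) := by
  obtain ⟨h1, C, h2⟩ := hf
  refine ⟨h1.sqrt, Real.sqrt C, fun x => ?_⟩
  rw [abs_of_nonneg (Real.sqrt_nonneg _)]
  exact Real.sqrt_le_sqrt (le_of_abs_le (h2 x))

theorem snd {f : ℝ × ℝ → ℝ} (hf : BM_Defect f) : BM_Defect fun x : R3 => f x.2 := by
  obtain ⟨h1, C, h2⟩ := hf
  exact ⟨h1.comp measurable_snd, C, fun x => h2 _⟩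

theorem fibre {f : R3 → ℝ} (hf : BM_Defect f) : BM_Defect fun q => ∫ t, f (t, q) ∂μ1 := by
  obtain ⟨h1, C, h2⟩ := hf
  refine ⟨(h1.stronglyMeasurable.integral_prod_left' (μ := μ1)).measurable, C, fun q => ?_⟩
  simpa using norm_integral_le_of_norm_le_const (μ := μ1) (f := fun t => f (t, q)) (C := C)
    (Filter.Eventually.of_forall fun t => h2 _)

theorem int (hf : BM_Defect f) {ν : Measure α} [IsFiniteMeasure ν] : Integrable f ν := by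
  obtain ⟨h1, C, h2⟩ := hf
  exact integrable_of_bdd ν h1 C h2

theorem ind {E : Set α} (hE : MeasurableSet E) : BM_Defect (ind E) :=
  ⟨measurable_ind hE, 1, fun x => abs_le.2 ⟨by linarith [(ind_mem E x).1], (ind_mem E x).2⟩⟩

end BM_Defect

theorem fub_Defect {f : ℝ × ℝ → ℝ} {g : R3 → ℝ} (hf : BM_Defect f) (hg : BM_Defect g) :
    ∫ x, f x.2 * g x ∂μ3 = ∫ q, f q * ∫ t, g (t, q) ∂μ1 ∂μ2 := by
  rw [integral_prod_symm _ (hf.snd.mul hg).int]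
  simp only [integral_const_mul]

theorem setle_Defect {K : Set (ℝ × ℝ)} (hK : MeasurableSet K) {f g : ℝ × ℝ → ℝ}
    (hg : BM_Defect g) (f0 : ∀ q, 0 ≤ f q) (g0 : ∀ q, 0 ≤ g q) (h : ∀ q ∈ K, f q ≤ g q) :
    ∫ q in K, f q ∂μ2 ≤ ∫ q, g q ∂μ2 :=
  (integral_mono_of_nonneg (Filter.Eventually.of_forall f0) hg.int
    (ae_restrict_of_forall_mem hK h)).trans
    (setIntegral_le_integral hg.int (Filter.Eventually.of_forall g0))

theorem setle3_Defect {K : Set (ℝ × ℝ)} (hK : MeasurableSet K) {f : ℝ → ℝ × ℝ → ℝ} {g : R3 → ℝ}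
    (hg : BM_Defect g) (g0 : ∀ x, 0 ≤ g x) (h : ∀ q ∈ K, ∀ t, |f t q| ≤ g (t, q)) :
    ∫ q in K, ∫ t, |f t q| ∂μ1 ∂μ2 ≤ ∫ x, g x ∂μ3 := by
  rw [integral_prod_symm _ hg.int]
  refine setle_Defect hK hg.fibre (fun q => integral_nonneg fun t => abs_nonneg _)
    (fun q => integral_nonneg fun t => g0 _) fun q hq => ?_
  obtain ⟨h1, C, h2⟩ := hg
  exact integral_mono_of_nonneg (Filter.Eventually.of_forall fun t => abs_nonneg _)
    (integrable_of_bdd μ1 (h1.comp measurable_prodMk_right) C fun t => h2 _)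
    (Filter.Eventually.of_forall (h q hq))

theorem cs_Defect {a b c x y z : ℝ} (h : a ^ 2 + b ^ 2 + c ^ 2 ≤ 1) :
    a * x + b * y + c * z ≤ Real.sqrt (x ^ 2 + y ^ 2 + z ^ 2) := by
  refine Real.le_sqrt_of_sq_le ?_
  have h1 : 0 ≤ x ^ 2 + y ^ 2 + z ^ 2 := by positivity
  nlinarith [sq_nonneg (a * y - b * x), sq_nonneg (a * z - c * x), sq_nonneg (b * z - c * y),
    mul_le_mul_of_nonneg_right h h1]

theorem fibre_Defect {u u1 : ℝ → ℝ} (h : Adm1 u u1) (hp : u 1 = u 0) {G : Set ℝ}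
    (hG : MeasurableSet G) {r R b : ℝ} (hR0 : 0 < R) (hR : R < 1 / 2) (hm : μ1.real G = 2 * r)
    (r1 : r ≤ R) (b0 : 0 ≤ b) (b1 : b ≤ r / R) :
    b * max (∫ t, |u1 t| ∂μ1 - 2) 0 ≤ b * ∫ t, |u1 t| ∂μ1 - 2 * b +
      (1 / R + 2 / (1 - 2 * R)) * ∫ t, |u t - ind G t| ∂μ1 := by
  have e0 : 0 ≤ ∫ t, |u t - ind G t| ∂μ1 := integral_nonneg fun t => abs_nonneg _
  have hR' : 0 < 1 - 2 * R := by linarith
  have B0 : 0 ≤ (1 / R + 2 / (1 - 2 * R)) * ∫ t, |u t - ind G t| ∂μ1 := by positivity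
  rcases le_total (∫ t, |u1 t| ∂μ1 - 2) 0 with h2 | h2
  swap
  · rw [max_eq_left h2]
    linarith
  rw [max_eq_right h2, mul_zero]
  rcases b0.eq_or_lt with rfl | b2
  · simpa using B0
  have r0 : 0 < r := by
    have := (lt_div_iff₀ hR0).1 (b2.trans_le b1)
    linarith
  have h3 := tv_per h hp hG (by rw [hm]; linarith) (by rw [hm]; linarith)
  rw [hm] at h3
  generalize ∫ t, |u t - ind G t| ∂μ1 = e at *
  have b3 : b ≤ 1 := b1.trans ((div_le_one hR0).2 r1)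
  have k1 : b * (2 * e / (2 * r)) ≤ 1 / R * e := by
    calc b * (2 * e / (2 * r)) ≤ r / R * (2 * e / (2 * r)) := by gcongr
      _ = 1 / R * e := by field_simp
  have k2 : b * (2 * e / (1 - 2 * r)) ≤ 2 / (1 - 2 * R) * e := by
    have : 0 < 1 - 2 * r := by linarith
    calc b * (2 * e / (1 - 2 * r)) ≤ 1 * (2 * e / (1 - 2 * R)) := by gcongr
      _ = 2 / (1 - 2 * R) * e := by ring
  nlinarith [mul_le_mul_of_nonneg_left h3 b0]

theorem slope_Defect {r R s c w v a M : ℝ} (hR0 : 0 < R) (hs : 0 < s) (hr : s ≤ r) (hc : 1 ≤ c)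
    (h : |r / R * (c * v) - -w / R * a| ≤ M) : |v - -2 * w / (c * r) / 2 * a| ≤ R / s * M := by
  have r0 : 0 < r := hs.trans_le hr
  have c0 : 0 < c := one_pos.trans_le hc
  have e : v - -2 * w / (c * r) / 2 * a = R / (c * r) * (r / R * (c * v) - -w / R * a) := by
    field_simp
  rw [e, abs_mul, abs_of_pos (by positivity : 0 < R / (c * r))]
  refine mul_le_mul ?_ h (abs_nonneg _) (by positivity)
  gcongr
  nlinarith

theorem core_Defect {c2 c3 R C : ℝ} (a2 : |c2| ≤ 2) (a3 : |c3| ≤ 2) (hR0 : 0 < R)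
    (hR : R < 1 / 2) {E : Set R3} (hE : MeasurableSet E) {r β Y2 Y3 Z2 Z3 : ℝ × ℝ → ℝ}
    (hfib : ∀ᵐ q ∂μ2, fib E q = 2 * r q) (r1 : ∀ q, r q ≤ R) (mr : BM_Defect r)
    (mβ : BM_Defect β) (mY2 : BM_Defect Y2) (mY3 : BM_Defect Y3) (mZ2 : BM_Defect Z2)
    (mZ3 : BM_Defect Z3) (hC : ∀ q, |Z2 q| ≤ C ∧ |Z3 q| ≤ C)
    (d2 : ∀ y z, HasDerivAt (fun s => Y2 (s, z)) (Z2 (y, z)) y)
    (d3 : ∀ y z, HasDerivAt (fun s => Y3 (y, s)) (Z3 (y, z)) z)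
    (z2 : ∀ z, Y2 (0, z) = 0 ∧ Y2 (1, z) = 0) (z3 : ∀ y, Y3 (y, 0) = 0 ∧ Y3 (y, 1) = 0)
    (hβ : ∀ q, 0 ≤ β q ∧ β q ≤ r q / R) {u u1 u2 u3 N : R3 → ℝ} (h : Adm3 u u1 u2 u3)
    (hp : ∀ x y z, u (x + 1, y, z) = u (x, y, z)) (mN : BM_Defect N) :
    ∫ x, (N x - (β x.2 * |u1 x| + Y2 x.2 * (c2 * u2 x) + Y3 x.2 * (c3 * u3 x))) ∂μ3 +
      ∫ q, β q * max (∫ t, |u1 (t, q)| ∂μ1 - 2) 0 ∂μ2 ≤
      ∫ x, N x ∂μ3 - ∫ q, (2 * β q - 2 * r q * (c2 * Z2 q + c3 * Z3 q)) ∂μ2 +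
        (4 * C + (1 / R + 2 / (1 - 2 * R))) * ∫ x, |u x - ind E x| ∂μ3 := by
  have hs := h.slice1
  obtain ⟨m0, m1, m2, m3, ⟨D, hD⟩, -, e2, e3⟩ := h
  have b0 : BM_Defect u := ⟨m0, D, fun p => (hD p).1⟩
  have b1 : BM_Defect u1 := ⟨m1, D, fun p => (hD p).2.1⟩
  have b2 : BM_Defect u2 := ⟨m2, D, fun p => (hD p).2.2.1⟩
  have b3 : BM_Defect u3 := ⟨m3, D, fun p => (hD p).2.2.2⟩
  have bE := BM_Defect.ind hE
  have be := (b0.sub bE).abs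
  have bW := ((BM_Defect.const c2).mul mZ2).add ((BM_Defect.const c3).mul mZ3)
  have g2 := (mZ2.snd.mul b0).add (mY2.snd.mul b2)
  have g3 := (mZ3.snd.mul b0).add (mY3.snd.mul b3)
  have i2 : ∫ x, (Z2 x.2 * u x + Y2 x.2 * u2 x) ∂μ3 = 0 :=
    ibp2 (g := fun x => Y2 x.2 * u x) g2.1 _ g2.2.choose_spec
      (fun x y z => (d2 y z).mul (e2 x y z)) fun x z => by simp [z2 z]
  have i3 : ∫ x, (Z3 x.2 * u x + Y3 x.2 * u3 x) ∂μ3 = 0 :=
    ibp3 (g := fun x => Y3 x.2 * u x) g3.1 _ g3.2.choose_spec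
      (fun x y z => (d3 y z).mul (e3 x y z)) fun x y => by simp [z3 y]
  have i4 : ∫ x, (c2 * Z2 x.2 + c3 * Z3 x.2) * ind E x ∂μ3 =
      ∫ q, 2 * r q * (c2 * Z2 q + c3 * Z3 q) ∂μ2 := by
    rw [fub_Defect bW bE]
    refine integral_congr_ae (hfib.mono fun q hq => ?_)
    beta_reduce
    rw [← hq, mul_comm]
    exact congrArg (· * _) (integral_ind μ1 (measurable_prodMk_right hE))
  have i5 := fub_Defect mβ b1.abs
  have i6 := integral_prod_symm (μ := μ1) (ν := μ2) _ be.int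
  have j1 := mβ.snd.mul b1.abs
  have j2 := (BM_Defect.const c2).mul g2
  have j3 := (BM_Defect.const c3).mul g3
  have j4 := bW.snd.mul bE
  have j5 := (BM_Defect.const (4 * C)).mul be
  have k1 : ∫ x, (N x - (β x.2 * |u1 x| + Y2 x.2 * (c2 * u2 x) + Y3 x.2 * (c3 * u3 x))) ∂μ3 ≤
      ∫ x, (N x - β x.2 * |u1 x| - c2 * (Z2 x.2 * u x + Y2 x.2 * u2 x) -
        c3 * (Z3 x.2 * u x + Y3 x.2 * u3 x) + (c2 * Z2 x.2 + c3 * Z3 x.2) * ind E x +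
        4 * C * |u x - ind E x|) ∂μ3 := by
    refine integral_mono (mN.sub ((j1.add (mY2.snd.mul ((BM_Defect.const c2).mul b2))).add
      (mY3.snd.mul ((BM_Defect.const c3).mul b3)))).int
      (((((mN.sub j1).sub j2).sub j3).add j4).add j5).int fun x => ?_
    have w : |c2 * Z2 x.2 + c3 * Z3 x.2| ≤ 4 * C := by
      have w2 := mul_le_mul a2 (hC x.2).1 (abs_nonneg _) zero_le_two
      have w3 := mul_le_mul a3 (hC x.2).2 (abs_nonneg _) zero_le_two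
      rw [← abs_mul] at w2 w3
      linarith [abs_add_le (c2 * Z2 x.2) (c3 * Z3 x.2)]
    have w1 := mul_le_mul_of_nonneg_right w (abs_nonneg (u x - ind E x))
    rw [← abs_mul] at w1
    have w4 := le_of_abs_le w1
    beta_reduce
    linarith
  rw [integral_add ((((mN.sub j1).sub j2).sub j3).add j4).int j5.int,
    integral_add (((mN.sub j1).sub j2).sub j3).int j4.int,
    integral_sub ((mN.sub j1).sub j2).int j3.int, integral_sub (mN.sub j1).int j2.int,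
    integral_sub mN.int j1.int, integral_const_mul, integral_const_mul, integral_const_mul,
    i2, i3, i4, i5] at k1
  have l1 := mβ.mul b1.abs.fibre
  have l2 := (BM_Defect.const 2).mul mβ
  have l3 := (BM_Defect.const (1 / R + 2 / (1 - 2 * R))).mul be.fibre
  have k2 : ∫ q, β q * max (∫ t, |u1 (t, q)| ∂μ1 - 2) 0 ∂μ2 ≤
      ∫ q, (β q * ∫ t, |u1 (t, q)| ∂μ1 - 2 * β q +
        (1 / R + 2 / (1 - 2 * R)) * ∫ t, |u (t, q) - ind E (t, q)| ∂μ1) ∂μ2 :=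
    integral_mono_ae (mβ.mul (b1.abs.fibre.sub (BM_Defect.const 2)).pos).int
      ((l1.sub l2).add l3).int (hfib.mono fun q hq =>
        fibre_Defect (hs q) (by simpa using hp 0 q.1 q.2) (measurable_prodMk_right hE) hR0 hR hq
          (r1 q) (hβ q).1 (hβ q).2)
  rw [integral_add (l1.sub l2).int l3.int, integral_sub l1.int l2.int,
    integral_const_mul (1 / R + 2 / (1 - 2 * R)), ← i6] at k2
  rw [integral_sub l2.int (((BM_Defect.const 2).mul mr).mul bW).int]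
  linarith

theorem tight_of_eq {e2 e3 c2 o2 c3 o3 R P γ0 : ℝ} (h2 : ZO e2) (h3 : ZO e3) (f2 : Fr c2 o2)
    (f3 : Fr c3 o3) (hR0 : 0 < R) (hR : R < 1 / 2) {k2 k3 : Prop} {E : Set R3}
    (hE : MeasurableSet E) (h : Appr3 1 c2 c3 True k2 k3 E P)
    (hP : R * P = (1 + e2 + e3) * μ3.real E)
    (hfib : ∀ᵐ q ∂μ2, fib E q = 2 * Real.sqrt (R ^ 2 - sq2 e2 e3 c2 o2 c3 o3 q))
    (hγ0 : 0 < γ0) {K : Set (ℝ × ℝ)} (hK : MeasurableSet K)
    (hKs : ∀ q ∈ K, sq2 e2 e3 c2 o2 c3 o3 q ≤ R ^ 2 - γ0) :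
    Tight E K
      (fun q => -2 * (e2 * ((q.1 - o2) / c2)) /
        (c2 * Real.sqrt (R ^ 2 - sq2 e2 e3 c2 o2 c3 o3 q)))
      (fun q => -2 * (e3 * ((q.2 - o3) / c3)) /
        (c3 * Real.sqrt (R ^ 2 - sq2 e2 e3 c2 o2 c3 o3 q))) := by
  intro η hη
  have P0 := h.nonneg
  have s0 := Real.sqrt_pos.2 hγ0
  have hR' : 0 < 1 - 2 * R := by linarith
  obtain ⟨L, hL⟩ : ∃ L, L = R / Real.sqrt γ0 := ⟨_, rfl⟩
  have L0 : 0 < L := hL ▸ div_pos hR0 s0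
  obtain ⟨κ, κ0, hκ⟩ : ∃ κ, 0 < κ ∧ L * (κ * (P + 1)) = η / 2 :=
    ⟨η / (2 * L * (P + 1)), by positivity, by field_simp⟩
  obtain ⟨A, A0, A1, A2, A3, A4⟩ : ∃ A, 0 < A ∧ A ≤ 1 ∧ A ≤ η ∧ A ≤ η / L ∧ A ≤ η * κ / L :=
    ⟨min (min 1 η) (min (η / L) (η * κ / L)), by positivity,
      (min_le_left _ _).trans (min_le_left _ _), (min_le_left _ _).trans (min_le_right _ _),
      (min_le_right _ _).trans (min_le_left _ _), (min_le_right _ _).trans (min_le_right _ _)⟩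
  obtain ⟨γ, γ1, γ2, γ3⟩ : ∃ γ, 0 < γ ∧ γ ≤ γ0 ∧ 10 * Real.sqrt γ / R ≤ A / 2 := by
    refine ⟨min γ0 ((A * R / 20) ^ 2), by positivity, min_le_left _ _, ?_⟩
    have := Real.sqrt_le_sqrt (min_le_right γ0 ((A * R / 20) ^ 2))
    rw [Real.sqrt_sq (by positivity)] at this
    rw [div_le_iff₀ hR0]
    linarith
  obtain ⟨β, Y2, Y3, Z2, Z3, C, mβ, mY2, mY3, mZ2, mZ3, hC, d2, d3, z2, z3, hβ, hin, hcal⟩ :=
    calib_exists h2 h3 f2 f3 hR0 hR γ1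
  have C0 : 0 ≤ C := (abs_nonneg _).trans (hC 0).1
  obtain ⟨T, hT⟩ : ∃ T, T = 4 * C + (1 / R + 2 / (1 - 2 * R)) := ⟨_, rfl⟩
  have T0 : 0 ≤ T := by rw [hT]; positivity
  obtain ⟨ε, ε0, hε⟩ : ∃ ε, 0 < ε ∧ ε + T * ε = A / 2 :=
    ⟨A / (2 * (1 + T)), by positivity, by field_simp⟩
  have ε1 : ε ≤ A := by nlinarith [mul_nonneg T0 ε0.le]
  obtain ⟨u, u1, u2, u3, hu, hp, -, -, hl, hen⟩ := h ε ε0
  refine ⟨u, u1, u2, u3, hu, hp trivial, hl.trans (ε1.trans A2), ?_⟩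
  have cc : ∀ {c o : ℝ}, Fr c o → 1 ≤ c ∧ |c| ≤ 2 := by
    rintro c o (⟨rfl, -⟩ | ⟨rfl, -⟩) <;> norm_num
  have ee : ∀ {e : ℝ}, ZO e → 0 ≤ e ∧ e ^ 2 = e := by
    rintro e (rfl | rfl) <;> norm_num
  obtain ⟨r, hr⟩ : ∃ r : ℝ × ℝ → ℝ,
      ∀ q, Real.sqrt (R ^ 2 - sq2 e2 e3 c2 o2 c3 o3 q) = r q := ⟨_, fun _ => rfl⟩
  have r0 : ∀ q, 0 ≤ r q := fun q => hr q ▸ Real.sqrt_nonneg _
  have r1 : ∀ q, r q ≤ R := fun q => by
    rw [← hr, Real.sqrt_le_left hR0.le, sq2]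
    nlinarith [mul_nonneg (ee h2).1 (sq_nonneg ((q.1 - o2) / c2)),
      mul_nonneg (ee h3).1 (sq_nonneg ((q.2 - o3) / c3))]
  have r2 : ∀ q ∈ K, Real.sqrt γ0 ≤ r q := fun q hq =>
    hr q ▸ Real.sqrt_le_sqrt (by linarith [hKs q hq])
  have mr : BM_Defect r := by
    refine ⟨?_, R, fun q => abs_le.2 ⟨by linarith [r0 q], r1 q⟩⟩
    rw [← funext hr]
    unfold sq2
    fun_prop
  have un : ∀ q ∈ K, β q ^ 2 + Y2 q ^ 2 + Y3 q ^ 2 = 1 := fun q hq => by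
    obtain ⟨a1, a2, a3⟩ := hin q (by linarith [hKs q hq])
    rw [a1, a2, a3, div_pow, div_pow, div_pow, Real.sq_sqrt (by linarith [hKs q hq]), neg_sq,
      neg_sq, mul_pow, mul_pow, (ee h2).2, (ee h3).2, sq2]
    field_simp
    ring
  simp only [hr] at hfib hβ hin hcal ⊢
  have bd : ∀ {f : ℝ × ℝ → ℝ}, Measurable f → (∀ q, f q ^ 2 ≤ 1) → BM_Defect f :=
    fun m hf => ⟨m, 1, fun q => (sq_le_one_iff_abs_le_one _).1 (hf q)⟩
  have bβ := bd mβ fun q => by nlinarith [(hβ q).2.2, sq_nonneg (Y2 q), sq_nonneg (Y3 q)]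
  have bY2 := bd mY2 fun q => by nlinarith [(hβ q).2.2, sq_nonneg (β q), sq_nonneg (Y3 q)]
  have bY3 := bd mY3 fun q => by nlinarith [(hβ q).2.2, sq_nonneg (β q), sq_nonneg (Y2 q)]
  obtain ⟨D, hD⟩ := hu.2.2.2.2.1
  have b1 : BM_Defect u1 := ⟨hu.2.1, D, fun p => (hD p).2.1⟩
  have b2 := (BM_Defect.const c2).mul ⟨hu.2.2.1, D, fun p => (hD p).2.2.1⟩
  have b3 := (BM_Defect.const c3).mul ⟨hu.2.2.2.1, D, fun p => (hD p).2.2.2⟩
  obtain ⟨N, hN⟩ : ∃ N : R3 → ℝ,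
      ∀ x, Real.sqrt (|u1 x| ^ 2 + (c2 * u2 x) ^ 2 + (c3 * u3 x) ^ 2) = N x := ⟨_, fun _ => rfl⟩
  have bN : BM_Defect N := funext hN ▸ ((b1.abs.sq.add b2.sq).add b3.sq).sqrt
  have N0 : ∀ x, 0 ≤ N x := fun x => hN x ▸ Real.sqrt_nonneg _
  have N1 : ∫ x, N x ∂μ3 ≤ P + ε := by simpa only [← hN, en3, one_mul, sq_abs] using hen
  have key := core_Defect (cc f2).2 (cc f3).2 hR0 hR hE hfib r1 mr bβ bY2 bY3
    ⟨mZ2, C, fun q => (hC q).1⟩ ⟨mZ3, C, fun q => (hC q).2⟩ hC d2 d3 z2 z3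
    (fun q => ⟨(hβ q).1, (hβ q).2.1⟩) hu (hp trivial) bN
  have hV : (1 + e2 + e3) / R * ∫ q, 2 * r q ∂μ2 = P := by
    rw [← integral_congr_ae hfib, integral_fib hE, div_mul_eq_mul_div, ← hP]
    field_simp
  obtain ⟨δ, hδ⟩ : ∃ δ : R3 → ℝ, ∀ x,
      N x - (β x.2 * |u1 x| + Y2 x.2 * (c2 * u2 x) + Y3 x.2 * (c3 * u3 x)) = δ x :=
    ⟨_, fun _ => rfl⟩
  have bδ : BM_Defect δ :=
    funext hδ ▸ bN.sub (((bβ.snd.mul b1.abs).add (bY2.snd.mul b2)).add (bY3.snd.mul b3))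
  have δ0 : ∀ x, 0 ≤ δ x := fun x => by
    rw [← hδ, ← hN]
    exact sub_nonneg.2 (cs_Defect (hβ _).2.2)
  simp only [hδ, ← hT] at key
  have bM := bβ.mul (b1.abs.fibre.sub (BM_Defect.const 2)).pos
  have M0 : ∀ q, 0 ≤ β q * max (∫ t, |u1 (t, q)| ∂μ1 - 2) 0 := fun q =>
    mul_nonneg (hβ q).1 (le_max_right _ _)
  have p1 : 0 ≤ ∫ x, δ x ∂μ3 := integral_nonneg δ0
  have p2 : 0 ≤ ∫ q, β q * max (∫ t, |u1 (t, q)| ∂μ1 - 2) 0 ∂μ2 := integral_nonneg M0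
  have p3 := mul_le_mul_of_nonneg_left hl T0
  have bG := (BM_Defect.const L).mul (((BM_Defect.const κ).mul bN).add
    ((BM_Defect.const (1 / (2 * κ))).mul bδ))
  have G0 : ∀ x, 0 ≤ L * (κ * N x + 1 / (2 * κ) * δ x) := fun x => by
    have := N0 x
    have := δ0 x
    positivity
  have G1 : ∫ x, L * (κ * N x + 1 / (2 * κ) * δ x) ∂μ3 ≤ η := by
    rw [integral_const_mul, integral_add ((BM_Defect.const κ).mul bN).int
      ((BM_Defect.const _).mul bδ).int, integral_const_mul, integral_const_mul]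
    calc L * (κ * ∫ x, N x ∂μ3 + 1 / (2 * κ) * ∫ x, δ x ∂μ3)
        ≤ L * (κ * (P + 1) + 1 / (2 * κ) * (η * κ / L)) := by gcongr <;> linarith
      _ = L * (κ * (P + 1)) + η / 2 := by field_simp
      _ = η := by rw [hκ, add_halves]
  refine ⟨?_, (setle3_Defect hK bG G0 fun q hq t => ?_).trans G1,
    (setle3_Defect hK bG G0 fun q hq t => ?_).trans G1⟩
  · refine (setle_Defect hK ((BM_Defect.const L).mul bM) (fun q => le_max_right _ _)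
      (fun q => mul_nonneg L0.le (M0 q)) fun q hq => ?_).trans ?_
    · rw [← mul_assoc]
      refine le_mul_of_one_le_left (le_max_right _ _) ?_
      rw [(hin q (by linarith [hKs q hq])).1, hL, div_mul_div_cancel₀' hR0.ne', one_le_div s0]
      exact r2 q hq
    · rw [integral_const_mul, ← le_div_iff₀' L0]
      linarith
  · obtain ⟨a1, a2, -⟩ := hin q (by linarith [hKs q hq])
    have := cross_le (x := |u1 (t, q)|) (y := c2 * u2 (t, q)) (z := c3 * u3 (t, q)) (un q hq) κ0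
    rw [hN, hδ (t, q), div_eq_inv_mul, ← one_div] at this
    rw [hL]
    exact slope_Defect hR0 s0 (r2 q hq) (cc f2).1 (by rw [← a1, ← a2]; exact this)
  · obtain ⟨a1, -, a3⟩ := hin q (by linarith [hKs q hq])
    have := cross_le (a := β q) (b := Y3 q) (c := Y2 q) (x := |u1 (t, q)|) (y := c3 * u3 (t, q))
      (z := c2 * u2 (t, q)) (by linarith [un q hq]) κ0
    rw [add_right_comm (_ ^ 2), add_right_comm (β q * _), hN, hδ (t, q), div_eq_inv_mul,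
      ← one_div] at this
    rw [hL]
    exact slope_Defect hR0 s0 (r2 q hq) (cc f3).1 (by rw [← a1, ← a3]; exact this)

end Vale.Agent.P232
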