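import Vale.Agent.P232.Basic

/-!
# P232 / IBP

Integration by parts on the cube, one coordinate at a time: Fubini puts the coordinate
innermost, then `Adm1.ftc`-type FTC for the product (`intervalIntegral.integral_eq_sub_of_hasDerivAt`).
The functions are only assumed bounded and measurable with the one derivative that is used.
-/

open MeasureTheory Set

namespace Vale.Agent.P232

private theorem int_IBP {α : Type} [MeasurableSpace α] (ν : Measure α) [IsFiniteMeasure ν]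
    {f : α → ℝ} (hf : Measurable f) {C : ℝ} (hC : ∀ p, |f p| ≤ C) : Integrable f ν :=
  Integrable.of_bound hf.aestronglyMeasurable C (Filter.Eventually.of_forall hC)

private theorem one_IBP {g g1 : ℝ → ℝ} (hg1 : Measurable g1) {C : ℝ} (hC : ∀ p, |g1 p| ≤ C)
    (hd : ∀ x, HasDerivAt g (g1 x) x) (hb : g 1 = g 0) : ∫ x, g1 x ∂μ1 = 0 := by
  have hi : IntervalIntegrable g1 volume 0 1 :=
    (intervalIntegrable_iff_integrableOn_Ioo_of_le zero_le_one).2 (int_IBP μ1 hg1 hC)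
  have h := intervalIntegral.integral_eq_sub_of_hasDerivAt (fun x _ => hd x) hi
  rw [intervalIntegral.integral_of_le zero_le_one, integral_Ioc_eq_integral_Ioo, hb, sub_self] at h
  exact h

private theorem fst_IBP {α : Type} [MeasurableSpace α] (ν : Measure α) [IsFiniteMeasure ν]
    {g g1 : ℝ × α → ℝ} (hg1 : Measurable g1) {C : ℝ} (hC : ∀ p, |g1 p| ≤ C)
    (hd : ∀ x q, HasDerivAt (fun s => g (s, q)) (g1 (x, q)) x) (hb : ∀ q, g (1, q) = g (0, q)) :
    ∫ p, g1 p ∂(μ1.prod ν) = 0 := by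
  have h : ∀ q, ∫ x, g1 (x, q) ∂μ1 = 0 := fun q =>
    one_IBP (hg1.comp measurable_prodMk_right) (fun x => hC (x, q)) (fun x => hd x q) (hb q)
  rw [integral_prod_symm _ (int_IBP _ hg1 hC)]
  simp only [h, integral_zero]

private theorem snd_IBP {α β : Type} [MeasurableSpace α] [MeasurableSpace β] (μ : Measure α)
    (ν : Measure β) [IsFiniteMeasure μ] [IsFiniteMeasure ν] {f : α × β → ℝ} (hf : Measurable f)
    {C : ℝ} (hC : ∀ p, |f p| ≤ C) (h : ∀ x, ∫ q, f (x, q) ∂ν = 0) : ∫ p, f p ∂(μ.prod ν) = 0 := by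
  rw [integral_prod _ (int_IBP _ hf hC)]
  simp only [h, integral_zero]

theorem ibp1 {g g1 : R3 → ℝ} (hg1 : Measurable g1) (C : ℝ) (hC : ∀ p, |g1 p| ≤ C)
    (hd : ∀ x y z, HasDerivAt (fun s => g (s, y, z)) (g1 (x, y, z)) x)
    (hb : ∀ y z, g (1, y, z) = g (0, y, z)) : ∫ p, g1 p ∂μ3 = 0 := by
  exact fst_IBP μ2 hg1 hC (fun x q => hd x q.1 q.2) fun q => hb q.1 q.2

theorem ibp2 {g g2 : R3 → ℝ} (hg2 : Measurable g2) (C : ℝ) (hC : ∀ p, |g2 p| ≤ C)
    (hd : ∀ x y z, HasDerivAt (fun s => g (x, s, z)) (g2 (x, y, z)) y)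
    (hb : ∀ x z, g (x, 1, z) = g (x, 0, z)) : ∫ p, g2 p ∂μ3 = 0 := by
  exact snd_IBP μ1 μ2 hg2 hC fun x => fst_IBP μ1 (g := fun q => g (x, q))
    (hg2.comp measurable_prodMk_left) (fun q => hC (x, q)) (hd x) (hb x)

theorem ibp3 {g g3 : R3 → ℝ} (hg3 : Measurable g3) (C : ℝ) (hC : ∀ p, |g3 p| ≤ C)
    (hd : ∀ x y z, HasDerivAt (fun s => g (x, y, s)) (g3 (x, y, z)) z)
    (hb : ∀ x y, g (x, y, 1) = g (x, y, 0)) : ∫ p, g3 p ∂μ3 = 0 := by
  exact snd_IBP μ1 μ2 hg3 hC fun x => snd_IBP μ1 μ1 (f := fun q => g3 (x, q))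
    (hg3.comp measurable_prodMk_left) (fun q => hC (x, q)) fun y =>
      one_IBP ((hg3.comp measurable_prodMk_left).comp measurable_prodMk_left)
        (fun z => hC (x, y, z)) (hd x y) (hb x y)

theorem ibp21 {g g1 : ℝ × ℝ → ℝ} (hg1 : Measurable g1) (C : ℝ) (hC : ∀ p, |g1 p| ≤ C)
    (hd : ∀ x y, HasDerivAt (fun s => g (s, y)) (g1 (x, y)) x)
    (hb : ∀ y, g (1, y) = g (0, y)) : ∫ p, g1 p ∂μ2 = 0 := by
  exact fst_IBP μ1 hg1 hC hd hb

theorem ibp22 {g g2 : ℝ × ℝ → ℝ} (hg2 : Measurable g2) (C : ℝ) (hC : ∀ p, |g2 p| ≤ C)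
    (hd : ∀ x y, HasDerivAt (fun s => g (x, s)) (g2 (x, y)) y)
    (hb : ∀ x, g (x, 1) = g (x, 0)) : ∫ p, g2 p ∂μ2 = 0 := by
  exact snd_IBP μ1 μ1 hg2 hC fun x =>
    one_IBP (hg2.comp measurable_prodMk_left) (fun y => hC (x, y)) (hd x) (hb x)

theorem hasDerivAt_coord1 {X : R3 → ℝ} (hX : Differentiable ℝ X) (x y z : ℝ) :
    HasDerivAt (fun s => X (s, y, z)) (fderiv ℝ X (x, y, z) (1, 0, 0)) x := by
  exact (hX (x, y, z)).hasFDerivAt.comp_hasDerivAt (f := fun s => ((s, y, z) : R3)) x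
    ((hasDerivAt_id x).prodMk ((hasDerivAt_const x y).prodMk (hasDerivAt_const x z)))

theorem hasDerivAt_coord2 {X : R3 → ℝ} (hX : Differentiable ℝ X) (x y z : ℝ) :
    HasDerivAt (fun s => X (x, s, z)) (fderiv ℝ X (x, y, z) (0, 1, 0)) y := by
  exact (hX (x, y, z)).hasFDerivAt.comp_hasDerivAt (f := fun s => ((x, s, z) : R3)) y
    ((hasDerivAt_const y x).prodMk ((hasDerivAt_id y).prodMk (hasDerivAt_const y z)))

theorem hasDerivAt_coord3 {X : R3 → ℝ} (hX : Differentiable ℝ X) (x y z : ℝ) :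
    HasDerivAt (fun s => X (x, y, s)) (fderiv ℝ X (x, y, z) (0, 0, 1)) z := by
  exact (hX (x, y, z)).hasFDerivAt.comp_hasDerivAt (f := fun s => ((x, y, s) : R3)) z
    ((hasDerivAt_const z x).prodMk ((hasDerivAt_const z y).prodMk (hasDerivAt_id z)))

end Vale.Agent.P232
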