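import Vale.Agent.P232.Basic

/-!
# P232 / SteinA

Set-level facts on `fib`, `stein`; fibre integrals of approximants.
`fib_adm`: differentiate under the integral
(`hasDerivAt_integral_of_dominated_loc_of_deriv_le`); measurability by
`MeasureTheory.StronglyMeasurable.integral_prod_left`. `minkowski3`: test against the unit vector
in the direction of the left side (or `norm_integral_le_integral_norm` in `EuclideanSpace`).
-/

open MeasureTheory Set

namespace Vale.Agent.P232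

theorem measurable_fib {E : Set R3} (hE : MeasurableSet E) : Measurable (fib E) :=
  (measurable_measure_prodMk_right (μ := μ1) hE).ennreal_toReal

theorem fib_mem (E : Set R3) (q : ℝ × ℝ) : 0 ≤ fib E q ∧ fib E q ≤ 1 :=
  ⟨measureReal_nonneg, measureReal_le_one⟩

theorem integral_fib {E : Set R3} (hE : MeasurableSet E) :
    ∫ q, fib E q ∂μ2 = μ3.real E := by
  rw [Measure.real, Measure.prod_apply_symm hE,
    ← integral_toReal (measurable_measure_prodMk_right (μ := μ1) hE).aemeasurable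
      (Filter.Eventually.of_forall fun _ => measure_lt_top _ _)]
  rfl

theorem fib_stein (E : Set R3) (q : ℝ × ℝ) : fib (stein E) q = fib E q :=
  μ1_real_Iio _ (fib_mem E q).1 (fib_mem E q).2

theorem measurableSet_stein {E : Set R3} (hE : MeasurableSet E) : MeasurableSet (stein E) :=
  measurableSet_lt measurable_fst ((measurable_fib hE).comp measurable_snd)

theorem real_stein {E : Set R3} (hE : MeasurableSet E) : μ3.real (stein E) = μ3.real E := by
  rw [← integral_fib hE, ← integral_fib (measurableSet_stein hE)]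
  simp only [fib_stein]

theorem dn1_stein (E : Set R3) : Dn1 (stein E) :=
  fun _ _ _ _ _ h _ _ _ h' => lt_of_le_of_lt h h'

theorem fib_mono_SteinA {E : Set R3} {q q' : ℝ × ℝ}
    (h : ∀ t ∈ Ioo (0 : ℝ) 1, (t, q) ∈ E → (t, q') ∈ E) : fib E q ≤ fib E q' := by
  refine ENNReal.toReal_mono (measure_ne_top _ _) (measure_mono_ae ?_)
  filter_upwards [ae_μ1_mem] with t ht using h t ht

theorem Dn2.stein {E : Set R3} (h : Dn2 E) : Dn2 (stein E) :=
  fun _ y y' z h1 h2 h3 _ hz h' =>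
    lt_of_lt_of_le h' (fib_mono_SteinA fun t ht => h t y y' z h1 h2 h3 ht hz)

theorem Dn3.stein {E : Set R3} (h : Dn3 E) : Dn3 (stein E) :=
  fun _ y z z' h1 h2 h3 _ hy h' =>
    lt_of_lt_of_le h' (fib_mono_SteinA fun t ht => h t y z z' h1 h2 h3 ht hy)

theorem ae_fib {A B : Set R3} (h : A =ᵐ[μ3] B) : ∀ᵐ q ∂μ2, fib A q = fib B q := by
  have h1 := (Measure.measurePreserving_swap (μ := μ2) (ν := μ1)).quasiMeasurePreserving.ae h
  filter_upwards [Measure.ae_ae_of_ae_prod h1] with q hq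
  exact measureReal_congr hq

theorem meas_SteinA {u : R3 → ℝ} (hu : Measurable u) {ψ : ℝ → ℝ} (hψ : Measurable ψ) :
    Measurable fun q : ℝ × ℝ => ∫ t, u (t, q) * ψ t ∂μ1 :=
  ((hu.mul (hψ.comp measurable_fst)).stronglyMeasurable.integral_prod_left'
    (μ := μ1)).measurable

theorem mul_le_SteinA {a b C : ℝ} (ha : |a| ≤ C) (hb : |b| ≤ 1) : |a * b| ≤ C := by
  rw [abs_mul]
  exact (mul_le_of_le_one_right (abs_nonneg _) hb).trans ha

theorem bdd_SteinA {g : ℝ → ℝ} {C : ℝ} (h : ∀ t, |g t| ≤ C) : |∫ t, g t ∂μ1| ≤ C := by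
  have := norm_integral_le_of_norm_le_const (μ := μ1) (f := g) (C := C)
    (Filter.Eventually.of_forall h)
  simpa using this

theorem deriv_SteinA {F F' : ℝ → ℝ → ℝ} (hF : ∀ s, Measurable (F s)) (hF' : ∀ s, Measurable (F' s))
    {C : ℝ} (hb : ∀ s t, |F s t| ≤ C) (hb' : ∀ s t, |F' s t| ≤ C)
    (hd : ∀ s t, HasDerivAt (fun s => F s t) (F' s t) s) (x : ℝ) :
    HasDerivAt (fun s => ∫ t, F s t ∂μ1) (∫ t, F' x t ∂μ1) x :=
  (hasDerivAt_integral_of_dominated_loc_of_deriv_le (μ := μ1) (F := F) (F' := F') (x₀ := x)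
    (bound := fun _ => C) (s := univ) Filter.univ_mem
    (Filter.Eventually.of_forall fun s => (hF s).aestronglyMeasurable)
    (integrable_of_bdd μ1 (hF x) C (hb x)) (hF' x).aestronglyMeasurable
    (Filter.Eventually.of_forall fun t s _ => hb' s t) (integrable_const C)
    (Filter.Eventually.of_forall fun t s _ => hd s t)).2

theorem fib_adm {u u1 u2 u3 : R3 → ℝ} (h : Adm3 u u1 u2 u3) {ψ : ℝ → ℝ} (hψ : Measurable ψ)
    (hb : ∀ t, |ψ t| ≤ 1) :
    Adm2 (fun q => ∫ t, u (t, q) * ψ t ∂μ1) (fun q => ∫ t, u2 (t, q) * ψ t ∂μ1)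
      (fun q => ∫ t, u3 (t, q) * ψ t ∂μ1) := by
  obtain ⟨m0, -, m2, m3, ⟨C, hC⟩, -, d2, d3⟩ := h
  have hm : ∀ {v : R3 → ℝ}, Measurable v → ∀ q : ℝ × ℝ, Measurable fun t => v (t, q) * ψ t :=
    fun hv q => (hv.comp measurable_prodMk_right).mul hψ
  refine ⟨meas_SteinA m0 hψ, meas_SteinA m2 hψ, meas_SteinA m3 hψ,
    ⟨C, fun q => ⟨bdd_SteinA fun t => mul_le_SteinA (hC _).1 (hb t),
      bdd_SteinA fun t => mul_le_SteinA (hC _).2.2.1 (hb t),
      bdd_SteinA fun t => mul_le_SteinA (hC _).2.2.2 (hb t)⟩⟩, fun x y => ?_, fun x y => ?_⟩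
  · exact deriv_SteinA (F := fun s t => u (t, s, y) * ψ t) (F' := fun s t => u2 (t, s, y) * ψ t)
      (fun s => hm m0 _) (fun s => hm m2 _) (fun s t => mul_le_SteinA (hC _).1 (hb t))
      (fun s t => mul_le_SteinA (hC _).2.2.1 (hb t)) (fun s t => (d2 t s y).mul_const _) x
  · exact deriv_SteinA (F := fun s t => u (t, x, s) * ψ t) (F' := fun s t => u3 (t, x, s) * ψ t)
      (fun s => hm m0 _) (fun s => hm m3 _) (fun s t => mul_le_SteinA (hC _).1 (hb t))
      (fun s t => mul_le_SteinA (hC _).2.2.2 (hb t)) (fun s t => (d3 t x s).mul_const _) y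

theorem Adm3.slice1 {u u1 u2 u3 : R3 → ℝ} (h : Adm3 u u1 u2 u3) (q : ℝ × ℝ) :
    Adm1 (fun t => u (t, q)) (fun t => u1 (t, q)) := by
  obtain ⟨m0, m1, -, -, ⟨C, hC⟩, d1, -, -⟩ := h
  exact ⟨m0.comp measurable_prodMk_right, m1.comp measurable_prodMk_right,
    ⟨C, fun t => ⟨(hC _).1, (hC _).2.1⟩⟩, fun t => d1 t q.1 q.2⟩

theorem cs_SteinA (x y z a b c : ℝ) :
    x * a + y * b + z * c ≤ Real.sqrt (x ^ 2 + y ^ 2 + z ^ 2) * Real.sqrt (a ^ 2 + b ^ 2 + c ^ 2) := by
  rw [← Real.sqrt_mul (by positivity)]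
  refine Real.le_sqrt_of_sq_le ?_
  nlinarith [sq_nonneg (x * b - y * a), sq_nonneg (x * c - z * a), sq_nonneg (y * c - z * b)]

theorem minkowski3 {a b c : ℝ → ℝ} (ha : Integrable a μ1) (hb : Integrable b μ1)
    (hc : Integrable c μ1) :
    Real.sqrt ((∫ t, a t ∂μ1) ^ 2 + (∫ t, b t ∂μ1) ^ 2 + (∫ t, c t ∂μ1) ^ 2) ≤
      ∫ t, Real.sqrt (a t ^ 2 + b t ^ 2 + c t ^ 2) ∂μ1 := by
  have hi : Integrable (fun t => Real.sqrt (a t ^ 2 + b t ^ 2 + c t ^ 2)) μ1 := by
    refine ((ha.abs.add hb.abs).add hc.abs).mono' ?_ (Filter.Eventually.of_forall fun t => ?_)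
    · exact Real.continuous_sqrt.comp_aestronglyMeasurable
        (((ha.1.pow 2).add (hb.1.pow 2)).add (hc.1.pow 2))
    · rw [Real.norm_of_nonneg (Real.sqrt_nonneg _)]
      simp only [Pi.add_apply]
      refine Real.sqrt_le_iff.2 ⟨by positivity, ?_⟩
      rw [← sq_abs (a t), ← sq_abs (b t), ← sq_abs (c t)]
      have h1 := abs_nonneg (a t)
      have h2 := abs_nonneg (b t)
      have h3 := abs_nonneg (c t)
      nlinarith [mul_nonneg h1 h2, mul_nonneg h1 h3, mul_nonneg h2 h3]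
  set x := ∫ t, a t ∂μ1 with hx
  set y := ∫ t, b t ∂μ1 with hy
  set z := ∫ t, c t ∂μ1 with hz
  set N := Real.sqrt (x ^ 2 + y ^ 2 + z ^ 2) with hN
  have h0 : 0 ≤ ∫ t, Real.sqrt (a t ^ 2 + b t ^ 2 + c t ^ 2) ∂μ1 :=
    integral_nonneg fun _ => Real.sqrt_nonneg _
  rcases (Real.sqrt_nonneg (x ^ 2 + y ^ 2 + z ^ 2)).eq_or_lt with h | h
  · rw [hN, ← h]
    exact h0
  · refine le_of_mul_le_mul_left ?_ h
    have e1 : N * N = x ^ 2 + y ^ 2 + z ^ 2 := Real.mul_self_sqrt (by positivity)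
    have e2 : ∫ t, (x * a t + y * b t + z * c t) ∂μ1 = x ^ 2 + y ^ 2 + z ^ 2 := by
      have hab : Integrable (fun t => x * a t + y * b t) μ1 :=
        (ha.const_mul x).add (hb.const_mul y)
      rw [integral_add hab (hc.const_mul z),
        integral_add (ha.const_mul x) (hb.const_mul y), integral_const_mul, integral_const_mul,
        integral_const_mul]
      ring
    rw [← hN, e1, ← e2, ← integral_const_mul]
    exact integral_mono (((ha.const_mul x).add (hb.const_mul y)).add (hc.const_mul z))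
      (hi.const_mul N) fun t => cs_SteinA x y z (a t) (b t) (c t)

end Vale.Agent.P232
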