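import Vale.Agent.P232.Core2
import Vale.Agent.P232.SteinA
import Vale.Agent.P232.IBP

/-!
# P232 / DefectA

The cut-off calibration of a canonical set. `s = sq2 ..`, `X_i = (q_i - o_i)/c_i`,
`χ = ramp ((R² - s)/γ)`, `Y_i = -e_i X_i χ/R`, `β = χ √(R² - s)/R`, `m0 = 2 √(R² - s)`, `n = 1+e2+e3`.
`c_i ∂_i Y_i = -e_i χ/R + 2 e_i X_i² ramp'(..)/(R γ)`. `Y_2` vanishes at `q.1 = 0, 1` (folded: `X = 0`, or
`X = 1/2 > R`; centred: `|X| = 1/2 > R`; or `e = 0`), the same for `Y_3`. So `ibp21`, `ibp22` applied to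
`Y_i` give `∫ 2 s ramp'/γ = (e2+e3) ∫ χ ≤ 2`, and `m0 ≤ 2√γ` where `ramp' ≠ 0` or `χ < 1`, so
`∫ (2β - m0 ∑ c_i ∂_i Y_i) = (n/R) ∫ χ m0 - ∫ 2 s ramp' m0/(Rγ) ≥ (n/R) ∫ m0 - 10 √γ/R`.
-/

open MeasureTheory Set

namespace Vale.Agent.P232

noncomputable def Y_DefectA (e c o R γ y s : ℝ) : ℝ :=
  -(e * ((y - o) / c)) / R * ramp ((R ^ 2 - s) / γ)

noncomputable def Z_DefectA (e c o R γ y s : ℝ) : ℝ :=
  (-(e * ramp ((R ^ 2 - s) / γ)) + 2 * (e * ((y - o) / c) ^ 2 * ramp' ((R ^ 2 - s) / γ)) / γ) /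
    (R * c)

theorem zo_DefectA {e : ℝ} (h : ZO e) : 0 ≤ e ∧ e ≤ 1 ∧ e ^ 2 = e := by
  rcases h with rfl | rfl <;> norm_num

theorem fr_DefectA {c o : ℝ} (h : Fr c o) : 1 ≤ c := by
  rcases h with ⟨rfl, -⟩ | ⟨rfl, -⟩ <;> norm_num

theorem deriv_DefectA {e c o R γ w : ℝ} (h : ZO e) {S : ℝ → ℝ}
    (hS : ∀ y, S y = e * ((y - o) / c) ^ 2 + w) (y : ℝ) :
    HasDerivAt (fun y => Y_DefectA e c o R γ y (S y)) (Z_DefectA e c o R γ y (S y)) y := by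
  have h1 : HasDerivAt (fun y => (y - o) / c) (1 / c) y :=
    ((hasDerivAt_id y).sub_const o).div_const c
  have h2 : HasDerivAt (fun y => (R ^ 2 - S y) / γ) (-(e * (2 * ((y - o) / c) * (1 / c))) / γ) y := by
    simp only [hS]
    refine (((((h1.fun_pow 2).const_mul e).add_const w).const_sub (R ^ 2)).div_const
      γ).congr_deriv ?_
    norm_num
  refine (((h1.const_mul e).neg.div_const R).mul
    ((hasDerivAt_ramp _).comp y h2)).congr_deriv ?_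
  unfold Z_DefectA
  simp only [Function.comp_apply, Pi.neg_apply]
  rcases h with rfl | rfl <;> ring

theorem bdry_DefectA {e c o R γ s y : ℝ} (h : ZO e) (f : Fr c o) (hR0 : 0 < R) (hR : R < 1 / 2)
    (hγ : 0 < γ) (hy : y = 0 ∨ y = 1) (hs : e * ((y - o) / c) ^ 2 ≤ s) :
    Y_DefectA e c o R γ y s = 0 := by
  have k : 1 / 4 ≤ s → ramp ((R ^ 2 - s) / γ) = 0 := fun h =>
    ramp_of_nonpos (div_nonpos_of_nonpos_of_nonneg (by nlinarith) hγ.le)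
  unfold Y_DefectA
  rcases h with rfl | rfl
  · simp
  · rcases f with ⟨rfl, rfl⟩ | ⟨rfl, rfl⟩ <;> rcases hy with rfl | rfl
    · simp
    all_goals rw [k (by linarith), mul_zero]

theorem bd_DefectA {e c o R γ s y : ℝ} (h : ZO e) (f : Fr c o) (hR0 : 0 < R) (hγ : 0 < γ)
    (hs : e * ((y - o) / c) ^ 2 ≤ s) : |Z_DefectA e c o R γ y s| ≤ (1 + 3 * R ^ 2 / γ) / R := by
  obtain ⟨e0, e1, -⟩ := zo_DefectA h
  have hc := fr_DefectA f
  obtain ⟨a0, a1⟩ := ramp_mem ((R ^ 2 - s) / γ)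
  obtain ⟨b0, b1⟩ := ramp'_mem ((R ^ 2 - s) / γ)
  have h1 : e * ((y - o) / c) ^ 2 * ramp' ((R ^ 2 - s) / γ) ≤ R ^ 2 * (3 / 2) := by
    rcases le_total s (R ^ 2) with h1 | h1
    · exact mul_le_mul (hs.trans h1) b1 b0 (sq_nonneg R)
    · rw [ramp'_zero (Or.inl (div_nonpos_of_nonpos_of_nonneg (by linarith) hγ.le)), mul_zero]
      positivity
  have h2 : 2 * (e * ((y - o) / c) ^ 2 * ramp' ((R ^ 2 - s) / γ)) / γ ≤ 3 * R ^ 2 / γ :=
    div_le_div_of_nonneg_right (by linarith) hγ.le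
  have h3 : 0 ≤ 2 * (e * ((y - o) / c) ^ 2 * ramp' ((R ^ 2 - s) / γ)) / γ := by positivity
  have h4 := mul_le_one₀ e1 a0 a1
  have h5 := mul_nonneg e0 a0
  rw [Z_DefectA, abs_div, abs_of_pos (show 0 < R * c by positivity)]
  refine div_le_div₀ (by positivity) (abs_le.2 ⟨?_, ?_⟩) hR0 (le_mul_of_one_le_right hR0.le hc) <;>
    linarith

theorem pt_DefectA {n R γ s m χ ρ D : ℝ} (hR0 : 0 < R) (hγ : 0 < γ) (n2 : n ≤ 2)
    (s0 : 0 ≤ s) (hm : m = √(R ^ 2 - s)) (hχ : χ = ramp ((R ^ 2 - s) / γ))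
    (hρ : ρ = ramp' ((R ^ 2 - s) / γ)) (hD : D = (-(n * χ) + 2 * (s * ρ) / γ) / R) :
    (1 + n) / R * (2 * m) - 10 * √γ / R - 2 * √γ * D ≤ 2 * (χ * m / R) - 2 * m * D := by
  obtain ⟨a0, a1⟩ := hχ ▸ ramp_mem ((R ^ 2 - s) / γ)
  obtain ⟨b0, -⟩ := hρ ▸ ramp'_mem ((R ^ 2 - s) / γ)
  have g0 := Real.sqrt_nonneg γ
  have h : m * (1 - χ) ≤ √γ ∧ m * ρ ≤ √γ * ρ := by
    rcases le_total (R ^ 2 - s) γ with h | h
    · have h1 : m ≤ √γ := hm ▸ Real.sqrt_le_sqrt h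
      exact ⟨(mul_le_of_le_one_right (hm ▸ Real.sqrt_nonneg _) (by linarith)).trans h1,
        mul_le_mul_of_nonneg_right h1 b0⟩
    · have h1 := (one_le_div hγ).2 h
      rw [hχ, hρ, ramp_of_one_le h1, ramp'_zero (Or.inr h1)]
      simp
  have h1 := mul_le_mul_of_nonneg_left h.2 (show 0 ≤ 4 * s / γ by positivity)
  have h2 := mul_le_mul (show 1 + n ≤ 3 by linarith) h.1
    (mul_nonneg (hm ▸ Real.sqrt_nonneg _) (by linarith)) (by norm_num)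
  have h3 := mul_le_mul_of_nonneg_left (mul_le_mul n2 a1 a0 (by norm_num)) g0
  rw [← sub_nonneg]
  have e : 2 * (χ * m / R) - 2 * m * D - ((1 + n) / R * (2 * m) - 10 * √γ / R - 2 * √γ * D) =
      (4 * s / γ * (√γ * ρ) - 4 * s / γ * (m * ρ) + 2 * (3 * √γ - (1 + n) * (m * (1 - χ))) +
        2 * (√γ * (2 * 1) - √γ * (n * χ))) / R := by
    rw [hD]
    ring
  rw [e]
  exact div_nonneg (by linarith) hR0.le

theorem calib_exists {e2 e3 c2 o2 c3 o3 R γ : ℝ} (h2 : ZO e2) (h3 : ZO e3) (f2 : Fr c2 o2)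
    (f3 : Fr c3 o3) (hR0 : 0 < R) (hR : R < 1 / 2) (hγ : 0 < γ) :
    ∃ (β Y2 Y3 Z2 Z3 : ℝ × ℝ → ℝ) (C : ℝ), Measurable β ∧ Measurable Y2 ∧ Measurable Y3 ∧
      Measurable Z2 ∧ Measurable Z3 ∧ (∀ q, |Z2 q| ≤ C ∧ |Z3 q| ≤ C) ∧
      (∀ y z, HasDerivAt (fun s => Y2 (s, z)) (Z2 (y, z)) y) ∧
      (∀ y z, HasDerivAt (fun s => Y3 (y, s)) (Z3 (y, z)) z) ∧
      (∀ z, Y2 (0, z) = 0 ∧ Y2 (1, z) = 0) ∧ (∀ y, Y3 (y, 0) = 0 ∧ Y3 (y, 1) = 0) ∧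
      (∀ q, 0 ≤ β q ∧ β q ≤ Real.sqrt (R ^ 2 - sq2 e2 e3 c2 o2 c3 o3 q) / R ∧
        β q ^ 2 + Y2 q ^ 2 + Y3 q ^ 2 ≤ 1) ∧
      (∀ q, sq2 e2 e3 c2 o2 c3 o3 q ≤ R ^ 2 - γ →
        β q = Real.sqrt (R ^ 2 - sq2 e2 e3 c2 o2 c3 o3 q) / R ∧
        Y2 q = -(e2 * ((q.1 - o2) / c2)) / R ∧ Y3 q = -(e3 * ((q.2 - o3) / c3)) / R) ∧
      (1 + e2 + e3) / R * (∫ q, 2 * Real.sqrt (R ^ 2 - sq2 e2 e3 c2 o2 c3 o3 q) ∂μ2) -
          10 * Real.sqrt γ / R ≤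
        ∫ q, (2 * β q - 2 * Real.sqrt (R ^ 2 - sq2 e2 e3 c2 o2 c3 o3 q) *
          (c2 * Z2 q + c3 * Z3 q)) ∂μ2 := by
  obtain ⟨S, hS⟩ : ∃ S, S = sq2 e2 e3 c2 o2 c3 o3 := ⟨_, rfl⟩
  rw [← hS]
  obtain ⟨p2, q2, r2⟩ := zo_DefectA h2
  obtain ⟨p3, q3, r3⟩ := zo_DefectA h3
  have hc2 := fr_DefectA f2
  have hc3 := fr_DefectA f3
  have hS' : ∀ q, S q = e2 * ((q.1 - o2) / c2) ^ 2 + e3 * ((q.2 - o3) / c3) ^ 2 := fun q => hS ▸ rfl
  have l2 : ∀ q, e2 * ((q.1 - o2) / c2) ^ 2 ≤ S q := fun q =>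
    hS' q ▸ le_add_of_nonneg_right (by positivity)
  have l3 : ∀ q, e3 * ((q.2 - o3) / c3) ^ 2 ≤ S q := fun q =>
    hS' q ▸ le_add_of_nonneg_left (by positivity)
  have s0 : ∀ q, 0 ≤ S q := fun q => le_trans (by positivity) (l2 q)
  have cS : Continuous S := by
    rw [funext hS']
    fun_prop
  have := ramp_cont
  have := ramp'_cont
  have mβ : Measurable fun q => ramp ((R ^ 2 - S q) / γ) * √(R ^ 2 - S q) / R :=
    Continuous.measurable (by fun_prop)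
  have mZ2 : Measurable fun q : ℝ × ℝ => Z_DefectA e2 c2 o2 R γ q.1 (S q) :=
    Continuous.measurable (by unfold Z_DefectA; fun_prop)
  have mZ3 : Measurable fun q : ℝ × ℝ => Z_DefectA e3 c3 o3 R γ q.2 (S q) :=
    Continuous.measurable (by unfold Z_DefectA; fun_prop)
  have b2 := fun q => bd_DefectA h2 f2 hR0 hγ (l2 q)
  have b3 := fun q => bd_DefectA h3 f3 hR0 hγ (l3 q)
  have d2 : ∀ y z, HasDerivAt (fun s => Y_DefectA e2 c2 o2 R γ s (S (s, z)))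
      (Z_DefectA e2 c2 o2 R γ y (S (y, z))) y := fun y z =>
    deriv_DefectA h2 (S := fun s => S (s, z)) (w := e3 * ((z - o3) / c3) ^ 2)
      (fun s => hS' (s, z)) y
  have d3 : ∀ y z, HasDerivAt (fun s => Y_DefectA e3 c3 o3 R γ s (S (y, s)))
      (Z_DefectA e3 c3 o3 R γ z (S (y, z))) z := fun y z =>
    deriv_DefectA h3 (S := fun s => S (y, s)) (w := e2 * ((y - o2) / c2) ^ 2)
      (fun s => (hS' (y, s)).trans (add_comm _ _)) z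
  have z2 : ∀ z, Y_DefectA e2 c2 o2 R γ 0 (S (0, z)) = 0 ∧
      Y_DefectA e2 c2 o2 R γ 1 (S (1, z)) = 0 := fun z =>
    ⟨bdry_DefectA h2 f2 hR0 hR hγ (Or.inl rfl) (l2 (0, z)),
      bdry_DefectA h2 f2 hR0 hR hγ (Or.inr rfl) (l2 (1, z))⟩
  have z3 : ∀ y, Y_DefectA e3 c3 o3 R γ 0 (S (y, 0)) = 0 ∧
      Y_DefectA e3 c3 o3 R γ 1 (S (y, 1)) = 0 := fun y =>
    ⟨bdry_DefectA h3 f3 hR0 hR hγ (Or.inl rfl) (l3 (y, 0)),
      bdry_DefectA h3 f3 hR0 hR hγ (Or.inr rfl) (l3 (y, 1))⟩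
  have hβ : ∀ q, 0 ≤ ramp ((R ^ 2 - S q) / γ) * √(R ^ 2 - S q) / R ∧
      ramp ((R ^ 2 - S q) / γ) * √(R ^ 2 - S q) / R ≤ √(R ^ 2 - S q) / R := fun q =>
    ⟨div_nonneg (mul_nonneg (ramp_mem _).1 (Real.sqrt_nonneg _)) hR0.le,
      div_le_div_of_nonneg_right (mul_le_of_le_one_left (Real.sqrt_nonneg _) (ramp_mem _).2) hR0.le⟩
  refine ⟨fun q => ramp ((R ^ 2 - S q) / γ) * √(R ^ 2 - S q) / R,
    fun q => Y_DefectA e2 c2 o2 R γ q.1 (S q), fun q => Y_DefectA e3 c3 o3 R γ q.2 (S q),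
    fun q => Z_DefectA e2 c2 o2 R γ q.1 (S q), fun q => Z_DefectA e3 c3 o3 R γ q.2 (S q), _, mβ,
    Continuous.measurable (by unfold Y_DefectA; fun_prop),
    Continuous.measurable (by unfold Y_DefectA; fun_prop), mZ2, mZ3, fun q => ⟨b2 q, b3 q⟩, d2, d3,
    z2, z3, fun q => ⟨(hβ q).1, (hβ q).2, ?_⟩, fun q hq => ?_, ?_⟩
  · simp only [Y_DefectA]
    rcases le_total (S q) (R ^ 2) with h | h
    · have e : (ramp ((R ^ 2 - S q) / γ) * √(R ^ 2 - S q) / R) ^ 2 +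
          (-(e2 * ((q.1 - o2) / c2)) / R * ramp ((R ^ 2 - S q) / γ)) ^ 2 +
          (-(e3 * ((q.2 - o3) / c3)) / R * ramp ((R ^ 2 - S q) / γ)) ^ 2 =
          ramp ((R ^ 2 - S q) / γ) ^ 2 * ((√(R ^ 2 - S q) ^ 2 +
            (e2 ^ 2 * ((q.1 - o2) / c2) ^ 2 + e3 ^ 2 * ((q.2 - o3) / c3) ^ 2)) / R ^ 2) := by ring
      rw [e, r2, r3, ← hS', Real.sq_sqrt (sub_nonneg.2 h), sub_add_cancel,
        div_self (by positivity), mul_one]
      exact pow_le_one₀ (ramp_mem _).1 (ramp_mem _).2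
    · rw [ramp_of_nonpos (div_nonpos_of_nonpos_of_nonneg (by linarith) hγ.le)]
      norm_num
  · simp only [Y_DefectA]
    rw [ramp_of_one_le ((one_le_div hγ).2 (by linarith)), one_mul, mul_one, mul_one]
    exact ⟨rfl, rfl, rfl⟩
  · have i2 := integrable_of_bdd μ2 mZ2 _ b2
    have i3 := integrable_of_bdd μ2 mZ3 _ b3
    have j2 := ibp21 (g := fun q => Y_DefectA e2 c2 o2 R γ q.1 (S q)) mZ2 _ b2 d2
      fun z => (z2 z).2.trans (z2 z).1.symm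
    have j3 := ibp22 (g := fun q => Y_DefectA e3 c3 o3 R γ q.2 (S q)) mZ3 _ b3 d3
      fun y => (z3 y).2.trans (z3 y).1.symm
    have hm : ∀ q, √(R ^ 2 - S q) ≤ R := fun q =>
      Real.sqrt_le_iff.2 ⟨hR0.le, by linarith [s0 q]⟩
    have mm : Measurable fun q => 2 * √(R ^ 2 - S q) := Continuous.measurable (by fun_prop)
    have bm : ∀ q, ‖2 * √(R ^ 2 - S q)‖ ≤ 2 * R := fun q => by
      rw [Real.norm_of_nonneg (by positivity)]
      linarith [hm q]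
    have im := integrable_of_bdd μ2 mm _ bm
    have iβ := integrable_of_bdd μ2 mβ 1 fun q => by
      rw [abs_of_nonneg (hβ q).1]
      exact (hβ q).2.trans ((div_le_one hR0).2 (hm q))
    have iD : Integrable (fun q : ℝ × ℝ => c2 * Z_DefectA e2 c2 o2 R γ q.1 (S q) +
        c3 * Z_DefectA e3 c3 o3 R γ q.2 (S q)) μ2 := (i2.const_mul c2).add (i3.const_mul c3)
    have i1 : Integrable (fun q => (1 + (e2 + e3)) / R * (2 * √(R ^ 2 - S q)) - 10 * √γ / R) μ2 :=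
      (im.const_mul _).sub (integrable_const _)
    refine le_trans (le_of_eq ?_) (integral_mono (i1.sub (iD.const_mul (2 * √γ)))
      ((iβ.const_mul 2).sub (iD.bdd_mul mm.aestronglyMeasurable (Filter.Eventually.of_forall bm)))
      fun q => pt_DefectA hR0 hγ (by linarith) (s0 q) rfl rfl rfl ?_)
    · simp only [Pi.sub_apply]
      rw [integral_sub i1 (iD.const_mul _), integral_sub (im.const_mul _) (integrable_const _),
        integral_const_mul ((1 + (e2 + e3)) / R), integral_const_mul _ (fun q : ℝ × ℝ => _ + _),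
        integral_add (i2.const_mul c2) (i3.const_mul c3), integral_const_mul c2,
        integral_const_mul c3, j2, j3, integral_const, probReal_univ, one_smul]
      ring
    · unfold Z_DefectA
      generalize ramp ((R ^ 2 - S q) / γ) = χ
      generalize ramp' ((R ^ 2 - S q) / γ) = ρ
      rw [hS']
      generalize (q.1 - o2) / c2 = X2
      generalize (q.2 - o3) / c3 = X3
      field_simp
      ring

theorem cross_le {a b c x y z κ : ℝ} (hu : a ^ 2 + b ^ 2 + c ^ 2 = 1) (hκ : 0 < κ) :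
    |a * y - b * x| ≤ κ * Real.sqrt (x ^ 2 + y ^ 2 + z ^ 2) +
      (Real.sqrt (x ^ 2 + y ^ 2 + z ^ 2) - (a * x + b * y + c * z)) / (2 * κ) := by
  obtain ⟨N, hN⟩ : ∃ N, N = √(x ^ 2 + y ^ 2 + z ^ 2) := ⟨_, rfl⟩
  have N0 : 0 ≤ N := hN ▸ Real.sqrt_nonneg _
  have h1 : N ^ 2 = x ^ 2 + y ^ 2 + z ^ 2 := hN ▸ Real.sq_sqrt (by positivity)
  have h2 : N ^ 2 - (a * x + b * y + c * z) ^ 2 =
      (a * y - b * x) ^ 2 + (a * z - c * x) ^ 2 + (b * z - c * y) ^ 2 := by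
    rw [← one_mul (N ^ 2), ← hu, h1]
    ring
  rw [← hN]
  generalize a * x + b * y + c * z = d at h2 ⊢
  have h3 := sq_nonneg (a * z - c * x)
  have h4 := sq_nonneg (b * z - c * y)
  have h5 : d ≤ N := (le_abs_self d).trans
    (abs_le_of_sq_le_sq (by linarith [sq_nonneg (a * y - b * x)]) N0)
  refine abs_le_of_sq_le_sq ?_ (add_nonneg (by positivity) (div_nonneg (by linarith) (by positivity)))
  have e : (κ * N + (N - d) / (2 * κ)) ^ 2 = (κ * N - (N - d) / (2 * κ)) ^ 2 + 2 * N * (N - d) := by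
    field_simp
    ring
  rw [e]
  nlinarith [sq_nonneg (κ * N - (N - d) / (2 * κ)), sq_nonneg (N - d)]

end Vale.Agent.P232
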