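import Mathlib

/-! # P232: definitions used in the statement -/

open MeasureTheory Set

namespace Vale.Agent.P232

/-- The cubic flat three-torus `ℝ³/ℤ³` (its `volume` is the product of the arc-length measures). -/
abbrev T3 : Type := UnitAddCircle × UnitAddCircle × UnitAddCircle

/-- Coordinates of the universal cover. -/
abbrev R3 : Type := ℝ × ℝ × ℝ

/-- The covering map. -/
def proj (x : R3) : T3 :=
  ((x.1 : UnitAddCircle), (x.2.1 : UnitAddCircle), (x.2.2 : UnitAddCircle))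

/-- The fundamental domain `[0,1)³`. -/
def cube : Set R3 := Ico (0 : ℝ) 1 ×ˢ Ico (0 : ℝ) 1 ×ˢ Ico (0 : ℝ) 1

/-- `ℤ³`-periodic functions, that is, functions on the torus read on the cover. -/
def Periodic3 (g : R3 → ℝ) : Prop :=
  ∀ x y z : ℝ, g (x + 1, y, z) = g (x, y, z) ∧ g (x, y + 1, z) = g (x, y, z) ∧
    g (x, y, z + 1) = g (x, y, z)

/-- `C¹` vector fields `(X, Y, Z)` on the torus of Euclidean length at most one. -/
def IsTest (X Y Z : R3 → ℝ) : Prop :=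
  ContDiff ℝ 1 X ∧ ContDiff ℝ 1 Y ∧ ContDiff ℝ 1 Z ∧ Periodic3 X ∧ Periodic3 Y ∧ Periodic3 Z ∧
    ∀ p : R3, X p ^ 2 + Y p ^ 2 + Z p ^ 2 ≤ 1

/-- Divergence of the field `(X, Y, Z)`. -/
noncomputable def divg (X Y Z : R3 → ℝ) (p : R3) : ℝ :=
  fderiv ℝ X p (1, 0, 0) + fderiv ℝ Y p (0, 1, 0) + fderiv ℝ Z p (0, 0, 1)

/-- De Giorgi perimeter: the supremum of `∫_E div X` over `C¹` fields with `|X| ≤ 1`. -/
noncomputable def perim (E : Set T3) : ENNReal :=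
  ⨆ (X : R3 → ℝ) (Y : R3 → ℝ) (Z : R3 → ℝ) (_ : IsTest X Y Z),
    ENNReal.ofReal (∫ p in cube ∩ proj ⁻¹' E, divg X Y Z p)

/-- The isoperimetric profile. -/
noncomputable def profile (V : ℝ) : ENNReal :=
  ⨅ (E : Set T3) (_ : NullMeasurableSet E volume) (_ : volume E = ENNReal.ofReal V), perim E

/-- The conjectured profile. -/
noncomputable def Jfun (V : ℝ) : ℝ :=
  min ((36 * Real.pi) ^ ((1 : ℝ) / 3) * (min V (1 - V)) ^ ((2 : ℝ) / 3))
    (min (2 * Real.sqrt (Real.pi * min V (1 - V))) 2)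

/-- Geodesic ball of radius `r` about `c`. -/
def ballT (c : T3) (r : ℝ) : Set T3 :=
  {x | ‖x.1 - c.1‖ ^ 2 + ‖x.2.1 - c.2.1‖ ^ 2 + ‖x.2.2 - c.2.2‖ ^ 2 < r ^ 2}

/-- Solid tubes of radius `r` about the closed geodesics through `c` parallel to the axes. -/
def IsTubeT (c : T3) (r : ℝ) (C : Set T3) : Prop :=
  C = {x | ‖x.2.1 - c.2.1‖ ^ 2 + ‖x.2.2 - c.2.2‖ ^ 2 < r ^ 2} ∨
  C = {x | ‖x.1 - c.1‖ ^ 2 + ‖x.2.2 - c.2.2‖ ^ 2 < r ^ 2} ∨
  C = {x | ‖x.1 - c.1‖ ^ 2 + ‖x.2.1 - c.2.1‖ ^ 2 < r ^ 2}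

/-- Slabs of half-width `r` centred at `c` between parallel coordinate tori. -/
def IsSlabT (c : T3) (r : ℝ) (C : Set T3) : Prop :=
  C = {x | ‖x.1 - c.1‖ < r} ∨ C = {x | ‖x.2.1 - c.2.1‖ < r} ∨ C = {x | ‖x.2.2 - c.2.2‖ < r}

/-- Balls, tubes about shortest geodesics, and coordinate slabs (all embedded: `r < 1/2`). -/
def IsCanonical (C : Set T3) : Prop :=
  ∃ (c : T3) (r : ℝ), 0 < r ∧ r < 1 / 2 ∧ (C = ballT c r ∨ IsTubeT c r C ∨ IsSlabT c r C)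

end Vale.Agent.P232
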