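import Vale.Agent.P232.MollA

/-!
# P232 / Moll

From the De Giorgi perimeter to approximants. `χ = ind (proj ⁻¹' E)`, `u = moll φ χ` with
`moll_close`; `u_i = fderiv u · e_i` (continuous, periodic, so bounded). Let `n = √(u1²+u2²+u3²)` and
`(X,Y,Z) = -(u1,u2,u3)/n` (measurable, periodic, `= 0` where `n = 0`). The mollified field is a test
field, and `∫ χ div = ∫ n` by `moll_fderiv_symm`; so `∫ n ≤ P`.
-/

open MeasureTheory Set

namespace Vale.Agent.P232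

theorem unit_sq_Moll (a b c : ℝ) :
    (-a / Real.sqrt (a ^ 2 + b ^ 2 + c ^ 2)) ^ 2 + (-b / Real.sqrt (a ^ 2 + b ^ 2 + c ^ 2)) ^ 2 +
      (-c / Real.sqrt (a ^ 2 + b ^ 2 + c ^ 2)) ^ 2 ≤ 1 := by
  have h0 : 0 ≤ a ^ 2 + b ^ 2 + c ^ 2 := by positivity
  rw [div_pow, div_pow, div_pow, Real.sq_sqrt h0, ← add_div, ← add_div]
  apply div_le_one_of_le₀ _ h0
  nlinarith

theorem unit_dot_Moll (a b c : ℝ) :
    -(a * (-a / Real.sqrt (a ^ 2 + b ^ 2 + c ^ 2))) +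
      -(b * (-b / Real.sqrt (a ^ 2 + b ^ 2 + c ^ 2))) +
      -(c * (-c / Real.sqrt (a ^ 2 + b ^ 2 + c ^ 2))) = Real.sqrt (a ^ 2 + b ^ 2 + c ^ 2) := by
  have h1 : -(a * (-a / Real.sqrt (a ^ 2 + b ^ 2 + c ^ 2))) +
      -(b * (-b / Real.sqrt (a ^ 2 + b ^ 2 + c ^ 2))) +
      -(c * (-c / Real.sqrt (a ^ 2 + b ^ 2 + c ^ 2))) =
      (a ^ 2 + b ^ 2 + c ^ 2) / Real.sqrt (a ^ 2 + b ^ 2 + c ^ 2) := by ring
  rw [h1, Real.div_sqrt]

theorem abs_le_one_Moll {a b c : ℝ} (h : a ^ 2 + b ^ 2 + c ^ 2 ≤ 1) :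
    |a| ≤ 1 ∧ |b| ≤ 1 ∧ |c| ≤ 1 := by
  refine ⟨?_, ?_, ?_⟩
  · apply abs_le_one_iff_mul_self_le_one.2
    nlinarith [sq_nonneg b, sq_nonneg c]
  · apply abs_le_one_iff_mul_self_le_one.2
    nlinarith [sq_nonneg a, sq_nonneg c]
  · apply abs_le_one_iff_mul_self_le_one.2
    nlinarith [sq_nonneg a, sq_nonneg b]

theorem fderiv_cont_Moll {g : R3 → ℝ} (hg : ContDiff ℝ 1 g) (w : R3) :
    Continuous (fun p => fderiv ℝ g p w) :=
  (hg.continuous_fderiv one_ne_zero).clm_apply continuous_const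

theorem fderiv_bdd_Moll {g : R3 → ℝ} (hg : ContDiff ℝ 1 g) (hp : Periodic3 g) (w : R3) :
    ∃ C : ℝ, ∀ p, |fderiv ℝ g p w| ≤ C :=
  (hp.fderiv_apply (hg.differentiable one_ne_zero) w).bdd (fderiv_cont_Moll hg w)

theorem integrable_mul_Moll {g k : R3 → ℝ} (hg : Measurable g) (hk : Measurable k)
    (hg1 : ∀ p, |g p| ≤ 1) {C : ℝ} (hC : ∀ p, |k p| ≤ C) :
    Integrable (fun p => g p * k p) μ3 := by
  refine integrable_of_bdd μ3 (hg.mul hk) C fun p => ?_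
  rw [abs_mul]
  calc |g p| * |k p| ≤ 1 * |k p| := mul_le_mul_of_nonneg_right (hg1 p) (abs_nonneg _)
    _ ≤ C := by rw [one_mul]; exact hC p

theorem integral_add3_Moll {a b c : R3 → ℝ} (ha : Integrable a μ3) (hb : Integrable b μ3)
    (hc : Integrable c μ3) :
    ∫ p, (a p + b p + c p) ∂μ3 = ∫ p, a p ∂μ3 + ∫ p, b p ∂μ3 + ∫ p, c p ∂μ3 := by
  have hab : Integrable (fun p => a p + b p) μ3 := ha.add hb
  rw [integral_add hab hc, integral_add ha hb]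

theorem pair_Moll (φ : ContDiffBump (0 : R3)) {χ X Y Z : R3 → ℝ} (hχ : Measurable χ)
    (hχ1 : ∀ p, |χ p| ≤ 1) (hχp : Periodic3 χ) (hX : Measurable X) (hY : Measurable Y)
    (hZ : Measurable Z) (hXp : Periodic3 X) (hYp : Periodic3 Y) (hZp : Periodic3 Z)
    (h : ∀ p, X p ^ 2 + Y p ^ 2 + Z p ^ 2 ≤ 1) :
    ∫ p, χ p * divg (moll φ X) (moll φ Y) (moll φ Z) p ∂μ3 =
      ∫ p, (-(fderiv ℝ (moll φ χ) p (1, 0, 0) * X p) + -(fderiv ℝ (moll φ χ) p (0, 1, 0) * Y p) +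
        -(fderiv ℝ (moll φ χ) p (0, 0, 1) * Z p)) ∂μ3 := by
  have hX1 : ∀ p, |X p| ≤ 1 := fun p => (abs_le_one_Moll (h p)).1
  have hY1 : ∀ p, |Y p| ≤ 1 := fun p => (abs_le_one_Moll (h p)).2.1
  have hZ1 : ∀ p, |Z p| ≤ 1 := fun p => (abs_le_one_Moll (h p)).2.2
  have hL : ∀ (W : R3 → ℝ), Measurable W → (∀ p, |W p| ≤ 1) → Periodic3 W → ∀ w : R3,
      Integrable (fun p => χ p * fderiv ℝ (moll φ W) p w) μ3 := by
    intro W hW hW1 hWp w
    obtain ⟨C, hC⟩ := fderiv_bdd_Moll (moll_contDiff φ hW 1 hW1) (moll_periodic φ hWp) w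
    exact integrable_mul_Moll hχ
      (fderiv_cont_Moll (moll_contDiff φ hW 1 hW1) w).measurable hχ1 hC
  have hR : ∀ (W : R3 → ℝ), Measurable W → (∀ p, |W p| ≤ 1) → ∀ w : R3,
      Integrable (fun p => -(fderiv ℝ (moll φ χ) p w * W p)) μ3 := by
    intro W hW hW1 w
    obtain ⟨C, hC⟩ := fderiv_bdd_Moll (moll_contDiff φ hχ 1 hχ1) (moll_periodic φ hχp) w
    have := integrable_mul_Moll hW
      (fderiv_cont_Moll (moll_contDiff φ hχ 1 hχ1) w).measurable hW1 hC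
    refine this.neg.congr (Filter.Eventually.of_forall fun p => ?_)
    simp only [Pi.neg_apply]
    ring
  have e1 : ∫ p, χ p * divg (moll φ X) (moll φ Y) (moll φ Z) p ∂μ3 =
      ∫ p, (χ p * fderiv ℝ (moll φ X) p (1, 0, 0) + χ p * fderiv ℝ (moll φ Y) p (0, 1, 0) +
        χ p * fderiv ℝ (moll φ Z) p (0, 0, 1)) ∂μ3 := by
    congr 1
    funext p
    unfold divg
    ring
  rw [e1, integral_add3_Moll (hL X hX hX1 hXp _) (hL Y hY hY1 hYp _) (hL Z hZ hZ1 hZp _),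
    integral_add3_Moll (hR X hX hX1 _) (hR Y hY hY1 _) (hR Z hZ hZ1 _),
    integral_neg, integral_neg, integral_neg,
    moll_fderiv_symm φ hχ hX 1 hχ1 hX1 hχp hXp, moll_fderiv_symm φ hχ hY 1 hχ1 hY1 hχp hYp,
    moll_fderiv_symm φ hχ hZ 1 hχ1 hZ1 hχp hZp]

theorem le_perim_Moll (E : Set T3) {X Y Z : R3 → ℝ} (hT : IsTest X Y Z) :
    ENNReal.ofReal (∫ p in cube ∩ proj ⁻¹' E, divg X Y Z p) ≤ perim E := by
  unfold perim
  exact le_iSup_of_le X (le_iSup_of_le Y (le_iSup_of_le Z (le_iSup_of_le hT le_rfl)))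

theorem periodic_dir_Moll {a b c : R3 → ℝ} (ha : Periodic3 a) (hb : Periodic3 b)
    (hc : Periodic3 c) {d : R3 → ℝ} (hd : Periodic3 d) :
    Periodic3 (fun p => -d p / Real.sqrt (a p ^ 2 + b p ^ 2 + c p ^ 2)) := by
  intro x y z
  obtain ⟨a1, a2, a3⟩ := ha x y z
  obtain ⟨b1, b2, b3⟩ := hb x y z
  obtain ⟨c1, c2, c3⟩ := hc x y z
  obtain ⟨d1, d2, d3⟩ := hd x y z
  refine ⟨?_, ?_, ?_⟩
  · simp only [a1, b1, c1, d1]
  · simp only [a2, b2, c2, d2]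
  · simp only [a3, b3, c3, d3]

theorem appr_of_perim {E : Set T3} (hE : MeasurableSet E) {P : ℝ} (hP : 0 ≤ P)
    (h : perim E ≤ ENNReal.ofReal P) : Appr3 1 1 1 True True True (proj ⁻¹' E) P := by
  intro ε hε
  have hS : MeasurableSet (proj ⁻¹' E) := measurable_proj hE
  have hχ : Measurable (ind (proj ⁻¹' E)) := measurable_ind hS
  have hχ1 : ∀ p, |ind (proj ⁻¹' E) p| ≤ 1 := fun p =>
    abs_le.2 ⟨by linarith [(ind_mem (proj ⁻¹' E) p).1], (ind_mem (proj ⁻¹' E) p).2⟩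
  have hχp : Periodic3 (ind (proj ⁻¹' E)) := periodic_ind_proj E
  obtain ⟨φ, hφ⟩ := moll_close hχ 1 hχ1 hε
  have hu : ContDiff ℝ 1 (moll φ (ind (proj ⁻¹' E))) := moll_contDiff φ hχ 1 hχ1
  have hup : Periodic3 (moll φ (ind (proj ⁻¹' E))) := moll_periodic φ hχp
  have hud : Differentiable ℝ (moll φ (ind (proj ⁻¹' E))) := hu.differentiable one_ne_zero
  obtain ⟨C0, hC0⟩ := hup.bdd hu.continuous
  obtain ⟨C1, hC1⟩ := fderiv_bdd_Moll hu hup (1, 0, 0)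
  obtain ⟨C2, hC2⟩ := fderiv_bdd_Moll hu hup (0, 1, 0)
  obtain ⟨C3, hC3⟩ := fderiv_bdd_Moll hu hup (0, 0, 1)
  have m1 := (fderiv_cont_Moll hu (1, 0, 0)).measurable
  have m2 := (fderiv_cont_Moll hu (0, 1, 0)).measurable
  have m3 := (fderiv_cont_Moll hu (0, 0, 1)).measurable
  have p1 := hup.fderiv_apply hud (1, 0, 0)
  have p2 := hup.fderiv_apply hud (0, 1, 0)
  have p3 := hup.fderiv_apply hud (0, 0, 1)
  refine ⟨moll φ (ind (proj ⁻¹' E)), fun p => fderiv ℝ (moll φ (ind (proj ⁻¹' E))) p (1, 0, 0),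
    fun p => fderiv ℝ (moll φ (ind (proj ⁻¹' E))) p (0, 1, 0),
    fun p => fderiv ℝ (moll φ (ind (proj ⁻¹' E))) p (0, 0, 1),
    ⟨hu.continuous.measurable, m1, m2, m3, ⟨max (max C0 C1) (max C2 C3), fun p => ⟨?_, ?_, ?_, ?_⟩⟩,
      hasDerivAt_coord1 hud, hasDerivAt_coord2 hud, hasDerivAt_coord3 hud⟩,
    fun _ x y z => (hup x y z).1, fun _ x y z => (hup x y z).2.1,
    fun _ x y z => (hup x y z).2.2, hφ, ?_⟩
  · exact (hC0 p).trans ((le_max_left _ _).trans (le_max_left _ _))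
  · exact (hC1 p).trans ((le_max_right _ _).trans (le_max_left _ _))
  · exact (hC2 p).trans ((le_max_left _ _).trans (le_max_right _ _))
  · exact (hC3 p).trans ((le_max_right _ _).trans (le_max_right _ _))
  have mn : Measurable (fun p => Real.sqrt
      (fderiv ℝ (moll φ (ind (proj ⁻¹' E))) p (1, 0, 0) ^ 2 +
        fderiv ℝ (moll φ (ind (proj ⁻¹' E))) p (0, 1, 0) ^ 2 +
        fderiv ℝ (moll φ (ind (proj ⁻¹' E))) p (0, 0, 1) ^ 2)) :=
    (((m1.pow_const 2).add (m2.pow_const 2)).add (m3.pow_const 2)).sqrt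
  have mX := m1.neg.div mn
  have mY := m2.neg.div mn
  have mZ := m3.neg.div mn
  have pX := periodic_dir_Moll p1 p2 p3 p1
  have pY := periodic_dir_Moll p1 p2 p3 p2
  have pZ := periodic_dir_Moll p1 p2 p3 p3
  have hsq := fun p => unit_sq_Moll (fderiv ℝ (moll φ (ind (proj ⁻¹' E))) p (1, 0, 0))
    (fderiv ℝ (moll φ (ind (proj ⁻¹' E))) p (0, 1, 0))
    (fderiv ℝ (moll φ (ind (proj ⁻¹' E))) p (0, 0, 1))
  have hT : IsTest _ _ _ :=
    ⟨moll_contDiff φ mX 1 fun p => (abs_le_one_Moll (hsq p)).1,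
      moll_contDiff φ mY 1 fun p => (abs_le_one_Moll (hsq p)).2.1,
      moll_contDiff φ mZ 1 fun p => (abs_le_one_Moll (hsq p)).2.2,
      moll_periodic φ pX, moll_periodic φ pY, moll_periodic φ pZ, moll_sq_le φ mX mY mZ hsq⟩
  have hle := (le_perim_Moll E hT).trans h
  rw [ENNReal.ofReal_le_ofReal_iff hP, integral_cube_inter hS,
    pair_Moll φ hχ hχ1 hχp mX mY mZ pX pY pZ hsq] at hle
  simp only [Pi.div_apply, Pi.neg_apply, unit_dot_Moll] at hle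
  unfold en3
  simp only [one_mul]
  linarith

end Vale.Agent.P232
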