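import Vale.Agent.P232.Rig3
import Vale.Agent.P232.Corner
import Vale.Agent.P232.CubeMain

/-!
# P232 / RigCube

Lower bound and rigidity in the cube.
`rig_corner`: `corner_ge` and `P ≤ jf v ≤ 1` give `top = 1`, `bot = 0`, `P = 1`; constants
`β = ε`, `α = √(1-ε²)` in `DirData` give `∫ p ≤ ε`, so `p = 0` a.e., `I2 (ar D t) ≤ 0`, so
`ar D t ∈ {0,1}` a.e.; antitonicity makes `{ar = 1}` an initial segment of length `v`, and
`D =ᵐ {x | x.1 < v}`; `e = (1,0,0)`, `r = v`.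
`CanCube.of_rot`: `rot_rot_rot`, `ae_rot`, `rot_canC`, `real_rot`.
-/

open MeasureTheory Set

namespace Vale.Agent.P232

theorem dir_RigCube {D : Set R3} {P : ℝ} (hD : Down3 D)
    (h : Appr3 1 1 1 False False False D P) : ∃ p : ℝ → ℝ, DirData 1 1 P (ar D) p ∧
      ∀ᵐ t ∂μ1, t ∈ Ioo (0 : ℝ) 1 ∧ SlOf (sl D t) (p t) := by
  obtain ⟨p, hd, hp⟩ := dir3 one_pos hD h
  refine ⟨p, hd, ?_⟩
  filter_upwards [hp, ae_μ1_mem] with t h1 h2
  exact ⟨h2, slOf_of_appr (hD.sl h2) h1⟩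

theorem jf_le_RigCube (v : ℝ) : jf v ≤ 1 := (min_le_right _ _).trans (min_le_right _ _)

theorem corner_RigCube {D : Set R3} {P : ℝ} (hD : Down3 D) (hv : μ3.real D ≤ 1 / 2)
    (hC : CornerCase D) {p : ℝ → ℝ} (hd : DirData 1 1 P (ar D) p)
    (hs : ∀ᵐ t ∂μ1, t ∈ Ioo (0 : ℝ) 1 ∧ SlOf (sl D t) (p t)) :
    1 + Real.sqrt (bot (ar D)) / 20 + Real.sqrt (1 - top (ar D)) / 20 ≤ P :=
  corner_ge hd (hs.mono fun _ ht => Sl2.plain ht.2) hC.1 hC.2.1
    (by rw [integral_ar hD.1]; exact hC.2.2) (by rw [integral_ar hD.1]; exact hv)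

theorem zero_RigCube {h p : ℝ → ℝ} (hd : DirData 1 1 1 h p) (hb : bot h = 0) (ht : top h = 1) :
    ∀ᵐ t ∂μ1, p t = 0 := by
  refine (integral_eq_zero_iff_of_nonneg hd.2.2.1 hd.2.1).1 (le_antisymm ?_
    (integral_nonneg hd.2.2.1))
  refine le_of_forall_pos_le_add fun δ hδ => ?_
  obtain ⟨ε, h0, h1, h2⟩ : ∃ ε : ℝ, 0 < ε ∧ ε ≤ 1 ∧ ε ≤ δ :=
    ⟨min 1 δ, lt_min one_pos hδ, min_le_left _ _, min_le_right _ _⟩
  have h3 : 0 ≤ 1 - ε ^ 2 := by nlinarith
  have h4 := hd.2.2.2 (fun _ => Real.sqrt (1 - ε ^ 2)) (fun _ => ε)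
    ⟨continuous_const, continuous_const, fun _ => h0.le, fun _ => by
      rw [Real.sq_sqrt h3]; linarith⟩
  rw [hb, ht, intervalIntegral.integral_const, integral_const_mul] at h4
  have h5 : 1 - ε ^ 2 ≤ Real.sqrt (1 - ε ^ 2) := Real.le_sqrt_of_sq_le (by nlinarith [sq_nonneg ε])
  simp only [sub_zero, smul_eq_mul, one_mul] at h4
  have h6 : ε * ∫ t, p t ∂μ1 ≤ ε * ε := by nlinarith
  linarith [le_of_mul_le_mul_left h6 h0]

theorem I2_RigCube {s : ℝ} (h0 : 0 ≤ s) (h1 : s ≤ 1) (h : I2 s ≤ 0) : s = 0 ∨ s = 1 := by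
  by_contra hn
  rw [not_or] at hn
  have h2 : 0 < s := lt_of_le_of_ne h0 (Ne.symm hn.1)
  have h3 : 0 < 1 - s := sub_pos.2 (lt_of_le_of_ne h1 hn.2)
  have := Real.pi_pos
  exact absurd h (not_le.2 (lt_min (by positivity) (lt_min one_pos (by positivity))))

theorem rig_corner {D : Set R3} {P : ℝ} (hD : Down3 D)
    (h : Appr3 1 1 1 False False False D P) (hv : μ3.real D ≤ 1 / 2) (hC : CornerCase D)
    (hP : P ≤ jf (μ3.real D)) : CanCube D P := by
  obtain ⟨p, hd, hs⟩ := dir_RigCube hD h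
  have hc := corner_RigCube hD hv hC hd hs
  have h1 := hP.trans (jf_le_RigCube _)
  have hl := hD.lev_ar
  have hm := bot_top_mem hl.2.2
  have s1 := Real.sqrt_nonneg (bot (ar D))
  have s2 := Real.sqrt_nonneg (1 - top (ar D))
  have hb : bot (ar D) = 0 := le_antisymm (Real.sqrt_eq_zero'.1 (by linarith)) hm.1
  have ht : top (ar D) = 1 :=
    le_antisymm hm.2.2 (sub_nonpos.1 (Real.sqrt_eq_zero'.1 (by linarith)))
  obtain rfl : P = 1 := by linarith
  have h01 : ∀ᵐ t ∂μ1, ar D t = 0 ∨ ar D t = 1 := by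
    filter_upwards [hs, zero_RigCube hd hb ht] with t h2 h3
    exact I2_RigCube (hl.2.2 t).1 (hl.2.2 t).2 (h3 ▸ Sl2.plain h2.2)
  have hvm : μ1.real {t | 0 < ar D t} = μ3.real D := by
    rw [← integral_ar hD.1, ← integral_ind μ1 (measurableSet_lt measurable_const hl.1)]
    refine integral_congr_ae (h01.mono fun t h2 => ?_)
    rcases h2 with h2 | h2 <;> simp [ind, h2]
  have hv0 : 0 < μ3.real D := by linarith [hC.2.2]
  refine ⟨1, 0, 0, μ3.real D, Or.inr rfl, Or.inl rfl, Or.inl rfl, by norm_num, hv0, by linarith,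
    by ring, Filter.eventuallyEq_set.2 ?_⟩
  refine (Measure.ae_prod_iff_ae_ae (MeasurableSet.iff hD.1 (measurableSet_canC ..))).2 ?_
  have hne : ∀ᵐ t ∂μ1, t ≠ μ3.real D := ae_restrict_of_ae (Measure.ae_ne volume _)
  filter_upwards [h01, hne, ae_μ1_mem] with t h2 h3 h4
  have h5 := lev_of_dist (s := 0) hl h4
  rw [hvm] at h5
  have h6 : ∀ q : ℝ × ℝ, (t, q) ∈ canC 1 0 0 1 0 1 0 1 0 (μ3.real D) ↔ t < μ3.real D := by
    intro q
    simp only [canC, mem_ofPred_eq, one_mul, div_one, zero_mul, add_zero, sub_zero]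
    exact sq_lt_sq₀ h4.1.le hv0.le
  have h7 : MeasurableSet (sl D t) := measurable_prodMk_left hD.1
  rcases h2 with h2 | h2
  · have h8 : μ2 (sl D t) = 0 := (measureReal_eq_zero_iff (measure_ne_top _ _)).1 h2
    filter_upwards [measure_eq_zero_iff_ae_notMem.1 h8] with q hq
    exact iff_of_false hq fun k => absurd ((h6 q).1 k) (not_lt.2 (h5.2 h2.le))
  · have h8 : μ2 (sl D t) = 1 := (ENNReal.toReal_eq_one_iff _).1 h2
    filter_upwards [mem_ae_iff.2 ((prob_compl_eq_zero_iff h7).2 h8)] with q hq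
    exact iff_of_true hq ((h6 q).2 (lt_of_le_of_ne (h5.1 (by rw [h2]; exact one_pos)) h3))

theorem CanCube.of_rot {D : Set R3} {P : ℝ} (hD : MeasurableSet D) (h : CanCube (rot D) P) :
    CanCube D P := by
  obtain ⟨e1, e2, e3, r, h1, h2, h3, h0, hr0, hr1, hP, he⟩ := h
  have k := ae_rot (ae_rot he)
  rw [rot_rot_rot, rot_canC, rot_canC] at k
  rw [real_rot hD] at hP
  exact ⟨e3, e1, e2, r, h3, h1, h2, by linarith, hr0, hr1, by linarith, k⟩

theorem rots_RigCube {D D' : Set R3} {P : ℝ} (hD : Down3 D)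
    (h : Appr3 1 1 1 False False False D P) (e : D' = D ∨ D' = rot D ∨ D' = rot (rot D)) :
    Down3 D' ∧ Appr3 1 1 1 False False False D' P ∧ μ3.real D' = μ3.real D ∧
      (CanCube D' P → CanCube D P) := by
  rcases e with rfl | rfl | rfl
  · exact ⟨hD, h, rfl, id⟩
  · exact ⟨hD.rot, h.rot hD.1, real_rot hD.1, CanCube.of_rot hD.1⟩
  · exact ⟨hD.rot.rot, (h.rot hD.1).rot hD.rot.1, (real_rot hD.rot.1).trans (real_rot hD.1),
      fun k => CanCube.of_rot hD.1 (CanCube.of_rot hD.rot.1 k)⟩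

theorem cube_lower (hN : Numerics) {D : Set R3} {P : ℝ} (hD : Down3 D)
    (h : Appr3 1 1 1 False False False D P) (hv : μ3.real D ≤ 1 / 2) : jf (μ3.real D) ≤ P := by
  rcases cube_main hN hD h hv with k | ⟨D', e, k⟩
  · exact k.le
  obtain ⟨h1, h2, h3, -⟩ := rots_RigCube hD h e
  obtain ⟨p, hd, hs⟩ := dir_RigCube h1 h2
  rw [← h3] at hv ⊢
  rcases k with k | k
  · rw [← integral_ar h1.1]
    exact an_ge hd (hs.mono fun t ht => (k t ht.1 _ ht.2).1)
  · linarith [corner_RigCube h1 hv k hd hs, jf_le_RigCube (μ3.real D'),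
      Real.sqrt_nonneg (bot (ar D')), Real.sqrt_nonneg (1 - top (ar D'))]

theorem cube_rigid (hN : Numerics) {D : Set R3} {P : ℝ} (hD : Down3 D)
    (h : Appr3 1 1 1 False False False D P) (hv0 : 0 < μ3.real D) (hv : μ3.real D ≤ 1 / 2)
    (hP : P ≤ jf (μ3.real D)) : CanCube D P := by
  rcases cube_main hN hD h hv with k | ⟨D', e, k⟩
  · exact absurd hP (not_le.2 k)
  obtain ⟨h1, h2, h3, h4⟩ := rots_RigCube hD h e
  rw [← h3] at hv hv0 hP
  exact h4 (k.elim (fun k => rig_an h1 h2 hv0 hv k hP) fun k => rig_corner h1 h2 hv k hP)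

end Vale.Agent.P232
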