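import Vale.Agent.P232.PerimB
import Vale.Agent.P232.Vols

/-!
# P232 / Upper

Upper bound. With `X_i = x_i - 1/2`, `s = ∑ e_i X_i²`, `u = ramp ((R² - s)/γ)`,
`u_i = -ramp'(..) 2 e_i X_i/γ` (bounded: `ramp'(..) = 0` unless `R² - γ < s < R²`).
`|∇u| = 2 √s ramp'/γ ≤ 2 s ramp'/(γ √(R² - γ))` and `∫ 2 s ramp'/γ = -∑ ∫ e_i X_i u_i = (∑ e_i) ∫ u`
(`ibp` for `e_i X_i u` cut off by the support: it vanishes on the faces `x_i = 0, 1` when `e_i = 1`; to
get global bounds note `u` and `X_i u_i` are bounded), `∫ u ≤ |C|`; `u → ind C` pointwise as `γ → 0`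
(dominated convergence). Then `perim_le_of_appr` (with `proj_canT`). `profile_le`: choose
`R = (3v/(4π))^(1/3)`, `√(v/π)`, `v/2` for `v = min V (1-V) ≤ 1/2` (all `< 1/2`), complements
(`perim_compl`) when `V > 1/2`.
-/

open MeasureTheory Set Filter Topology

namespace Vale.Agent.P232

noncomputable def S_Upper (e1 e2 e3 : ℝ) (p : R3) : ℝ :=
  e1 * (p.1 - 1 / 2) ^ 2 + e2 * (p.2.1 - 1 / 2) ^ 2 + e3 * (p.2.2 - 1 / 2) ^ 2

noncomputable def u_Upper (R γ s : ℝ) : ℝ := ramp ((R ^ 2 - s) / γ)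

noncomputable def w_Upper (R γ s : ℝ) : ℝ := ramp' ((R ^ 2 - s) / γ) / γ

section

variable {R γ e X s t : ℝ} {σ : ℝ → ℝ}

theorem du_Upper {a : ℝ} (h : HasDerivAt σ a t) :
    HasDerivAt (fun t => u_Upper R γ (σ t)) (-a * w_Upper R γ (σ t)) t := by
  have k := (hasDerivAt_ramp ((R ^ 2 - σ t) / γ)).comp t ((h.const_sub (R ^ 2)).div_const γ)
  refine k.congr_deriv ?_
  rw [w_Upper]
  ring

theorem w_mem_Upper (hγ : 0 < γ) (s : ℝ) : 0 ≤ w_Upper R γ s ∧ w_Upper R γ s ≤ 3 / 2 / γ :=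
  ⟨div_nonneg (ramp'_mem _).1 hγ.le, div_le_div_of_nonneg_right (ramp'_mem _).2 hγ.le⟩

theorem w_zero_Upper (hγ : 0 < γ) (h : s ≤ R ^ 2 - γ ∨ R ^ 2 ≤ s) : w_Upper R γ s = 0 := by
  rw [w_Upper, ramp'_zero, zero_div]
  rcases h with h | h
  · exact Or.inr ((one_le_div hγ).2 (by linarith))
  · exact Or.inl (div_nonpos_of_nonpos_of_nonneg (by linarith) hγ.le)

theorem u_zero_Upper (hγ : 0 < γ) (h : R ^ 2 ≤ s) : u_Upper R γ s = 0 :=
  ramp_of_nonpos (div_nonpos_of_nonpos_of_nonneg (by linarith) hγ.le)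

theorem u_one_Upper (hγ : 0 < γ) (h : s ≤ R ^ 2 - γ) : u_Upper R γ s = 1 :=
  ramp_of_one_le ((one_le_div hγ).2 (by linarith))

theorem abs_u_Upper (R γ s : ℝ) : |u_Upper R γ s| ≤ 1 := by
  rw [u_Upper, abs_of_nonneg (ramp_mem _).1]
  exact (ramp_mem _).2

theorem cont_u_Upper (R γ : ℝ) : Continuous (u_Upper R γ) :=
  ramp_cont.comp (by fun_prop)

theorem cont_w_Upper (R γ : ℝ) : Continuous (w_Upper R γ) :=
  (ramp'_cont.comp (by fun_prop)).div_const γ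

theorem bd1_Upper (hγ : 0 < γ) (he : ZO e) (hR : R ^ 2 < 1 / 4) (hs : e * X ^ 2 ≤ s) :
    |-(2 * e * X) * w_Upper R γ s| ≤ 1 + 3 / γ := by
  have h3 : 0 < 3 / γ := by positivity
  rcases le_or_gt (R ^ 2) s with h | h
  · rw [w_zero_Upper hγ (Or.inr h), mul_zero, abs_zero]
    linarith
  obtain ⟨w0, w1⟩ := w_mem_Upper (R := R) hγ s
  have hX : |e * X| ≤ 1 := by
    rcases he with rfl | rfl
    · simp
    · rw [one_mul] at hs ⊢
      exact abs_le.2 ⟨by nlinarith, by nlinarith⟩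
  rw [abs_mul, abs_neg, mul_assoc, abs_mul, abs_of_nonneg w0, abs_two]
  have e3 : 3 / γ = 2 * (3 / 2 / γ) := by ring
  nlinarith [abs_nonneg (e * X)]

theorem bd2_Upper (hγ : 0 < γ) (he : ZO e) (hR : R ^ 2 < 1 / 4) (hs : e * X ^ 2 ≤ s) :
    |e * u_Upper R γ s - 2 * (e * X ^ 2) * w_Upper R γ s| ≤ 1 + 3 / γ := by
  have h3 : 0 < 3 / γ := by positivity
  have e0 : 0 ≤ e ∧ e ≤ 1 := by rcases he with rfl | rfl <;> norm_num
  have h1 : |e * u_Upper R γ s| ≤ 1 := by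
    rw [abs_mul, abs_of_nonneg e0.1]
    exact mul_le_one₀ e0.2 (abs_nonneg _) (abs_u_Upper _ _ _)
  refine (abs_sub _ _).trans (add_le_add h1 ?_)
  rcases le_or_gt (R ^ 2) s with h | h
  · rw [w_zero_Upper hγ (Or.inr h), mul_zero, abs_zero]
    linarith
  obtain ⟨w0, w1⟩ := w_mem_Upper (R := R) hγ s
  have h2 : 0 ≤ e * X ^ 2 := mul_nonneg e0.1 (sq_nonneg X)
  rw [abs_of_nonneg (by positivity)]
  have e3 : 3 / γ = 2 * (3 / 2 / γ) := by ring
  nlinarith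

theorem dg_Upper (he : ZO e) (h : HasDerivAt σ (2 * e * (t - 1 / 2)) t) :
    HasDerivAt (fun t => e * (t - 1 / 2) * u_Upper R γ (σ t))
      (e * u_Upper R γ (σ t) - 2 * (e * (t - 1 / 2) ^ 2) * w_Upper R γ (σ t)) t := by
  refine ((((hasDerivAt_id' t).sub_const (1 / 2)).const_mul e).mul (du_Upper h)).congr_deriv ?_
  rcases he with rfl | rfl <;> ring

theorem bdry_Upper (hγ : 0 < γ) (he : ZO e) (hR : R ^ 2 < 1 / 4) {s' : ℝ}
    (hs : e * (1 - 1 / 2) ^ 2 ≤ s) (hs' : e * (0 - 1 / 2) ^ 2 ≤ s') :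
    e * (1 - 1 / 2) * u_Upper R γ s = e * (0 - 1 / 2) * u_Upper R γ s' := by
  rcases he with rfl | rfl
  · simp
  · rw [u_zero_Upper hγ (by linarith), u_zero_Upper hγ (by linarith), mul_zero, mul_zero]

theorem dsq_Upper (e a b t : ℝ) :
    HasDerivAt (fun t : ℝ => a + e * (t - 1 / 2) ^ 2 + b) (2 * e * (t - 1 / 2)) t := by
  refine ((((((hasDerivAt_id' t).sub_const (1 / 2)).pow 2).const_mul e).const_add a).add_const
    b).congr_deriv ?_
  simp only [Nat.cast_ofNat, Nat.add_one_sub_one, pow_one]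
  ring

end

section

variable {e1 e2 e3 R γ : ℝ}

theorem cont_S_Upper (e1 e2 e3 : ℝ) : Continuous (S_Upper e1 e2 e3) := by
  unfold S_Upper
  fun_prop

theorem dS1_Upper (x y z : ℝ) :
    HasDerivAt (fun s => S_Upper e1 e2 e3 (s, y, z)) (2 * e1 * (x - 1 / 2)) x := by
  simpa only [S_Upper, zero_add, add_assoc] using
    dsq_Upper e1 0 (e2 * (y - 1 / 2) ^ 2 + e3 * (z - 1 / 2) ^ 2) x

theorem dS2_Upper (x y z : ℝ) :
    HasDerivAt (fun s => S_Upper e1 e2 e3 (x, s, z)) (2 * e2 * (y - 1 / 2)) y := by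
  simpa only [S_Upper] using dsq_Upper e2 (e1 * (x - 1 / 2) ^ 2) (e3 * (z - 1 / 2) ^ 2) y

theorem dS3_Upper (x y z : ℝ) :
    HasDerivAt (fun s => S_Upper e1 e2 e3 (x, y, s)) (2 * e3 * (z - 1 / 2)) z := by
  simpa only [S_Upper, add_zero] using
    dsq_Upper e3 (e1 * (x - 1 / 2) ^ 2 + e2 * (y - 1 / 2) ^ 2) 0 z

theorem le_S_Upper (h1 : ZO e1) (h2 : ZO e2) (h3 : ZO e3) (p : R3) :
    e1 * (p.1 - 1 / 2) ^ 2 ≤ S_Upper e1 e2 e3 p ∧ e2 * (p.2.1 - 1 / 2) ^ 2 ≤ S_Upper e1 e2 e3 p ∧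
      e3 * (p.2.2 - 1 / 2) ^ 2 ≤ S_Upper e1 e2 e3 p := by
  have k : ∀ {e : ℝ}, ZO e → ∀ X : ℝ, 0 ≤ e * X ^ 2 := fun he X => by
    rcases he with rfl | rfl <;> positivity
  have a1 := k h1 (p.1 - 1 / 2)
  have a2 := k h2 (p.2.1 - 1 / 2)
  have a3 := k h3 (p.2.2 - 1 / 2)
  unfold S_Upper
  exact ⟨by linarith, by linarith, by linarith⟩

theorem mem_Upper (p : R3) :
    p ∈ canC e1 e2 e3 1 (1 / 2) 1 (1 / 2) 1 (1 / 2) R ↔ S_Upper e1 e2 e3 p < R ^ 2 := by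
  simp only [canC, mem_ofPred_eq, div_one, S_Upper]

theorem energy_Upper (h1 : ZO e1) (h2 : ZO e2) (h3 : ZO e3) (hR : R ^ 2 < 1 / 4) {ρ : ℝ}
    (hρ : 0 < ρ) (hγ : 0 < γ) (e : γ = R ^ 2 - ρ ^ 2) :
    en3 1 1 1 (fun p => -(2 * e1 * (p.1 - 1 / 2)) * w_Upper R γ (S_Upper e1 e2 e3 p))
      (fun p => -(2 * e2 * (p.2.1 - 1 / 2)) * w_Upper R γ (S_Upper e1 e2 e3 p))
      (fun p => -(2 * e3 * (p.2.2 - 1 / 2)) * w_Upper R γ (S_Upper e1 e2 e3 p)) ≤
      (e1 + e2 + e3) * μ3.real (canC e1 e2 e3 1 (1 / 2) 1 (1 / 2) 1 (1 / 2) R) / ρ := by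
  have cS := cont_S_Upper e1 e2 e3
  have cu := (cont_u_Upper R γ).comp cS
  have cw := (cont_w_Upper R γ).comp cS
  have l := le_S_Upper h1 h2 h3
  have m : ∀ (e : ℝ) {X : R3 → ℝ}, Continuous X → Measurable fun p =>
      e * u_Upper R γ (S_Upper e1 e2 e3 p) -
        2 * (e * X p ^ 2) * w_Upper R γ (S_Upper e1 e2 e3 p) := fun e X hX =>
    ((cu.const_mul e).sub ((((hX.pow 2).const_mul e).const_mul 2).mul cw)).measurable
  have m1 := m e1 (X := fun p => p.1 - 1 / 2) (by fun_prop)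
  have m2 := m e2 (X := fun p => p.2.1 - 1 / 2) (by fun_prop)
  have m3 := m e3 (X := fun p => p.2.2 - 1 / 2) (by fun_prop)
  have b1 := fun p => bd2_Upper hγ h1 hR (l p).1
  have b2 := fun p => bd2_Upper hγ h2 hR (l p).2.1
  have b3 := fun p => bd2_Upper hγ h3 hR (l p).2.2
  have i1 := ibp1 (g := fun p => e1 * (p.1 - 1 / 2) * u_Upper R γ (S_Upper e1 e2 e3 p)) m1 _ b1
    (fun x y z => dg_Upper h1 (dS1_Upper x y z))
    fun y z => bdry_Upper hγ h1 hR (l (1, y, z)).1 (l (0, y, z)).1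
  have i2 := ibp2 (g := fun p => e2 * (p.2.1 - 1 / 2) * u_Upper R γ (S_Upper e1 e2 e3 p)) m2 _ b2
    (fun x y z => dg_Upper h2 (dS2_Upper x y z))
    fun x z => bdry_Upper hγ h2 hR (l (x, 1, z)).2.1 (l (x, 0, z)).2.1
  have i3 := ibp3 (g := fun p => e3 * (p.2.2 - 1 / 2) * u_Upper R γ (S_Upper e1 e2 e3 p)) m3 _ b3
    (fun x y z => dg_Upper h3 (dS3_Upper x y z))
    fun x y => bdry_Upper hγ h3 hR (l (x, y, 1)).2.2 (l (x, y, 0)).2.2
  have j1 := integrable_of_bdd μ3 m1 _ b1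
  have j2 := integrable_of_bdd μ3 m2 _ b2
  have j3 := integrable_of_bdd μ3 m3 _ b3
  have mC := measurableSet_canC e1 e2 e3 1 (1 / 2) 1 (1 / 2) 1 (1 / 2) R
  have jC := (integrable_of_bdd μ3 (measurable_ind mC) 1 fun p =>
    (abs_of_nonneg (ind_mem _ p).1).trans_le (ind_mem _ p).2).const_mul (e1 + e2 + e3)
  have z1 := integral_add j1 j2
  have z2 := integral_add (j1.add j2) j3
  have z3 := integral_sub jC ((j1.add j2).add j3)
  simp only [Pi.add_apply] at z2 z3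
  rw [z2, z1, i1, i2, i3, integral_const_mul, integral_ind μ3 mC, add_zero, add_zero,
    sub_zero] at z3
  rw [← z3, ← integral_div]
  refine integral_mono_of_nonneg (Eventually.of_forall fun p => Real.sqrt_nonneg _)
    ((jC.sub ((j1.add j2).add j3)).div_const ρ) (Eventually.of_forall fun p => ?_)
  have e0 : ∀ {e : ℝ}, ZO e → 0 ≤ e ∧ e ^ 2 = e := fun he => by
    rcases he with rfl | rfl <;> norm_num
  have hu : u_Upper R γ (S_Upper e1 e2 e3 p) ≤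
      ind (canC e1 e2 e3 1 (1 / 2) 1 (1 / 2) 1 (1 / 2) R) p := by
    by_cases hp : p ∈ canC e1 e2 e3 1 (1 / 2) 1 (1 / 2) 1 (1 / 2) R
    · rw [ind, indicator_of_mem hp]
      exact (ramp_mem _).2
    · rw [ind, indicator_of_notMem hp, u_zero_Upper hγ (not_lt.1 (mt (mem_Upper p).2 hp))]
  have hu' := mul_le_mul_of_nonneg_left hu (add_nonneg (add_nonneg (e0 h1).1 (e0 h2).1) (e0 h3).1)
  have w0 := (w_mem_Upper (R := R) hγ (S_Upper e1 e2 e3 p)).1
  have s0 : 0 ≤ S_Upper e1 e2 e3 p := (mul_nonneg (e0 h1).1 (sq_nonneg _)).trans (l p).1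
  refine le_trans (b := 2 * S_Upper e1 e2 e3 p * w_Upper R γ (S_Upper e1 e2 e3 p) / ρ) ?_
    (div_le_div_of_nonneg_right ?_ hρ.le)
  · refine Real.sqrt_le_iff.2 ⟨by positivity, ?_⟩
    have q : ∀ a b c w : ℝ, (1 * (-(2 * e1 * a) * w)) ^ 2 + (1 * (-(2 * e2 * b) * w)) ^ 2 +
        (1 * (-(2 * e3 * c) * w)) ^ 2 = 4 * (e1 * a ^ 2 + e2 * b ^ 2 + e3 * c ^ 2) * w ^ 2 :=
      fun a b c w => by
        linear_combination 4 * a ^ 2 * w ^ 2 * (e0 h1).2 + 4 * b ^ 2 * w ^ 2 * (e0 h2).2 +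
          4 * c ^ 2 * w ^ 2 * (e0 h3).2
    rw [q, div_pow, le_div_iff₀ (by positivity)]
    change 4 * S_Upper e1 e2 e3 p * _ * _ ≤ _
    rcases le_or_gt (S_Upper e1 e2 e3 p) (R ^ 2 - γ) with h | h
    · rw [w_zero_Upper hγ (Or.inl h)]
      simp
    · have := mul_le_mul_of_nonneg_left (show ρ ^ 2 ≤ S_Upper e1 e2 e3 p by linarith)
        (show 0 ≤ 4 * S_Upper e1 e2 e3 p * w_Upper R γ (S_Upper e1 e2 e3 p) ^ 2 by positivity)
      linarith
  · have : S_Upper e1 e2 e3 p * w_Upper R γ (S_Upper e1 e2 e3 p) = (e1 * (p.1 - 1 / 2) ^ 2 +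
        e2 * (p.2.1 - 1 / 2) ^ 2 + e3 * (p.2.2 - 1 / 2) ^ 2) *
        w_Upper R γ (S_Upper e1 e2 e3 p) := rfl
    linarith

theorem conv_Upper (h0 : 0 < R) : Tendsto (fun ρ => ∫ p, |u_Upper R (R ^ 2 - ρ ^ 2)
    (S_Upper e1 e2 e3 p) - ind (canC e1 e2 e3 1 (1 / 2) 1 (1 / 2) 1 (1 / 2) R) p| ∂μ3)
    (𝓝[<] R) (𝓝 0) := by
  have mC := measurableSet_canC e1 e2 e3 1 (1 / 2) 1 (1 / 2) 1 (1 / 2) R
  have k := tendsto_integral_filter_of_dominated_convergence (μ := μ3) (l := 𝓝[<] R)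
    (F := fun ρ p => |u_Upper R (R ^ 2 - ρ ^ 2) (S_Upper e1 e2 e3 p) -
      ind (canC e1 e2 e3 1 (1 / 2) 1 (1 / 2) 1 (1 / 2) R) p|) (f := fun _ => 0) (fun _ => 2)
    (Eventually.of_forall fun ρ => (continuous_abs.measurable.comp
      (((cont_u_Upper _ _).comp (cont_S_Upper e1 e2 e3)).measurable.sub
        (measurable_ind mC))).aestronglyMeasurable)
    (Eventually.of_forall fun ρ => Eventually.of_forall fun p => by
      have a1 := abs_le.1 (abs_u_Upper R (R ^ 2 - ρ ^ 2) (S_Upper e1 e2 e3 p))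
      have a2 := ind_mem (canC e1 e2 e3 1 (1 / 2) 1 (1 / 2) 1 (1 / 2) R) p
      rw [Real.norm_eq_abs, abs_abs, abs_le]
      constructor <;> linarith)
    (integrable_const _) (Eventually.of_forall fun p => ?_)
  · simpa using k
  refine tendsto_const_nhds.congr' ?_
  by_cases hp : p ∈ canC e1 e2 e3 1 (1 / 2) 1 (1 / 2) 1 (1 / 2) R
  · have c : ContinuousAt (fun ρ : ℝ => ρ ^ 2) R := by fun_prop
    filter_upwards [Ioo_mem_nhdsLT h0,
      nhdsWithin_le_nhds (c.eventually (lt_mem_nhds ((mem_Upper p).1 hp)))] with ρ h h'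
    rw [u_one_Upper (by nlinarith [h.1, h.2]) (by linarith [show _ < ρ ^ 2 from h']), ind,
      indicator_of_mem hp, sub_self, abs_zero]
  · filter_upwards [Ioo_mem_nhdsLT h0] with ρ h
    rw [u_zero_Upper (by nlinarith [h.1, h.2]) (not_lt.1 (mt (mem_Upper p).2 hp)), ind,
      indicator_of_notMem hp, sub_self, abs_zero]

end

theorem perim_canT_le {e1 e2 e3 R : ℝ} (h1 : ZO e1) (h2 : ZO e2) (h3 : ZO e3) (h0 : 0 < R)
    (hR : R < 1 / 2) :
    perim (canT e1 e2 e3 (proj (1 / 2, 1 / 2, 1 / 2)) R) ≤ ENNReal.ofReal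
      ((e1 + e2 + e3) * μ3.real (canC e1 e2 e3 1 (1 / 2) 1 (1 / 2) 1 (1 / 2) R) / R) := by
  refine perim_le_of_appr (measurableSet_canT _ _ _ _ _) fun ε hε => ?_
  have hR2 : R ^ 2 < 1 / 4 := by nlinarith
  have c : ContinuousAt (fun ρ : ℝ => (e1 + e2 + e3) *
      μ3.real (canC e1 e2 e3 1 (1 / 2) 1 (1 / 2) 1 (1 / 2) R) / ρ) R :=
    continuousAt_const.div continuousAt_id h0.ne'
  obtain ⟨ρ, ⟨hρ, k1⟩, k2⟩ := (((show ∀ᶠ ρ in 𝓝[<] R, ρ ∈ Ioo 0 R from Ioo_mem_nhdsLT h0).and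
    ((conv_Upper (e1 := e1) (e2 := e2) (e3 := e3) h0).eventually (eventually_le_nhds hε))).and
    ((c.eventually (eventually_le_nhds (lt_add_of_pos_right _ hε))).filter_mono
      nhdsWithin_le_nhds)).exists
  have hγ : 0 < R ^ 2 - ρ ^ 2 := by nlinarith [hρ.1, hρ.2]
  have cS := cont_S_Upper e1 e2 e3
  have cw := (cont_w_Upper R (R ^ 2 - ρ ^ 2)).comp cS
  have l := le_S_Upper h1 h2 h3
  have m : ∀ {X : R3 → ℝ}, Continuous X → Measurable fun p =>
      X p * w_Upper R (R ^ 2 - ρ ^ 2) (S_Upper e1 e2 e3 p) := fun hX => (hX.mul cw).measurable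
  refine ⟨fun p => u_Upper R (R ^ 2 - ρ ^ 2) (S_Upper e1 e2 e3 p), _, _, _,
    ⟨((cont_u_Upper _ _).comp cS).measurable, m (by fun_prop), m (by fun_prop), m (by fun_prop),
      ⟨1 + 3 / (R ^ 2 - ρ ^ 2), fun p => ⟨(abs_u_Upper _ _ _).trans (le_add_of_nonneg_right
        (by positivity)), bd1_Upper hγ h1 hR2 (l p).1, bd1_Upper hγ h2 hR2 (l p).2.1,
        bd1_Upper hγ h3 hR2 (l p).2.2⟩⟩, fun x y z => du_Upper (dS1_Upper x y z),
      fun x y z => du_Upper (dS2_Upper x y z), fun x y z => du_Upper (dS3_Upper x y z)⟩,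
    fun y z => ?_, fun x z => ?_, fun x y => ?_, le_of_eq_of_le (integral_congr_ae ?_) k1,
    (energy_Upper h1 h2 h3 hR2 hρ.1 hγ rfl).trans k2⟩
  · norm_num [S_Upper]
  · norm_num [S_Upper]
  · norm_num [S_Upper]
  · filter_upwards [indicator_ae_eq_of_ae_eq_set (f := fun _ => (1 : ℝ)) (proj_canT e1 e2 e3 R)]
      with p hp
    rw [ind, ind, hp]

theorem prof_Upper {e1 e2 e3 R V : ℝ} (h1 : ZO e1) (h2 : ZO e2) (h3 : ZO e3) (h0 : 0 < R)
    (hR : R < 1 / 2) (hv : μ3.real (canC e1 e2 e3 1 (1 / 2) 1 (1 / 2) 1 (1 / 2) R) = min V (1 - V))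
    {b : ℝ} (hb : (e1 + e2 + e3) * min V (1 - V) = b * R) : profile V ≤ ENNReal.ofReal b := by
  have k := perim_canT_le h1 h2 h3 h0 hR
  have mE := measurableSet_canT e1 e2 e3 (proj (1 / 2, 1 / 2, 1 / 2)) R
  have v := real_proj mE
  rw [measureReal_congr (proj_canT e1 e2 e3 R), hv] at v
  rw [hv, hb, mul_div_cancel_right₀ _ h0.ne'] at k
  have pr : ∀ E : Set T3, MeasurableSet E → (volume : Measure T3).real E = V →
      profile V ≤ perim E := fun E hE hV => by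
    have e : volume E = ENNReal.ofReal V := by rw [← hV, ofReal_measureReal]
    exact iInf_le_of_le E (iInf_le_of_le hE.nullMeasurableSet (iInf_le_of_le e le_rfl))
  rcases le_total V (1 - V) with h | h
  · rw [min_eq_left h] at v
    exact (pr _ mE v.symm).trans k
  · rw [min_eq_right h] at v
    have v1 := real_proj MeasurableSet.univ
    rw [preimage_univ, probReal_univ] at v1
    have v2 := measureReal_compl (μ := (volume : Measure T3)) mE
    rw [← v1, ← v, sub_sub_cancel] at v2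
    exact (pr _ mE.compl v2).trans ((perim_compl mE).trans_le k)

theorem profile_le {V : ℝ} (h0 : 0 < V) (h1 : V < 1) :
    profile V ≤ ENNReal.ofReal (Jfun V) := by
  have v0 : 0 < min V (1 - V) := lt_min h0 (sub_pos.2 h1)
  have v1 : min V (1 - V) ≤ 1 / 2 := by linarith [min_le_left V (1 - V), min_le_right V (1 - V)]
  have z0 : ZO 0 := Or.inl rfl
  have z1 : ZO 1 := Or.inr rfl
  have p3 := Real.pi_gt_three
  rw [Jfun, ENNReal.ofReal_min, ENNReal.ofReal_min]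
  refine le_min ?_ (le_min ?_ ?_)
  · obtain ⟨R, R0, R3⟩ : ∃ R : ℝ, 0 < R ∧ R ^ 3 = 3 * min V (1 - V) / (4 * Real.pi) :=
      ⟨(3 * min V (1 - V) / (4 * Real.pi)) ^ ((3 : ℕ) : ℝ)⁻¹, by positivity,
        Real.rpow_inv_natCast_pow (by positivity) (by norm_num)⟩
    have R1 : R < 1 / 2 := by
      refine lt_of_pow_lt_pow_left₀ 3 (by norm_num) ?_
      rw [R3, div_lt_iff₀ (by positivity)]
      linarith
    refine prof_Upper z1 z1 z1 R0 R1 ?_ ?_
    · rw [vol_ball R0 R1, R3]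
      field_simp
    · refine (pow_left_inj₀ (by positivity) (by positivity) three_ne_zero).1 ?_
      rw [mul_pow, mul_pow, mul_pow, R3, ← Real.rpow_natCast (_ ^ ((1 : ℝ) / 3)),
        ← Real.rpow_natCast (_ ^ ((2 : ℝ) / 3)), ← Real.rpow_mul (by positivity),
        ← Real.rpow_mul v0.le]
      norm_num
      field_simp
      norm_num
  · have R0 : 0 < √(min V (1 - V) / Real.pi) := by positivity
    have R1 : √(min V (1 - V) / Real.pi) < 1 / 2 := by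
      rw [Real.sqrt_lt' (by norm_num), div_lt_iff₀ Real.pi_pos]
      linarith
    refine prof_Upper z0 z1 z1 R0 R1 ?_ ?_
    · rw [vol_tube R0 R1, Real.sq_sqrt (by positivity)]
      field_simp
    · rw [mul_assoc, ← Real.sqrt_mul (by positivity), show Real.pi * min V (1 - V) *
        (min V (1 - V) / Real.pi) = min V (1 - V) ^ 2 by field_simp, Real.sqrt_sq v0.le]
      ring
  · refine prof_Upper (R := min V (1 - V) / 2) z1 z0 z0 (by linarith) (by linarith) ?_ (by ring)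
    rw [vol_slab (by linarith) (by linarith)]
    ring

end Vale.Agent.P232
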