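import Vale.Agent.P232.Chain
import Vale.Agent.P232.RigCube
import Vale.Agent.P232.Moll
import Vale.Agent.P232.Upper

/-!
# P232 / Final

Assembly, given the numerical input. `Jfun V = 2 jf (min V (1-V))` since
`(36π)^(1/3) = 2 (9π/2)^(1/3)`. `half_lower`, `half_rigid` treat measurable `E` of volume `v ≤ 1/2`:
`D = St (St (St (proj ⁻¹' E)))` (`appr_of_perim`, `appr_St1..3`, `Appr3.half`, `down3_St3`, `real_St`,
`real_proj`). For the lower bound: if `perim E = ⊤` trivial, else `P = (perim E).toReal`.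
General case: replace a null-measurable `E` by `toMeasurable` (`perim_congr`), pass to the complement
when `V > 1/2` (`perim_compl`).
-/

open MeasureTheory Set

namespace Vale.Agent.P232

theorem Jfun_eq (V : ℝ) : Jfun V = 2 * jf (min V (1 - V)) := by
  have h : (36 * Real.pi) ^ ((1 : ℝ) / 3) = 2 * (9 * Real.pi / 2) ^ ((1 : ℝ) / 3) := by
    have e : (36 * Real.pi : ℝ) = 2 ^ (3 : ℝ) * (9 * Real.pi / 2) := by
      rw [show (3 : ℝ) = ((3 : ℕ) : ℝ) by norm_num, Real.rpow_natCast]
      ring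
    rw [e, Real.mul_rpow (by positivity) (by positivity), ← Real.rpow_mul (by norm_num)]
    norm_num
  rw [Jfun, jf, h, mul_min_of_nonneg _ _ (zero_le_two (α := ℝ)),
    mul_min_of_nonneg _ _ (zero_le_two (α := ℝ)), mul_one, mul_assoc]

theorem isCanonical_canT {e1 e2 e3 R : ℝ} (h1 : ZO e1) (h2 : ZO e2) (h3 : ZO e3)
    (h0 : 0 < e1 + e2 + e3) (hR0 : 0 < R) (hR : R < 1 / 2) (c : T3) :
    IsCanonical (canT e1 e2 e3 c R) := by
  refine ⟨c, R, hR0, hR, ?_⟩
  have k : ∀ a : ℝ, a ^ 2 < R ^ 2 ↔ |a| < R := fun a => by rw [sq_lt_sq, abs_of_pos hR0]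
  rcases h1 with rfl | rfl <;> rcases h2 with rfl | rfl <;> rcases h3 with rfl | rfl
  · norm_num at h0
  · exact Or.inr (Or.inr (Or.inr (Or.inr (by ext x; simp [canT, k]))))
  · exact Or.inr (Or.inr (Or.inr (Or.inl (by ext x; simp [canT, k]))))
  · exact Or.inr (Or.inl (Or.inl (by ext x; simp [canT])))
  · exact Or.inr (Or.inr (Or.inl (by ext x; simp [canT, k])))
  · exact Or.inr (Or.inl (Or.inr (Or.inl (by ext x; simp [canT]))))
  · exact Or.inr (Or.inl (Or.inr (Or.inr (by ext x; simp [canT]))))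
  · exact Or.inl (by ext x; simp [canT, ballT])

theorem steiner_Final {E : Set T3} (hE : MeasurableSet E) {P : ℝ} (hP : 0 ≤ P)
    (h : perim E ≤ ENNReal.ofReal P) : Down3 (St (St (St (proj ⁻¹' E)))) ∧
      Appr3 1 1 1 False False False (St (St (St (proj ⁻¹' E)))) (P / 2) ∧
      μ3.real (St (St (St (proj ⁻¹' E)))) = (volume : Measure T3).real E := by
  have h0 := measurable_proj hE
  have h1 := measurableSet_St h0
  have h2 := measurableSet_St h1
  exact ⟨down3_St3 h0, (appr_St3 h2 (appr_St2 h1 (appr_St1 h0 (appr_of_perim hE hP h)))).half,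
    by rw [real_St h2, real_St h1, real_St h0, real_proj hE]⟩

theorem jf_nonneg_Final {v : ℝ} (hv : 0 ≤ v) : 0 ≤ jf v :=
  le_min (by positivity) (le_min (Real.sqrt_nonneg _) zero_le_one)

theorem half_lower (hN : Numerics) {E : Set T3} (hE : MeasurableSet E)
    (hv : (volume : Measure T3).real E ≤ 1 / 2) :
    ENNReal.ofReal (2 * jf ((volume : Measure T3).real E)) ≤ perim E := by
  by_cases ht : perim E = ⊤
  · rw [ht]
    exact le_top
  obtain ⟨h1, h2, h3⟩ := steiner_Final hE ENNReal.toReal_nonneg (ENNReal.ofReal_toReal ht).ge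
  have h4 := cube_lower hN h1 h2 (h3 ▸ hv)
  rw [h3] at h4
  exact (ENNReal.ofReal_le_iff_le_toReal ht).2 (by linarith)

theorem half_rigid (hN : Numerics) {E : Set T3} (hE : MeasurableSet E)
    (hv0 : 0 < (volume : Measure T3).real E) (hv : (volume : Measure T3).real E ≤ 1 / 2)
    (hP : perim E ≤ ENNReal.ofReal (2 * jf ((volume : Measure T3).real E))) :
    ∃ C : Set T3, IsCanonical C ∧ E =ᵐ[volume] C := by
  have hj := jf_nonneg_Final hv0.le
  obtain ⟨h1, h2, h3⟩ := steiner_Final hE (by linarith) hP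
  obtain ⟨e1, e2, e3, r, z1, z2, z3, h0, hr0, hr1, hr, he⟩ :=
    cube_rigid hN h1 h2 (h3 ▸ hv0) (h3 ▸ hv) (by rw [h3]; linarith)
  rw [canC_half] at he
  rw [h3] at hr
  obtain ⟨c, hc⟩ := chain (P := 2 * jf ((volume : Measure T3).real E)) z1 z2 z3 (half_pos hr0)
    (by linarith) hE (fun c => appr_of_perim (measurableSet_shiftT hE c) (by linarith)
      (by rwa [perim_shiftT hE])) (by linarith) he
  exact ⟨_, isCanonical_canT z1 z2 z3 h0 (half_pos hr0) (by linarith) c, hc⟩

theorem prob_Final : IsProbabilityMeasure (volume : Measure T3) :=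
  measurePreserving_proj.map_eq ▸ Measure.isProbabilityMeasure_map measurable_proj.aemeasurable

theorem reduce_Final {V : ℝ} (h0 : 0 < V) {E : Set T3} (hE : NullMeasurableSet E volume)
    (hV : volume E = ENNReal.ofReal V) : ∃ F : Set T3, MeasurableSet F ∧
      (volume : Measure T3).real F = min V (1 - V) ∧ perim F = perim E ∧
      (E =ᵐ[volume] F ∨ E =ᵐ[volume] (Fᶜ : Set T3)) := by
  have := prob_Final
  obtain ⟨F, hF, he⟩ := hE
  have h1 : (volume : Measure T3).real F = V := by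
    rw [measureReal_def, ← measure_congr he, hV, ENNReal.toReal_ofReal h0.le]
  rcases le_total V (1 - V) with h | h
  · exact ⟨F, hF, by rw [h1, min_eq_left h], (perim_congr he).symm, Or.inl he⟩
  · exact ⟨Fᶜ, hF.compl, by rw [probReal_compl_eq_one_sub hF, h1, min_eq_right h],
      (perim_compl hF).trans (perim_congr he).symm, Or.inr (by rwa [compl_compl])⟩

theorem main_of_numerics (hN : Numerics) :
    (∀ V : ℝ, 0 < V → V < 1 → profile V = ENNReal.ofReal (Jfun V)) ∧
    (∀ V : ℝ, 0 < V → V < 1 → ∀ E : Set T3, NullMeasurableSet E volume →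
      volume E = ENNReal.ofReal V → perim E = profile V →
      ∃ C : Set T3, IsCanonical C ∧ (E =ᵐ[volume] C ∨ E =ᵐ[volume] (Cᶜ : Set T3))) := by
  have hm : ∀ V : ℝ, min V (1 - V) ≤ 1 / 2 := fun V => by
    rcases le_total V (1 / 2) with h | h
    · exact (min_le_left _ _).trans h
    · exact (min_le_right _ _).trans (by linarith)
  have h1 : ∀ V : ℝ, 0 < V → V < 1 → profile V = ENNReal.ofReal (Jfun V) := by
    intro V h0 h1
    refine le_antisymm (profile_le h0 h1) (le_iInf fun E => le_iInf fun hE => le_iInf fun hV => ?_)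
    obtain ⟨F, hF, hv, hp, -⟩ := reduce_Final h0 hE hV
    rw [Jfun_eq, ← hv, ← hp]
    exact half_lower hN hF (hv ▸ hm V)
  refine ⟨h1, fun V h0 hV1 E hE hV hP => ?_⟩
  obtain ⟨F, hF, hv, hp, he⟩ := reduce_Final h0 hE hV
  obtain ⟨C, hC, hc⟩ := half_rigid hN hF (hv ▸ lt_min h0 (sub_pos.2 hV1)) (hv ▸ hm V)
    (by rw [hp, hP, h1 V h0 hV1, Jfun_eq, hv])
  exact ⟨C, hC, he.imp (fun k => k.trans hc) fun k => k.trans hc.compl⟩

end Vale.Agent.P232
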