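import Vale.Agent.P232.Torus
import Vale.Agent.P232.IBP

/-!
# P232 / MollA

Mollification on the cover. `ρ = φ.normed volume` for `φ : ContDiffBump (0 : R3)` (even, `≥ 0`,
integral one, compact support). `moll φ g x = ∫ y, ρ y * g (x - y)`; relate it to
`MeasureTheory.convolution` (`HasCompactSupport.contDiff_convolution_left`,
`HasCompactSupport.hasFDerivAt_convolution_left`,
`ContDiffBump.ae_convolution_tendsto_right_of_locallyIntegrable`).
`moll_symm`: Fubini, `integral_shift`, evenness of `ρ`.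
`moll_fderiv_symm`: the same with the odd kernel `fderiv ρ · w`.
`moll_sq_le`: test against the unit vector in the direction of the left side.
-/

open MeasureTheory Set

namespace Vale.Agent.P232

/-- Mollification with a normalised bump. -/
noncomputable def moll (φ : ContDiffBump (0 : R3)) (g : R3 → ℝ) (x : R3) : ℝ :=
  ∫ y, φ.normed volume y * g (x - y)

theorem haar_MollA : (volume : Measure R3).IsAddHaarMeasure := by
  have : (volume : Measure (ℝ × ℝ)).IsAddHaarMeasure :=
    Measure.prod.instIsAddHaarMeasure volume volume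
  exact Measure.prod.instIsAddHaarMeasure volume volume

theorem loc_MollA {g : R3 → ℝ} (hg : Measurable g) (C : ℝ) (hC : ∀ x, |g x| ≤ C) :
    LocallyIntegrable g volume :=
  (memLp_top_of_bound hg.aestronglyMeasurable C (Filter.Eventually.of_forall hC)).locallyIntegrable
    le_top

theorem int_MollA {κ g : R3 → ℝ} (hκ : Integrable κ) (hg : Measurable g) {C : ℝ}
    (hC : ∀ x, |g x| ≤ C) (p : R3) : Integrable fun y => κ y * g (p - y) :=
  hκ.mul_bdd (c := C) (hg.comp (measurable_const.sub measurable_id)).aestronglyMeasurable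
    (Filter.Eventually.of_forall fun _ => hC _)

theorem fub_MollA {κ : R3 → ℝ} (hκ : Integrable κ) {F : R3 → R3 → ℝ}
    (hF : Measurable fun z : R3 × R3 => F z.1 z.2) {B : ℝ} (hB : ∀ p y, |F p y| ≤ B) :
    ∫ p, ∫ y, κ y * F p y ∂volume ∂μ3 = ∫ y, κ y * ∫ p, F p y ∂μ3 := by
  rw [integral_integral_swap]
  · simp only [integral_const_mul]
  · exact (hκ.comp_snd μ3).mul_bdd (c := B) hF.aestronglyMeasurable
      (Filter.Eventually.of_forall fun z => hB _ _)

theorem per_MollA {g : R3 → ℝ} (hp : Periodic3 g) (c : R3) : Periodic3 fun p => g (p - c) := by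
  intro x y z
  obtain ⟨a, b, d⟩ := c
  have := hp (x - a) (y - b) (z - d)
  simp only [Prod.mk_sub_mk, add_sub_right_comm]
  exact this

theorem symm_MollA {κ g k : R3 → ℝ} (hκ : Integrable κ) (hg : Measurable g)
    (hk : Measurable k) {C : ℝ} (hgC : ∀ x, |g x| ≤ C) (hkC : ∀ x, |k x| ≤ C) (hgp : Periodic3 g)
    (hkp : Periodic3 k) :
    ∫ p, g p * ∫ y, κ y * k (p - y) ∂volume ∂μ3 =
      ∫ p, (∫ y, κ (-y) * g (p - y) ∂volume) * k p ∂μ3 := by
  have := haar_MollA
  have hb : ∀ x y, |g x * k y| ≤ C * C := fun x y => by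
    rw [abs_mul]
    exact mul_le_mul (hgC x) (hkC y) (abs_nonneg _) ((abs_nonneg _).trans (hgC x))
  have e1 : ∀ p, g p * ∫ y, κ y * k (p - y) = ∫ y, κ y * (g p * k (p - y)) := fun p => by
    rw [← integral_const_mul]
    exact integral_congr_ae (Filter.Eventually.of_forall fun y => by ring)
  have e2 : ∀ p, (∫ y, κ (-y) * g (p - y)) * k p = ∫ y, κ (-y) * (g (p - y) * k p) := fun p => by
    rw [← integral_mul_const]
    exact integral_congr_ae (Filter.Eventually.of_forall fun y => by ring)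
  simp only [e1, e2]
  rw [fub_MollA hκ (F := fun p y => g p * k (p - y)) (by fun_prop) fun p y => hb _ _,
    fub_MollA hκ.comp_neg (F := fun p y => g (p - y) * k p) (by fun_prop) fun p y => hb _ _,
    ← integral_neg_eq_self _ volume]
  refine integral_congr_ae (Filter.Eventually.of_forall fun y => ?_)
  have h1 := integral_shift (g := fun p => g p * k (p - -y)) (by fun_prop) (C * C)
    (fun p => hb _ _) (fun x y' z => by
      obtain ⟨a1, a2, a3⟩ := hgp x y' z
      obtain ⟨b1, b2, b3⟩ := per_MollA hkp (-y) x y' z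
      simp only at b1 b2 b3 ⊢
      rw [a1, a2, a3, b1, b2, b3]
      exact ⟨rfl, rfl, rfl⟩) (-y)
  simp only [add_sub_cancel_right] at h1
  simp only
  rw [← h1]
  simp only [sub_eq_add_neg]

theorem fderiv_MollA (φ : ContDiffBump (0 : R3)) {g : R3 → ℝ} (hg : Measurable g) (C : ℝ)
    (hC : ∀ x, |g x| ≤ C) (p w : R3) :
    fderiv ℝ (moll φ g) p w = ∫ y, fderiv ℝ (φ.normed volume) y w * g (p - y) := by
  have := haar_MollA
  have h0 : ContDiff ℝ 1 (φ.normed volume) := φ.contDiff_normed (n := 1)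
  have h1 := (φ.hasCompactSupport_normed.hasFDerivAt_convolution_left
    (ContinuousLinearMap.lsmul ℝ ℝ) h0 (loc_MollA hg C hC) p).fderiv
  have h2 := (φ.hasCompactSupport_normed.fderiv ℝ).convolutionExists_left
    ((ContinuousLinearMap.lsmul ℝ ℝ : ℝ →L[ℝ] ℝ →L[ℝ] ℝ).precompL R3)
    (h0.continuous_fderiv one_ne_zero) (loc_MollA hg C hC) p
  have h3 : fderiv ℝ (moll φ g) p = _ := h1
  rw [h3, convolution_def, ContinuousLinearMap.integral_apply h2]
  rfl

theorem odd_MollA (φ : ContDiffBump (0 : R3)) (y w : R3) :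
    fderiv ℝ (φ.normed volume) (-y) w = - fderiv ℝ (φ.normed volume) y w := by
  have h0 : Differentiable ℝ (φ.normed volume) :=
    (φ.contDiff_normed (n := 1)).differentiable (by simp)
  have h1 := (h0 (-y)).hasFDerivAt.comp y (hasFDerivAt_id y).neg
  have h2 : φ.normed volume ∘ Neg.neg = φ.normed volume := funext fun x => φ.normed_neg x
  rw [h2] at h1
  rw [h1.fderiv]
  simp

theorem abs_MollA (φ : ContDiffBump (0 : R3)) {g : R3 → ℝ} {C : ℝ} (hC : ∀ x, |g x| ≤ C)
    (p : R3) : |moll φ g p| ≤ C := by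
  have h := norm_integral_le_of_norm_le (f := fun y => φ.normed volume y * g (p - y))
    (φ.integrable_normed.mul_const C) (Filter.Eventually.of_forall fun y => by
      rw [Real.norm_eq_abs, abs_mul, abs_of_nonneg (φ.nonneg_normed y)]
      exact mul_le_mul_of_nonneg_left (hC _) (φ.nonneg_normed y))
  rw [integral_mul_const, φ.integral_normed, one_mul] at h
  exact h

theorem moll_contDiff (φ : ContDiffBump (0 : R3)) {g : R3 → ℝ} (hg : Measurable g) (C : ℝ)
    (hC : ∀ x, |g x| ≤ C) : ContDiff ℝ 1 (moll φ g) := by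
  have := haar_MollA
  exact φ.hasCompactSupport_normed.contDiff_convolution_left (ContinuousLinearMap.lsmul ℝ ℝ)
    (n := 1) φ.contDiff_normed (loc_MollA hg C hC)

theorem moll_periodic (φ : ContDiffBump (0 : R3)) {g : R3 → ℝ} (hp : Periodic3 g) :
    Periodic3 (moll φ g) := by
  intro x y z
  unfold moll
  refine ⟨?_, ?_, ?_⟩ <;> refine integral_congr_ae (Filter.Eventually.of_forall fun c => ?_)
  · exact congrArg _ (per_MollA hp c x y z).1
  · exact congrArg _ (per_MollA hp c x y z).2.1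
  · exact congrArg _ (per_MollA hp c x y z).2.2

theorem moll_sq_le (φ : ContDiffBump (0 : R3)) {X Y Z : R3 → ℝ} (hX : Measurable X)
    (hY : Measurable Y) (hZ : Measurable Z) (h : ∀ p, X p ^ 2 + Y p ^ 2 + Z p ^ 2 ≤ 1) (p : R3) :
    moll φ X p ^ 2 + moll φ Y p ^ 2 + moll φ Z p ^ 2 ≤ 1 := by
  have bX : ∀ q, |X q| ≤ 1 := fun q =>
    abs_le.2 ⟨by nlinarith [h q, sq_nonneg (Y q), sq_nonneg (Z q)],
      by nlinarith [h q, sq_nonneg (Y q), sq_nonneg (Z q)]⟩
  have bY : ∀ q, |Y q| ≤ 1 := fun q =>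
    abs_le.2 ⟨by nlinarith [h q, sq_nonneg (X q), sq_nonneg (Z q)],
      by nlinarith [h q, sq_nonneg (X q), sq_nonneg (Z q)]⟩
  have bZ : ∀ q, |Z q| ≤ 1 := fun q =>
    abs_le.2 ⟨by nlinarith [h q, sq_nonneg (X q), sq_nonneg (Y q)],
      by nlinarith [h q, sq_nonneg (X q), sq_nonneg (Y q)]⟩
  have iX := int_MollA φ.integrable_normed hX bX p
  have iY := int_MollA φ.integrable_normed hY bY p
  have iZ := int_MollA φ.integrable_normed hZ bZ p
  obtain ⟨a, ha⟩ : ∃ a, a = moll φ X p := ⟨_, rfl⟩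
  obtain ⟨b, hb⟩ : ∃ b, b = moll φ Y p := ⟨_, rfl⟩
  obtain ⟨c, hc⟩ : ∃ c, c = moll φ Z p := ⟨_, rfl⟩
  have i1 := (iX.const_mul a).add (iY.const_mul b)
  have key := integral_mono (i1.add (iZ.const_mul c))
    (φ.integrable_normed.mul_const ((a ^ 2 + b ^ 2 + c ^ 2 + 1) / 2)) fun y => by
      have h0 := φ.nonneg_normed (μ := volume) y
      have h1 : a * X (p - y) + b * Y (p - y) + c * Z (p - y) ≤ (a ^ 2 + b ^ 2 + c ^ 2 + 1) / 2 := by
        nlinarith [h (p - y), sq_nonneg (a - X (p - y)), sq_nonneg (b - Y (p - y)),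
          sq_nonneg (c - Z (p - y))]
      have h2 := mul_le_mul_of_nonneg_left h1 h0
      simp only [Pi.add_apply]
      linarith
  rw [integral_add' i1 (iZ.const_mul c), integral_add' (iX.const_mul a) (iY.const_mul b),
    integral_const_mul, integral_const_mul, integral_const_mul, integral_mul_const,
    φ.integral_normed] at key
  change a * moll φ X p + b * moll φ Y p + c * moll φ Z p ≤ _ at key
  rw [← ha, ← hb, ← hc] at key ⊢
  nlinarith

theorem moll_fderiv_symm (φ : ContDiffBump (0 : R3)) {g k : R3 → ℝ} (hg : Measurable g)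
    (hk : Measurable k) (C : ℝ) (hgC : ∀ x, |g x| ≤ C) (hkC : ∀ x, |k x| ≤ C) (hgp : Periodic3 g)
    (hkp : Periodic3 k) (w : R3) :
    ∫ p, g p * fderiv ℝ (moll φ k) p w ∂μ3 = - ∫ p, fderiv ℝ (moll φ g) p w * k p ∂μ3 := by
  have h0 : ContDiff ℝ 1 (φ.normed volume) := φ.contDiff_normed (n := 1)
  have hκ : Integrable fun y => fderiv ℝ (φ.normed volume) y w :=
    ((h0.continuous_fderiv one_ne_zero).clm_apply continuous_const).integrable_of_hasCompactSupport
      (φ.hasCompactSupport_normed.fderiv_apply ℝ w)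
  simp only [fderiv_MollA φ hg C hgC, fderiv_MollA φ hk C hkC]
  rw [symm_MollA hκ hg hk hgC hkC hgp hkp, ← integral_neg]
  simp only [odd_MollA, neg_mul, integral_neg]

theorem moll_close {g : R3 → ℝ} (hg : Measurable g) (C : ℝ) (hC : ∀ x, |g x| ≤ C) {ε : ℝ}
    (hε : 0 < ε) : ∃ φ : ContDiffBump (0 : R3), ∫ p, |moll φ g p - g p| ∂μ3 ≤ ε := by
  have := haar_MollA
  let φ : ℕ → ContDiffBump (0 : R3) := fun n =>
    ⟨1 / ((n : ℝ) + 1), 2 * (1 / ((n : ℝ) + 1)), by positivity, by
      have : 0 < 1 / ((n : ℝ) + 1) := by positivity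
      linarith⟩
  have h1 : Filter.Tendsto (fun n => (φ n).rOut) Filter.atTop (nhds 0) := by
    have := (tendsto_one_div_add_atTop_nhds_zero_nat (𝕜 := ℝ)).const_mul 2
    rw [mul_zero] at this
    exact this
  have h2 := ContDiffBump.ae_convolution_tendsto_right_of_locallyIntegrable (K := 2) h1
    (Filter.Eventually.of_forall fun n => le_rfl) (loc_MollA hg C hC)
  have h3 : ∀ᵐ p ∂μ3, Filter.Tendsto (fun n => |moll (φ n) g p - g p|) Filter.atTop (nhds 0) := by
    rw [μ3_eq]
    filter_upwards [ae_restrict_of_ae h2] with p hp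
    have := (hp.sub_const (g p)).abs
    rw [sub_self, abs_zero] at this
    exact this
  have h4 := tendsto_integral_of_dominated_convergence (μ := μ3) (fun _ => C + C)
    (fun n => (((moll_contDiff (φ n) hg C hC).continuous.measurable.sub hg).abs).aestronglyMeasurable)
    (integrable_const _) (fun n => Filter.Eventually.of_forall fun p => by
      rw [Real.norm_eq_abs, abs_abs]
      exact (abs_sub _ _).trans (add_le_add (abs_MollA _ hC p) (hC p))) h3
  rw [integral_zero] at h4
  obtain ⟨n, hn⟩ := (h4.eventually (ge_mem_nhds hε)).exists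
  exact ⟨φ n, hn⟩

end Vale.Agent.P232
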