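import Vale.Agent.P232.Torus
import Vale.Agent.P232.IBP

/-!
# P232 / PerimB

Invariances of `perim`, and the upper bound by approximants.
`perim_compl`: `∫ div X ∂μ3 = 0` (`ibp1..3`), use the field `-X`. `perim_shiftT`: translate the field,
`integral_shift`. `perim_le_of_appr`: `∫ u div X = -∫ ∇u · X ≤ ∫ |∇u|` (`ibp` for the products
`u X`, `u Y`, `u Z`), and `|∫ (u - 1_E) div X| ≤ ε sup |div X|`.
-/

open MeasureTheory Set

namespace Vale.Agent.P232

theorem fd_PerimB {X : R3 → ℝ} (hX : ContDiff ℝ 1 X) (hp : Periodic3 X) (w : R3) :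
    Continuous (fun p => fderiv ℝ X p w) ∧ Periodic3 fun p => fderiv ℝ X p w :=
  ⟨(hX.continuous_fderiv one_ne_zero).clm_apply continuous_const,
    hp.fderiv_apply (hX.differentiable one_ne_zero) w⟩

theorem dv_PerimB {X Y Z : R3 → ℝ} (h : IsTest X Y Z) :
    Continuous (divg X Y Z) ∧ Periodic3 (divg X Y Z) := by
  obtain ⟨h1, h2, h3, p1, p2, p3, -⟩ := h
  obtain ⟨a1, b1⟩ := fd_PerimB h1 p1 (1, 0, 0)
  obtain ⟨a2, b2⟩ := fd_PerimB h2 p2 (0, 1, 0)
  obtain ⟨a3, b3⟩ := fd_PerimB h3 p3 (0, 0, 1)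
  refine ⟨(a1.add a2).add a3, fun x y z => ?_⟩
  have c1 := b1 x y z
  have c2 := b2 x y z
  have c3 := b3 x y z
  unfold divg
  simp only at c1 c2 c3
  rw [c1.1, c1.2.1, c1.2.2, c2.1, c2.2.1, c2.2.2, c3.1, c3.2.1, c3.2.2]
  exact ⟨rfl, rfl, rfl⟩

theorem mul_PerimB {f g : R3 → ℝ} {C D : ℝ} (hf : ∀ p, |f p| ≤ C) (hg : ∀ p, |g p| ≤ D) (p : R3) :
    |f p * g p| ≤ C * D := by
  rw [abs_mul]
  exact mul_le_mul (hf p) (hg p) (abs_nonneg _) ((abs_nonneg _).trans (hf p))

theorem ind_PerimB (S : Set R3) (p : R3) : |ind S p| ≤ 1 :=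
  abs_le.2 ⟨by linarith [(ind_mem S p).1], (ind_mem S p).2⟩

theorem prod_PerimB {u v X : R3 → ℝ} {C : ℝ} (hu : Measurable u) (hv : Measurable v)
    (bu : ∀ p, |u p| ≤ C) (bv : ∀ p, |v p| ≤ C) (hX : ContDiff ℝ 1 X) (hp : Periodic3 X) (w : R3) :
    Measurable (fun p => v p * X p + u p * fderiv ℝ X p w) ∧
      ∃ D, ∀ p, |v p * X p + u p * fderiv ℝ X p w| ≤ D := by
  obtain ⟨a, b⟩ := fd_PerimB hX hp w
  obtain ⟨D, hD⟩ := b.bdd a
  obtain ⟨D', hD'⟩ := hp.bdd hX.continuous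
  exact ⟨(hv.mul hX.continuous.measurable).add (hu.mul a.measurable), _, fun p =>
    (abs_add_le _ _).trans (add_le_add (mul_PerimB bv hD' p) (mul_PerimB bu hD p))⟩

theorem ibp_PerimB {X Y Z u u1 u2 u3 : R3 → ℝ} (h : IsTest X Y Z) (hu : Adm3 u u1 u2 u3)
    (e1 : ∀ y z, u (1, y, z) = u (0, y, z)) (e2 : ∀ x z, u (x, 1, z) = u (x, 0, z))
    (e3 : ∀ x y, u (x, y, 1) = u (x, y, 0)) :
    ∫ p, (u p * divg X Y Z p + (u1 p * X p + u2 p * Y p + u3 p * Z p)) ∂μ3 = 0 := by
  obtain ⟨h1, h2, h3, p1, p2, p3, -⟩ := h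
  obtain ⟨m0, m1, m2, m3, ⟨C, hC⟩, d1, d2, d3⟩ := hu
  obtain ⟨a1, D1, b1⟩ := prod_PerimB m0 m1 (fun p => (hC p).1) (fun p => (hC p).2.1) h1 p1 (1, 0, 0)
  obtain ⟨a2, D2, b2⟩ := prod_PerimB m0 m2 (fun p => (hC p).1) (fun p => (hC p).2.2.1) h2 p2
    (0, 1, 0)
  obtain ⟨a3, D3, b3⟩ := prod_PerimB m0 m3 (fun p => (hC p).1) (fun p => (hC p).2.2.2) h3 p3
    (0, 0, 1)
  have i1 := ibp1 (g := fun p => u p * X p) a1 D1 b1 (fun x y z => (d1 x y z).mul
    (hasDerivAt_coord1 (h1.differentiable one_ne_zero) x y z)) fun y z => by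
      have := (p1 0 y z).1
      rw [zero_add] at this
      simp only [e1, this]
  have i2 := ibp2 (g := fun p => u p * Y p) a2 D2 b2 (fun x y z => (d2 x y z).mul
    (hasDerivAt_coord2 (h2.differentiable one_ne_zero) x y z)) fun x z => by
      have := (p2 x 0 z).2.1
      rw [zero_add] at this
      simp only [e2, this]
  have i3 := ibp3 (g := fun p => u p * Z p) a3 D3 b3 (fun x y z => (d3 x y z).mul
    (hasDerivAt_coord3 (h3.differentiable one_ne_zero) x y z)) fun x y => by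
      have := (p3 x y 0).2.2
      rw [zero_add] at this
      simp only [e3, this]
  have j1 := integrable_of_bdd μ3 a1 D1 b1
  have j2 := integrable_of_bdd μ3 a2 D2 b2
  have j3 := integrable_of_bdd μ3 a3 D3 b3
  have k1 := integral_add j1 j2
  have k2 := integral_add (j1.add j2) j3
  simp only [Pi.add_apply] at k2
  rw [k1, i1, i2, i3, add_zero, add_zero] at k2
  refine Eq.trans (integral_congr_ae (Filter.Eventually.of_forall fun p => ?_)) k2
  unfold divg
  ring

theorem le_PerimB {A B : Set T3} (hA : MeasurableSet A) (hB : MeasurableSet B)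
    (h : ∀ X Y Z, IsTest X Y Z → ∃ X' Y' Z', IsTest X' Y' Z' ∧
      ∫ p, ind (proj ⁻¹' A) p * divg X Y Z p ∂μ3 = ∫ p, ind (proj ⁻¹' B) p * divg X' Y' Z' p ∂μ3) :
    perim A ≤ perim B := by
  refine iSup_le fun X => iSup_le fun Y => iSup_le fun Z => iSup_le fun hT => ?_
  obtain ⟨X', Y', Z', hT', e⟩ := h X Y Z hT
  refine le_iSup_of_le X' (le_iSup_of_le Y' (le_iSup_of_le Z' (le_iSup_of_le hT' (le_of_eq ?_))))
  rw [integral_cube_inter (measurable_proj hA), integral_cube_inter (measurable_proj hB), e]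

theorem compl_PerimB {E : Set T3} (hE : MeasurableSet E) : perim Eᶜ ≤ perim E := by
  refine le_PerimB hE.compl hE fun X Y Z hT => ⟨-X, -Y, -Z, ?_, ?_⟩
  · obtain ⟨h1, h2, h3, p1, p2, p3, hb⟩ := hT
    refine ⟨h1.neg, h2.neg, h3.neg, fun x y z => ?_, fun x y z => ?_, fun x y z => ?_, fun p => ?_⟩
    · simpa using p1 x y z
    · simpa using p2 x y z
    · simpa using p3 x y z
    · simpa using hb p
  · have h0 := ibp_PerimB (u := fun _ => 1) (u1 := fun _ => 0) (u2 := fun _ => 0) (u3 := fun _ => 0)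
      hT ⟨measurable_const, measurable_const, measurable_const, measurable_const,
        ⟨1, fun _ => by simp⟩, fun _ _ _ => hasDerivAt_const _ _, fun _ _ _ => hasDerivAt_const _ _,
        fun _ _ _ => hasDerivAt_const _ _⟩ (fun _ _ => rfl) (fun _ _ => rfl) fun _ _ => rfl
    simp only [one_mul, zero_mul, add_zero] at h0
    obtain ⟨a, b⟩ := dv_PerimB hT
    obtain ⟨C, hC⟩ := b.bdd a
    have j1 := integrable_of_bdd μ3 a.measurable C hC
    have j2 := integrable_of_bdd μ3 ((measurable_ind (measurable_proj hE)).mul a.measurable) _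
      (mul_PerimB (ind_PerimB _) hC)
    have k := integral_sub j1 j2
    rw [h0, zero_sub, ← integral_neg] at k
    refine Eq.trans (integral_congr_ae (Filter.Eventually.of_forall fun p => ?_))
      (k.trans (integral_congr_ae (Filter.Eventually.of_forall fun p => ?_)))
    · by_cases hp : p ∈ proj ⁻¹' E <;> simp [ind, hp]
    · simp only [divg, fderiv_neg, neg_apply, Pi.mul_apply]
      ring

theorem shift_PerimB {E : Set T3} (hE : MeasurableSet E) (c : T3) :
    perim (shiftT c E) ≤ perim E := by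
  obtain ⟨a, rfl⟩ := proj_surj c
  have per : ∀ X : R3 → ℝ, Periodic3 X → Periodic3 fun p => X (p - a) := fun X hX x y z => by
    have := hX (x - a.1) (y - a.2.1) (z - a.2.2)
    rw [← add_sub_right_comm, ← add_sub_right_comm, ← add_sub_right_comm] at this
    exact this
  refine le_PerimB (measurableSet_shiftT hE _) hE fun X Y Z hT => ?_
  have hT' : IsTest (fun p => X (p - a)) (fun p => Y (p - a)) fun p => Z (p - a) := by
    obtain ⟨h1, h2, h3, p1, p2, p3, hb⟩ := hT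
    have hs : ContDiff ℝ 1 fun p : R3 => p - a := contDiff_id.sub contDiff_const
    exact ⟨h1.comp hs, h2.comp hs, h3.comp hs, per X p1, per Y p2, per Z p3, fun p => hb _⟩
  refine ⟨_, _, _, hT', ?_⟩
  obtain ⟨a1, b1⟩ := dv_PerimB hT'
  obtain ⟨C, hC⟩ := b1.bdd a1
  refine Eq.trans ?_ (integral_shift ((measurable_ind (measurable_proj hE)).mul a1.measurable) _
    (mul_PerimB (ind_PerimB _) hC) (fun x y z => by
      have c1 := periodic_ind_proj E x y z
      have c2 := b1 x y z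
      simp only [Pi.mul_apply]
      rw [c1.1, c1.2.1, c1.2.2, c2.1, c2.2.1, c2.2.2]
      exact ⟨rfl, rfl, rfl⟩) a)
  refine integral_congr_ae (Filter.Eventually.of_forall fun p => ?_)
  simp only [Pi.mul_apply, divg, fderiv_comp_sub, add_sub_cancel_right]
  congr 1

theorem perim_congr {A B : Set T3} (h : A =ᵐ[volume] B) : perim A = perim B := by
  have h1 := measurePreserving_proj.quasiMeasurePreserving.preimage_ae_eq h
  have hc : MeasurableSet cube := measurableSet_Ico.prod (measurableSet_Ico.prod measurableSet_Ico)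
  rw [μ3_eq] at h1
  have h2 : (cube ∩ proj ⁻¹' A : Set R3) =ᵐ[volume] (cube ∩ proj ⁻¹' B : Set R3) := by
    filter_upwards [(ae_restrict_iff' hc).1 h1] with x hx
    exact propext (and_congr_right fun c => Iff.of_eq (hx c))
  unfold perim
  simp only [setIntegral_congr_set h2]

theorem perim_compl {E : Set T3} (hE : MeasurableSet E) : perim Eᶜ = perim E := by
  refine le_antisymm (compl_PerimB hE) ?_
  simpa only [compl_compl] using compl_PerimB hE.compl

theorem perim_shiftT {E : Set T3} (hE : MeasurableSet E) (c : T3) :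
    perim (shiftT c E) = perim E := by
  refine le_antisymm (shift_PerimB hE c) ?_
  have := shift_PerimB (measurableSet_shiftT hE c) (-c)
  have e : shiftT (-c) (shiftT c E) = E := by
    ext x
    simp [shiftT]
  rwa [e] at this

theorem perim_le_of_appr {E : Set T3} (hE : MeasurableSet E) {P : ℝ}
    (h : ∀ ε > (0 : ℝ), ∃ u u1 u2 u3 : R3 → ℝ, Adm3 u u1 u2 u3 ∧
      (∀ y z, u (1, y, z) = u (0, y, z)) ∧ (∀ x z, u (x, 1, z) = u (x, 0, z)) ∧
      (∀ x y, u (x, y, 1) = u (x, y, 0)) ∧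
      ∫ x, |u x - ind (proj ⁻¹' E) x| ∂μ3 ≤ ε ∧ en3 1 1 1 u1 u2 u3 ≤ P + ε) :
    perim E ≤ ENNReal.ofReal P := by
  refine iSup_le fun X => iSup_le fun Y => iSup_le fun Z => iSup_le fun hT => ?_
  rw [integral_cube_inter (measurable_proj hE)]
  refine ENNReal.ofReal_le_ofReal (le_of_forall_pos_le_add fun ε hε => ?_)
  obtain ⟨a, b⟩ := dv_PerimB hT
  obtain ⟨C, hC⟩ := b.bdd a
  have C0 : 0 ≤ C := (abs_nonneg _).trans (hC 0)
  obtain ⟨u, u1, u2, u3, hu, e1, e2, e3, k1, k2⟩ := h (ε / (C + 1)) (by positivity)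
  have h0 := ibp_PerimB hT hu e1 e2 e3
  obtain ⟨h1, h2, h3, -, -, -, hb⟩ := hT
  obtain ⟨m0, m1, m2, m3, ⟨D, hD⟩, -⟩ := hu
  have mi := measurable_ind (measurable_proj hE)
  have bX : ∀ p, |X p| ≤ 1 := fun p => abs_le_one_iff_mul_self_le_one.2 (by
    nlinarith [hb p, sq_nonneg (Y p), sq_nonneg (Z p)])
  have bY : ∀ p, |Y p| ≤ 1 := fun p => abs_le_one_iff_mul_self_le_one.2 (by
    nlinarith [hb p, sq_nonneg (X p), sq_nonneg (Z p)])
  have bZ : ∀ p, |Z p| ≤ 1 := fun p => abs_le_one_iff_mul_self_le_one.2 (by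
    nlinarith [hb p, sq_nonneg (X p), sq_nonneg (Y p)])
  have j0 : Integrable (fun p => ind (proj ⁻¹' E) p * divg X Y Z p) μ3 :=
    integrable_of_bdd μ3 (mi.mul a.measurable) _ (mul_PerimB (ind_PerimB _) hC)
  have j1 : Integrable (fun p => u p * divg X Y Z p + (u1 p * X p + u2 p * Y p + u3 p * Z p)) μ3 :=
    (integrable_of_bdd μ3 (m0.mul a.measurable) _ (mul_PerimB (fun p => (hD p).1) hC)).add
      (((integrable_of_bdd μ3 (m1.mul h1.continuous.measurable) _
        (mul_PerimB (fun p => (hD p).2.1) bX)).add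
      (integrable_of_bdd μ3 (m2.mul h2.continuous.measurable) _
        (mul_PerimB (fun p => (hD p).2.2.1) bY))).add
      (integrable_of_bdd μ3 (m3.mul h3.continuous.measurable) _
        (mul_PerimB (fun p => (hD p).2.2.2) bZ)))
  have j2 : Integrable (fun p => |u p - ind (proj ⁻¹' E) p|) μ3 :=
    ((integrable_of_bdd μ3 m0 D fun p => (hD p).1).sub
      (integrable_of_bdd μ3 mi 1 (ind_PerimB _))).abs
  have j3 : Integrable (fun p => √((1 * u1 p) ^ 2 + (1 * u2 p) ^ 2 + (1 * u3 p) ^ 2)) μ3 := by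
    refine integrable_of_bdd μ3 (by fun_prop) (√(D ^ 2 + D ^ 2 + D ^ 2)) fun p => ?_
    rw [abs_of_nonneg (Real.sqrt_nonneg _), one_mul, one_mul, one_mul]
    obtain ⟨-, c1, c2, c3⟩ := hD p
    exact Real.sqrt_le_sqrt (add_le_add (add_le_add (sq_le_sq' (abs_le.1 c1).1 (abs_le.1 c1).2)
      (sq_le_sq' (abs_le.1 c2).1 (abs_le.1 c2).2)) (sq_le_sq' (abs_le.1 c3).1 (abs_le.1 c3).2))
  have k3 := integral_mono (j0.sub j1) ((j2.const_mul C).add j3) fun p => by
    simp only [Pi.sub_apply, Pi.add_apply, one_mul]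
    have c1 : -(u1 p * X p + u2 p * Y p + u3 p * Z p) ≤ √(u1 p ^ 2 + u2 p ^ 2 + u3 p ^ 2) := by
      refine Real.le_sqrt_of_sq_le ?_
      have := mul_le_mul_of_nonneg_left (hb p)
        (show 0 ≤ u1 p ^ 2 + u2 p ^ 2 + u3 p ^ 2 by positivity)
      nlinarith [sq_nonneg (u1 p * Y p - u2 p * X p), sq_nonneg (u1 p * Z p - u3 p * X p),
        sq_nonneg (u2 p * Z p - u3 p * Y p)]
    have c2 := neg_abs_le ((u p - ind (proj ⁻¹' E) p) * divg X Y Z p)
    rw [abs_mul] at c2
    have c3 := mul_le_mul_of_nonneg_left (hC p) (abs_nonneg (u p - ind (proj ⁻¹' E) p))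
    linarith
  simp only [Pi.sub_apply, Pi.add_apply] at k3
  rw [integral_sub j0 j1, h0, integral_add (j2.const_mul C) j3, integral_const_mul] at k3
  have k4 := mul_le_mul_of_nonneg_left k1 C0
  have k5 : C * (ε / (C + 1)) + ε / (C + 1) = ε := by field_simp
  unfold en3 at k2
  linarith

end Vale.Agent.P232
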