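import Vale.Agent.P232.Core2
import Vale.Agent.P232.Basic

/-!
# P232 / Poin

A function approximated in `L¹(K)` by functions with small gradient is a.e. constant on the
rectangle `K`. For `(y,z), (y',z') ∈ K`: `|F (y,z) - F (y',z')| ≤ ∫ s in a2..b2, |F2 (s,z)| +
∫ s in a3..b3, |F3 (y',s)|` (FTC). Integrate over `K × K`: the double integral of `|F q - F q'|` is
`≤ 2η` (all side lengths are `≤ 1`), so that of `|G q - G q'|` is `≤ 4η`, hence zero; Fubini gives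
`q'` with `G = G q'` a.e. on `K` (if `K` is null there is nothing to prove).
-/

open MeasureTheory Set

namespace Vale.Agent.P232

theorem ftc_Poin {a b : ℝ} (h0 : 0 ≤ a) (h1 : b ≤ 1) {f f' : ℝ → ℝ} (hm : Measurable f') {C : ℝ}
    (hC : ∀ s ∈ Icc a b, |f' s| ≤ C) (hd : ∀ s ∈ Icc a b, HasDerivAt f (f' s) s) {y y' : ℝ}
    (hy : y ∈ Icc a b) (hy' : y' ∈ Icc a b) :
    ‖f y - f y'‖ₑ ≤ ∫⁻ s, ‖f' s‖ₑ ∂(μ1.restrict (Icc a b)) := by
  wlog hle : y' ≤ y generalizing y y'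
  · rw [← enorm_neg, neg_sub]
    exact this hy' hy (le_of_not_ge hle)
  have hs : Icc y' y ⊆ Icc a b := Icc_subset_Icc hy'.1 hy.2
  have hi : IntervalIntegrable f' volume y' y := by
    rw [intervalIntegrable_iff_integrableOn_Icc_of_le hle]
    refine Measure.integrableOn_of_bounded (M := C) measure_Icc_lt_top.ne
      hm.aestronglyMeasurable ?_
    exact ae_restrict_of_forall_mem measurableSet_Icc fun s h => hC s (hs h)
  rw [← intervalIntegral.integral_eq_sub_of_hasDerivAt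
    (fun s h => hd s (hs (by rwa [uIcc_of_le hle] at h))) hi,
    intervalIntegral.integral_of_le hle, integral_Ioc_eq_integral_Ioo]
  refine (enorm_integral_le_lintegral_enorm _).trans (lintegral_mono' ?_ le_rfl)
  rw [μ1, Measure.restrict_restrict measurableSet_Icc]
  have hsub : Ioo y' y ⊆ Icc a b ∩ Ioo 0 1 := fun s h =>
    ⟨hs (Ioo_subset_Icc_self h), by linarith [h.1, hy'.1], by linarith [h.2, hy.2]⟩
  exact Measure.restrict_mono hsub le_rfl

theorem lint_Poin {K : Set (ℝ × ℝ)} (hK : MeasurableSet K) {f : ℝ × ℝ → ℝ} (hm : Measurable f)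
    {C η : ℝ} (hC : ∀ q ∈ K, |f q| ≤ C) (h : ∫ q in K, |f q| ∂μ2 ≤ η) :
    ∫⁻ q, ‖f q‖ₑ ∂(μ2.restrict K) ≤ ENNReal.ofReal η := by
  have hi : Integrable f (μ2.restrict K) :=
    Measure.integrableOn_of_bounded (M := C) (measure_ne_top _ _) hm.aestronglyMeasurable
      (ae_restrict_of_forall_mem hK hC)
  rw [← ofReal_integral_norm_eq_lintegral_enorm hi]
  exact ENNReal.ofReal_le_ofReal h

theorem dbl_Poin {α : Type} [MeasurableSpace α] {ν : Measure α} (hν : ν univ ≤ 1)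
    {g : α → α → ENNReal} {a b : α → ENNReal} (ha : Measurable a)
    (h : ∀ᵐ q' ∂ν, ∀ᵐ q ∂ν, g q' q ≤ a q + b q') :
    ∫⁻ q', ∫⁻ q, g q' q ∂ν ∂ν ≤ ∫⁻ q, a q ∂ν + ∫⁻ q, b q ∂ν := by
  have h1 : ∀ᵐ q' ∂ν, ∫⁻ q, g q' q ∂ν ≤ ∫⁻ q, a q ∂ν + b q' := by
    filter_upwards [h] with q' hq
    refine (lintegral_mono_ae hq).trans ?_
    rw [lintegral_add_left ha, lintegral_const]
    exact add_le_add le_rfl (mul_le_of_le_one_right' hν)
  refine (lintegral_mono_ae h1).trans ?_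
  rw [lintegral_add_left measurable_const, lintegral_const]
  exact add_le_add (mul_le_of_le_one_right' hν) le_rfl

theorem ae_const_rect {a2 b2 a3 b3 : ℝ} (h2 : 0 ≤ a2 ∧ a2 ≤ b2 ∧ b2 ≤ 1)
    (h3 : 0 ≤ a3 ∧ a3 ≤ b3 ∧ b3 ≤ 1) {G : ℝ × ℝ → ℝ} (hG : Measurable G) (CG : ℝ)
    (hGb : ∀ q ∈ Icc a2 b2 ×ˢ Icc a3 b3, |G q| ≤ CG)
    (h : ∀ η > (0 : ℝ), ∃ (F F2 F3 : ℝ × ℝ → ℝ) (C : ℝ), Measurable F ∧ Measurable F2 ∧
      Measurable F3 ∧ (∀ q ∈ Icc a2 b2 ×ˢ Icc a3 b3, |F q| ≤ C ∧ |F2 q| ≤ C ∧ |F3 q| ≤ C) ∧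
      (∀ y ∈ Icc a2 b2, ∀ z ∈ Icc a3 b3, HasDerivAt (fun s => F (s, z)) (F2 (y, z)) y ∧
        HasDerivAt (fun s => F (y, s)) (F3 (y, z)) z) ∧
      ∫ q in Icc a2 b2 ×ˢ Icc a3 b3, |F q - G q| ∂μ2 ≤ η ∧
      ∫ q in Icc a2 b2 ×ˢ Icc a3 b3, |F2 q| ∂μ2 ≤ η ∧
      ∫ q in Icc a2 b2 ×ˢ Icc a3 b3, |F3 q| ∂μ2 ≤ η) :
    ∃ k : ℝ, ∀ᵐ q ∂μ2, q ∈ Icc a2 b2 ×ˢ Icc a3 b3 → G q = k := by
  set K := Icc a2 b2 ×ˢ Icc a3 b3 with hK
  have mK : MeasurableSet K := measurableSet_Icc.prod measurableSet_Icc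
  set ν1 := μ1.restrict (Icc a2 b2) with hν1
  set ν2 := μ1.restrict (Icc a3 b3) with hν2
  have hν : μ2.restrict K = ν1.prod ν2 := (Measure.prod_restrict _ _).symm
  have m1 : ν1 univ ≤ 1 := (Measure.restrict_le_self _).trans prob_le_one
  have m2 : ν2 univ ≤ 1 := (Measure.restrict_le_self _).trans prob_le_one
  have m3 : (μ2.restrict K) univ ≤ 1 := (Measure.restrict_le_self _).trans prob_le_one
  have key : ∫⁻ q', ∫⁻ q, ‖G q - G q'‖ₑ ∂(μ2.restrict K) ∂(μ2.restrict K) = 0 := by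
    refine le_antisymm (ENNReal.le_of_forall_pos_le_add fun ε hε _ => ?_) zero_le
    obtain ⟨F, F2, F3, C, mF, mF2, mF3, hb, hd, i1, i2, i3⟩ := h (ε / 4) (by positivity)
    have j1 := lint_Poin mK (mF.sub hG) (C := C + CG) (fun q hq =>
      (abs_sub _ _).trans (add_le_add (hb q hq).1 (hGb q hq))) i1
    have j2 := lint_Poin mK mF2 (fun q hq => (hb q hq).2.1) i2
    have j3 := lint_Poin mK mF3 (fun q hq => (hb q hq).2.2) i3
    have mA : Measurable fun z : ℝ => ∫⁻ s, ‖F2 (s, z)‖ₑ ∂ν1 :=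
      Measurable.lintegral_prod_left' mF2.enorm
    have mB : Measurable fun y : ℝ => ∫⁻ s, ‖F3 (y, s)‖ₑ ∂ν2 :=
      Measurable.lintegral_prod_right' mF3.enorm
    have mD : Measurable fun q => ‖F q - G q‖ₑ := (mF.sub hG).enorm
    have k2 : ∫⁻ q : ℝ × ℝ, ∫⁻ s, ‖F2 (s, q.2)‖ₑ ∂ν1 ∂(μ2.restrict K) ≤
        ENNReal.ofReal (ε / 4) := by
      refine le_trans ?_ j2
      rw [hν, lintegral_prod_symm _ mF2.enorm.aemeasurable,
        lintegral_prod_symm (fun q : ℝ × ℝ => ∫⁻ s, ‖F2 (s, q.2)‖ₑ ∂ν1)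
          (mA.comp measurable_snd).aemeasurable]
      refine lintegral_mono fun z => ?_
      simp only [lintegral_const]
      exact mul_le_of_le_one_right' m1
    have k3 : ∫⁻ q : ℝ × ℝ, ∫⁻ s, ‖F3 (q.1, s)‖ₑ ∂ν2 ∂(μ2.restrict K) ≤
        ENNReal.ofReal (ε / 4) := by
      refine le_trans ?_ j3
      rw [hν, lintegral_prod _ mF3.enorm.aemeasurable,
        lintegral_prod (fun q : ℝ × ℝ => ∫⁻ s, ‖F3 (q.1, s)‖ₑ ∂ν2)
          (mB.comp measurable_fst).aemeasurable]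
      refine lintegral_mono fun z => ?_
      simp only [lintegral_const]
      exact mul_le_of_le_one_right' m2
    have d := dbl_Poin m3 (g := fun q' q => ‖G q - G q'‖ₑ)
      (a := fun q => ‖F q - G q‖ₑ + ∫⁻ s, ‖F2 (s, q.2)‖ₑ ∂ν1)
      (b := fun q => ‖F q - G q‖ₑ + ∫⁻ s, ‖F3 (q.1, s)‖ₑ ∂ν2) (mD.add (mA.comp measurable_snd))
      (ae_restrict_of_forall_mem mK fun q' hq' => ae_restrict_of_forall_mem mK fun q hq => by
        obtain ⟨y, z⟩ := q
        obtain ⟨y', z'⟩ := q'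
        have t1 := ftc_Poin h2.1 h2.2.2 (f := fun s => F (s, z)) (f' := fun s => F2 (s, z))
          (mF2.comp measurable_prodMk_right) (fun s hs => (hb (s, z) ⟨hs, hq.2⟩).2.1)
          (fun s hs => (hd s hs z hq.2).1) hq.1 hq'.1
        have t2 := ftc_Poin h3.1 h3.2.2 (f := fun s => F (y', s)) (f' := fun s => F3 (y', s))
          (mF3.comp measurable_prodMk_left) (fun s hs => (hb (y', s) ⟨hq'.1, hs⟩).2.2)
          (fun s hs => (hd y' hq'.1 s hs).2) hq.2 hq'.2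
        have e : G (y, z) - G (y', z') = (-(F (y, z) - G (y, z)) + (F (y, z) - F (y', z))) +
            ((F (y', z') - G (y', z')) + (F (y', z) - F (y', z'))) := by ring
        rw [e]
        refine (enorm_add_le _ _).trans (add_le_add ((enorm_add_le _ _).trans ?_)
          ((enorm_add_le _ _).trans (add_le_add le_rfl t2)))
        rw [enorm_neg]
        exact add_le_add le_rfl t1)
    refine d.trans ?_
    rw [lintegral_add_left mD, lintegral_add_left mD, zero_add]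
    refine (add_le_add (add_le_add j1 k2) (add_le_add j1 k3)).trans (le_of_eq ?_)
    have e0 : (0 : ℝ) ≤ ε / 4 := by positivity
    rw [← ENNReal.ofReal_add e0 e0, ← ENNReal.ofReal_add (by positivity) (by positivity),
      ← ENNReal.ofReal_coe_nnreal]
    congr 1
    ring
  have mG : Measurable fun p : (ℝ × ℝ) × (ℝ × ℝ) => ‖G p.2 - G p.1‖ₑ :=
    ((hG.comp measurable_snd).sub (hG.comp measurable_fst)).enorm
  rw [lintegral_eq_zero_iff (Measurable.lintegral_prod_right' mG)] at key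
  rcases eq_or_ne (μ2.restrict K) 0 with h0 | h0
  · refine ⟨0, (ae_restrict_iff' mK).1 ?_⟩
    rw [h0]
    simp
  · have : (ae (μ2.restrict K)).NeBot := ae_neBot.2 h0
    obtain ⟨q', hq'⟩ := Filter.Eventually.exists key
    refine ⟨G q', (ae_restrict_iff' mK).1 ?_⟩
    have hz := (lintegral_eq_zero_iff (hG.sub_const (G q')).enorm).1 hq'
    filter_upwards [hz] with q hq
    exact sub_eq_zero.1 (enorm_eq_zero.1 hq)

end Vale.Agent.P232
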