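import Vale.Agent.P232.Arc
import Vale.Agent.P232.Poin
import Vale.Agent.P232.SteinA

/-!
# P232 / Rect

Rigidity over a rectangle `K`. `E^q = {t | (t,q) ∈ E}`, `e q = ∫ t, |u (t,q) - 1_E (t,q)|`.
`arcs_ae`: with `η = 2⁻ᵏ` the functions `e k + max (τ k - 2) 0` have summable integrals on `K`, so tend
to `0` a.e. on `K`; `arc_stab` and `arc_closed`.
`moment_const`: `ψ t = cos (2πt - φ)`, `g = sin (π m0)/π ≥ sin (π δ)/π`, `N q = ∫ u (t,q) ψ t` (`fib_adm`),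
`F = N/g`, `F2 = (N2 - N cos(π m0) d2/g)/g`. For a.e. `q ∈ K`, with `c` from `arc_stab`:
`N2 ≈ (d2/2) ∫|u1|ψ ≈ d2 cos(π m0) cos(2πc-φ)` and `N ≈ g cos(2πc-φ)` (`integral_arc_cos`), so
`|F2| ≤ C' (e + max (τ-2) 0 + defect)`; `ae_const_rect`.
`rect_rigid`: for a.e. `q ∈ K` the moment equals `cos (2π c(q) - φ)`; use `φ = 0, π/2` and
`arc_eq_of_cos` (pick one good `q0` if `K` is not null).
-/

open MeasureTheory Set

namespace Vale.Agent.P232

theorem fib_Rect {f : R3 → ℝ} (hf : Measurable f) :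
    Measurable fun q : ℝ × ℝ => ∫ t, f (t, q) ∂μ1 :=
  hf.stronglyMeasurable.integral_prod_left'.measurable

theorem bd_Rect {f : ℝ → ℝ} {C : ℝ} (h : ∀ t, |f t| ≤ C) : |∫ t, f t ∂μ1| ≤ C := by
  simpa using norm_integral_le_of_norm_le_const (μ := μ1) (f := f) (C := C)
    (Filter.Eventually.of_forall h)

theorem absind_Rect {α : Type} (E : Set α) (x : α) : |ind E x| ≤ 1 :=
  abs_le.2 ⟨by linarith [(ind_mem E x).1], (ind_mem E x).2⟩

theorem inf_Rect {α : Type} [MeasurableSpace α] {ν : Measure α} {Q : α → ℝ → Prop}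
    (h : ∀ η > (0 : ℝ), ∃ W : α → ℝ, Measurable W ∧ Integrable W ν ∧ (∀ q, 0 ≤ W q) ∧
      ∫ q, W q ∂ν ≤ η ∧ ∀ q, Q q (W q)) : ∀ᵐ q ∂ν, ∀ η > (0 : ℝ), ∃ w < η, Q q w := by
  choose W hm hi h0 h1 hQ using fun k : ℕ => h _ (Nat.one_div_pos_of_nat (n := k))
  have g0 : ∀ q, 0 ≤ ⨅ k, W k q := fun q => le_ciInf fun k => h0 k q
  have g1 : ∀ k q, ⨅ k, W k q ≤ W k q := fun k q =>
    ciInf_le ⟨0, forall_mem_range.2 fun k => h0 k q⟩ k
  have gi : Integrable (fun q => ⨅ k, W k q) ν :=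
    (hi 0).mono' (Measurable.iInf hm).aestronglyMeasurable
      (Filter.Eventually.of_forall fun q => (abs_of_nonneg (g0 q)).trans_le (g1 0 q))
  have g2 : ∫ q, ⨅ k, W k q ∂ν ≤ 0 := ge_of_tendsto' tendsto_one_div_add_atTop_nhds_zero_nat
    fun k => (integral_mono gi (hi k) (g1 k)).trans (h1 k)
  filter_upwards [(integral_eq_zero_iff_of_nonneg g0 gi).1
    (le_antisymm g2 (integral_nonneg g0))] with q hq η hη
  obtain ⟨k, hk⟩ := exists_lt_of_ciInf_lt (hq.trans_lt hη)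
  exact ⟨_, hk, hQ k q⟩

/-- the fibre defect -/
noncomputable def wRect (E : Set R3) (u u1 : R3 → ℝ) (q : ℝ × ℝ) : ℝ :=
  (∫ t, |u (t, q) - ind E (t, q)| ∂μ1) + max (∫ t, |u1 (t, q)| ∂μ1 - 2) 0

theorem e_Rect {E : Set R3} (hE : MeasurableSet E) {u u1 u2 u3 : R3 → ℝ} (h : Adm3 u u1 u2 u3)
    (K : Set (ℝ × ℝ)) :
    IntegrableOn (fun q => ∫ t, |u (t, q) - ind E (t, q)| ∂μ1) K μ2 ∧
      ∫ q in K, ∫ t, |u (t, q) - ind E (t, q)| ∂μ1 ∂μ2 ≤ ∫ x, |u x - ind E x| ∂μ3 := by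
  obtain ⟨h1, -, -, -, ⟨C, hC⟩, -⟩ := h
  have hi : Integrable (fun x => |u x - ind E x|) μ3 :=
    ((integrable_of_bdd _ h1 C fun x => (hC x).1).sub
      (integrable_of_bdd _ (measurable_ind hE) 1 (absind_Rect E))).abs
  refine ⟨hi.integral_prod_right.integrableOn, ?_⟩
  rw [integral_prod_symm _ hi]
  exact setIntegral_le_integral hi.integral_prod_right
    (Filter.Eventually.of_forall fun q => integral_nonneg fun t => abs_nonneg _)

theorem w_Rect {E : Set R3} (hE : MeasurableSet E) {u u1 u2 u3 : R3 → ℝ} (h : Adm3 u u1 u2 u3)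
    (K : Set (ℝ × ℝ)) {η : ℝ} (h1 : ∫ x, |u x - ind E x| ∂μ3 ≤ η)
    (h2 : ∫ q in K, max (∫ t, |u1 (t, q)| ∂μ1 - 2) 0 ∂μ2 ≤ η) :
    Measurable (wRect E u u1) ∧ IntegrableOn (wRect E u u1) K μ2 ∧ (∀ q, 0 ≤ wRect E u u1 q) ∧
      ∫ q in K, wRect E u u1 q ∂μ2 ≤ 2 * η := by
  obtain ⟨h3, h4⟩ := e_Rect hE h K
  obtain ⟨m0, m1, -, -, ⟨C, hC⟩, -⟩ := h
  have hi : IntegrableOn (fun q => max (∫ t, |u1 (t, q)| ∂μ1 - 2) 0) K μ2 :=
    ((integrable_of_bdd μ3 m1 C fun x => (hC x).2.1).abs.integral_prod_right.sub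
      (integrable_const 2)).pos_part.integrableOn
  refine ⟨(fib_Rect (m0.sub (measurable_ind hE)).abs).add
    (((fib_Rect m1.abs).sub_const 2).max measurable_const), h3.add hi,
    fun q => add_nonneg (integral_nonneg fun t => abs_nonneg _) (le_max_right _ _), ?_⟩
  unfold wRect
  rw [integral_add h3 hi]
  linarith

theorem sin_Rect {δ m : ℝ} (hδ : 0 < δ) (h0 : δ ≤ m) (h1 : m ≤ 1 - δ) :
    δ / 2 ≤ Real.sin (Real.pi * m) / Real.pi ∧ Real.sin (Real.pi * m) / Real.pi ≤ 1 := by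
  have hp := Real.pi_pos
  have key : ∀ x, δ ≤ x → x ≤ 1 / 2 → 2 * δ ≤ Real.sin (Real.pi * x) := fun x h h' => by
    have := Real.mul_le_sin (x := Real.pi * x) (by nlinarith) (by nlinarith)
    rw [← mul_assoc, div_mul_cancel₀ _ hp.ne'] at this
    linarith
  have h2 : 2 * δ ≤ Real.sin (Real.pi * m) := by
    rcases le_total m (1 / 2) with h | h
    · exact key m h0 h
    · rw [← Real.sin_pi_sub, ← mul_one_sub]
      exact key _ (by linarith) (by linarith)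
  rw [le_div_iff₀ hp, div_le_one hp]
  exact ⟨by nlinarith [Real.pi_le_four], (Real.sin_le_one _).trans (by linarith [Real.two_le_pi])⟩

theorem alg_Rect {g δ N N2 T κ co d L C W D : ℝ} (hδ : 0 < δ) (hg : δ / 2 ≤ g) (hg1 : g ≤ 1)
    (hco : |co| ≤ 1) (hd : |d| ≤ L) (h1 : |N - κ * g| ≤ (1 + C) * W)
    (h2 : |T - 2 * co * κ| ≤ C * W) (h3 : |N2 - d / 2 * T| ≤ D) :
    |(N2 * g - N * (co * d)) / g ^ 2| ≤ 4 / δ ^ 2 * (D + L * (1 + 2 * C) * W) := by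
  have hg0 : 0 < g := by linarith
  have hL := (abs_nonneg _).trans hd
  have hW := (abs_nonneg _).trans h2
  have e : N2 * g - N * (co * d) =
      g * (N2 - d / 2 * T) + g * (d / 2 * (T - 2 * co * κ)) - (N - κ * g) * (co * d) := by ring
  have b1 : |g * (N2 - d / 2 * T)| ≤ D := by
    rw [abs_mul, abs_of_pos hg0]
    exact (mul_le_of_le_one_left (abs_nonneg _) hg1).trans h3
  have b2 : |g * (d / 2 * (T - 2 * co * κ))| ≤ L * (C * W) := by
    rw [abs_mul, abs_of_pos hg0]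
    refine (mul_le_of_le_one_left (abs_nonneg _) hg1).trans ?_
    rw [abs_mul, abs_div, abs_two]
    exact mul_le_mul (by linarith [abs_nonneg d]) h2 (abs_nonneg _) hL
  have b3 : |(N - κ * g) * (co * d)| ≤ (1 + C) * W * L := by
    rw [abs_mul, abs_mul]
    exact mul_le_mul h1 ((mul_le_of_le_one_left (abs_nonneg _) hco).trans hd) (by positivity)
      ((abs_nonneg _).trans h1)
  have b4 : |N2 * g - N * (co * d)| ≤ D + L * (1 + 2 * C) * W := by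
    rw [e]
    refine (abs_sub _ _).trans ((add_le_add (abs_add_le _ _) b3).trans ?_)
    linarith
  rw [abs_div, abs_of_pos (pow_pos hg0 2), div_eq_inv_mul]
  refine mul_le_mul ?_ b4 (abs_nonneg _) (by positivity)
  rw [inv_eq_one_div, div_le_div_iff₀ (by positivity) (by positivity)]
  nlinarith

theorem cos_Rect {f : ℝ → ℝ} (hf : Integrable f μ1) (φ : ℝ) :
    Integrable (fun t => f t * Real.cos (2 * Real.pi * t - φ)) μ1 :=
  hf.mul_bdd (c := 1) (by fun_prop) (Filter.Eventually.of_forall fun t => Real.abs_cos_le_one _)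

theorem diff_Rect {f g : ℝ → ℝ} (hf : Integrable f μ1) (hg : Integrable g μ1) (φ : ℝ) :
    |∫ t, f t * Real.cos (2 * Real.pi * t - φ) ∂μ1 - ∫ t, g t * Real.cos (2 * Real.pi * t - φ) ∂μ1|
      ≤ ∫ t, |f t - g t| ∂μ1 := by
  rw [← integral_sub (cos_Rect hf φ) (cos_Rect hg φ)]
  refine abs_integral_le_integral_abs.trans (integral_mono ((cos_Rect hf φ).sub (cos_Rect hg φ)).abs
    (hf.sub hg).abs fun t => ?_)
  simp only [← sub_mul, abs_mul]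
  exact mul_le_of_le_one_right (abs_nonneg _) (Real.abs_cos_le_one _)

theorem mom_Rect (c φ : ℝ) {δ m : ℝ} (hδ : 0 < δ) (h0 : δ ≤ m) (h1 : m ≤ 1 - δ) :
    ∫ t, ind (arc c (m / 2)) t * Real.cos (2 * Real.pi * t - φ) ∂μ1 =
      Real.cos (2 * Real.pi * c - φ) * (Real.sin (Real.pi * m) / Real.pi) := by
  rw [integral_arc_cos c φ (by linarith) (by linarith), mul_div_assoc,
    show 2 * Real.pi * (m / 2) = Real.pi * m by ring]

theorem pt_Rect {δ C L : ℝ} (hδ : 0 < δ) {u u1 v : ℝ → ℝ} {G : Set ℝ} (hu : Integrable u μ1)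
    (hu1 : Integrable u1 μ1) (hv : Integrable v μ1) (hG : MeasurableSet G) {m c φ d w : ℝ}
    (h0 : δ ≤ m) (h1 : m ≤ 1 - δ) (hd : |d| ≤ L) (hw : ∫ t, |u t - ind G t| ∂μ1 ≤ w)
    (a1 : ∫ t, |ind G t - ind (arc c (m / 2)) t| ∂μ1 ≤ C * w)
    (a2 : |(∫ t, |u1 t| * Real.cos (2 * Real.pi * t - φ) ∂μ1) -
      2 * Real.cos (Real.pi * m) * Real.cos (2 * Real.pi * c - φ)| ≤ C * w) :
    |((∫ t, v t * Real.cos (2 * Real.pi * t - φ) ∂μ1) * (Real.sin (Real.pi * m) / Real.pi) -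
      (∫ t, u t * Real.cos (2 * Real.pi * t - φ) ∂μ1) * (Real.cos (Real.pi * m) * d)) /
        (Real.sin (Real.pi * m) / Real.pi) ^ 2| ≤
      4 / δ ^ 2 * ((∫ t, |v t - d / 2 * (|u1 t|)| ∂μ1) + L * (1 + 2 * C) * w) := by
  have iG := integrable_of_bdd μ1 (measurable_ind hG) 1 (absind_Rect G)
  have iA := integrable_of_bdd μ1 (measurable_ind (measurableSet_arc c (m / 2))) 1 (absind_Rect _)
  refine alg_Rect hδ (sin_Rect hδ h0 h1).1 (sin_Rect hδ h0 h1).2 (Real.abs_cos_le_one _) hd ?_ a2 ?_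
  · rw [← mom_Rect c φ hδ h0 h1]
    refine (abs_sub_le _ _ _).trans ((add_le_add (diff_Rect hu iG φ) (diff_Rect iG iA φ)).trans ?_)
    linarith
  · have := diff_Rect hv (hu1.abs.const_mul (d / 2)) φ
    simp only [mul_assoc (d / 2), integral_const_mul] at this
    exact this

theorem arcs_ae {E : Set R3} (hE : MeasurableSet E) {K : Set (ℝ × ℝ)} (hK : MeasurableSet K)
    {δ : ℝ} (hδ : 0 < δ) (hm : ∀ᵐ q ∂μ2, q ∈ K → δ ≤ fib E q ∧ fib E q ≤ 1 - δ)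
    {d2 d3 : ℝ × ℝ → ℝ} (hT : Tight E K d2 d3) :
    ∀ᵐ q ∂μ2, q ∈ K → ∃ c, {t | (t, q) ∈ E} =ᵐ[μ1] arc c (fib E q / 2) := by
  obtain ⟨C, hC, hs⟩ := arc_stab hδ
  have hG : ∀ q : ℝ × ℝ, MeasurableSet {t | (t, q) ∈ E} := fun q => measurable_prodMk_right hE
  have key := inf_Rect (ν := μ2.restrict K) (Q := fun q w => δ ≤ fib E q → fib E q ≤ 1 - δ →
      ∃ c, ∫ t, |ind {t | (t, q) ∈ E} t - ind (arc c (fib E q / 2)) t| ∂μ1 ≤ C * w) fun η hη => by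
    obtain ⟨u, u1, u2, u3, h, hp, h1, h2, -⟩ := hT _ (half_pos hη)
    obtain ⟨w1, w2, w3, w4⟩ := w_Rect hE h K h1 h2
    refine ⟨_, w1, w2, w3, by linarith, fun q h3 h4 => ?_⟩
    exact (hs _ _ _ (h.slice1 q) (fun t => hp t q.1 q.2) (hG q) h3 h4).imp fun c hc => hc.1
  rw [ae_restrict_iff' hK] at key
  filter_upwards [key, hm] with q h1 h2 hq
  refine arc_closed (hG q) fun η hη => ?_
  obtain ⟨w, hw, h3⟩ := h1 hq (η / (C + 1)) (by positivity)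
  refine (h3 (h2 hq).1 (h2 hq).2).imp fun c hc => hc.trans
    ((mul_le_mul_of_nonneg_left hw.le hC).trans ?_)
  rw [← mul_div_assoc, div_le_iff₀ (by positivity)]
  nlinarith

theorem moment_const {E : Set R3} (hE : MeasurableSet E) {a2 b2 a3 b3 : ℝ}
    (h2 : 0 ≤ a2 ∧ a2 ≤ b2 ∧ b2 ≤ 1) (h3 : 0 ≤ a3 ∧ a3 ≤ b3 ∧ b3 ≤ 1)
    {m0 d2 d3 : ℝ × ℝ → ℝ} (hm0 : Measurable m0) (hd2 : Measurable d2) (hd3 : Measurable d3)
    {δ L : ℝ} (hδ : 0 < δ)
    (hb : ∀ q ∈ Icc a2 b2 ×ˢ Icc a3 b3, δ ≤ m0 q ∧ m0 q ≤ 1 - δ ∧ |d2 q| ≤ L ∧ |d3 q| ≤ L)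
    (hd : ∀ y ∈ Icc a2 b2, ∀ z ∈ Icc a3 b3, HasDerivAt (fun s => m0 (s, z)) (d2 (y, z)) y ∧
      HasDerivAt (fun s => m0 (y, s)) (d3 (y, z)) z)
    (hfib : ∀ᵐ q ∂μ2, q ∈ Icc a2 b2 ×ˢ Icc a3 b3 → fib E q = m0 q)
    (hT : Tight E (Icc a2 b2 ×ˢ Icc a3 b3) d2 d3) (φ : ℝ) :
    ∃ k : ℝ, ∀ᵐ q ∂μ2, q ∈ Icc a2 b2 ×ˢ Icc a3 b3 →
      (∫ t, ind E (t, q) * Real.cos (2 * Real.pi * t - φ) ∂μ1) /
        (Real.sin (Real.pi * m0 q) / Real.pi) = k := by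
  obtain ⟨C, hC, hs⟩ := arc_stab hδ
  set K := Icc a2 b2 ×ˢ Icc a3 b3 with hKd
  have hK : MeasurableSet K := measurableSet_Icc.prod measurableSet_Icc
  have hG : ∀ q : ℝ × ℝ, MeasurableSet {t | (t, q) ∈ E} := fun q => measurable_prodMk_right hE
  have hL : 0 ≤ L := (abs_nonneg _).trans
    (hb (a2, a3) ⟨left_mem_Icc.2 h2.2.1, left_mem_Icc.2 h3.2.1⟩).2.2.1
  have hg := fun q hq => sin_Rect hδ (hb q hq).1 (hb q hq).2.1
  have hg0 : ∀ q ∈ K, 0 < Real.sin (Real.pi * m0 q) / Real.pi := fun q hq =>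
    (half_pos hδ).trans_le (hg q hq).1
  have hdiv : ∀ q ∈ K, ∀ x B : ℝ, |x| ≤ B →
      |x / (Real.sin (Real.pi * m0 q) / Real.pi)| ≤ 2 / δ * B := fun q hq x B hx => by
    rw [abs_div, abs_of_pos (hg0 q hq), div_mul_eq_mul_div, mul_comm 2 B, ← div_div_eq_mul_div]
    exact div_le_div₀ ((abs_nonneg _).trans hx) hx (half_pos hδ) (hg q hq).1
  have hψ : Measurable fun t => Real.cos (2 * Real.pi * t - φ) := by fun_prop
  have mg : Measurable fun q => Real.sin (Real.pi * m0 q) / Real.pi := by fun_prop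
  have mG := fib_Rect ((measurable_ind hE).mul (hψ.comp measurable_fst))
  refine ae_const_rect h2 h3 (mG.div mg) (2 / δ * 1) (fun q hq => hdiv q hq _ _ (bd_Rect fun t => by
    rw [abs_mul]
    exact mul_le_one₀ (absind_Rect _ _) (abs_nonneg _) (Real.abs_cos_le_one _))) fun η hη => ?_
  set M := 2 / δ + 4 / δ ^ 2 * (1 + L * (1 + 2 * C) * 2) with hM
  have hM1 : 0 < 2 / δ := by positivity
  have hM2 : 0 < 4 / δ ^ 2 * (1 + L * (1 + 2 * C) * 2) := by positivity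
  have hη' : 0 < η / M := by positivity
  have hηM : M * (η / M) = η := mul_div_cancel₀ _ (by positivity)
  obtain ⟨u, u1, u2, u3, h, hp, h4, h5, h6, h7⟩ := hT _ hη'
  obtain ⟨w1, w2, w3, w4⟩ := w_Rect hE h K h4 h5
  obtain ⟨e1, e2⟩ := e_Rect hE h K
  obtain ⟨n1, n2, n3, ⟨B, hB⟩, n4, n5⟩ := fib_adm h hψ fun t => Real.abs_cos_le_one _
  obtain ⟨m1, m2, m3, m4, ⟨A, hA⟩, -⟩ := id h
  have iu := fun q => integrable_of_bdd μ1 (m1.comp measurable_prodMk_right) A fun t => (hA (t, q)).1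
  have iu1 := fun q => integrable_of_bdd μ1 (m2.comp measurable_prodMk_right) A
    fun t => (hA (t, q)).2.1
  have dir : ∀ (v : R3 → ℝ) (d : ℝ × ℝ → ℝ), Measurable v → Measurable d → (∀ x, |v x| ≤ A) →
      (∀ q ∈ K, |d q| ≤ L) → ∫ q in K, ∫ t, |v (t, q) - d q / 2 * (|u1 (t, q)|)| ∂μ1 ∂μ2 ≤ η / M →
      ∫ q in K, |((∫ t, v (t, q) * Real.cos (2 * Real.pi * t - φ) ∂μ1) *
        (Real.sin (Real.pi * m0 q) / Real.pi) -
        (∫ t, u (t, q) * Real.cos (2 * Real.pi * t - φ) ∂μ1) * (Real.cos (Real.pi * m0 q) * d q)) /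
        (Real.sin (Real.pi * m0 q) / Real.pi) ^ 2| ∂μ2 ≤ η := fun v d mv md hv hd' hD => by
    have iD : IntegrableOn (fun q => ∫ t, |v (t, q) - d q / 2 * (|u1 (t, q)|)| ∂μ1) K μ2 := by
      refine Measure.integrableOn_of_bounded (M := A + L * A) (measure_ne_top _ _)
        (fib_Rect (f := fun x => |v x - d x.2 / 2 * (|u1 x|)|) (by fun_prop)).aestronglyMeasurable
        ((ae_restrict_iff' hK).2 (Filter.Eventually.of_forall fun q hq => bd_Rect fun t => ?_))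
      rw [abs_abs]
      refine (abs_sub _ _).trans (add_le_add (hv _) ?_)
      rw [abs_mul, abs_abs, abs_div, abs_two]
      exact mul_le_mul (by linarith [hd' q hq, abs_nonneg (d q)]) (hA _).2.1 (abs_nonneg _) hL
    refine (integral_mono_of_nonneg (Filter.Eventually.of_forall fun q => abs_nonneg _)
      ((iD.add (w2.const_mul (L * (1 + 2 * C)))).const_mul (4 / δ ^ 2))
      ((ae_restrict_iff' hK).2 ?_)).trans ?_
    · filter_upwards [hfib] with q hq hqK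
      have f1 : μ1.real {t | (t, q) ∈ E} = m0 q := hq hqK
      obtain ⟨c, c1, c2⟩ := hs _ _ _ (h.slice1 q) (fun t => hp t q.1 q.2) (hG q)
        (f1 ▸ (hb q hqK).1) (f1 ▸ (hb q hqK).2.1)
      rw [f1] at c1 c2
      exact pt_Rect hδ (iu q) (iu1 q)
        (integrable_of_bdd μ1 (mv.comp measurable_prodMk_right) A fun t => hv (t, q)) (hG q)
        (hb q hqK).1 (hb q hqK).2.1 (hd' q hqK) (le_add_of_nonneg_right (le_max_right _ _)) c1 (c2 φ)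
    · simp only [Pi.add_apply]
      rw [integral_const_mul, integral_add iD (w2.const_mul _), integral_const_mul]
      calc _ ≤ 4 / δ ^ 2 * (η / M + L * (1 + 2 * C) * (2 * (η / M))) := by gcongr
        _ ≤ M * (η / M) := by nlinarith
        _ = η := hηM
  have hder : ∀ {N m : ℝ → ℝ} {N' d y : ℝ}, HasDerivAt N N' y → HasDerivAt m d y →
      0 < Real.sin (Real.pi * m y) / Real.pi →
      HasDerivAt (fun s => N s / (Real.sin (Real.pi * m s) / Real.pi))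
        ((N' * (Real.sin (Real.pi * m y) / Real.pi) - N y * (Real.cos (Real.pi * m y) * d)) /
          (Real.sin (Real.pi * m y) / Real.pi) ^ 2) y := fun a1 a2 a3 =>
    a1.div (((a2.const_mul Real.pi).sin.div_const Real.pi).congr_deriv (by field_simp)) a3.ne'
  have hbd : ∀ q ∈ K, ∀ N N' d : ℝ, |N| ≤ B → |N'| ≤ B → |d| ≤ L →
      |(N' * (Real.sin (Real.pi * m0 q) / Real.pi) - N * (Real.cos (Real.pi * m0 q) * d)) /
        (Real.sin (Real.pi * m0 q) / Real.pi) ^ 2| ≤ 2 / δ * (B + 2 / δ * (B + B * L)) :=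
    fun q hq N N' d a1 a2 a3 => by
      have hB0 := (abs_nonneg _).trans a1
      rw [sq, ← div_div]
      refine hdiv q hq _ _ (le_add_of_nonneg_of_le hB0 (hdiv q hq _ _
        ((abs_sub _ _).trans (add_le_add ?_ ?_))))
      · rw [abs_mul, abs_of_pos (hg0 q hq)]
        exact (mul_le_of_le_one_right (abs_nonneg _) (hg q hq).2).trans a2
      · rw [abs_mul, abs_mul]
        exact mul_le_mul a1 ((mul_le_of_le_one_left (abs_nonneg _) (Real.abs_cos_le_one _)).trans a3)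
          (by positivity) hB0
  refine ⟨_, _, _, 2 / δ * (B + 2 / δ * (B + B * L)), n1.div mg, ?_, ?_, fun q hq => ⟨?_,
    hbd q hq _ _ _ (hB q).1 (hB q).2.1 (hb q hq).2.2.1,
    hbd q hq _ _ _ (hB q).1 (hB q).2.2 (hb q hq).2.2.2⟩, fun y hy z hz =>
    ⟨hder (n4 y z) (hd y hy z hz).1 (hg0 (y, z) ⟨hy, hz⟩),
      hder (n5 y z) (hd y hy z hz).2 (hg0 (y, z) ⟨hy, hz⟩)⟩, ?_,
    dir u2 d2 m3 hd2 (fun x => (hA x).2.2.1) (fun q hq => (hb q hq).2.2.1) h6,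
    dir u3 d3 m4 hd3 (fun x => (hA x).2.2.2) (fun q hq => (hb q hq).2.2.2) h7⟩
  · exact ((n2.mul mg).sub (n1.mul (by fun_prop))).div (mg.pow_const 2)
  · exact ((n3.mul mg).sub (n1.mul (by fun_prop))).div (mg.pow_const 2)
  · have := (abs_nonneg _).trans (hB q).1
    exact hdiv q hq _ _ (le_add_of_le_of_nonneg (hB q).1 (by positivity))
  · refine (integral_mono_of_nonneg (Filter.Eventually.of_forall fun q => abs_nonneg _)
      (e1.const_mul (2 / δ))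
      ((ae_restrict_iff' hK).2 (Filter.Eventually.of_forall fun q hq => ?_))).trans ?_
    · simp only [Pi.div_apply, ← sub_div]
      exact hdiv q hq _ _ (diff_Rect (iu q)
        (integrable_of_bdd μ1 (measurable_ind (hG q)) 1 (absind_Rect _)) φ)
    · rw [integral_const_mul]
      calc _ ≤ 2 / δ * (η / M) := mul_le_mul_of_nonneg_left (e2.trans h4) hM1.le
        _ ≤ M * (η / M) := by nlinarith
        _ = η := hηM

theorem rect_rigid {E : Set R3} (hE : MeasurableSet E) {a2 b2 a3 b3 : ℝ}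
    (h2 : 0 ≤ a2 ∧ a2 ≤ b2 ∧ b2 ≤ 1) (h3 : 0 ≤ a3 ∧ a3 ≤ b3 ∧ b3 ≤ 1)
    {m0 d2 d3 : ℝ × ℝ → ℝ} (hm0 : Measurable m0) (hd2 : Measurable d2) (hd3 : Measurable d3)
    {δ L : ℝ} (hδ : 0 < δ)
    (hb : ∀ q ∈ Icc a2 b2 ×ˢ Icc a3 b3, δ ≤ m0 q ∧ m0 q ≤ 1 - δ ∧ |d2 q| ≤ L ∧ |d3 q| ≤ L)
    (hd : ∀ y ∈ Icc a2 b2, ∀ z ∈ Icc a3 b3, HasDerivAt (fun s => m0 (s, z)) (d2 (y, z)) y ∧
      HasDerivAt (fun s => m0 (y, s)) (d3 (y, z)) z)
    (hfib : ∀ᵐ q ∂μ2, q ∈ Icc a2 b2 ×ˢ Icc a3 b3 → fib E q = m0 q)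
    (hT : Tight E (Icc a2 b2 ×ˢ Icc a3 b3) d2 d3) :
    ∃ c : ℝ, ∀ᵐ q ∂μ2, q ∈ Icc a2 b2 ×ˢ Icc a3 b3 →
      {t | (t, q) ∈ E} =ᵐ[μ1] arc c (m0 q / 2) := by
  obtain ⟨k0, hk0⟩ := moment_const hE h2 h3 hm0 hd2 hd3 hδ hb hd hfib hT 0
  obtain ⟨k1, hk1⟩ := moment_const hE h2 h3 hm0 hd2 hd3 hδ hb hd hfib hT (Real.pi / 2)
  have key : ∀ᵐ q ∂μ2, q ∈ Icc a2 b2 ×ˢ Icc a3 b3 → ∃ c, (Real.cos (2 * Real.pi * c - 0) = k0 ∧
      Real.cos (2 * Real.pi * c - Real.pi / 2) = k1) ∧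
      {t | (t, q) ∈ E} =ᵐ[μ1] arc c (m0 q / 2) := by
    filter_upwards [hk0, hk1, hfib, arcs_ae hE (measurableSet_Icc.prod measurableSet_Icc) hδ
      (hfib.mono fun q h hq => h hq ▸ ⟨(hb q hq).1, (hb q hq).2.1⟩) hT] with q a0 a1 a2 a3 hq
    obtain ⟨c, hc⟩ := a3 hq
    rw [a2 hq] at hc
    have e : ∀ φ, (∫ t, ind E (t, q) * Real.cos (2 * Real.pi * t - φ) ∂μ1) /
        (Real.sin (Real.pi * m0 q) / Real.pi) = Real.cos (2 * Real.pi * c - φ) := fun φ => by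
      rw [div_eq_iff ((half_pos hδ).trans_le (sin_Rect hδ (hb q hq).1 (hb q hq).2.1).1).ne',
        ← mom_Rect c φ hδ (hb q hq).1 (hb q hq).2.1]
      refine integral_congr_ae ?_
      filter_upwards [indicator_ae_eq_of_ae_eq_set (f := fun _ => (1 : ℝ)) hc] with t ht
      exact congrArg (· * _) ht
    exact ⟨c, ⟨(e _).symm.trans (a0 hq), (e _).symm.trans (a1 hq)⟩, hc⟩
  by_cases h : ∃ c, Real.cos (2 * Real.pi * c - 0) = k0 ∧
      Real.cos (2 * Real.pi * c - Real.pi / 2) = k1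
  · obtain ⟨c0, b0, b1⟩ := h
    refine ⟨c0, key.mono fun q a hq => ?_⟩
    obtain ⟨c, ⟨b2, b3⟩, hc⟩ := a hq
    rwa [arc_eq_of_cos _ (b0.trans b2.symm) (b1.trans b3.symm)]
  · exact ⟨0, key.mono fun q a hq => (h ((a hq).imp fun c hc => hc.1)).elim⟩

end Vale.Agent.P232
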