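import Vale.Agent.P232.Core2
import Vale.Agent.P232.Basic

/-!
# P232 / Types

Real-variable consequences of `Sl2`. Integrals: `∫ s in 0..h, √(1 - (s/h)²) = π h/4`
(`integral_sqrt_one_sub_sq` and evenness, or a substitution), and
`∫ s in w'..1, √(1 - max(-κ + (1+κ)(1-s)/W, 0)²) = W (π/4 + κ)/(1+κ)` for `W = 1 - w' > 0`
(substitute `y = -κ + (1+κ)(1-s)/W ∈ [-κ, 1]`).
`le_Sl`: `√(1-x) ≥ 1 - x/2 - x²/8 - 3x³/8` on `[0,1]` (square it), with `x = l² y²`.
Types: D (`w' = h' = 0`): `Ori` with `m = 0, l = 1/h` gives `p ≥ A/h + π h/4 ≥ √(π A)` (if `h = 0` then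
`A = 0`); `m = l = 0` gives `p ≥ h - h'`, `p ≥ w - w'`. S (`w' > 0 = h'`, so `h = 1`): `p ≥ 1`, and
`m = 0` gives `p ≥ l (A - w') + ∫₀¹ √(1 - l² s²)`; symmetric case by `Sl2.symm`.
C (`w', h' > 0`, so `w = h = 1`): second orientation with `l = -(1+κ)/W`, `m = -κ - l` gives
`p ≥ κ h' - κ + (1+κ)(1-A)/W + W (π/4+κ)/(1+κ)`; `κ = 0` and AM-GM give `p ≥ √(π (1-A))`;
`m = 1/√2, l = 0` gives `p ≥ (2 - w' - h')/√2`.
-/

open MeasureTheory Set

namespace Vale.Agent.P232

/-- The integrand of the planar calibration. -/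
noncomputable def g_Types (y : ℝ) : ℝ := Real.sqrt (1 - (max y 0) ^ 2)

theorem g_cont_Types : Continuous g_Types := by
  unfold g_Types
  fun_prop

theorem int01_Types : ∫ y in (0 : ℝ)..1, g_Types y = Real.pi / 4 := by
  have h1 : ∫ y in (0 : ℝ)..1, g_Types y = ∫ y in (0 : ℝ)..1, Real.sqrt (1 - y ^ 2) := by
    apply intervalIntegral.integral_congr
    intro y hy
    rw [uIcc_of_le zero_le_one] at hy
    simp only [g_Types, max_eq_left hy.1]
  have hc : Continuous fun y : ℝ => Real.sqrt (1 - y ^ 2) := by fun_prop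
  have h2 : ∫ y in (-1 : ℝ)..0, Real.sqrt (1 - y ^ 2) =
      ∫ y in (0 : ℝ)..1, Real.sqrt (1 - y ^ 2) := by
    have := intervalIntegral.integral_comp_neg (a := 0) (b := 1)
      (fun y : ℝ => Real.sqrt (1 - y ^ 2))
    simp only [neg_zero, neg_sq] at this
    exact this.symm
  have h3 := intervalIntegral.integral_add_adjacent_intervals (μ := volume)
    (hc.intervalIntegrable (-1) 0) (hc.intervalIntegrable 0 1)
  rw [integral_sqrt_one_sub_sq, h2] at h3
  rw [h1]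
  linarith

theorem intk_Types {κ : ℝ} (hκ : 0 ≤ κ) :
    ∫ y in (-κ)..1, g_Types y = Real.pi / 4 + κ := by
  have h1 : ∫ y in (-κ)..0, g_Types y = ∫ _y in (-κ)..0, (1 : ℝ) := by
    apply intervalIntegral.integral_congr
    intro y hy
    rw [uIcc_of_le (by linarith)] at hy
    simp only [g_Types, max_eq_right hy.2]
    simp
  have h3 := intervalIntegral.integral_add_adjacent_intervals (μ := volume)
    (g_cont_Types.intervalIntegrable (-κ) 0) (g_cont_Types.intervalIntegrable 0 1)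
  rw [← h3, h1, int01_Types]
  simp only [intervalIntegral.integral_const, smul_eq_mul]
  ring

theorem ori0_Types {p A w w' h h' : ℝ} (H : Ori p A w w' h h') : h - h' ≤ p := by
  have := H 0 0 (fun s _ => by norm_num)
  simpa using this

theorem amgm_Types {x y c p : ℝ} (hx : 0 ≤ x) (hy : 0 ≤ y) (hc : c = 4 * (x * y))
    (hp : x + y ≤ p) : Real.sqrt c ≤ p := by
  refine le_trans ?_ hp
  rw [Real.sqrt_le_left (by linarith)]
  nlinarith [sq_nonneg (x - y)]

theorem Sl2.symm {p A w w' h h' : ℝ} (H : Sl2 p A w w' h h') : Sl2 p A h h' w w' := by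
  obtain ⟨h1, h2, h3, h4, h5, h6, h7, h8, h9, h10, h11, h12, h13, h14, h15, h16⟩ := H
  exact ⟨h4, h5, h6, h1, h2, h3, h8, h7, h10, h9, h12, h11, h14, h13, h16, h15⟩

theorem le_Sl {l : ℝ} (h0 : 0 ≤ l) (h1 : l ≤ 1) :
    Sl l ≤ ∫ s in (0 : ℝ)..1, Real.sqrt (1 - (max (0 + l * s) 0) ^ 2) := by
  have hpoly : ∫ s in (0 : ℝ)..1,
      (1 - l ^ 2 / 2 * s ^ 2 - l ^ 4 / 8 * s ^ 4 - 3 * l ^ 6 / 8 * s ^ 6) = Sl l := by
    have hd : ∀ s ∈ uIcc (0 : ℝ) 1, HasDerivAt
        (fun s : ℝ => s - l ^ 2 / 6 * s ^ 3 - l ^ 4 / 40 * s ^ 5 - 3 * l ^ 6 / 56 * s ^ 7)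
        (1 - l ^ 2 / 2 * s ^ 2 - l ^ 4 / 8 * s ^ 4 - 3 * l ^ 6 / 8 * s ^ 6) s := by
      intro s _
      have := (((hasDerivAt_id s).sub ((hasDerivAt_pow 3 s).const_mul (l ^ 2 / 6))).sub
        ((hasDerivAt_pow 5 s).const_mul (l ^ 4 / 40))).sub
        ((hasDerivAt_pow 7 s).const_mul (3 * l ^ 6 / 56))
      refine HasDerivAt.congr_deriv this ?_
      push_cast
      ring
    rw [intervalIntegral.integral_eq_sub_of_hasDerivAt hd
      (Continuous.intervalIntegrable (by fun_prop) _ _)]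
    unfold Sl
    ring
  rw [← hpoly]
  apply intervalIntegral.integral_mono_on zero_le_one
    (Continuous.intervalIntegrable (by fun_prop) _ _)
    (Continuous.intervalIntegrable (by fun_prop) _ _)
  intro s hs
  have hls : 0 ≤ l * s := mul_nonneg h0 hs.1
  have hls1 : l * s ≤ 1 := by nlinarith [hs.1, hs.2]
  rw [zero_add, max_eq_left hls]
  apply Real.le_sqrt_of_sq_le
  have e : 1 - l ^ 2 / 2 * s ^ 2 - l ^ 4 / 8 * s ^ 4 - 3 * l ^ 6 / 8 * s ^ 6 =
      1 - (l * s) ^ 2 / 2 - ((l * s) ^ 2) ^ 2 / 8 - 3 * ((l * s) ^ 2) ^ 3 / 8 := by ring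
  rw [e]
  have hx0 : 0 ≤ (l * s) ^ 2 := sq_nonneg _
  have hx1 : (l * s) ^ 2 ≤ 1 := by nlinarith
  generalize (l * s) ^ 2 = x at hx0 hx1
  have hx2 : x ^ 2 ≤ 1 := by nlinarith
  have hx3 : x ^ 3 ≤ 1 := pow_le_one₀ hx0 hx1
  have hq : 0 ≤ x ^ 3 * (40 - 25 * x - 6 * x ^ 2 - 9 * x ^ 3) :=
    mul_nonneg (pow_nonneg hx0 3) (by linarith)
  nlinarith [hq]

theorem Sl2.nonneg {p A w w' h h' : ℝ} (H : Sl2 p A w w' h h') : 0 ≤ p := by
  obtain ⟨h1, h2, h3, h4, h5, h6, h7, h8, h9, h10, h11, h12, h13, h14, h15, h16⟩ := H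
  have := ori0_Types h15
  linarith

theorem Sl2.typeD {p A w h : ℝ} (H : Sl2 p A w 0 h 0) : Real.sqrt (Real.pi * A) ≤ p := by
  have hp := H.nonneg
  obtain ⟨h1, h2, h3, h4, h5, h6, h7, h8, h9, h10, h11, h12, h13, h14, h15, h16⟩ := H
  rcases eq_or_lt_of_le h5 with h0 | h0
  · have hA : A = 0 := le_antisymm (by linarith) h9
    simpa [hA] using hp
  · have key := h15 0 (1 / h) (fun s hs => by
      rw [zero_add, one_div, inv_mul_le_iff₀ h0]
      simpa using hs.2)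
    have hi : ∫ s in (0 : ℝ)..h, Real.sqrt (1 - (max (0 + 1 / h * s) 0) ^ 2) =
        h * (Real.pi / 4) := by
      have := intervalIntegral.integral_comp_add_mul (a := 0) (b := h) g_Types
        (c := 1 / h) (by positivity) 0
      have e1 : (0 : ℝ) + 1 / h * 0 = 0 := by ring
      have e2 : (0 : ℝ) + 1 / h * h = 1 := by field_simp; ring
      rw [e1, e2, int01_Types] at this
      simp only [g_Types, one_div, inv_inv, smul_eq_mul] at this
      simpa only [one_div] using this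
    rw [hi] at key
    refine amgm_Types (x := 1 / h * A) (y := h * (Real.pi / 4)) (by positivity)
      (by positivity) ?_ (by linarith)
    field_simp

theorem Sl2.typeS {p A w w' h : ℝ} (H : Sl2 p A w w' h 0) (hw : 0 < w') {l : ℝ} (h0 : 0 ≤ l)
    (h1 : l ≤ 1) : 1 ≤ p ∧ Sl l + l * (A - w') ≤ p := by
  obtain ⟨h1', h2, h3, h4, h5, h6, h7, h8, h9, h10, h11, h12, h13, h14, h15, h16⟩ := H
  have hh : h = 1 := h7 hw
  subst hh
  refine ⟨by simpa using ori0_Types h15, ?_⟩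
  have key := h15 0 l (fun s hs => by nlinarith [hs.1, hs.2])
  have := le_Sl h0 h1
  linarith

theorem Sl2.typeC {p A w w' h h' : ℝ} (H : Sl2 p A w w' h h') (hw : 0 < w') (hh : 0 < h')
    {κ : ℝ} (hκ : 0 ≤ κ) :
    κ * h' - κ + ((1 - w') * (Real.pi / 4 + κ) / (1 + κ) + (1 + κ) * (1 - A) / (1 - w')) ≤ p := by
  have hp := H.nonneg
  obtain ⟨h1, h2, h3, h4, h5, h6, h7, h8, h9, h10, h11, h12, h13, h14, h15, h16⟩ := H
  have e1 : h = 1 := h7 hw
  have e2 : w = 1 := h8 hh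
  subst e1 e2
  rcases eq_or_lt_of_le h2 with h0 | h0
  · have e3 : h' = 1 := h13 h0
    subst h0 e3
    simpa using hp
  · have hW : 0 < 1 - w' := by linarith
    have hk : 0 < 1 + κ := by linarith
    have hl : -(1 + κ) / (1 - w') ≠ 0 := div_ne_zero (by linarith) hW.ne'
    have key := h16 (-κ - -(1 + κ) / (1 - w')) (-(1 + κ) / (1 - w')) (fun s hs => by
      have e : -κ - -(1 + κ) / (1 - w') + -(1 + κ) / (1 - w') * s =
          -κ + (1 + κ) * ((1 - s) / (1 - w')) := by field_simp; ring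
      rw [e]
      have : (1 - s) / (1 - w') ≤ 1 := by
        rw [div_le_one hW]
        linarith [hs.1]
      nlinarith)
    have hi := intervalIntegral.integral_comp_add_mul (a := w') (b := 1) g_Types
      (c := -(1 + κ) / (1 - w')) hl (-κ - -(1 + κ) / (1 - w'))
    have e1 : -κ - -(1 + κ) / (1 - w') + -(1 + κ) / (1 - w') * w' = 1 := by
      field_simp; ring
    have e2 : -κ - -(1 + κ) / (1 - w') + -(1 + κ) / (1 - w') * 1 = -κ := by ring
    rw [e1, e2, intervalIntegral.integral_symm (-κ) 1, intk_Types hκ] at hi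
    simp only [g_Types, smul_eq_mul] at hi
    rw [hi] at key
    refine le_trans (le_of_eq ?_) key
    field_simp
    ring

theorem Sl2.typeC' {p A w w' h h' : ℝ} (H : Sl2 p A w w' h h') (hw : 0 < w') (hh : 0 < h') :
    Real.sqrt (Real.pi * (1 - A)) ≤ p ∧ Real.sqrt 2 * (2 - w' - h') / 2 ≤ p := by
  have hp := H.nonneg
  have hC := H.typeC hw hh (le_refl 0)
  obtain ⟨h1, h2, h3, h4, h5, h6, h7, h8, h9, h10, h11, h12, h13, h14, h15, h16⟩ := H
  have e1 : h = 1 := h7 hw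
  have e2 : w = 1 := h8 hh
  subst e1 e2
  constructor
  · rcases eq_or_lt_of_le h2 with h0 | h0
    · have hA : A = 1 := le_antisymm h11 (by linarith)
      simpa [hA] using hp
    · have hW : 0 < 1 - w' := by linarith
      have hA : 0 ≤ 1 - A := by linarith
      refine amgm_Types (x := (1 - w') * (Real.pi / 4)) (y := (1 - A) / (1 - w'))
        (by positivity) (by positivity) ?_ ?_
      · field_simp
      · simpa using hC
  · have hs2 : Real.sqrt 2 * Real.sqrt 2 = 2 := Real.mul_self_sqrt (by norm_num)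
    have hs0 : 0 ≤ Real.sqrt 2 := Real.sqrt_nonneg 2
    have key := h15 (Real.sqrt 2 / 2) 0 (fun s _ => by nlinarith)
    have e : Real.sqrt (1 - (max (Real.sqrt 2 / 2) 0) ^ 2) = Real.sqrt 2 / 2 := by
      rw [max_eq_left (by positivity)]
      rw [Real.sqrt_eq_iff_mul_self_eq (by nlinarith) (by positivity)]
      nlinarith
    simp only [zero_mul, add_zero, e, intervalIntegral.integral_const, smul_eq_mul] at key
    linarith

theorem cases_Types {p A w w' h h' : ℝ} (H : Sl2 p A w w' h h') :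
    (w' = 0 ∧ h' = 0) ∨ (0 < w' ∧ h' = 0) ∨ (w' = 0 ∧ 0 < h') ∨ (0 < w' ∧ 0 < h') := by
  rcases eq_or_lt_of_le H.1 with a | a <;> rcases eq_or_lt_of_le H.2.2.2.1 with b | b
  · exact Or.inl ⟨a.symm, b.symm⟩
  · exact Or.inr (Or.inr (Or.inl ⟨a.symm, b⟩))
  · exact Or.inr (Or.inl ⟨a, b.symm⟩)
  · exact Or.inr (Or.inr (Or.inr ⟨a, b⟩))

theorem Sl2.plain {p A w w' h h' : ℝ} (H : Sl2 p A w w' h h') : I2 A ≤ p := by
  unfold I2
  rcases cases_Types H with ⟨rfl, rfl⟩ | ⟨a, rfl⟩ | ⟨rfl, b⟩ | ⟨a, b⟩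
  · exact (min_le_left _ _).trans H.typeD
  · exact (min_le_right _ _).trans ((min_le_left _ _).trans
      (H.typeS a (le_refl 0) zero_le_one).1)
  · exact (min_le_right _ _).trans ((min_le_left _ _).trans
      (H.symm.typeS b (le_refl 0) zero_le_one).1)
  · exact (min_le_right _ _).trans ((min_le_right _ _).trans (H.typeC' a b).1)

theorem Sl2.tall {p A w w' h h' η : ℝ} (H : Sl2 p A w w' h h') (hη : η ≤ w ∨ η ≤ h) :
    IT η A ≤ p := by
  unfold IT
  refine max_le H.plain ?_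
  have hη1 : η ≤ 1 := by
    rcases hη with a | a
    · exact a.trans H.2.2.1
    · exact a.trans H.2.2.2.2.2.1
  rcases cases_Types H with ⟨rfl, rfl⟩ | ⟨a, rfl⟩ | ⟨rfl, b⟩ | ⟨a, b⟩
  · refine (min_le_left _ _).trans ?_
    obtain ⟨h1, h2, h3, h4, h5, h6, h7, h8, h9, h10, h11, h12, h13, h14, h15, h16⟩ := H
    have a1 := ori0_Types h15
    have a2 := ori0_Types h16
    rcases hη with a | a <;> linarith
  · exact (min_le_left _ _).trans (hη1.trans (H.typeS a (le_refl 0) zero_le_one).1)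
  · exact (min_le_left _ _).trans (hη1.trans (H.symm.typeS b (le_refl 0) zero_le_one).1)
  · exact (min_le_right _ _).trans (H.typeC' a b).1

theorem Sl2.caseI {p A w w' h h' η l : ℝ} (H : Sl2 p A w w' h h') (hw : w' ≤ η) (hh : h' ≤ η)
    (h0 : 0 ≤ l) (h1 : l ≤ 1) : II η l A ≤ p := by
  unfold II
  rcases cases_Types H with ⟨rfl, rfl⟩ | ⟨a, rfl⟩ | ⟨rfl, b⟩ | ⟨a, b⟩
  · exact (min_le_left _ _).trans H.typeD
  · refine (min_le_right _ _).trans ((min_le_left _ _).trans ?_)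
    have := (H.typeS a h0 h1).2
    nlinarith
  · refine (min_le_right _ _).trans ((min_le_left _ _).trans ?_)
    have := (H.symm.typeS b h0 h1).2
    nlinarith
  · refine (min_le_right _ _).trans ((min_le_right _ _).trans ?_)
    have := (H.typeC' a b).2
    have hs0 : 0 ≤ Real.sqrt 2 := Real.sqrt_nonneg 2
    nlinarith

theorem Sl2.an_small {p A w w' h h' : ℝ} (H : Sl2 p A w w' h h') (hA : Real.pi * A < 1) :
    Real.sqrt (Real.pi * A) ≤ p ∧ (p ≤ Real.sqrt (Real.pi * A) → w' = 0 ∧ h' = 0) := by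
  have hlt : Real.sqrt (Real.pi * A) < 1 := by
    rw [Real.sqrt_lt' one_pos]
    linarith
  rcases cases_Types H with ⟨rfl, rfl⟩ | ⟨a, rfl⟩ | ⟨rfl, b⟩ | ⟨a, b⟩
  · exact ⟨H.typeD, fun _ => ⟨rfl, rfl⟩⟩
  · have := (H.typeS a (le_refl 0) zero_le_one).1
    exact ⟨by linarith, fun c => absurd c (by linarith)⟩
  · have := (H.symm.typeS b (le_refl 0) zero_le_one).1
    exact ⟨by linarith, fun c => absurd c (by linarith)⟩
  · have := (H.typeC' a b).1
    have hA0 : 0 ≤ A := H.1.trans H.2.2.2.2.2.2.2.2.1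
    have hpi := Real.pi_gt_three
    have h2 : Real.sqrt (Real.pi * A) < Real.sqrt (Real.pi * (1 - A)) := by
      apply Real.sqrt_lt_sqrt (by positivity)
      nlinarith
    exact ⟨by linarith, fun c => absurd c (by linarith)⟩

theorem Sl2.an_caseI {p A w w' h h' η l : ℝ} (H : Sl2 p A w w' h h') (hw : w' ≤ η) (hh : h' ≤ η)
    (h0 : 0 ≤ l) (h1 : l ≤ 1) (hS : Real.sqrt (Real.pi * A) < Sl l + l * (A - η))
    (hC : Real.sqrt (Real.pi * A) < Real.sqrt 2 * (1 - η)) :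
    Real.sqrt (Real.pi * A) ≤ p ∧ (p ≤ Real.sqrt (Real.pi * A) → w' = 0 ∧ h' = 0) := by
  rcases cases_Types H with ⟨rfl, rfl⟩ | ⟨a, rfl⟩ | ⟨rfl, b⟩ | ⟨a, b⟩
  · exact ⟨H.typeD, fun _ => ⟨rfl, rfl⟩⟩
  · have := (H.typeS a h0 h1).2
    have h2 : Real.sqrt (Real.pi * A) < p := by nlinarith
    exact ⟨h2.le, fun c => absurd c (by linarith)⟩
  · have := (H.symm.typeS b h0 h1).2
    have h2 : Real.sqrt (Real.pi * A) < p := by nlinarith
    exact ⟨h2.le, fun c => absurd c (by linarith)⟩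
  · have := (H.typeC' a b).2
    have hs0 : 0 ≤ Real.sqrt 2 := Real.sqrt_nonneg 2
    have h2 : Real.sqrt (Real.pi * A) < p := by nlinarith
    exact ⟨h2.le, fun c => absurd c (by linarith)⟩

end Vale.Agent.P232
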