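import Vale.Agent.P232.AbsRig
import Vale.Agent.P232.Slice2
import Vale.Agent.P232.Types

/-!
# P232 / Rig2

Planar rigidity. `h = col F`, `a = top h`, `A = μ2.real F > 0` so `a > 0`. `dir2` with
`β0 s = max 0 (min 1 (s/a))`: `∫ β0(h)·ind = A/a` (as `μ1 {h = 1} = bot (row F) = 0`,
`Down2.real_col_one`), `∫₀^a √(1-β0²) = π a/4`; `A/a + π a/4 ≤ p ≤ √(π A)` forces `4 A = π a²` and
equality. `rig_meas` with `γ = 1`, `G s = √(a² - s²)` (antiderivative of `-s/√(a²-s²)`), `dist_det`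
(`∫₀^a G = π a²/4`), `lev_of_dist` give `col F x = √(a² - x²)` on `(0,1)` (`√` of a negative number is `0`);
finish with `Down2.ae_eq_col`.
-/

open MeasureTheory Set

namespace Vale.Agent.P232

theorem quarter_Rig2 : ∫ x in (0 : ℝ)..1, Real.sqrt (1 - x ^ 2) = Real.pi / 4 := by
  have hc : Continuous fun x : ℝ => Real.sqrt (1 - x ^ 2) := by fun_prop
  have h1 := intervalIntegral.integral_add_adjacent_intervals (hc.intervalIntegrable (μ := volume) (-1) 0)
    (hc.intervalIntegrable 0 1)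
  have h2 := intervalIntegral.integral_comp_neg (a := (0 : ℝ)) (b := 1)
    fun x : ℝ => Real.sqrt (1 - x ^ 2)
  simp only [neg_sq, neg_zero] at h2
  rw [integral_sqrt_one_sub_sq, ← h2] at h1
  linarith

theorem sqrt_Rig2 {a : ℝ} (ha : 0 < a) (s : ℝ) :
    Real.sqrt (a ^ 2 - s ^ 2) = a * Real.sqrt (1 - (s / a) ^ 2) := by
  rw [show a ^ 2 - s ^ 2 = a ^ 2 * (1 - (s / a) ^ 2) by field_simp, Real.sqrt_mul (sq_nonneg a),
    Real.sqrt_sq ha.le]

theorem int_Rig2 {a : ℝ} (ha : 0 < a) :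
    ∫ s in (0 : ℝ)..a, Real.sqrt (1 - (s / a) ^ 2) = Real.pi * a / 4 := by
  rw [intervalIntegral.integral_comp_div (fun x : ℝ => Real.sqrt (1 - x ^ 2)) ha.ne', zero_div,
    div_self ha.ne', quarter_Rig2, smul_eq_mul]
  ring

theorem ftc_Rig2 {a s1 s2 : ℝ} (h1 : 0 < s1) (h12 : s1 ≤ s2) (h2 : s2 < a) :
    ∫ s in s1..s2, s / Real.sqrt (a ^ 2 - s ^ 2) =
      Real.sqrt (a ^ 2 - s1 ^ 2) - Real.sqrt (a ^ 2 - s2 ^ 2) := by
  have hp : ∀ s ∈ uIcc s1 s2, 0 < a ^ 2 - s ^ 2 := fun s hs => by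
    rw [uIcc_of_le h12] at hs
    nlinarith [hs.1, hs.2]
  refine (intervalIntegral.integral_eq_sub_of_hasDerivAt
    (f := fun s => -Real.sqrt (a ^ 2 - s ^ 2)) (fun s hs => ?_) ?_).trans (by ring)
  · have h3 : HasDerivAt (fun s : ℝ => a ^ 2 - s ^ 2) (-(2 * s)) s := by
      simpa using (hasDerivAt_pow 2 s).const_sub (a ^ 2)
    refine (h3.sqrt (hp s hs).ne').neg.congr_deriv ?_
    have := Real.sqrt_pos.2 (hp s hs)
    field_simp
  · exact ContinuousOn.intervalIntegrable (continuousOn_id.div (by fun_prop) fun s hs =>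
      (Real.sqrt_pos.2 (hp s hs)).ne')

theorem rig2 {F : Set (ℝ × ℝ)} {p : ℝ} (hF : Down2 F) (h : Appr2 F p) (hA : 0 < μ2.real F)
    (hp : p ≤ Real.sqrt (Real.pi * μ2.real F)) (hw : bot (row F) = 0) (hh : bot (col F) = 0) :
    F =ᵐ[μ2] {q : ℝ × ℝ | q.1 ^ 2 + q.2 ^ 2 < 4 * μ2.real F / Real.pi} := by
  have hL := hF.lev_col
  have hI := integral_col hF.1
  have hπ := Real.pi_pos
  obtain ⟨a, ha⟩ : ∃ a, a = top (col F) := ⟨_, rfl⟩
  obtain ⟨A, hA'⟩ : ∃ A, A = μ2.real F := ⟨_, rfl⟩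
  rw [← hA'] at hA hp hI ⊢
  have a0 : 0 < a := by
    have h1 := hL.integral_mem.2
    rw [hI, ← ha] at h1
    linarith
  let β : ℝ → ℝ := fun s => max 0 (min 1 (s / a))
  have βc : Continuous β := by fun_prop
  have βm : ∀ s, 0 ≤ β s ∧ β s ≤ 1 := fun s =>
    ⟨le_max_left _ _, max_le zero_le_one (min_le_left _ _)⟩
  have βe : ∀ s, 0 ≤ s → s ≤ a → β s = s / a := fun s h0 h1 => by
    show max 0 (min 1 (s / a)) = s / a
    rw [min_eq_right ((div_le_one a0).2 h1), max_eq_right (div_nonneg h0 a0.le)]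
  have hd := dir2 hF h
  have i1 : ∫ t, β (col F t) * ind {x | 0 < col F x ∧ col F x < 1} t ∂μ1 = A / a := by
    have h1 : ∀ᵐ t ∂μ1, col F t ≠ 1 := by
      rw [ae_iff]
      simp only [ne_eq, not_not]
      exact (measureReal_eq_zero_iff (measure_ne_top _ _)).1 (hF.real_col_one.trans hw)
    rw [← hI, ← integral_div]
    refine integral_congr_ae ?_
    filter_upwards [h1, ae_μ1_mem] with t h2 h3
    rw [βe _ (hL.2.2 t).1 (ha ▸ (le_top_of_bdd hL.2.2 h3).2)]
    rcases (hL.2.2 t).1.eq_or_lt with h4 | h4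
    · rw [← h4, zero_div, zero_mul]
    · rw [ind, indicator_of_mem (show t ∈ {x | 0 < col F x ∧ col F x < 1} from
        ⟨h4, (hL.2.2 t).2.lt_of_ne h2⟩), mul_one]
  have i2 : ∫ s in bot (col F)..top (col F), Real.sqrt (1 - β s ^ 2) = Real.pi * a / 4 := by
    rw [hh, ← ha, ← int_Rig2 a0]
    refine intervalIntegral.integral_congr fun s hs => ?_
    rw [uIcc_of_le a0.le] at hs
    simp only [βe s hs.1 hs.2]
  have i3 := hd.2.2.2 (fun s => Real.sqrt (1 - β s ^ 2)) β ⟨by fun_prop, βc, fun s => (βm s).1,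
    fun s => by rw [Real.sq_sqrt (by nlinarith [βm s])]; linarith⟩
  rw [one_mul, one_mul, i1, i2] at i3
  have e1 : A / a = Real.pi * a / 4 := by
    have h1 := pow_le_pow_left₀ (by positivity) (i3.trans hp) 2
    rw [Real.sq_sqrt (by positivity)] at h1
    have h2 : A = A / a * a := (div_mul_cancel₀ A a0.ne').symm
    obtain ⟨u, hu⟩ : ∃ u, u = A / a := ⟨_, rfl⟩
    rw [← hu] at h1 h2 ⊢
    rw [h2] at h1
    nlinarith [sq_nonneg (u - Real.pi * a / 4)]
  have e2 : A = Real.pi * a ^ 2 / 4 := by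
    rw [div_eq_iff a0.ne'] at e1
    rw [e1]
    ring
  have heq : p ≤ ∫ t, β (col F t) * ind {x | 0 < col F x ∧ col F x < 1} t ∂μ1 +
      ∫ s in bot (col F)..top (col F), Real.sqrt (1 - β s ^ 2) := by
    rw [i1, i2, e1]
    refine hp.trans (Real.sqrt_le_iff.2 ⟨by positivity, le_of_eq ?_⟩)
    rw [e2]
    ring
  have hdist := dist_det (G := fun s => Real.sqrt (a ^ 2 - s ^ 2)) hL (ha ▸ a0) (by fun_prop)
    (by simp [ha]) (fun s1 s2 h1 h12 h2 => by
      rw [rig_meas (γ := fun _ => 1) hd βc βm (fun s hs => ?_) heq continuous_const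
        (fun _ _ => one_pos) (Filter.Eventually.of_forall fun t ht => ?_) (hh.trans_lt h1) h12 h2,
        ← ftc_Rig2 h1 h12 (ha ▸ h2)]
      · refine intervalIntegral.integral_congr fun s hs => ?_
        rw [uIcc_of_le h12] at hs
        simp only [βe s (by linarith [hs.1]) (by linarith [hs.2]), sqrt_Rig2 a0, one_mul, mul_one,
          div_div]
      · rw [hh, ← ha] at hs
        rw [βe s hs.1.le hs.2.le]
        exact ⟨div_pos hs.1 a0, (div_lt_one a0).2 hs.2⟩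
      · rw [hh] at ht
        exact indicator_of_mem (show t ∈ {x | 0 < col F x ∧ col F x < 1} from
          ⟨ht.1, ht.2.trans_le (bot_top_mem hL.2.2).2.2⟩) _)
    (by
      simp only [sqrt_Rig2 a0]
      rw [hI, ← ha, intervalIntegral.integral_const_mul, int_Rig2 a0, e2]
      ring)
  rw [← ha] at hdist
  have hcol : ∀ x ∈ Ioo (0 : ℝ) 1, col F x = Real.sqrt (a ^ 2 - x ^ 2) := fun x hx => by
    refine le_antisymm (not_lt.1 fun h1 => ?_) (not_lt.1 fun h1 => ?_)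
    · obtain ⟨s, h2, h3⟩ := exists_between h1
      have s0 := (Real.sqrt_nonneg _).trans_lt h2
      have h4 := (lev_of_dist hL hx).1 h3
      rw [hdist s ⟨s0, h3.trans_le (ha ▸ (le_top_of_bdd hL.2.2 hx).2)⟩,
        Real.le_sqrt' hx.1] at h4
      rw [Real.sqrt_lt' s0] at h2
      linarith
    · obtain ⟨s, h2, h3⟩ := exists_between h1
      have s0 := (hL.2.2 x).1.trans_lt h2
      have h4 := (lev_of_dist hL hx).2 h2.le
      rw [Real.lt_sqrt s0.le] at h3
      rw [hdist s ⟨s0, by nlinarith⟩, Real.sqrt_le_left hx.1.le] at h4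
      linarith
  have e3 : 4 * A / Real.pi = a ^ 2 := by
    rw [e2]
    field_simp
  refine hF.ae_eq_col.trans ?_
  filter_upwards [Measure.quasiMeasurePreserving_fst.ae ae_μ1_mem,
    Measure.quasiMeasurePreserving_snd.ae ae_μ1_mem] with q h1 h2
  refine propext ?_
  show q.2 < col F q.1 ↔ q.1 ^ 2 + q.2 ^ 2 < 4 * A / Real.pi
  rw [hcol _ h1, Real.lt_sqrt h2.1.le, e3]
  constructor <;> intro h3 <;> linarith

end Vale.Agent.P232
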