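import Vale.Agent.P232.SliceAbs
import Vale.Agent.P232.Down2

/-!
# P232 / Slice3

Slicing in space: `slice_abs` with `Y = ℝ × ℝ`, `ν = μ2`, `g = b √(u2² + u3²)`,
`Adm v g := ∃ v1 v2, Adm2 v v1 v2 ∧ g = fun y => b * √(v1 y ^ 2 + v2 y ^ 2)`; divide the resulting
`p` by `b`; `lim_ends`.
-/

open MeasureTheory Set

namespace Vale.Agent.P232

theorem Down3.sl {D : Set R3} (h : Down3 D) {t : ℝ} (ht : t ∈ Ioo (0 : ℝ) 1) :
    Down2 (sl D t) := by
  obtain ⟨hm, _, h2, h3⟩ := h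
  refine ⟨measurable_prodMk_left hm, ?_, ?_⟩
  · intro x x' y hx' hle hx hy hmem
    exact h2 t x x' y hx' hle hx ht hy hmem
  · intro x y y' hy' hle hy hx hmem
    exact h3 t x y y' hy' hle hy ht hx hmem

theorem ae_μ2_Slice3 : ∀ᵐ q ∂μ2, q ∈ Ioo (0 : ℝ) 1 ×ˢ Ioo (0 : ℝ) 1 := by
  have hm : MeasurableSet {q : ℝ × ℝ | q ∈ Ioo (0 : ℝ) 1 ×ˢ Ioo (0 : ℝ) 1} :=
    measurableSet_Ioo.prod measurableSet_Ioo
  rw [Measure.ae_prod_iff_ae_ae hm]
  filter_upwards [ae_μ1_mem] with x hx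
  filter_upwards [ae_μ1_mem] with y hy
  exact ⟨hx, hy⟩

theorem Down3.lev_ar {D : Set R3} (h : Down3 D) : Lev (ar D) := by
  obtain ⟨hm, h1, _, _⟩ := h
  refine ⟨(measurable_measure_prodMk_left (ν := μ2) hm).ennreal_toReal, ?_, ?_⟩
  · intro s hs t ht hst
    have hae : ∀ᵐ q ∂μ2, q ∈ Ioo (0 : ℝ) 1 ×ˢ Ioo (0 : ℝ) 1 := ae_μ2_Slice3
    have hle : μ2 (P232.sl D t) ≤ μ2 (P232.sl D s) := by
      refine measure_mono_ae ?_
      filter_upwards [hae] with q hq hmem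
      exact h1 t s q.1 q.2 hs.1 hst ht.2 hq.1 hq.2 hmem
    exact ENNReal.toReal_mono (measure_ne_top _ _) hle
  · intro t
    exact ⟨measureReal_nonneg, measureReal_le_one⟩

theorem integral_ar {D : Set R3} (hD : MeasurableSet D) : ∫ t, ar D t ∂μ1 = μ3.real D := by
  have hmeas : Measurable fun t : ℝ => μ2 (Prod.mk t ⁻¹' D) :=
    measurable_measure_prodMk_left (ν := μ2) hD
  have h1 : ∫ t, (μ2 (Prod.mk t ⁻¹' D)).toReal ∂μ1 =
      (∫⁻ t, μ2 (Prod.mk t ⁻¹' D) ∂μ1).toReal :=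
    integral_toReal hmeas.aemeasurable (Filter.Eventually.of_forall fun t => measure_lt_top _ _)
  have h2 : μ3 D = ∫⁻ t, μ2 (Prod.mk t ⁻¹' D) ∂μ1 := Measure.prod_apply hD
  rw [Measure.real, h2, ← h1]
  rfl

theorem dir3 {A b P : ℝ} (hb : 0 < b) {k1 k2 k3 : Prop} {D : Set R3} (hD : Down3 D)
    (h : Appr3 A b b k1 k2 k3 D P) :
    ∃ p : ℝ → ℝ, DirData A b P (ar D) p ∧ ∀ᵐ t ∂μ1, Appr2 (sl D t) (p t) := by
  have hlev := hD.lev_ar
  have key := slice_abs (Y := ℝ × ℝ) μ2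
    (fun v g => ∃ v1 v2 : ℝ × ℝ → ℝ, Adm2 v v1 v2 ∧
      g = fun y => b * Real.sqrt (v1 y ^ 2 + v2 y ^ 2)) (D := D) hD.1 (A := A) (P := P) ?_
  · obtain ⟨p, hpi, hp0, hap, Z, hZ, hZc⟩ := key
    refine ⟨fun t => p t / b, ⟨hlev, hpi.div_const b, fun t => div_nonneg (hp0 t) hb.le, ?_⟩, ?_⟩
    · intro α β hcal
      have hI : b * ∫ t, β (ar D t) * (p t / b) ∂μ1 = ∫ t, β (ar D t) * p t ∂μ1 := by
        rw [← integral_const_mul]
        refine integral_congr_ae (Filter.Eventually.of_forall fun t => ?_)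
        field_simp
      rw [hI]
      have hcont : Continuous fun q : ℝ × ℝ => ∫ s in q.2..q.1, α s := by
        have hprim : Continuous fun x : ℝ => ∫ s in (0 : ℝ)..x, α s :=
          intervalIntegral.continuous_primitive (fun a b => hcal.1.intervalIntegrable a b) 0
        have heq : (fun q : ℝ × ℝ => ∫ s in q.2..q.1, α s) =
            fun q : ℝ × ℝ => (∫ s in (0 : ℝ)..q.1, α s) - ∫ s in (0 : ℝ)..q.2, α s := by
          funext q
          rw [intervalIntegral.integral_interval_sub_left (hcal.1.intervalIntegrable _ _)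
            (hcal.1.intervalIntegrable _ _)]
        rw [heq]
        exact (hprim.comp continuous_fst).sub (hprim.comp continuous_snd)
      have hG : Continuous fun q : ℝ × ℝ =>
          ∫ t, β (ar D t) * p t ∂μ1 + A * ∫ s in q.2..q.1, α s :=
        continuous_const.add (continuous_const.mul hcont)
      exact lim_ends hlev hZ hG (fun t0 h0 t1 h1 a1 a2 a3 => hZc t0 h0 t1 h1 a1 a2 a3 α β hcal)
    · filter_upwards [hap] with t ht ε hε
      have hm : 0 < min ε (b * ε) := lt_min hε (mul_pos hb hε)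
      obtain ⟨v, g, ⟨v1, v2, hadm, rfl⟩, h1, h2⟩ := ht _ hm
      refine ⟨v, v1, v2, hadm, h1.trans (min_le_left _ _), ?_⟩
      rw [integral_const_mul] at h2
      have h3 : b * ∫ y, Real.sqrt (v1 y ^ 2 + v2 y ^ 2) ∂μ2 ≤ p t + b * ε :=
        h2.trans (by linarith [min_le_right ε (b * ε)])
      have h4 : p t / b + ε = (p t + b * ε) / b := by field_simp
      rw [h4, le_div_iff₀ hb]
      linarith
  · intro ε hε
    obtain ⟨u, u1, u2, u3, ⟨hm, hm1, hm2, hm3, ⟨C, hC⟩, d1, d2, d3⟩, -, -, -, e1, e2⟩ := h ε hε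
    have hC0 : 0 ≤ C := (abs_nonneg _).trans (hC 0).1
    refine ⟨u, u1, fun x => b * Real.sqrt (u2 x ^ 2 + u3 x ^ 2), hm, hm1, ?_, ⟨C + b * (2 * C), ?_⟩,
      fun x => mul_nonneg hb.le (Real.sqrt_nonneg _), fun t y => d1 t y.1 y.2, ?_, e1, ?_⟩
    · exact measurable_const.mul ((hm2.pow_const 2).add (hm3.pow_const 2)).sqrt
    · intro x
      have hb2 : 0 ≤ b * (2 * C) := by positivity
      obtain ⟨c0, c1, c2, c3⟩ := hC x
      refine ⟨by linarith, by linarith, ?_⟩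
      have hs : Real.sqrt (u2 x ^ 2 + u3 x ^ 2) ≤ 2 * C := by
        refine Real.sqrt_le_iff.2 ⟨by positivity, ?_⟩
        have a2 : u2 x ^ 2 ≤ C ^ 2 := by
          rw [← sq_abs]; exact pow_le_pow_left₀ (abs_nonneg _) c2 2
        have a3 : u3 x ^ 2 ≤ C ^ 2 := by
          rw [← sq_abs]; exact pow_le_pow_left₀ (abs_nonneg _) c3 2
        nlinarith [sq_nonneg C]
      rw [abs_of_nonneg (mul_nonneg hb.le (Real.sqrt_nonneg _))]
      have := mul_le_mul_of_nonneg_left hs hb.le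
      linarith
    · intro t
      refine ⟨fun y => u2 (t, y), fun y => u3 (t, y), ⟨hm.comp measurable_prodMk_left,
        hm2.comp measurable_prodMk_left, hm3.comp measurable_prodMk_left, ⟨C, fun y => ?_⟩,
        fun x y => d2 t x y, fun x y => d3 t x y⟩, rfl⟩
      obtain ⟨c0, c1, c2, c3⟩ := hC (t, y)
      exact ⟨c0, c2, c3⟩
    · refine le_trans (le_of_eq ?_) e2
      unfold en3
      refine integral_congr_ae (Filter.Eventually.of_forall fun x => ?_)
      have hs : Real.sqrt (u2 x ^ 2 + u3 x ^ 2) ^ 2 = u2 x ^ 2 + u3 x ^ 2 :=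
        Real.sq_sqrt (by positivity)
      simp only [mul_pow, hs]
      congr 1
      ring

end Vale.Agent.P232
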