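import Vale.Agent.P232.Rig2
import Vale.Agent.P232.Analytic
import Vale.Agent.P232.Slice3

/-!
# P232 / Rig3

Rigidity in the quarter-disc regime. `dir3` (weights `1,1,1`), `AnCase` and `slOf_of_appr` give
`√(π ar) ≤ p` a.e.; `an_eq`; `rig2` on a.e. slice with `ar > 0` (slices with `ar = 0` are null), so
`D =ᵐ {x | x.2.1² + x.2.2² < 4 ar D x.1/π}` (`Measure.ae_prod_iff_ae_ae` or `measure_prod_null`).
Tube: `ar = v` on `(0,1)`, `r = 2√(v/π)`, `e = (0,1,1)`. Ball: `a = top`, `β0 s = √(max 0 (min 1 (s/a)))`,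
`γ s = √(π s)`, `R = 2√(a/π)`, `G s = R √(1 - s/a)`; equality in `heq` holds since
`∫ β0(ar) p ≥ √π v/√a = 4a/3`, `∫₀^a √(1 - s/a) = 2a/3`, `P = 2a`; `∫₀^a G = 2aR/3 = v`;
so `ar t = a (1 - t²/R²)` for `t < R`, `0` beyond; `e = (1,1,1)`, `r = R`, `R³ = 6v/π < 1`.
-/

open MeasureTheory Set

namespace Vale.Agent.P232

theorem int_sqrt_Rig3 {a : ℝ} (ha : 0 < a) :
    ∫ s in (0 : ℝ)..a, Real.sqrt (a - s) = 2 / 3 * Real.sqrt a ^ 3 := by
  rw [intervalIntegral.integral_comp_sub_left (fun x => Real.sqrt x) a, sub_self, sub_zero]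
  simp only [Real.sqrt_eq_rpow]
  rw [integral_rpow (Or.inl (by norm_num)), Real.zero_rpow (by norm_num), ← Real.rpow_natCast,
    ← Real.rpow_mul ha.le]
  norm_num
  ring

theorem ae_discs {D : Set R3} (hD : Down3 D)
    (h : ∀ᵐ t ∂μ1, 0 < ar D t →
      sl D t =ᵐ[μ2] {q : ℝ × ℝ | q.1 ^ 2 + q.2 ^ 2 < 4 * ar D t / Real.pi}) :
    D =ᵐ[μ3] {x : R3 | x.2.1 ^ 2 + x.2.2 ^ 2 < 4 * ar D x.1 / Real.pi} := by
  have hm : MeasurableSet {x : R3 | x.2.1 ^ 2 + x.2.2 ^ 2 < 4 * ar D x.1 / Real.pi} :=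
    measurableSet_lt (by fun_prop)
      (((hD.lev_ar.1.comp measurable_fst).const_mul 4).div_const Real.pi)
  refine Filter.eventuallyEq_set.2 ((Measure.ae_prod_iff_ae_ae (hD.1.mem.iff hm.mem).setOf).2 ?_)
  filter_upwards [h] with t ht
  rcases (hD.lev_ar.2.2 t).1.eq_or_lt with h0 | h0
  · have h1 : μ2 (sl D t) = 0 := (measureReal_eq_zero_iff (measure_ne_top _ _)).1 h0.symm
    filter_upwards [measure_eq_zero_iff_ae_notMem.1 h1] with q hq
    refine iff_of_false hq (not_lt.2 ?_)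
    show 4 * ar D t / Real.pi ≤ q.1 ^ 2 + q.2 ^ 2
    rw [← h0, mul_zero, zero_div]
    positivity
  · exact Filter.eventuallyEq_set.1 (ht h0)

theorem ball_levels {P : ℝ} {h p : ℝ → ℝ} (hd : DirData 1 1 P h p)
    (hp : ∀ᵐ t ∂μ1, 0 < h t → p t = Real.sqrt (Real.pi * h t)) (ha : 0 < top h)
    (hf : bot h = 0) (hP : P = 2 * top h)
    (hv : 3 * Real.sqrt Real.pi * ∫ t, h t ∂μ1 = 4 * Real.sqrt (top h) ^ 3) :
    ∀ t ∈ Ioo (0 : ℝ) 1, h t = max 0 (top h - Real.pi * t ^ 2 / 4) := by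
  obtain ⟨a, ea⟩ : ∃ a, a = top h := ⟨_, rfl⟩
  have hπ : 0 < Real.sqrt Real.pi := Real.sqrt_pos.2 Real.pi_pos
  have hb := hd.1.2.2
  have hm := fun s1 s2 => rig_meas (β0 := fun s => Real.sqrt (max 0 (min 1 (s / a))))
    (γ := fun s => Real.sqrt (Real.pi * s)) (s1 := s1) (s2 := s2) hd
  have hdd := fun G => dist_det (G := G) hd.1 ha
  have hle : ∀ t ∈ Ioo (0 : ℝ) 1, h t ≤ top h := fun t ht => (le_top_of_bdd hb ht).2
  rw [hf] at hm
  rw [← ea] at hm hdd ha hP hv hle ⊢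
  have ha' : 0 < Real.sqrt a := Real.sqrt_pos.2 ha
  have hβ : ∀ s, 0 ≤ s → s ≤ a → Real.sqrt (max 0 (min 1 (s / a))) = Real.sqrt s / Real.sqrt a :=
    fun s h0 h1 => by
      rw [min_eq_right ((div_le_one ha).2 h1), max_eq_right (div_nonneg h0 ha.le),
        Real.sqrt_div h0]
  have hβ' : ∀ s, 0 ≤ s → s ≤ a → Real.sqrt (1 - Real.sqrt (max 0 (min 1 (s / a))) ^ 2) =
      Real.sqrt (a - s) / Real.sqrt a := fun s h0 h1 => by
    rw [hβ s h0 h1, div_pow, Real.sq_sqrt h0, Real.sq_sqrt ha.le, one_sub_div ha.ne',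
      Real.sqrt_div (sub_nonneg.2 h1)]
  have h1 : ∫ t, Real.sqrt (max 0 (min 1 (h t / a))) * p t ∂μ1 =
      Real.sqrt Real.pi / Real.sqrt a * ∫ t, h t ∂μ1 := by
    rw [← integral_const_mul]
    refine integral_congr_ae ?_
    filter_upwards [hp, ae_μ1_mem] with t h2 ht
    rw [hβ _ (hb t).1 (hle t ht)]
    rcases (hb t).1.eq_or_lt with h0 | h0
    · rw [← h0]
      simp
    · rw [h2 h0, Real.sqrt_mul Real.pi_pos.le]
      nth_rewrite 3 [← Real.mul_self_sqrt h0.le]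
      ring
  have h2 : ∫ s in (0 : ℝ)..a, Real.sqrt (1 - Real.sqrt (max 0 (min 1 (s / a))) ^ 2) =
      2 / 3 * Real.sqrt a ^ 3 / Real.sqrt a := by
    rw [← int_sqrt_Rig3 ha, ← intervalIntegral.integral_div]
    refine intervalIntegral.integral_congr fun s hs => ?_
    rw [uIcc_of_le ha.le] at hs
    exact hβ' s hs.1 hs.2
  have h3 := hdd (fun s => 2 / Real.sqrt Real.pi * Real.sqrt (a - s)) (by fun_prop) (by simp)
    (fun s1 s2 a1 a2 a3 => by
      rw [hm s1 s2 (by fun_prop)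
        (fun s => ⟨Real.sqrt_nonneg _, Real.sqrt_le_one.2 (max_le zero_le_one (min_le_left _ _))⟩)
        (fun s hs => by
          rw [hβ s hs.1.le hs.2.le]
          exact ⟨div_pos (Real.sqrt_pos.2 hs.1) ha',
            (div_lt_one ha').2 (Real.sqrt_lt_sqrt hs.1.le hs.2)⟩)
        (by
          rw [h1, h2, hP, div_mul_eq_mul_div, ← add_div, le_div_iff₀ ha']
          refine le_of_eq ?_
          linear_combination -1 / 3 * hv - 2 * Real.sqrt a * Real.sq_sqrt ha.le)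
        (by fun_prop) (fun s hs => Real.sqrt_pos.2 (mul_pos Real.pi_pos hs.1))
        (hp.mono fun t ht hs => ht hs.1) a1 a2 a3]
      have b1 : ∀ s ∈ uIcc s1 s2, 0 < s ∧ 0 < a - s := fun s hs => by
        rw [uIcc_of_le a2] at hs
        exact ⟨a1.trans_le hs.1, sub_pos.2 (hs.2.trans_lt a3)⟩
      rw [intervalIntegral.integral_congr (g := fun s => (Real.sqrt Real.pi * Real.sqrt (a - s))⁻¹)
        fun s hs => by
          have c1 := Real.sqrt_pos.2 (b1 s hs).1
          have c2 := Real.sqrt_pos.2 (b1 s hs).2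
          have c3 : s ≤ a := (sub_pos.1 (b1 s hs).2).le
          simp only []
          rw [hβ' s (b1 s hs).1.le c3, hβ s (b1 s hs).1.le c3, Real.sqrt_mul Real.pi_pos.le]
          field_simp,
        intervalIntegral.integral_eq_sub_of_hasDerivAt
          (f' := fun s => (Real.sqrt Real.pi * Real.sqrt (a - s))⁻¹)
          (f := fun s => -(2 / Real.sqrt Real.pi * Real.sqrt (a - s))) (fun s hs => ?_)
          (ContinuousOn.intervalIntegrable (ContinuousOn.inv₀ (by fun_prop) fun s hs =>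
            (mul_pos hπ (Real.sqrt_pos.2 (b1 s hs).2)).ne'))]
      · ring
      · have c2 := Real.sqrt_pos.2 (b1 s hs).2
        refine ((((hasDerivAt_id s).const_sub a).sqrt (b1 s hs).2.ne').const_mul
          (2 / Real.sqrt Real.pi)).neg.congr_deriv ?_
        simp only [id]
        field_simp)
    (by
      rw [intervalIntegral.integral_const_mul, int_sqrt_Rig3 ha]
      field_simp
      linarith)
  intro t ht
  have h4 : ∀ s, s ≤ a → (2 / Real.sqrt Real.pi * Real.sqrt (a - s)) ^ 2 * Real.pi / 4 = a - s :=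
    fun s hs => by
      rw [mul_pow, div_pow, Real.sq_sqrt Real.pi_pos.le, Real.sq_sqrt (sub_nonneg.2 hs)]
      field_simp
      ring
  have h5 : 0 < Real.pi * t ^ 2 / 4 := by
    have := ht.1
    have := Real.pi_pos
    positivity
  refine le_antisymm (le_of_not_gt fun hc => ?_) (max_le (hb t).1 (le_of_not_gt fun hc => ?_))
  · obtain ⟨s, c1, c2⟩ := exists_between hc
    have c3 := c2.trans_le (hle t ht)
    have c4 := (lev_of_dist hd.1 ht).1 c2
    rw [h3 s ⟨(le_max_left _ _).trans_lt c1, c3⟩] at c4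
    have c5 := mul_le_mul_of_nonneg_right (pow_le_pow_left₀ ht.1.le c4 2) Real.pi_pos.le
    linarith [h4 s c3.le, (le_max_right _ _).trans_lt c1]
  · obtain ⟨s, c1, c2⟩ := exists_between hc
    have c3 : s < a := by linarith
    have c4 := (lev_of_dist hd.1 ht).2 c1.le
    rw [h3 s ⟨(hb t).1.trans_lt c1, c3⟩] at c4
    have c5 := mul_le_mul_of_nonneg_right (pow_le_pow_left₀ (by positivity) c4 2) Real.pi_pos.le
    linarith [h4 s c3.le]

theorem rig_an {D : Set R3} {P : ℝ} (hD : Down3 D) (h : Appr3 1 1 1 False False False D P)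
    (hv0 : 0 < μ3.real D) (hv : μ3.real D ≤ 1 / 2) (hA : AnCase D) (hP : P ≤ jf (μ3.real D)) :
    CanCube D P := by
  obtain ⟨p, hd, hap⟩ := dir3 one_pos hD h
  have hp : ∀ᵐ t ∂μ1, Real.sqrt (Real.pi * ar D t) ≤ p t := by
    filter_upwards [hap, ae_μ1_mem] with t h1 ht
    exact (hA t ht _ (slOf_of_appr (hD.sl ht) h1)).1
  have hi := integral_ar hD.1
  obtain ⟨h1, h2⟩ := an_eq hd hp (hi ▸ hv0) (hi ▸ hP)
  have h3 := ae_discs hD (by
    filter_upwards [hap, ae_μ1_mem, h1] with t a1 ht a2 h0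
    obtain ⟨a3, a4⟩ := (hA t ht _ (slOf_of_appr (hD.sl ht) a1)).2 (a2 h0) h0
    exact rig2 (hD.sl ht) a1 h0 (a2 h0) a3 a4)
  have h4 : ∀ᵐ x ∂μ3, x.1 ∈ Ioo (0 : ℝ) 1 := Measure.quasiMeasurePreserving_fst.ae ae_μ1_mem
  have h5 := hd.1.integral_mem
  have hπ := Real.pi_gt_three
  have hπ' : 0 < Real.sqrt Real.pi := Real.sqrt_pos.2 Real.pi_pos
  have hs := Real.sq_sqrt Real.pi_pos.le
  have hr : ∀ {v : ℝ}, 0 ≤ v → (2 * Real.sqrt v / Real.sqrt Real.pi) ^ 2 = 4 * v / Real.pi :=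
    fun h0 => by
      rw [div_pow, mul_pow, hs, Real.sq_sqrt h0]
      norm_num
  rcases h2 with ⟨a1, a2⟩ | ⟨a1, a2, a3⟩
  · rw [hi] at a2 h5
    refine ⟨0, 1, 1, 2 * Real.sqrt (μ3.real D) / Real.sqrt Real.pi, Or.inl rfl, Or.inr rfl,
      Or.inr rfl, by norm_num, by positivity, ?_, ?_, h3.trans (Filter.eventuallyEq_set.2 ?_)⟩
    · refine (pow_lt_one_iff_of_nonneg (by positivity) two_ne_zero).1 ?_
      rw [hr hv0.le, div_lt_one Real.pi_pos]
      linarith
    · rw [a2, Real.sqrt_mul Real.pi_pos.le]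
      nth_rewrite 3 [← Real.mul_self_sqrt hv0.le]
      field_simp
      ring
    · filter_upwards [h4] with x hx
      have b1 := le_top_of_bdd hd.1.2.2 hx
      have b2 : ar D x.1 = μ3.real D := by linarith [b1.1, b1.2, h5.1, h5.2]
      simp only [canC, mem_ofPred_eq, b2, hr hv0.le, zero_mul, zero_add, one_mul, sub_zero, div_one]
  · have ha : 0 < top (ar D) := (hi ▸ hv0).trans_le h5.2
    have hl := ball_levels hd (by
      filter_upwards [hp, h1] with t b1 b2 h0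
      exact le_antisymm (b2 h0) b1) ha a1 a2 a3
    rw [hi] at a3
    have hq := Real.sq_sqrt ha.le
    refine ⟨1, 1, 1, 2 * Real.sqrt (top (ar D)) / Real.sqrt Real.pi, Or.inr rfl, Or.inr rfl,
      Or.inr rfl, by norm_num, by positivity, ?_, ?_, h3.trans (Filter.eventuallyEq_set.2 ?_)⟩
    · refine (pow_lt_one_iff_of_nonneg (by positivity) three_ne_zero).1 ?_
      rw [div_pow, mul_pow, div_lt_one (by positivity), pow_succ (Real.sqrt Real.pi), hs]
      nlinarith
    · rw [a2, div_mul_eq_mul_div, div_eq_iff hπ'.ne']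
      linear_combination -a3 - 4 * Real.sqrt (top (ar D)) * hq
    · filter_upwards [h4] with x hx
      have b1 : 4 * (top (ar D) - Real.pi * x.1 ^ 2 / 4) / Real.pi =
          4 * top (ar D) / Real.pi - x.1 ^ 2 := by
        field_simp
      simp only [canC, mem_ofPred_eq, hl _ hx, hr ha.le, one_mul, sub_zero, div_one]
      rcases le_total 0 (top (ar D) - Real.pi * x.1 ^ 2 / 4) with b2 | b2
      · rw [max_eq_right b2, b1]
        constructor <;> intro <;> linarith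
      · have b3 : 4 * (top (ar D) - Real.pi * x.1 ^ 2 / 4) / Real.pi ≤ 0 :=
          div_nonpos_of_nonpos_of_nonneg (by linarith) Real.pi_pos.le
        rw [max_eq_left b2, mul_zero, zero_div]
        constructor <;> intro <;> nlinarith [sq_nonneg x.2.1, sq_nonneg x.2.2]

end Vale.Agent.P232
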