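import Vale.Agent.P232.Basic

/-!
# P232 / SliceAbs

The abstract slicing theorem (Fatou).
Take approximants `u k` with `ε = 2⁻ᵏ`. `e k t = ∫ y, |u k (t,y) - 1_D (t,y)|` has summable integrals,
so `e k t → 0` for a.e. `t` (e.g. `lintegral_tsum` finite ⇒ `ae_lt_top` ⇒ summable); call this set `Z`.
`q k t = ∫ y, g k (t,y)`, `p t = (liminf ofReal (q k t)).toReal` (finite a.e. by `lintegral_liminf_le`,
since `∫ q k ≤ P + 1`). `A k t = ∫ y, u k (t,y)` has derivative `∫ y, ut k (t,y)`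
(`hasDerivAt_integral_of_dominated_loc_of_deriv_le`), `|A k t - ν D_t| ≤ e k t`.
Pointwise `√((A ut)² + g²) ≥ β(A k t) g - 1[t0<t<t1] α(A k t) A ut` (Cauchy-Schwarz); integrate,
FTC for `t ↦ ∫ s in 0..A k t, α s` on `[t0,t1]`; pass to the limit: the `α` term converges as
`t0, t1 ∈ Z`, the `β` term by Fatou (`β (A k t) → β (ν D_t)` on `Z`).
-/

open MeasureTheory Set

namespace Vale.Agent.P232

open Filter Topology

theorem sec_SliceAbs {Y : Type} [MeasurableSpace Y] (ν : Measure Y) [IsProbabilityMeasure ν]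
    {f : ℝ × Y → ℝ} (hf : Measurable f) {C : ℝ} (hC : ∀ p, |f p| ≤ C) :
    Measurable (fun t => ∫ y, f (t, y) ∂ν) ∧ (∀ t, |∫ y, f (t, y) ∂ν| ≤ C) ∧
      (∀ t, Integrable (fun y => f (t, y)) ν) ∧ Integrable (fun t => ∫ y, f (t, y) ∂ν) μ1 ∧
      ∫ t, ∫ y, f (t, y) ∂ν ∂μ1 = ∫ p, f p ∂(μ1.prod ν) := by
  have hi := integrable_of_bdd (μ1.prod ν) hf C hC
  refine ⟨hf.stronglyMeasurable.integral_prod_right'.measurable, fun t => ?_,
    fun t => integrable_of_bdd ν (hf.comp measurable_prodMk_left) C fun _ => hC _,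
    hi.integral_prod_left, (integral_prod f hi).symm⟩
  have := norm_integral_le_of_norm_le_const (μ := ν) (f := fun y => f (t, y)) (C := C)
    (ae_of_all _ fun _ => hC _)
  simpa using this

theorem cs_SliceAbs {a b x y : ℝ} (h : a ^ 2 + b ^ 2 ≤ 1) :
    b * y - a * x ≤ Real.sqrt (x ^ 2 + y ^ 2) := by
  refine Real.le_sqrt_of_sq_le ?_
  nlinarith [sq_nonneg (a * y + b * x), mul_nonneg (sub_nonneg.2 h) (add_nonneg (sq_nonneg x)
    (sq_nonneg y))]

theorem en_SliceAbs {Y : Type} [MeasurableSpace Y] {ut g : ℝ × Y → ℝ} (h2 : Measurable ut)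
    (h3 : Measurable g) {C : ℝ} (c2 : ∀ p, |ut p| ≤ C) (c3 : ∀ p, |g p| ≤ C) (A : ℝ) :
    Measurable (fun p => Real.sqrt ((A * ut p) ^ 2 + g p ^ 2)) ∧
      ∀ p, |Real.sqrt ((A * ut p) ^ 2 + g p ^ 2)| ≤ Real.sqrt ((|A| * C) ^ 2 + C ^ 2) := by
  refine ⟨(((h2.const_mul A).pow_const 2).add (h3.pow_const 2)).sqrt, fun p => ?_⟩
  rw [abs_of_nonneg (Real.sqrt_nonneg _)]
  refine Real.sqrt_le_sqrt (add_le_add ?_ ?_)
  · rw [← sq_abs, abs_mul]
    exact pow_le_pow_left₀ (by positivity) (mul_le_mul_of_nonneg_left (c2 p) (abs_nonneg _)) 2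
  · rw [← sq_abs]
    exact pow_le_pow_left₀ (abs_nonneg _) (c3 p) 2

theorem one_SliceAbs {Y : Type} [MeasurableSpace Y] (ν : Measure Y) [IsProbabilityMeasure ν]
    {u ut g : ℝ × Y → ℝ} (h1 : Measurable u) (h2 : Measurable ut) (h3 : Measurable g) {C : ℝ}
    (hC : ∀ p, |u p| ≤ C ∧ |ut p| ≤ C ∧ |g p| ≤ C)
    (hd : ∀ t y, HasDerivAt (fun s => u (s, y)) (ut (t, y)) t) (A : ℝ) {t0 t1 : ℝ} (p0 : 0 < t0)
    (p1 : t0 ≤ t1) (p2 : t1 < 1) {α β : ℝ → ℝ} (hc : Cal α β) :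
    Integrable (fun t => β (∫ y, u (t, y) ∂ν) * ∫ y, g (t, y) ∂ν) μ1 ∧
    ∫ t, β (∫ y, u (t, y) ∂ν) * ∫ y, g (t, y) ∂ν ∂μ1 +
      A * ∫ s in (∫ y, u (t1, y) ∂ν)..(∫ y, u (t0, y) ∂ν), α s ≤
      ∫ p, Real.sqrt ((A * ut p) ^ 2 + g p ^ 2) ∂(μ1.prod ν) := by
  obtain ⟨a1, -, a3, -⟩ := sec_SliceAbs ν h1 fun p => (hC p).1
  obtain ⟨b1, b2, b3, -⟩ := sec_SliceAbs ν h2 fun p => (hC p).2.1
  obtain ⟨c1, c2, c3, -⟩ := sec_SliceAbs ν h3 fun p => (hC p).2.2
  obtain ⟨e1, e2⟩ := en_SliceAbs h2 h3 (fun p => (hC p).2.1) (fun p => (hC p).2.2) A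
  obtain ⟨-, -, d3, d4, d5⟩ := sec_SliceAbs ν e1 e2
  obtain ⟨k1, k2, k3, k4⟩ := hc
  have k5 : ∀ s, |α s| ≤ 1 := fun s => sq_le_one_iff_abs_le_one _ |>.1 (by
    nlinarith [k4 s, sq_nonneg (β s)])
  have k6 : ∀ s, |β s| ≤ 1 := fun s => sq_le_one_iff_abs_le_one _ |>.1 (by
    nlinarith [k4 s, sq_nonneg (α s)])
  have hD : ∀ t, HasDerivAt (fun s => ∫ y, u (s, y) ∂ν) (∫ y, ut (t, y) ∂ν) t := fun t =>
    (hasDerivAt_integral_of_dominated_loc_of_deriv_le (F := fun s y => u (s, y))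
      (F' := fun s y => ut (s, y)) (bound := fun _ => C) univ_mem
      (Eventually.of_forall fun s => (a3 s).1) (a3 t) (b3 t).1
      (ae_of_all _ fun y s _ => (hC _).2.1) (integrable_const _)
      (ae_of_all _ fun y s _ => hd s y)).2
  have hpt : ∀ t a b : ℝ, a ^ 2 + b ^ 2 ≤ 1 → b * ∫ y, g (t, y) ∂ν - a * (A * ∫ y, ut (t, y) ∂ν) ≤
      ∫ y, Real.sqrt ((A * ut (t, y)) ^ 2 + g (t, y) ^ 2) ∂ν := by
    intro t a b hab
    rw [← integral_const_mul, ← integral_const_mul, ← integral_const_mul,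
      ← integral_sub ((c3 t).const_mul b) (((b3 t).const_mul A).const_mul a)]
    exact integral_mono (((c3 t).const_mul b).sub (((b3 t).const_mul A).const_mul a)) (d3 t)
      fun y => cs_SliceAbs hab
  set a : ℝ → ℝ := fun t => ∫ y, u (t, y) ∂ν with ha
  set a' : ℝ → ℝ := fun t => ∫ y, ut (t, y) ∂ν with ha'
  set q : ℝ → ℝ := fun t => ∫ y, g (t, y) ∂ν with hq
  have i1 : Integrable (fun t => β (a t) * q t) μ1 :=
    integrable_of_bdd μ1 ((k2.measurable.comp a1).mul c1) C fun t => by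
      rw [abs_mul]
      exact (mul_le_of_le_one_left (abs_nonneg _) (k6 _)).trans (c2 t)
  have m2 : Measurable fun t => α (a t) * a' t := (k1.measurable.comp a1).mul b1
  have n2 : ∀ t, |α (a t) * a' t| ≤ C := fun t => by
    rw [abs_mul]
    exact (mul_le_of_le_one_left (abs_nonneg _) (k5 _)).trans (b2 t)
  have i2 : Integrable (fun t => α (a t) * a' t) μ1 := integrable_of_bdd μ1 m2 C n2
  have f1 : ∫ t in t0..t1, α (a t) * a' t =
      (∫ s in (0 : ℝ)..a t1, α s) - ∫ s in (0 : ℝ)..a t0, α s := by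
    refine intervalIntegral.integral_eq_sub_of_hasDerivAt
      (f := fun t => ∫ s in (0 : ℝ)..a t, α s) (fun t _ =>
        ((k1.integral_hasStrictDerivAt 0 (a t)).hasDerivAt.comp t (hD t))) ?_
    rw [intervalIntegrable_iff_integrableOn_Ioc_of_le p1]
    exact integrable_of_bdd (volume.restrict (Ioc t0 t1)) m2 C n2
  have f2 : ∫ t, (Ioc t0 t1).indicator (fun t => α (a t) * a' t) t ∂μ1 =
      -∫ s in a t1..a t0, α s := by
    rw [integral_indicator measurableSet_Ioc, μ1, Measure.restrict_restrict measurableSet_Ioc,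
      inter_eq_left.2 (Ioc_subset_Ioo_right p2 |>.trans (Ioo_subset_Ioo_left p0.le)),
      ← intervalIntegral.integral_of_le p1, f1, intervalIntegral.integral_interval_sub_left
        (k1.intervalIntegrable _ _) (k1.intervalIntegrable _ _), intervalIntegral.integral_symm]
  refine ⟨i1, ?_⟩
  have i3 := (i2.indicator (measurableSet_Ioc (a := t0) (b := t1))).const_mul A
  have f3 := integral_mono (i1.sub i3) d4 fun t => by
    show β (a t) * q t - A * (Ioc t0 t1).indicator (fun t => α (a t) * a' t) t ≤ _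
    by_cases ht : t ∈ Ioc t0 t1
    · rw [indicator_of_mem ht, mul_left_comm]
      exact hpt t _ _ (k4 _)
    · have := hpt t 0 (β (a t)) (by nlinarith [k4 (a t), sq_nonneg (α (a t))])
      rw [zero_mul] at this
      rwa [indicator_of_notMem ht, mul_zero]
  rw [d5] at f3
  refine le_trans (le_of_eq ?_) f3
  rw [integral_sub' i1 i3, integral_const_mul, f2]
  ring

theorem fatou_SliceAbs {f : ℕ → ℝ → ℝ} (hi : ∀ k, Integrable (f k) μ1) (h0 : ∀ k t, 0 ≤ f k t)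
    {c : ℕ → ℝ} {c0 : ℝ} (hc : ∀ k, ∫ t, f k t ∂μ1 ≤ c k) (hl : Tendsto c atTop (𝓝 c0)) :
    0 ≤ c0 ∧ ∫⁻ t, liminf (fun k => ENNReal.ofReal (f k t)) atTop ∂μ1 ≤ ENNReal.ofReal c0 := by
  refine ⟨ge_of_tendsto' hl fun k => (integral_nonneg (h0 k)).trans (hc k), ?_⟩
  refine (lintegral_liminf_le' fun k => (hi k).1.aemeasurable.ennreal_ofReal).trans ?_
  rw [← (ENNReal.tendsto_ofReal hl).liminf_eq]
  refine liminf_le_liminf (Eventually.of_forall fun k => ?_)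
  rw [← ofReal_integral_eq_lintegral_ofReal (hi k) (ae_of_all _ (h0 k))]
  exact ENNReal.ofReal_le_ofReal (hc k)

theorem ae_SliceAbs {e : ℕ → ℝ → ℝ} (hi : ∀ k, Integrable (e k) μ1) (h0 : ∀ k t, 0 ≤ e k t)
    (hc : ∀ k, ∫ t, e k t ∂μ1 ≤ (1 / 2) ^ k) :
    ∀ᵐ t ∂μ1, Tendsto (fun k => e k t) atTop (𝓝 0) := by
  have hm : ∀ k, AEMeasurable (fun t => ENNReal.ofReal (e k t)) μ1 :=
    fun k => (hi k).1.aemeasurable.ennreal_ofReal
  have h1 : ∫⁻ t, ∑' k, ENNReal.ofReal (e k t) ∂μ1 ≠ ⊤ := by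
    rw [lintegral_tsum hm]
    refine ne_top_of_le_ne_top (ENNReal.ofReal_ne_top (r := ∑' k : ℕ, (1 / 2 : ℝ) ^ k)) ?_
    rw [ENNReal.ofReal_tsum_of_nonneg (fun _ => by positivity) summable_geometric_two]
    refine ENNReal.tsum_le_tsum fun k => ?_
    rw [← ofReal_integral_eq_lintegral_ofReal (hi k) (ae_of_all _ (h0 k))]
    exact ENNReal.ofReal_le_ofReal (hc k)
  filter_upwards [ae_lt_top' (AEMeasurable.tsum hm) h1] with t ht
  have h2 := (ENNReal.tendsto_toReal ENNReal.zero_ne_top).comp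
    (ENNReal.tendsto_atTop_zero_of_tsum_ne_top ht.ne)
  refine h2.congr fun k => ?_
  exact ENNReal.toReal_ofReal (h0 k t)

theorem slice_abs {Y : Type} [MeasurableSpace Y] (ν : Measure Y) [IsProbabilityMeasure ν]
    (Adm : (Y → ℝ) → (Y → ℝ) → Prop) {D : Set (ℝ × Y)} (hD : MeasurableSet D) {A P : ℝ}
    (h : ∀ ε > (0 : ℝ), ∃ u ut g : ℝ × Y → ℝ, Measurable u ∧ Measurable ut ∧ Measurable g ∧
      (∃ C : ℝ, ∀ p, |u p| ≤ C ∧ |ut p| ≤ C ∧ |g p| ≤ C) ∧ (∀ p, 0 ≤ g p) ∧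
      (∀ t y, HasDerivAt (fun s => u (s, y)) (ut (t, y)) t) ∧
      (∀ t, Adm (fun y => u (t, y)) (fun y => g (t, y))) ∧
      ∫ p, |u p - ind D p| ∂(μ1.prod ν) ≤ ε ∧
      ∫ p, Real.sqrt ((A * ut p) ^ 2 + g p ^ 2) ∂(μ1.prod ν) ≤ P + ε) :
    ∃ p : ℝ → ℝ, Integrable p μ1 ∧ (∀ t, 0 ≤ p t) ∧
      (∀ᵐ t ∂μ1, ∀ ε > (0 : ℝ), ∃ v g : Y → ℝ, Adm v g ∧
        ∫ y, |v y - ind (Prod.mk t ⁻¹' D) y| ∂ν ≤ ε ∧ ∫ y, g y ∂ν ≤ p t + ε) ∧
      ∃ Z : Set ℝ, (∀ᵐ t ∂μ1, t ∈ Z) ∧ ∀ t0 ∈ Z, ∀ t1 ∈ Z, 0 < t0 → t0 ≤ t1 → t1 < 1 →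
        ∀ α β : ℝ → ℝ, Cal α β →
          ∫ t, β (ν.real (Prod.mk t ⁻¹' D)) * p t ∂μ1 +
            A * ∫ s in ν.real (Prod.mk t1 ⁻¹' D)..ν.real (Prod.mk t0 ⁻¹' D), α s ≤ P := by
  choose u ut g m1 m2 m3 hC g0 hd hA h1 h2 using fun k : ℕ => h ((1 / 2) ^ k) (by positivity)
  choose C hC using hC
  have hg : Tendsto (fun k : ℕ => (1 / 2 : ℝ) ^ k) atTop (𝓝 0) :=
    tendsto_pow_atTop_nhds_zero_of_lt_one (by norm_num) (by norm_num)
  have mi := measurable_ind hD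
  have bi : ∀ p, |ind D p| ≤ 1 := fun p => abs_le.2 ⟨by linarith [(ind_mem D p).1], (ind_mem D p).2⟩
  have se := fun k => sec_SliceAbs ν (f := fun p => |u k p - ind D p|) ((m1 k).sub mi).abs
    (C := C k + 1) fun p => by
      rw [abs_abs]
      exact (abs_sub _ _).trans (add_le_add (hC k p).1 (bi p))
  have sg := fun k => sec_SliceAbs ν (m3 k) fun p => (hC k p).2.2
  have hZ := ae_SliceAbs (fun k => (se k).2.2.2.1)
    (fun k t => integral_nonneg fun _ => abs_nonneg _) fun k => (se k).2.2.2.2.trans_le (h1 k)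
  have q0 : ∀ k t, 0 ≤ ∫ y, g k (t, y) ∂ν := fun k t => integral_nonneg fun _ => g0 k _
  have hq := (fatou_SliceAbs (fun k => (sg k).2.2.2.1) q0 (c := fun _ => P + 1) (fun k => by
    obtain ⟨e1, e2⟩ := en_SliceAbs (m2 k) (m3 k) (fun p => (hC k p).2.1) (fun p => (hC k p).2.2) A
    rw [(sg k).2.2.2.2]
    refine (integral_mono (integrable_of_bdd _ (m3 k) _ fun p => (hC k p).2.2)
      (integrable_of_bdd _ e1 _ e2) fun p => Real.le_sqrt_of_sq_le
        (le_add_of_nonneg_left (sq_nonneg _))).trans ((h2 k).trans ?_)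
    have : (1 / 2 : ℝ) ^ k ≤ 1 := pow_le_one₀ (by norm_num) (by norm_num)
    linarith) tendsto_const_nhds).2
  set Q : ℝ → ENNReal := fun t => liminf (fun k => ENNReal.ofReal (∫ y, g k (t, y) ∂ν)) atTop
    with hQ
  have mQ : Measurable Q := Measurable.liminf fun k => (sg k).1.ennreal_ofReal
  have hq' := ne_top_of_le_ne_top ENNReal.ofReal_ne_top hq
  have fQ := ae_lt_top mQ hq'
  have conv : ∀ t, Tendsto (fun k => ∫ y, |u k (t, y) - ind D (t, y)| ∂ν) atTop (𝓝 0) →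
      Tendsto (fun k => ∫ y, u k (t, y) ∂ν) atTop (𝓝 (ν.real (Prod.mk t ⁻¹' D))) := by
    intro t ht
    rw [tendsto_iff_norm_sub_tendsto_zero]
    refine squeeze_zero (fun _ => norm_nonneg _) (fun k => ?_) ht
    have e : ν.real (Prod.mk t ⁻¹' D) = ∫ y, ind D (t, y) ∂ν :=
      (integral_ind ν (measurable_prodMk_left hD)).symm
    rw [e, ← integral_sub ((sec_SliceAbs ν (m1 k) fun p => (hC k p).1).2.2.1 t)
      ((sec_SliceAbs ν mi bi).2.2.1 t)]
    exact norm_integral_le_integral_norm _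
  refine ⟨fun t => (Q t).toReal, integrable_toReal_of_lintegral_ne_top mQ.aemeasurable hq',
    fun _ => ENNReal.toReal_nonneg, ?_, _, hZ, fun t0 z0 t1 z1 p0 p1 p2 α β hc => ?_⟩
  · filter_upwards [hZ, fQ] with t ht hf ε hε
    have l1 : Q t < ENNReal.ofReal ((Q t).toReal + ε) := by
      rw [ENNReal.lt_ofReal_iff_toReal_lt hf.ne]
      linarith
    obtain ⟨k, k1, k2⟩ := ((frequently_lt_of_liminf_lt (h := l1)).and_eventually
      (ht.eventually (ge_mem_nhds hε))).exists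
    exact ⟨_, _, hA k t, k2, ((ENNReal.ofReal_lt_ofReal_iff_of_nonneg (q0 k t)).1 k1).le⟩
  · have o := fun k => one_SliceAbs ν (m1 k) (m2 k) (m3 k) (hC k) (hd k) A p0 p1 p2 hc
    have hα : Continuous fun x : ℝ × ℝ => ∫ s in x.1..x.2, α s := by
      have c1 := intervalIntegral.continuous_primitive (μ := volume)
        (fun a b => hc.1.intervalIntegrable a b) 0
      refine ((c1.comp continuous_snd).sub (c1.comp continuous_fst)).congr fun x => ?_
      exact intervalIntegral.integral_interval_sub_left (hc.1.intervalIntegrable _ _)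
        (hc.1.intervalIntegrable _ _)
    have lim := (hg.const_add P).sub (((hα.tendsto _).comp
      ((conv t1 z1).prodMk_nhds (conv t0 z0))).const_mul A)
    obtain ⟨f1, f2⟩ := fatou_SliceAbs (fun k => (o k).1)
      (fun k t => mul_nonneg (hc.2.2.1 _) (q0 k t))
      (fun k => le_sub_iff_add_le.2 ((o k).2.trans (h2 k))) lim
    rw [add_zero] at f1 f2
    rw [← le_sub_iff_add_le]
    by_cases hi : Integrable (fun t => β (ν.real (Prod.mk t ⁻¹' D)) * (Q t).toReal) μ1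
    swap
    · rw [integral_undef hi]
      exact f1
    rw [← ENNReal.ofReal_le_ofReal_iff f1, ofReal_integral_eq_lintegral_ofReal hi
      (ae_of_all _ fun t => mul_nonneg (hc.2.2.1 _) ENNReal.toReal_nonneg)]
    refine (lintegral_mono_ae ?_).trans f2
    filter_upwards [hZ, fQ] with t ht hf
    rw [ENNReal.ofReal_mul (hc.2.2.1 _), ENNReal.ofReal_toReal hf.ne,
      ← (ENNReal.tendsto_ofReal ((hc.2.1.tendsto _).comp (conv t ht))).liminf_eq]
    refine ENNReal.le_liminf_mul.trans (le_of_eq ?_)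
    refine congrArg (fun f => liminf f atTop) (funext fun k => ?_)
    exact (ENNReal.ofReal_mul (hc.2.2.1 _)).symm

end Vale.Agent.P232
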