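import Vale.Agent.P232.Defect
import Vale.Agent.P232.Rect

/-!
# P232 / StepR

One step back through Steiner symmetrisation.
`fib_canC`: fibres of the canonical set: for `e1 = 1` the length is `2√(R² - s)` (`< 1`), for `e1 = 0` it is
`1` or `0`. With `ae_fib`, `fib_stein`: `fib E = fib (canC ..)` a.e.
`e1 = 0`: fibres are full or null, so `E =ᵐ {s < R²}` (any `c`).
`e1 = 1`: cover `Ω = {q ∈ (0,1)² | s q < R²}` by the countably many rectangles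
`K(ρ2,ρ3) = Icc (max 0 (o2-ρ2)) (min 1 (o2+ρ2)) ×ˢ Icc (max 0 (o3-ρ3)) (min 1 (o3+ρ3))` with rational
`ρ2, ρ3 > 0` and `e2 (ρ2/c2)² + e3 (ρ3/c3)² < R²`. `rect_rigid` with `tight_of_eq` gives a centre for each;
two of them meet in a rectangle of positive measure, where equal arcs of length in `(0,1)` force equal
arcs for every radius (`integral_arc_cos`, `arc_eq_of_cos`). Off `Ω` the fibres are null. Conclude by
Fubini: `‖t - c‖ < √(R² - s) ↔ ‖t - c‖² + s < R²`.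
-/

open MeasureTheory Set

namespace Vale.Agent.P232

theorem zo_StepR {e : ℝ} (h : ZO e) : 0 ≤ e := by
  rcases h with rfl | rfl <;> norm_num

theorem sq2_StepR {e2 e3 : ℝ} (h2 : ZO e2) (h3 : ZO e3) (c2 o2 c3 o3 : ℝ) (q : ℝ × ℝ) :
    0 ≤ sq2 e2 e3 c2 o2 c3 o3 q :=
  add_nonneg (mul_nonneg (zo_StepR h2) (sq_nonneg _)) (mul_nonneg (zo_StepR h3) (sq_nonneg _))

theorem sqrt_StepR {R s : ℝ} (hR0 : 0 < R) (hs : 0 ≤ s) : Real.sqrt (R ^ 2 - s) ≤ R :=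
  Real.sqrt_le_iff.2 ⟨hR0.le, by linarith⟩

theorem fib_canC1 {e2 e3 c2 o2 c3 o3 R : ℝ} (hR0 : 0 < R) (hR : R < 1 / 2) (h2 : ZO e2)
    (h3 : ZO e3) (q : ℝ × ℝ) :
    fib (canC 1 e2 e3 2 0 c2 o2 c3 o3 R) q =
      2 * Real.sqrt (R ^ 2 - sq2 e2 e3 c2 o2 c3 o3 q) := by
  have h0 := Real.sqrt_nonneg (R ^ 2 - sq2 e2 e3 c2 o2 c3 o3 q)
  have h1 := sqrt_StepR hR0 (sq2_StepR h2 h3 c2 o2 c3 o3 q)
  rw [← μ1_real_Iio (2 * Real.sqrt (R ^ 2 - sq2 e2 e3 c2 o2 c3 o3 q)) (by linarith) (by linarith)]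
  refine measureReal_congr (Filter.eventuallyEq_set.2 ?_)
  filter_upwards [ae_μ1_mem] with t ht
  have h4 := Real.lt_sqrt (y := R ^ 2 - sq2 e2 e3 c2 o2 c3 o3 q) (x := t / 2) (by linarith [ht.1])
  simp only [canC, sq2, mem_ofPred_eq, sub_zero, one_mul] at h4 ⊢
  constructor
  · intro h
    linarith [h4.2 (by linarith)]
  · intro h
    linarith [h4.1 (by linarith)]

theorem arc_eq_of_ae {c c' r : ℝ} (h0 : 0 < r) (h1 : r < 1 / 2)
    (h : arc c r =ᵐ[μ1] arc c' r) (r' : ℝ) : arc c r' = arc c' r' := by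
  have hs : 0 < Real.sin (2 * Real.pi * r) :=
    Real.sin_pos_of_pos_of_lt_pi (by positivity) (by nlinarith [Real.pi_pos])
  have key : ∀ φ, Real.cos (2 * Real.pi * c - φ) = Real.cos (2 * Real.pi * c' - φ) := fun φ => by
    have h2 : ∫ t, ind (arc c r) t * Real.cos (2 * Real.pi * t - φ) ∂μ1 =
        ∫ t, ind (arc c' r) t * Real.cos (2 * Real.pi * t - φ) ∂μ1 := by
      refine integral_congr_ae ?_
      filter_upwards [indicator_ae_eq_of_ae_eq_set (f := fun _ => (1 : ℝ)) h] with t ht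
      exact congrArg (· * _) ht
    rw [integral_arc_cos c φ h0.le h1.le, integral_arc_cos c' φ h0.le h1.le,
      div_left_inj' Real.pi_pos.ne'] at h2
    exact mul_right_cancel₀ hs.ne' h2
  exact arc_eq_of_cos r' (key _) (key _)

theorem ae_of_fibres {A B : Set R3} (hA : MeasurableSet A) (hB : MeasurableSet B)
    (h : ∀ᵐ q ∂μ2, {t | (t, q) ∈ A} =ᵐ[μ1] {t | (t, q) ∈ B}) : A =ᵐ[μ3] B := by
  have hm : MeasurableSet {p : R3 | p ∈ A ↔ p ∈ B} := hA.mem.iff hB.mem |>.setOf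
  refine Filter.eventuallyEq_set.2 ((Measure.ae_prod_iff_ae_ae hm).2
    ((Measure.ae_ae_comm (p := fun t q => (t, q) ∈ A ↔ (t, q) ∈ B) hm).2 ?_))
  filter_upwards [h] with q hq
  exact Filter.eventuallyEq_set.1 hq

/-- The sides of the rectangles. -/
def KI_StepR (o ρ : ℝ) : Set ℝ := Icc (max 0 (o - ρ)) (min 1 (o + ρ))

theorem fr_StepR {c o : ℝ} (f : Fr c o) : 1 ≤ c ∧ 0 ≤ o ∧ o ≤ 1 / 2 := by
  rcases f with ⟨rfl, rfl⟩ | ⟨rfl, rfl⟩ <;> norm_num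

theorem mono_StepR (o : ℝ) {ρ ρ' : ℝ} (h : ρ ≤ ρ') : KI_StepR o ρ ⊆ KI_StepR o ρ' :=
  Icc_subset_Icc (max_le_max le_rfl (by linarith)) (min_le_min le_rfl (by linarith))

theorem pos_StepR {c o ρ : ℝ} (f : Fr c o) (h : 0 < ρ) : μ1 (KI_StepR o ρ) ≠ 0 := by
  obtain ⟨-, h1, h2⟩ := fr_StepR f
  have hs : Ioo o (min 1 (o + ρ)) ⊆ KI_StepR o ρ ∩ Ioo 0 1 := fun t ht =>
    ⟨⟨max_le (h1.trans ht.1.le) (by linarith [ht.1]), ht.2.le⟩, h1.trans_lt ht.1,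
      ht.2.trans_le (min_le_left _ _)⟩
  rw [μ1, KI_StepR, Measure.restrict_apply measurableSet_Icc]
  refine (lt_of_lt_of_le ?_ (measure_mono hs)).ne'
  rw [Real.volume_Ioo, ENNReal.ofReal_pos, sub_pos]
  exact lt_min (by linarith) (by linarith)

theorem le_StepR {e c o ρ y : ℝ} (h : ZO e) (hy : y ∈ KI_StepR o ρ) :
    e * ((y - o) / c) ^ 2 ≤ e * (ρ / c) ^ 2 := by
  have h1 := (max_le_iff.1 hy.1).2
  have h2 := (le_min_iff.1 hy.2).2
  rw [div_pow, div_pow]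
  exact mul_le_mul_of_nonneg_left (div_le_div_of_nonneg_right
    (sq_le_sq' (by linarith) (by linarith)) (sq_nonneg c)) (zo_StepR h)

theorem cover_StepR {e2 e3 c2 c3 R a b : ℝ} (h2 : ZO e2) (h3 : ZO e3) (hc2 : 1 ≤ c2)
    (hc3 : 1 ≤ c3) (h : e2 * (a / c2) ^ 2 + e3 * (b / c3) ^ 2 < R ^ 2) :
    ∃ ρ : ℚ × ℚ, |a| < ρ.1 ∧ |b| < ρ.2 ∧
      e2 * ((ρ.1 : ℝ) / c2) ^ 2 + e3 * ((ρ.2 : ℝ) / c3) ^ 2 < R ^ 2 := by
  have hc : Continuous fun ε : ℝ => e2 * ((|a| + ε) / c2) ^ 2 + e3 * ((|b| + ε) / c3) ^ 2 := by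
    fun_prop
  have h0 : ∀ᶠ ε in nhds (0 : ℝ),
      e2 * ((|a| + ε) / c2) ^ 2 + e3 * ((|b| + ε) / c3) ^ 2 < R ^ 2 :=
    hc.continuousAt.eventually_lt continuousAt_const (by simpa [div_pow] using h)
  obtain ⟨ε, hε, hε0⟩ := ((h0.filter_mono (nhdsWithin_le_nhds (s := Ioi 0))).and
    self_mem_nhdsWithin).exists
  obtain ⟨r, r1, r2⟩ := exists_rat_btwn (show |a| < |a| + ε by linarith [show 0 < ε from hε0])
  obtain ⟨s, s1, s2⟩ := exists_rat_btwn (show |b| < |b| + ε by linarith [show 0 < ε from hε0])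
  refine ⟨(r, s), r1, s1, lt_of_le_of_lt ?_ hε⟩
  have a2 := zo_StepR h2
  have a3 := zo_StepR h3
  have r0 : (0 : ℝ) ≤ r := (abs_nonneg a).trans r1.le
  have s0 : (0 : ℝ) ≤ s := (abs_nonneg b).trans s1.le
  gcongr

theorem bd_StepR {e c w γ x : ℝ} (h : ZO e) (hc : 1 ≤ c) (hw : e * w ^ 2 ≤ 1) (hγ : 0 < γ)
    (hx : γ ≤ x) : |-2 * (e * w) / (c * x)| ≤ 2 / γ := by
  have h1 : |e * w| ≤ 1 := by
    rcases h with rfl | rfl
    · simp
    · rw [one_mul] at hw ⊢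
      exact (sq_le_one_iff_abs_le_one w).1 hw
  have h2 : γ ≤ c * x := hx.trans (le_mul_of_one_le_left (by linarith) hc)
  rw [abs_div, abs_mul, abs_of_pos (hγ.trans_le h2)]
  refine div_le_div₀ (by norm_num) ?_ hγ h2
  norm_num
  simpa using h1

theorem der_StepR {e c o a y : ℝ} (hc : c ≠ 0) (h : 0 < a - e * ((y - o) / c) ^ 2) :
    HasDerivAt (fun s => 2 * Real.sqrt (a - e * ((s - o) / c) ^ 2))
      (-2 * (e * ((y - o) / c)) / (c * Real.sqrt (a - e * ((y - o) / c) ^ 2))) y := by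
  have h1 := (((((hasDerivAt_id' y).sub_const o).div_const c).pow 2).const_mul e).const_sub a
  refine ((h1.sqrt h.ne').const_mul 2).congr_deriv ?_
  have := (Real.sqrt_pos.2 h).ne'
  simp only [Pi.pow_apply]
  generalize Real.sqrt (a - e * ((y - o) / c) ^ 2) = x at this
  norm_num
  field_simp

theorem rect_StepR {e2 e3 c2 o2 c3 o3 R P : ℝ} (h2 : ZO e2) (h3 : ZO e3)
    (f2 : Fr c2 o2) (f3 : Fr c3 o3) (hR0 : 0 < R) (hR : R < 1 / 2) {k2 k3 : Prop} {E : Set R3}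
    (hE : MeasurableSet E) (h : Appr3 1 c2 c3 True k2 k3 E P)
    (hP : R * P = (1 + e2 + e3) * μ3.real E)
    (hfib : ∀ᵐ q ∂μ2, fib E q = 2 * Real.sqrt (R ^ 2 - sq2 e2 e3 c2 o2 c3 o3 q))
    {ρ2 ρ3 : ℝ} (p2 : 0 < ρ2) (p3 : 0 < ρ3)
    (hρ : e2 * (ρ2 / c2) ^ 2 + e3 * (ρ3 / c3) ^ 2 < R ^ 2) :
    ∃ c : ℝ, ∀ᵐ q ∂μ2, q ∈ KI_StepR o2 ρ2 ×ˢ KI_StepR o3 ρ3 →
      {t | (t, q) ∈ E} =ᵐ[μ1] arc c (Real.sqrt (R ^ 2 - sq2 e2 e3 c2 o2 c3 o3 q)) := by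
  obtain ⟨a1, a2, a3⟩ := fr_StepR f2
  obtain ⟨b1, b2, b3⟩ := fr_StepR f3
  obtain ⟨γ, hγ, hK⟩ : ∃ γ : ℝ, 0 < γ ∧ ∀ q ∈ KI_StepR o2 ρ2 ×ˢ KI_StepR o3 ρ3,
      sq2 e2 e3 c2 o2 c3 o3 q ≤ R ^ 2 - γ :=
    ⟨R ^ 2 - (e2 * (ρ2 / c2) ^ 2 + e3 * (ρ3 / c3) ^ 2), sub_pos.2 hρ, fun q hq => by
      linarith [add_le_add (le_StepR (c := c2) h2 hq.1) (le_StepR (c := c3) h3 hq.2),
        show sq2 e2 e3 c2 o2 c3 o3 q = _ + _ from rfl]⟩
  have hT := tight_of_eq h2 h3 f2 f3 hR0 hR hE h hP hfib hγ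
    (measurableSet_Icc.prod measurableSet_Icc) hK
  have hg := Real.sqrt_pos.2 hγ
  obtain ⟨c, hc⟩ := rect_rigid hE (m0 := fun q => 2 * Real.sqrt (R ^ 2 - sq2 e2 e3 c2 o2 c3 o3 q))
    ⟨le_max_left _ _, max_le (le_min zero_le_one (by linarith)) (le_min (by linarith) (by linarith)),
      min_le_left _ _⟩
    ⟨le_max_left _ _, max_le (le_min zero_le_one (by linarith)) (le_min (by linarith) (by linarith)),
      min_le_left _ _⟩
    (by unfold sq2; fun_prop) (by unfold sq2; fun_prop) (by unfold sq2; fun_prop)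
    (δ := min (2 * Real.sqrt γ) (1 - 2 * R)) (L := 2 / Real.sqrt γ)
    (lt_min (by linarith) (by linarith))
    (fun q hq => by
      have s1 := hK q hq
      have s2 : Real.sqrt γ ≤ Real.sqrt (R ^ 2 - sq2 e2 e3 c2 o2 c3 o3 q) :=
        Real.sqrt_le_sqrt (by linarith)
      have s3 := sqrt_StepR hR0 (sq2_StepR h2 h3 c2 o2 c3 o3 q)
      have s4 := mul_nonneg (zo_StepR h2) (sq_nonneg ((q.1 - o2) / c2))
      have s5 := mul_nonneg (zo_StepR h3) (sq_nonneg ((q.2 - o3) / c3))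
      have s6 : R ^ 2 ≤ 1 := by nlinarith
      have s7 : sq2 e2 e3 c2 o2 c3 o3 q = _ + _ := rfl
      exact ⟨(min_le_left _ _).trans (by linarith), by linarith [min_le_right (2 * Real.sqrt γ) (1 - 2 * R)],
        bd_StepR h2 a1 (by linarith) hg s2, bd_StepR h3 b1 (by linarith) hg s2⟩)
    (fun y hy z hz => by
      have s1 := hK (y, z) ⟨hy, hz⟩
      have e1 : ∀ s, R ^ 2 - sq2 e2 e3 c2 o2 c3 o3 (s, z) =
          R ^ 2 - e3 * ((z - o3) / c3) ^ 2 - e2 * ((s - o2) / c2) ^ 2 := fun s => by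
        unfold sq2
        ring
      have e2' : ∀ s, R ^ 2 - sq2 e2 e3 c2 o2 c3 o3 (y, s) =
          R ^ 2 - e2 * ((y - o2) / c2) ^ 2 - e3 * ((s - o3) / c3) ^ 2 := fun s => by
        unfold sq2
        ring
      constructor
      · simp only [e1]
        exact der_StepR (by linarith) (by rw [← e1]; linarith)
      · simp only [e2']
        exact der_StepR (by linarith) (by rw [← e2']; linarith))
    (hfib.mono fun q hq _ => hq) hT
  refine ⟨c, hc.mono fun q hq hq' => ?_⟩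
  have := hq hq'
  rwa [mul_div_cancel_left₀ _ two_ne_zero] at this

theorem step_rigid {e1 e2 e3 c2 o2 c3 o3 R P : ℝ} (h1 : ZO e1) (h2 : ZO e2) (h3 : ZO e3)
    (f2 : Fr c2 o2) (f3 : Fr c3 o3) (hR0 : 0 < R) (hR : R < 1 / 2) {k2 k3 : Prop} {E : Set R3}
    (hE : MeasurableSet E) (h : Appr3 1 c2 c3 True k2 k3 E P)
    (hP : R * P = (e1 + e2 + e3) * μ3.real E)
    (hS : stein E =ᵐ[μ3] canC e1 e2 e3 2 0 c2 o2 c3 o3 R) :
    ∃ c : ℝ, E =ᵐ[μ3] {p : R3 | e1 * ‖((p.1 - c : ℝ) : UnitAddCircle)‖ ^ 2 +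
      sq2 e2 e3 c2 o2 c3 o3 p.2 < R ^ 2} := by
  have hfib : ∀ᵐ q ∂μ2, fib E q = fib (canC e1 e2 e3 2 0 c2 o2 c3 o3 R) q :=
    (ae_fib hS).mono fun q hq => (fib_stein E q).symm.trans hq
  have hB : ∀ c : ℝ, MeasurableSet {p : R3 | e1 * ‖((p.1 - c : ℝ) : UnitAddCircle)‖ ^ 2 +
      sq2 e2 e3 c2 o2 c3 o3 p.2 < R ^ 2} := fun c => by
    have : Continuous fun p : R3 => ((p.1 - c : ℝ) : UnitAddCircle) :=
      (AddCircle.continuous_mk' 1).comp (continuous_fst.sub continuous_const)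
    refine (isOpen_lt ?_ continuous_const).measurableSet
    unfold sq2
    fun_prop
  have hnull : ∀ (q : ℝ × ℝ) (c : ℝ), fib E q = 0 → ¬ sq2 e2 e3 c2 o2 c3 o3 q < R ^ 2 →
      {t | (t, q) ∈ E} =ᵐ[μ1] {t | (t, q) ∈ {p : R3 | e1 * ‖((p.1 - c : ℝ) : UnitAddCircle)‖ ^ 2 +
        sq2 e2 e3 c2 o2 c3 o3 p.2 < R ^ 2}} := fun q c h0 hq => by
    refine (ae_eq_empty.2 ((measureReal_eq_zero_iff (measure_ne_top _ _)).1 h0)).trans
      (Eq.eventuallyEq (eq_empty_of_forall_notMem fun t ht => hq ?_).symm)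
    have := mul_nonneg (zo_StepR h1) (sq_nonneg ‖((t - c : ℝ) : UnitAddCircle)‖)
    simp only [mem_ofPred_eq] at ht
    linarith
  rcases h1 with rfl | rfl
  · refine ⟨0, ae_of_fibres hE (hB 0) (hfib.mono fun q hq => ?_)⟩
    by_cases hs : sq2 e2 e3 c2 o2 c3 o3 q < R ^ 2
    · have e1 : {t | (t, q) ∈ canC 0 e2 e3 2 0 c2 o2 c3 o3 R} = univ :=
        eq_univ_of_forall fun t => by simpa [canC, sq2] using hs
      rw [fib, fib, e1, probReal_univ] at hq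
      refine (ae_eq_univ.2 ((prob_compl_eq_zero_iff (measurable_prodMk_right hE)).2
        ((ENNReal.toReal_eq_one_iff _).1 hq))).trans
        (Eq.eventuallyEq (eq_univ_of_forall fun t => ?_).symm)
      simpa using hs
    · have e1 : {t | (t, q) ∈ canC 0 e2 e3 2 0 c2 o2 c3 o3 R} = ∅ :=
        eq_empty_of_forall_notMem fun t ht => hs (by simpa [canC, sq2] using ht)
      refine hnull q 0 (hq.trans ?_) hs
      rw [fib, e1, measureReal_empty]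
  · have hf : ∀ᵐ q ∂μ2, fib E q = 2 * Real.sqrt (R ^ 2 - sq2 e2 e3 c2 o2 c3 o3 q) :=
      hfib.mono fun q hq => hq.trans (fib_canC1 hR0 hR h2 h3 q)
    have a1 := (fr_StepR f2).1
    have b1 := (fr_StepR f3).1
    obtain ⟨r, r1, r2, r3⟩ := cover_StepR (R := R) (a := 0) (b := 0) h2 h3 a1 b1
      (by simpa using pow_pos hR0 2)
    rw [abs_zero] at r1 r2
    obtain ⟨c, hc⟩ := rect_StepR h2 h3 f2 f3 hR0 hR hE h hP hf r1 r2 r3
    have key : ∀ ρ : ℚ × ℚ, ∀ᵐ q ∂μ2, (0 : ℝ) < ρ.1 → (0 : ℝ) < ρ.2 →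
        e2 * ((ρ.1 : ℝ) / c2) ^ 2 + e3 * ((ρ.2 : ℝ) / c3) ^ 2 < R ^ 2 →
        q ∈ KI_StepR o2 ρ.1 ×ˢ KI_StepR o3 ρ.2 →
        {t | (t, q) ∈ E} =ᵐ[μ1] arc c (Real.sqrt (R ^ 2 - sq2 e2 e3 c2 o2 c3 o3 q)) := fun ρ => by
      refine Filter.eventually_imp_distrib_left.2 fun p1 => Filter.eventually_imp_distrib_left.2
        fun p2 => Filter.eventually_imp_distrib_left.2 fun p3 => ?_
      obtain ⟨c', hc'⟩ := rect_StepR h2 h3 f2 f3 hR0 hR hE h hP hf p1 p2 p3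
      have hpos : μ2 (KI_StepR o2 (min r.1 ρ.1) ×ˢ KI_StepR o3 (min r.2 ρ.2)) ≠ 0 := by
        rw [Measure.prod_prod]
        exact mul_ne_zero (pos_StepR f2 (lt_min r1 p1)) (pos_StepR f3 (lt_min r2 p2))
      obtain ⟨q, hq, q1, q2⟩ := Measure.exists_mem_of_measure_ne_zero_of_ae hpos
        (ae_restrict_of_ae (hc.and hc'))
      have m1 : q ∈ KI_StepR o2 ρ.1 ×ˢ KI_StepR o3 ρ.2 :=
        ⟨mono_StepR _ (min_le_right _ _) hq.1, mono_StepR _ (min_le_right _ _) hq.2⟩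
      have s1 : sq2 e2 e3 c2 o2 c3 o3 q < R ^ 2 :=
        (add_le_add (le_StepR h2 m1.1) (le_StepR h3 m1.2)).trans_lt p3
      have e := arc_eq_of_ae (Real.sqrt_pos.2 (sub_pos.2 s1))
        ((sqrt_StepR hR0 (sq2_StepR h2 h3 c2 o2 c3 o3 q)).trans_lt hR)
        ((q2 m1).symm.trans
          (q1 ⟨mono_StepR _ (min_le_left _ _) hq.1, mono_StepR _ (min_le_left _ _) hq.2⟩))
      exact hc'.mono fun q' hq' hm => e _ ▸ hq' hm
    refine ⟨c, ae_of_fibres hE (hB c) ?_⟩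
    filter_upwards [ae_all_iff.2 key, hf, Measure.quasiMeasurePreserving_fst.ae ae_μ1_mem,
      Measure.quasiMeasurePreserving_snd.ae ae_μ1_mem] with q hq q0 q1 q2
    by_cases hs : sq2 e2 e3 c2 o2 c3 o3 q < R ^ 2
    · obtain ⟨ρ, p1, p2, p3⟩ := cover_StepR h2 h3 a1 b1 hs
      have p4 := abs_lt.1 p1
      have p5 := abs_lt.1 p2
      refine (hq ρ ((abs_nonneg _).trans_lt p1) ((abs_nonneg _).trans_lt p2) p3
        ⟨⟨max_le q1.1.le (by linarith), le_min q1.2.le (by linarith)⟩,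
          max_le q2.1.le (by linarith), le_min q2.2.le (by linarith)⟩).trans
        (Eq.eventuallyEq (Set.ext fun t => ?_))
      simp only [arc, mem_ofPred_eq, Real.lt_sqrt (norm_nonneg _), one_mul, lt_sub_iff_add_lt]
    · refine hnull q c (q0.trans ?_) hs
      rw [Real.sqrt_eq_zero_of_nonpos (by linarith), mul_zero]

end Vale.Agent.P232
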