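import Vale.Agent.P232.Basic

/-!
# P232 / Torus

The covering map. `measurePreserving_proj`: product of three copies of
`UnitAddCircle.measurePreserving_mk 0` (on `Ioc 0 (0+1)`; `Ioo` and `Ioc` differ by a null set).
`integral_shift`: a `Periodic3` function factors through `proj` (or do one coordinate at a time with
Fubini and `Function.Periodic.intervalIntegral_add_eq`).
-/

open MeasureTheory Set

namespace Vale.Agent.P232

/-- A measurable section of the covering map. -/
noncomputable def sec_Torus (x : T3) : R3 :=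
  (AddCircle.equivIco 1 0 x.1, AddCircle.equivIco 1 0 x.2.1, AddCircle.equivIco 1 0 x.2.2)

theorem measurable_sec_Torus : Measurable sec_Torus := by
  have h : Measurable fun x : UnitAddCircle => (AddCircle.equivIco 1 0 x : ℝ) :=
    measurable_subtype_coe.comp (AddCircle.measurableEquivIco 1 0).measurable
  exact (h.comp measurable_fst).prodMk ((h.comp (measurable_fst.comp measurable_snd)).prodMk
    (h.comp (measurable_snd.comp measurable_snd)))

theorem proj_sec_Torus (x : T3) : proj (sec_Torus x) = x := by
  have h : ∀ y : UnitAddCircle, ((AddCircle.equivIco 1 0 y : ℝ) : UnitAddCircle) = y := fun y =>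
    (AddCircle.equivIco 1 0).symm_apply_apply y
  simp only [proj, sec_Torus, h]

theorem add_Torus (x y : R3) : proj (x + y) = proj x + proj y := by
  simp only [proj, Prod.fst_add, Prod.snd_add, AddCircle.coe_add, Prod.mk_add_mk]

theorem eq_of_proj_Torus {g : R3 → ℝ} (hp : Periodic3 g) {p q : R3} (h : proj p = proj q) :
    g p = g q := by
  have key : ∀ (f : ℝ → ℝ), Function.Periodic f 1 → ∀ s t : ℝ,
      (s : UnitAddCircle) = (t : UnitAddCircle) → f s = f t := by
    intro f hf s t hst
    rw [← hf.lift_coe s, ← hf.lift_coe t]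
    exact congrArg hf.lift hst
  obtain ⟨a, b, c⟩ := p
  obtain ⟨a', b', c'⟩ := q
  simp only [proj, Prod.mk.injEq] at h
  calc g (a, b, c) = g (a', b, c) := key (fun s => g (s, b, c)) (fun s => (hp s b c).1) _ _ h.1
    _ = g (a', b', c) := key (fun s => g (a', s, c)) (fun s => (hp a' s c).2.1) _ _ h.2.1
    _ = g (a', b', c') := key (fun s => g (a', b', s)) (fun s => (hp a' b' s).2.2) _ _ h.2.2

theorem inv_Torus : (volume : Measure T3).IsAddRightInvariant := by
  have h1 : (volume : Measure UnitAddCircle).IsAddRightInvariant := inferInstance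
  have h2 : ((volume : Measure UnitAddCircle).prod
      (volume : Measure UnitAddCircle)).IsAddRightInvariant :=
    Measure.prod.instIsAddRightInvariant
  exact Measure.prod.instIsAddRightInvariant (ν := (volume : Measure UnitAddCircle).prod
      (volume : Measure UnitAddCircle))

theorem measurable_proj : Measurable proj := by
  have h : Measurable ((↑) : ℝ → UnitAddCircle) := AddCircle.measurable_mk'
  exact (h.comp measurable_fst).prodMk ((h.comp (measurable_fst.comp measurable_snd)).prodMk
    (h.comp (measurable_snd.comp measurable_snd)))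

theorem measurePreserving_proj : MeasurePreserving proj μ3 (volume : Measure T3) := by
  have h1 : MeasurePreserving ((↑) : ℝ → UnitAddCircle) μ1 volume := by
    have h := UnitAddCircle.measurePreserving_mk 0
    rw [zero_add] at h
    unfold μ1
    rw [Measure.restrict_congr_set Ioo_ae_eq_Ioc]
    exact h
  exact h1.prod (h1.prod h1)

theorem μ3_eq : μ3 = (volume : Measure R3).restrict cube := by
  have h : μ1 = volume.restrict (Ico (0 : ℝ) 1) := Measure.restrict_congr_set Ioo_ae_eq_Ico
  unfold μ3 μ2 cube
  rw [h, Measure.prod_restrict, Measure.prod_restrict]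
  rfl

theorem integral_cube_inter {S : Set R3} (hS : MeasurableSet S) (g : R3 → ℝ) :
    ∫ p in cube ∩ S, g p = ∫ p, ind S p * g p ∂μ3 := by
  rw [μ3_eq, ← setIntegral_indicator hS]
  refine integral_congr_ae (Filter.Eventually.of_forall fun p => ?_)
  by_cases hp : p ∈ S <;> simp [ind, hp]

theorem integral_shift {g : R3 → ℝ} (hg : Measurable g) (C : ℝ) (hC : ∀ x, |g x| ≤ C)
    (hp : Periodic3 g) (c : R3) : ∫ p, g (p + c) ∂μ3 = ∫ p, g p ∂μ3 := by
  have _ := hC
  have hs : Measurable sec_Torus := measurable_sec_Torus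
  have e : ∀ p, g p = g (sec_Torus (proj p)) := fun p =>
    eq_of_proj_Torus hp (proj_sec_Torus _).symm
  have hG : Measurable fun x => g (sec_Torus x) := hg.comp hs
  have hG' : Measurable fun x => g (sec_Torus (x + proj c)) := hG.comp (measurable_add_const _)
  have e1 : ∫ p, g (p + c) ∂μ3 = ∫ x, g (sec_Torus (x + proj c)) := by
    rw [← measurePreserving_proj.map_eq, integral_map measurable_proj.aemeasurable
      hG'.aestronglyMeasurable]
    refine integral_congr_ae (Filter.Eventually.of_forall fun p => ?_)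
    exact (e (p + c)).trans (by rw [add_Torus])
  have e2 : ∫ p, g p ∂μ3 = ∫ x, g (sec_Torus x) := by
    rw [← measurePreserving_proj.map_eq, integral_map measurable_proj.aemeasurable
      hG.aestronglyMeasurable]
    exact integral_congr_ae (Filter.Eventually.of_forall e)
  rw [e1, e2]
  have := inv_Torus
  exact integral_add_right_eq_self (fun x => g (sec_Torus x)) (proj c)

theorem proj_add (x y : R3) : proj (x + y) = proj x + proj y := by
  exact add_Torus x y

theorem proj_surj (c : T3) : ∃ x : R3, proj x = c := by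
  exact ⟨sec_Torus c, proj_sec_Torus c⟩

theorem periodic_ind_proj (E : Set T3) : Periodic3 (ind (proj ⁻¹' E)) := by
  intro x y z
  have h : ∀ s : ℝ, ((s + 1 : ℝ) : UnitAddCircle) = (s : UnitAddCircle) := fun s =>
    AddCircle.coe_add_period 1 s
  have key : ∀ p q : R3, proj p = proj q → ind (proj ⁻¹' E) p = ind (proj ⁻¹' E) q := by
    intro p q hpq
    by_cases hq : proj q ∈ E
    · rw [ind, indicator_of_mem (show p ∈ proj ⁻¹' E by rwa [mem_preimage, hpq]),
        indicator_of_mem (show q ∈ proj ⁻¹' E from hq)]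
    · rw [ind, indicator_of_notMem (show p ∉ proj ⁻¹' E by rwa [mem_preimage, hpq]),
        indicator_of_notMem (show q ∉ proj ⁻¹' E from hq)]
  refine ⟨key _ _ ?_, key _ _ ?_, key _ _ ?_⟩ <;> simp only [proj, h]

theorem Periodic3.bdd {g : R3 → ℝ} (hp : Periodic3 g) (hg : Continuous g) :
    ∃ C : ℝ, ∀ x, |g x| ≤ C := by
  have hK : IsCompact (Icc (0 : ℝ) 1 ×ˢ Icc (0 : ℝ) 1 ×ˢ Icc (0 : ℝ) 1) :=
    isCompact_Icc.prod (isCompact_Icc.prod isCompact_Icc)
  obtain ⟨C, hC⟩ := hK.exists_bound_of_continuousOn hg.continuousOn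
  refine ⟨C, fun x => ?_⟩
  have e : g x = g (Int.fract x.1, Int.fract x.2.1, Int.fract x.2.2) :=
    eq_of_proj_Torus hp (by simp only [proj, AddCircle.coe_fract])
  rw [e]
  exact hC _ ⟨⟨Int.fract_nonneg _, (Int.fract_lt_one _).le⟩,
    ⟨Int.fract_nonneg _, (Int.fract_lt_one _).le⟩, ⟨Int.fract_nonneg _, (Int.fract_lt_one _).le⟩⟩

theorem Periodic3.fderiv_apply {g : R3 → ℝ} (hp : Periodic3 g) (hg : Differentiable ℝ g)
    (w : R3) : Periodic3 (fun p => fderiv ℝ g p w) := by
  have _ := hg
  have key : ∀ e : R3, (∀ p, g (p + e) = g p) → ∀ p, fderiv ℝ g (p + e) = fderiv ℝ g p := by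
    intro e he p
    rw [← fderiv_comp_add_right]
    simp only [he]
  intro x y z
  have h1 := key (1, 0, 0) (fun ⟨a, b, c⟩ => by simpa using (hp a b c).1) (x, y, z)
  have h2 := key (0, 1, 0) (fun ⟨a, b, c⟩ => by simpa using (hp a b c).2.1) (x, y, z)
  have h3 := key (0, 0, 1) (fun ⟨a, b, c⟩ => by simpa using (hp a b c).2.2) (x, y, z)
  simp only [Prod.mk_add_mk, add_zero] at h1 h2 h3
  simp only [h1, h2, h3, and_self]

theorem real_proj {E : Set T3} (hE : MeasurableSet E) :
    μ3.real (proj ⁻¹' E) = (volume : Measure T3).real E := by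
  exact measurePreserving_proj.measureReal_preimage hE.nullMeasurableSet

theorem ae_of_proj {A B : Set T3} (hA : MeasurableSet A) (hB : MeasurableSet B)
    (h : proj ⁻¹' A =ᵐ[μ3] proj ⁻¹' B) : A =ᵐ[volume] B := by
  rw [← measure_symmDiff_eq_zero_iff] at h ⊢
  rw [← measurePreserving_proj.measure_preimage (hA.symmDiff hB).nullMeasurableSet,
    preimage_symmDiff]
  exact h

theorem measurableSet_shiftT {E : Set T3} (hE : MeasurableSet E) (c : T3) :
    MeasurableSet (shiftT c E) := by
  exact measurable_add_const c hE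

theorem volume_shiftT (E : Set T3) (c : T3) : volume (shiftT c E) = volume E := by
  have := inv_Torus
  exact measure_preimage_add_right volume c E

theorem measurableSet_canT (e1 e2 e3 : ℝ) (c : T3) (R : ℝ) :
    MeasurableSet (canT e1 e2 e3 c R) := by
  refine (isOpen_lt ?_ continuous_const).measurableSet
  fun_prop

theorem ae_canT_of_shift {E : Set T3} {e1 e2 e3 R : ℝ} {c d : T3}
    (h : shiftT c E =ᵐ[volume] canT e1 e2 e3 d R) :
    E =ᵐ[volume] canT e1 e2 e3 (d + c) R := by
  have := inv_Torus
  have h1 := (measurePreserving_add_right (volume : Measure T3)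
    (-c)).quasiMeasurePreserving.preimage_ae_eq h
  have f1 : (fun x => x + -c) ⁻¹' shiftT c E = E := by
    ext x
    simp [shiftT]
  have f2 : (fun x => x + -c) ⁻¹' canT e1 e2 e3 d R = canT e1 e2 e3 (d + c) R := by
    ext x
    have e : ∀ a b c : UnitAddCircle, a + -c - b = a - (b + c) := fun a b c => by abel
    simp only [canT, mem_preimage, mem_ofPred_eq, Prod.fst_add, Prod.snd_add, Prod.fst_neg,
      Prod.snd_neg, e]
  rwa [f1, f2] at h1

end Vale.Agent.P232
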