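import Vale.Agent.P232.Slice3
import Vale.Agent.P232.Core2

/-!
# P232 / Tri

Case distinction. For an ordered pair `(i,j)` of coordinates say `T i j` if for every
`x_i ∈ (0,1)` some point of `D` in the open cube has `i`-th coordinate `x_i` and `j`-th coordinate `η`.
`T i j` makes direction `i` tall (`Down2.le_row`, `le_col`, `le_top_of_bdd`). `¬ T i j` and `¬ T j i`
give `CaseI` for the third direction (contrapositive of `mem_of_lt_col`, `mem_of_lt_row`). If no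
direction is in `CaseI`, each of the three pairs has an arrow, so two directions are tall.
`bot_ar_rot_le`: `ar (rot D) y = ∫ t, col (sl D t) y` (Fubini); let `y → 1-` (dominated convergence;
`col (sl D t) y → bot (col (sl D t))` by antitonicity).
-/

open MeasureTheory Set

namespace Vale.Agent.P232

theorem tall_Tri {D : Set R3} (hD : Down3 D) {η : ℝ} (h0 : 0 < η) (h1 : η < 1)
    (h : ¬ CaseI η D) : TallD η (rot D) ∨ TallD η (rot (rot D)) := by
  simp only [CaseI, not_forall, not_and_or, not_le] at h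
  obtain ⟨t, ht, h | h⟩ := h
  · refine Or.inr fun z hz => Or.inr ?_
    have h2 := (hD.sl ht).mem_of_lt_row hz h0 (h.trans_le (le_top_of_bdd (row_mem _) hz).1)
    exact ((hD.rot.rot.sl hz).le_col ht ⟨h0, h1⟩ h2).trans (le_top_of_bdd (col_mem _) ht).2
  · refine Or.inl fun y hy => Or.inl ?_
    have h2 := (hD.sl ht).mem_of_lt_col hy h0 (h.trans_le (le_top_of_bdd (col_mem _) hy).1)
    exact ((hD.rot.sl hy).le_row ⟨h0, h1⟩ ht h2).trans (le_top_of_bdd (row_mem _) ht).2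

theorem le_bot_Tri {h : ℝ → ℝ} {a : ℝ} (ha : ∀ y ∈ Ioo (0 : ℝ) 1, a ≤ h y) : a ≤ bot h :=
  le_csInf ((nonempty_Ioo.2 one_pos).image _) (forall_mem_image.2 ha)

theorem lim_Tri {H : ℝ → ℝ → ℝ} (h1 : ∀ t ∈ Ioo (0 : ℝ) 1, Lev (H t))
    (h2 : ∀ y ∈ Ioo (0 : ℝ) 1, Measurable fun t => H t y) {a : ℝ → ℝ}
    (ha : ∀ t, 0 ≤ a t ∧ a t ≤ 1) (e : ∀ y ∈ Ioo (0 : ℝ) 1, ∫ t, H t y ∂μ1 = a y) :
    bot a ≤ ∫ t, bot (H t) ∂μ1 := by
  obtain ⟨y, -, hy, hl⟩ := exists_seq_strictMono_tendsto' (one_pos (α := ℝ))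
  refine ge_of_tendsto' (tendsto_integral_of_dominated_convergence (F := fun n t => H t (y n))
    (fun _ => 1) (fun n => (h2 _ (hy n)).aestronglyMeasurable) (integrable_const _)
    (fun n => ae_μ1_mem.mono fun t ht => ?_) (ae_μ1_mem.mono fun t ht => ?_)) fun n => ?_
  · rw [Real.norm_of_nonneg ((h1 t ht).2.2 _).1]
    exact ((h1 t ht).2.2 _).2
  · refine tendsto_order.2 ⟨fun c hc => .of_forall fun n =>
      hc.trans_le (le_top_of_bdd (h1 t ht).2.2 (hy n)).1, fun c hc => ?_⟩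
    obtain ⟨_, ⟨z, hz, rfl⟩, h3⟩ := exists_lt_of_csInf_lt ((nonempty_Ioo.2 one_pos).image _) hc
    filter_upwards [hl.eventually (eventually_ge_nhds hz.2)] with n hn
    exact ((h1 t ht).2.1 hz (hy n) hn).trans_lt h3
  · rw [e _ (hy n)]
    exact (le_top_of_bdd ha (hy n)).1

theorem trichotomy {D : Set R3} (hD : Down3 D) {η : ℝ} (h0 : 0 < η) (h1 : η < 1) :
    CaseI η D ∨ CaseI η (rot D) ∨ CaseI η (rot (rot D)) ∨
      (TallD η (rot D) ∧ TallD η (rot (rot D))) ∨ (TallD η (rot (rot D)) ∧ TallD η D) ∨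
      (TallD η D ∧ TallD η (rot D)) := by
  have k1 := tall_Tri hD h0 h1
  have k2 := tall_Tri hD.rot h0 h1
  have k3 := tall_Tri hD.rot.rot h0 h1
  rw [rot_rot_rot] at k2 k3
  tauto

theorem anti_bot_col {D : Set R3} (hD : Down3 D) :
    AntitoneOn (fun t => bot (col (sl D t))) (Ioo (0 : ℝ) 1) := by
  refine fun s hs t ht hst => le_bot_Tri fun y hy => (le_top_of_bdd (col_mem _) hy).1.trans
    (le_of_forall_lt_imp_le_of_dense fun w hw => ?_)
  rcases le_or_gt w 0 with h | h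
  · exact h.trans (col_mem _ _).1
  · have hw' : w ∈ Ioo (0 : ℝ) 1 := ⟨h, hw.trans_le (col_mem _ _).2⟩
    exact (hD.sl hs).le_col hy hw'
      (hD.2.1 t s y w hs.1 hst ht.2 hy hw' ((hD.sl ht).mem_of_lt_col hy h hw))

theorem anti_bot_row {D : Set R3} (hD : Down3 D) :
    AntitoneOn (fun t => bot (row (sl D t))) (Ioo (0 : ℝ) 1) := by
  refine fun s hs t ht hst => le_bot_Tri fun y hy => (le_top_of_bdd (row_mem _) hy).1.trans
    (le_of_forall_lt_imp_le_of_dense fun w hw => ?_)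
  rcases le_or_gt w 0 with h | h
  · exact h.trans (row_mem _ _).1
  · have hw' : w ∈ Ioo (0 : ℝ) 1 := ⟨h, hw.trans_le (row_mem _ _).2⟩
    exact (hD.sl hs).le_row hw' hy
      (hD.2.1 t s w y hs.1 hst ht.2 hw' hy ((hD.sl ht).mem_of_lt_row hy h hw))

theorem integrable_of_anti {g : ℝ → ℝ} (hg : AntitoneOn g (Ioo (0 : ℝ) 1))
    (hb : ∀ t, 0 ≤ g t ∧ g t ≤ 1) : Integrable g μ1 :=
  (integrable_const (1 : ℝ)).mono'
    (aemeasurable_restrict_of_antitoneOn measurableSet_Ioo hg).aestronglyMeasurable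
    (.of_forall fun t => by
      rw [Real.norm_of_nonneg (hb t).1]
      exact (hb t).2)

theorem bot_ar_rot_le {D : Set R3} (hD : Down3 D) :
    bot (ar (rot D)) ≤ ∫ t, bot (col (sl D t)) ∂μ1 :=
  lim_Tri (fun _ ht => (hD.sl ht).lev_col) (fun _ hy => (hD.rot.sl hy).lev_row.1)
    hD.rot.lev_ar.2.2 fun _ hy => integral_row (hD.rot.sl hy).1

theorem bot_ar_rot_rot_le {D : Set R3} (hD : Down3 D) :
    bot (ar (rot (rot D))) ≤ ∫ t, bot (row (sl D t)) ∂μ1 :=
  lim_Tri (fun _ ht => (hD.sl ht).lev_row) (fun _ hy => (hD.rot.rot.sl hy).lev_col.1)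
    hD.rot.rot.lev_ar.2.2 fun _ hy => integral_col (hD.rot.rot.sl hy).1

theorem nested_pos {g k : ℝ → ℝ} (hg : AntitoneOn g (Ioo (0 : ℝ) 1))
    (hk : AntitoneOn k (Ioo (0 : ℝ) 1)) :
    (∀ t ∈ Ioo (0 : ℝ) 1, 0 < g t → 0 < k t) ∨ (∀ t ∈ Ioo (0 : ℝ) 1, 0 < k t → 0 < g t) := by
  by_contra h
  push Not at h
  obtain ⟨⟨t, ht, h1, h2⟩, s, hs, h3, h4⟩ := h
  rcases le_total t s with h | h
  · linarith [hk ht hs h]
  · linarith [hg hs ht h]

end Vale.Agent.P232
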